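import Vale.Agent.P137.Defs

/-!
# P137 [AC1]: one-dimensional absolute continuity lemma
-/

open MeasureTheory Metric Set Filter Topology
open scoped ENNReal ContDiff NNReal

namespace P137

namespace AC1

lemma ac_of_dist_le {f g : ℝ → ℝ} {a b : ℝ} (hg : AbsolutelyContinuousOnInterval g a b)
    (h : ∀ s ∈ uIcc a b, ∀ t ∈ uIcc a b, dist (f s) (f t) ≤ dist (g s) (g t)) :
    AbsolutelyContinuousOnInterval f a b := by
  rw [absolutelyContinuousOnInterval_iff] at hg ⊢
  intro ε hε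
  obtain ⟨δ, hδ, H⟩ := hg ε hε
  refine ⟨δ, hδ, fun E hE hs => lt_of_le_of_lt (Finset.sum_le_sum fun i hi => ?_) (H E hE hs)⟩
  exact h _ (hE.1 i hi).1 _ (hE.1 i hi).2

lemma norm_deriv_le {f g : ℝ → ℝ} {t f' g' : ℝ} (hf : HasDerivAt f f' t) (hg : HasDerivAt g g' t)
    (h : ∀ᶠ y in 𝓝 t, dist (f y) (f t) ≤ dist (g y) (g t)) : ‖f'‖ ≤ ‖g'‖ := by
  have h1 := (hasDerivAt_iff_tendsto_slope.1 hf).norm
  have h2 := (hasDerivAt_iff_tendsto_slope.1 hg).norm
  refine le_of_tendsto_of_tendsto h1 h2 ?_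
  filter_upwards [h.filter_mono nhdsWithin_le_nhds] with y hy
  simp only [slope, vsub_eq_sub, norm_smul]
  rw [dist_eq_norm, dist_eq_norm] at hy
  gcongr

/-- the fundamental theorem as an inequality -/
lemma enorm_sub_le {w : ℝ → ℝ} {a b : ℝ} (hab : a ≤ b) (hw : AbsolutelyContinuousOnInterval w a b)
    {s t : ℝ} (hs : s ∈ Icc a b) (ht : t ∈ Icc a b) (hst : s ≤ t) :
    ‖w t - w s‖ₑ ≤ ∫⁻ x in Ioo s t, ‖deriv w x‖ₑ := by
  have h1 : AbsolutelyContinuousOnInterval w s t := by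
    apply hw.mono
    rw [uIcc_of_le hst, uIcc_of_le hab]
    exact Icc_subset_Icc hs.1 ht.2
  rw [← h1.integral_deriv_eq_sub, intervalIntegral.integral_of_le hst,
    ← setLIntegral_congr Ioo_ae_eq_Ioc.symm]
  exact enorm_integral_le_lintegral_enorm _

end AC1

/-- [AC1] one-dimensional lemma -/
theorem ac_lemma (a b : ℝ) (hab : a ≤ b) (u F : ℝ → ℝ) (U : ℕ → ℝ → ℝ)
    (hF : AbsolutelyContinuousOnInterval F a b)
    (hU : ∀ k, AbsolutelyContinuousOnInterval (U k) a b)
    (hFu : ∀ t ∈ Icc a b, F t ≤ u t) (hUu : ∀ k, ∀ t ∈ Icc a b, U k t ≤ u t)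
    (happ : ∀ ε > 0, ∀ᶠ k in atTop, ∀ t ∈ Icc a b, u t ≤ max (U k t) (F t + ε))
    (hfin : liminf (fun k => ∫⁻ t in Icc a b, ‖deriv (U k) t‖ₑ) atTop < ⊤) :
    AbsolutelyContinuousOnInterval u a b ∧
      ∀ᵐ t, t ∈ Ioo a b →
        ‖deriv u t‖ₑ ≤ liminf (fun k => ‖deriv (U k) t‖ₑ) atTop + 2 * ‖deriv F t‖ₑ := by
  have huI : uIcc a b = Icc a b := uIcc_of_le hab
  set L : ℝ → ℝ≥0∞ := fun t => liminf (fun k => ‖deriv (U k) t‖ₑ) atTop with hL
  have hLm : Measurable L := Measurable.liminf fun k => (measurable_deriv (U k)).enorm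
  -- step 1 : the truncations
  have key : ∀ ε > 0, ∀ s ∈ Icc a b, ∀ t ∈ Icc a b, s ≤ t →
      ‖max (u t - F t) ε - max (u s - F s) ε‖ₑ ≤
        ∫⁻ x in Ioo s t, (L x + ‖deriv F x‖ₑ) := by
    intro ε hε s hs t ht hst
    obtain ⟨k0, hk0⟩ := eventually_atTop.1 (happ ε hε)
    set w : ℝ → ℝ := fun t => max (u t - F t) ε with hw
    have hwk : ∀ k ≥ k0, ∀ t ∈ Icc a b, w t = max (U k t - F t) ε := by
      intro k hk t ht
      have h1 := hk0 k hk t ht
      have h2 := hUu k t ht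
      simp only [hw]
      apply le_antisymm
      · apply max_le _ (le_max_right _ _)
        rcases le_max_iff.1 h1 with h | h
        · exact le_max_of_le_left (by linarith)
        · exact le_max_of_le_right (by linarith)
      · exact max_le_max (by linarith) (le_refl _)
    have hd : ∀ k ≥ k0, ∀ x ∈ Icc a b, ∀ y ∈ Icc a b,
        dist (w x) (w y) ≤ dist (U k x - F x) (U k y - F y) := by
      intro k hk x hx y hy
      rw [hwk k hk x hx, hwk k hk y hy, Real.dist_eq, Real.dist_eq]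
      exact abs_max_sub_max_le_abs _ _ _
    have hUF : ∀ k, AbsolutelyContinuousOnInterval (fun x => U k x - F x) a b :=
      fun k => (hU k).sub hF
    have hwac : AbsolutelyContinuousOnInterval w a b := by
      apply AC1.ac_of_dist_le (hUF k0)
      rw [huI]
      exact fun x hx y hy => hd k0 (le_refl _) x hx y hy
    have hae : ∀ᵐ x, x ∈ Ioo a b → ‖deriv w x‖ₑ ≤ L x + ‖deriv F x‖ₑ := by
      have hall : ∀ᵐ x, ∀ k, x ∈ uIcc a b → DifferentiableAt ℝ (U k) x :=
        ae_all_iff.2 fun k => (hU k).ae_differentiableAt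
      filter_upwards [hall, hF.ae_differentiableAt, hwac.ae_differentiableAt] with x hxU hxF hxw hx
      have hxI : x ∈ uIcc a b := by rw [huI]; exact Ioo_subset_Icc_self hx
      have h1 : ∀ k ≥ k0, ‖deriv w x‖ₑ - ‖deriv F x‖ₑ ≤ ‖deriv (U k) x‖ₑ := by
        intro k hk
        have h2 : ‖deriv w x‖ ≤ ‖deriv (U k) x - deriv F x‖ := by
          apply AC1.norm_deriv_le (hxw hxI).hasDerivAt
            ((hxU k hxI).hasDerivAt.sub (hxF hxI).hasDerivAt)
          filter_upwards [isOpen_Ioo.mem_nhds hx] with y hy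
          exact hd k hk y (Ioo_subset_Icc_self hy) x (Ioo_subset_Icc_self hx)
        rw [tsub_le_iff_right]
        calc ‖deriv w x‖ₑ ≤ ‖deriv (U k) x - deriv F x‖ₑ := by
              rw [← ofReal_norm, ← ofReal_norm]
              exact ENNReal.ofReal_le_ofReal h2
          _ ≤ ‖deriv (U k) x‖ₑ + ‖deriv F x‖ₑ := enorm_sub_le
      rw [← tsub_le_iff_right]
      exact le_liminf_of_le (by isBoundedDefault) (eventually_atTop.2 ⟨k0, h1⟩)
    calc ‖w t - w s‖ₑ ≤ ∫⁻ x in Ioo s t, ‖deriv w x‖ₑ := AC1.enorm_sub_le hab hwac hs ht hst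
      _ ≤ ∫⁻ x in Ioo s t, (L x + ‖deriv F x‖ₑ) := by
        apply lintegral_mono_ae
        rw [Filter.eventually_iff]
        refine (ae_restrict_iff' measurableSet_Ioo).2 ?_
        filter_upwards [hae] with x hx hxs
        exact hx ⟨lt_of_le_of_lt hs.1 hxs.1, lt_of_lt_of_le hxs.2 ht.2⟩
  -- step 2 : ε → 0
  have key2 : ∀ s ∈ Icc a b, ∀ t ∈ Icc a b, s ≤ t →
      ‖(u t - F t) - (u s - F s)‖ₑ ≤ ∫⁻ x in Ioo s t, (L x + ‖deriv F x‖ₑ) := by
    intro s hs t ht hst
    have h1 : Tendsto (fun ε : ℝ => ‖max (u t - F t) ε - max (u s - F s) ε‖ₑ) (𝓝[>] 0)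
        (𝓝 ‖max (u t - F t) 0 - max (u s - F s) 0‖ₑ) := by
      apply Tendsto.mono_left _ nhdsWithin_le_nhds
      apply Continuous.tendsto
      fun_prop
    rw [max_eq_left (sub_nonneg.2 (hFu t ht)), max_eq_left (sub_nonneg.2 (hFu s hs))] at h1
    refine le_of_tendsto h1 ?_
    filter_upwards [self_mem_nhdsWithin] with ε hε
    exact key ε hε s hs t ht hst
  -- step 3 : the function u
  set Θ : ℝ → ℝ≥0∞ := fun x => L x + 2 * ‖deriv F x‖ₑ with hΘ
  have hFm : Measurable fun x => ‖deriv F x‖ₑ := (measurable_deriv F).enorm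
  have hΘm : Measurable Θ := hLm.add (hFm.const_mul 2)
  have key3 : ∀ s ∈ Icc a b, ∀ t ∈ Icc a b, s ≤ t → ‖u t - u s‖ₑ ≤ ∫⁻ x in Ioo s t, Θ x := by
    intro s hs t ht hst
    have e1 : u t - u s = ((u t - F t) - (u s - F s)) + (F t - F s) := by ring
    have e2 : ∫⁻ x in Ioo s t, Θ x = (∫⁻ x in Ioo s t, (L x + ‖deriv F x‖ₑ)) +
        ∫⁻ x in Ioo s t, ‖deriv F x‖ₑ := by
      rw [← lintegral_add_right _ hFm]
      congr 1
      ext x
      simp only [hΘ, two_mul, add_assoc]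
    rw [e1, e2]
    exact (enorm_add_le _ _).trans
      (add_le_add (key2 s hs t ht hst) (AC1.enorm_sub_le hab hF hs ht hst))
  have hFint : ∫⁻ x in Icc a b, ‖deriv F x‖ₑ < ⊤ := by
    have h1 := hF.intervalIntegrable_deriv
    rw [intervalIntegrable_iff_integrableOn_Icc_of_le hab] at h1
    exact h1.2
  have hΘfin : ∫⁻ x in Icc a b, Θ x < ⊤ := by
    simp only [hΘ]
    rw [lintegral_add_left hLm, lintegral_const_mul _ hFm]
    refine ENNReal.add_lt_top.2 ⟨?_, ENNReal.mul_lt_top (by simp) hFint⟩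
    refine lt_of_le_of_lt ?_ hfin
    exact lintegral_liminf_le fun k => (measurable_deriv (U k)).enorm
  have hΘae : ∀ᵐ x ∂(volume.restrict (Icc a b)), Θ x < ⊤ := ae_lt_top hΘm hΘfin.ne
  have hgi : IntegrableOn (fun x => (Θ x).toReal) (Icc a b) :=
    integrable_toReal_of_lintegral_ne_top hΘm.aemeasurable hΘfin.ne
  have hgii : IntervalIntegrable (fun x => (Θ x).toReal) volume a b :=
    (intervalIntegrable_iff_integrableOn_Icc_of_le hab).2 hgi
  set g : ℝ → ℝ := fun x => ∫ y in a..x, (Θ y).toReal with hg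
  have hgac : AbsolutelyContinuousOnInterval g a b :=
    hgii.absolutelyContinuousOnInterval_intervalIntegral (c := a) (by simp)
  have key4 : ∀ s ∈ Icc a b, ∀ t ∈ Icc a b, s ≤ t → |u t - u s| ≤ g t - g s := by
    intro s hs t ht hst
    have h1 := key3 s hs t ht hst
    have hsub : Ioo s t ⊆ Icc a b := fun x hx =>
      ⟨(lt_of_le_of_lt hs.1 hx.1).le, (lt_of_lt_of_le hx.2 ht.2).le⟩
    have h2 : ∫⁻ x in Ioo s t, Θ x < ⊤ := lt_of_le_of_lt (lintegral_mono_set hsub) hΘfin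
    have h3 : g t - g s = (∫⁻ x in Ioo s t, Θ x).toReal := by
      have i1 : IntervalIntegrable (fun x => (Θ x).toReal) volume a s :=
        hgii.mono_set (by rw [uIcc_of_le hs.1, huI]; exact Icc_subset_Icc_right hs.2)
      have i2 : IntervalIntegrable (fun x => (Θ x).toReal) volume a t :=
        hgii.mono_set (by rw [uIcc_of_le ht.1, huI]; exact Icc_subset_Icc_right ht.2)
      simp only [hg]
      rw [intervalIntegral.integral_interval_sub_left i2 i1,
        intervalIntegral.integral_of_le hst, ← setIntegral_congr_set Ioo_ae_eq_Ioc,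
        integral_toReal hΘm.aemeasurable]
      exact ae_restrict_of_ae_restrict_of_subset hsub hΘae
    rw [h3]
    have h4 := ENNReal.toReal_mono h2.ne h1
    rwa [toReal_enorm, Real.norm_eq_abs] at h4
  have key5 : ∀ s ∈ Icc a b, ∀ t ∈ Icc a b, dist (u s) (u t) ≤ dist (g s) (g t) := by
    intro s hs t ht
    rcases le_total s t with hst | hst
    · rw [dist_comm, Real.dist_eq, dist_comm, Real.dist_eq]
      exact (key4 s hs t ht hst).trans (le_abs_self _)
    · rw [Real.dist_eq, Real.dist_eq]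
      exact (key4 t ht s hs hst).trans (le_abs_self _)
  have huac : AbsolutelyContinuousOnInterval u a b := by
    apply AC1.ac_of_dist_le hgac
    rw [huI]
    exact key5
  refine ⟨huac, ?_⟩
  filter_upwards [huac.ae_differentiableAt, hgii.ae_hasDerivAt_integral] with x hxu hxg hx
  have hxI : x ∈ uIcc a b := by rw [huI]; exact Ioo_subset_Icc_self hx
  have h1 : ‖deriv u x‖ ≤ ‖(Θ x).toReal‖ := by
    apply AC1.norm_deriv_le (hxu hxI).hasDerivAt (hxg hxI a (by simp))
    filter_upwards [isOpen_Ioo.mem_nhds hx] with y hy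
    exact key5 y (Ioo_subset_Icc_self hy) x (Ioo_subset_Icc_self hx)
  calc ‖deriv u x‖ₑ = ENNReal.ofReal ‖deriv u x‖ := (ofReal_norm _).symm
    _ ≤ ENNReal.ofReal ‖(Θ x).toReal‖ := ENNReal.ofReal_le_ofReal h1
    _ = ENNReal.ofReal (Θ x).toReal := by
      rw [Real.norm_of_nonneg ENNReal.toReal_nonneg]
    _ ≤ Θ x := ENNReal.ofReal_toReal_le

end P137
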