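import Vale.Agent.P137.BVone

/-!
# P137: `V_inf` (verbatim form of the blueprint)
-/

open MeasureTheory Metric Set Filter Topology
open scoped ENNReal ContDiff NNReal

namespace P137

/-- [BV1] -/
theorem V_inf (d : ℕ) (hd : 2 ≤ d) :
    ∃ C : ℝ≥0, ∀ (g : E d → ℝ) (G : E d → E d), NiceH g G → (∀ y, 0 ≤ g y) →
      ∃ c : ℝ≥0∞, c < ⊤ ∧ ∀ (k : ℤ) (x : E d), c ≤ V (rad k) g x ∧
        V (rad k) g x ≤ c + C * ENNReal.ofReal (rad k ^ (1 - (d : ℤ))) * ∫⁻ y, ‖G y‖ₑ := by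
  obtain ⟨C, hC⟩ := V_const d hd
  refine ⟨C, fun g G hN h0 => ?_⟩
  obtain ⟨c, hc⟩ := hC g G hN h0
  refine ⟨c, ENNReal.coe_lt_top, fun k x => ?_⟩
  have h := hc (rad k) (rad_pos k) x
  have e : rad k ^ (1 - (d : ℤ)) = rad k / rad k ^ d := by
    rw [zpow_sub₀ (rad_pos k).ne', zpow_one, zpow_natCast]
  rw [e]
  exact h

end P137
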