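import Vale.Agent.P137.Defs

/-!
# P137: `C^1` functions with integrable gradient (the function itself need not be integrable)
-/

open MeasureTheory Metric Set Filter Topology
open scoped ENNReal ContDiff NNReal

namespace P137

/-- `g` is of class `C^1` with integrable gradient `G`. -/
structure NiceH {d : ℕ} (g : E d → ℝ) (G : E d → E d) : Prop where
  smooth : ContDiff ℝ 1 g
  grad : ∀ y v, fderiv ℝ g y v = inner ℝ (G y) v
  intG : Integrable G

theorem Nice.niceH {d : ℕ} {g : E d → ℝ} {G : E d → E d} (h : Nice g G) : NiceH g G :=
  ⟨h.smooth, h.grad, h.intG⟩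

end P137
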