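import Vale.Agent.P137.Defs

/-!
# P137: the perimeter of the union with a ball
-/

open MeasureTheory Metric Set Filter Topology
open scoped ENNReal ContDiff NNReal

namespace P137

namespace Per

variable {d : ℕ}

theorem sum_single (v : E d) : ∑ i, v i • EuclideanSpace.single i (1 : ℝ) = v := by
  ext j
  simp only [WithLp.ofLp_sum, WithLp.ofLp_smul, Finset.sum_apply, Pi.smul_apply, smul_eq_mul,
    PiLp.single_apply]
  simp

theorem dvg_eq {φ : E d → E d} {L : E d →L[ℝ] E d} {x : E d} (h : HasFDerivAt φ L x) :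
    dvg φ x = ∑ i, (L (EuclideanSpace.single i 1)) i := by
  unfold dvg
  rw [h.fderiv]

theorem dvg_smul {χ : E d → ℝ} {φ : E d → E d} {x : E d} (hχ : DifferentiableAt ℝ χ x)
    (hφ : DifferentiableAt ℝ φ x) :
    dvg (fun y => χ y • φ y) x = χ x * dvg φ x + fderiv ℝ χ x (φ x) := by
  have h0 : HasFDerivAt (fun y => χ y • φ y)
      (χ x • fderiv ℝ φ x + (fderiv ℝ χ x).smulRight (φ x)) x :=
    hχ.hasFDerivAt.smul hφ.hasFDerivAt
  rw [dvg_eq h0]
  have h1 : fderiv ℝ χ x (φ x) =
      ∑ i, (φ x) i * fderiv ℝ χ x (EuclideanSpace.single i (1 : ℝ)) := by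
    conv_lhs => rw [← sum_single (φ x)]
    rw [map_sum]
    exact Finset.sum_congr rfl fun i _ => by rw [map_smul, smul_eq_mul]
  rw [h1]
  unfold dvg
  rw [Finset.mul_sum, ← Finset.sum_add_distrib]
  refine Finset.sum_congr rfl fun i _ => ?_
  simp only [add_apply, smul_apply,
    ContinuousLinearMap.smulRight_apply, PiLp.add_apply, PiLp.smul_apply, smul_eq_mul]
  ring

theorem dvg_add {φ ψ : E d → E d} {x : E d} (hφ : DifferentiableAt ℝ φ x)
    (hψ : DifferentiableAt ℝ ψ x) : dvg (fun y => φ y + ψ y) x = dvg φ x + dvg ψ x := by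
  have h0 : HasFDerivAt (fun y => φ y + ψ y) (fderiv ℝ φ x + fderiv ℝ ψ x) x :=
    hφ.hasFDerivAt.add hψ.hasFDerivAt
  rw [dvg_eq h0]
  unfold dvg
  rw [← Finset.sum_add_distrib]
  refine Finset.sum_congr rfl fun i _ => ?_
  simp only [add_apply, PiLp.add_apply]

theorem dvg_const_smul {φ : E d → E d} {x : E d} (a : ℝ) (hφ : DifferentiableAt ℝ φ x) :
    dvg (fun y => a • φ y) x = a * dvg φ x := by
  have h0 : HasFDerivAt (fun y => a • φ y) (a • fderiv ℝ φ x) x :=
    hφ.hasFDerivAt.const_smul a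
  rw [dvg_eq h0]
  unfold dvg
  rw [Finset.mul_sum]
  refine Finset.sum_congr rfl fun i _ => ?_
  simp only [smul_apply, PiLp.smul_apply, smul_eq_mul]

theorem dvg_radial (c x : E d) (a : ℝ) : dvg (fun y => a • (y - c)) x = d * a := by
  have h : HasFDerivAt (fun y : E d => a • (y - c)) (a • ContinuousLinearMap.id ℝ (E d)) x :=
    ((hasFDerivAt_id x).sub_const c).const_smul a
  rw [dvg_eq h]
  simp

theorem continuous_dvg {φ : E d → E d} (h : ContDiff ℝ 1 φ) : Continuous (dvg φ) := by
  unfold dvg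
  refine continuous_finsetSum _ fun i _ => ?_
  have h1 : Continuous fun x => fderiv ℝ φ x (EuclideanSpace.single i (1 : ℝ)) :=
    (h.continuous_fderiv one_ne_zero).clm_apply continuous_const
  exact (EuclideanSpace.proj (𝕜 := ℝ) i).continuous.comp h1

theorem supp_dvg {φ : E d → E d} (h : HasCompactSupport φ) : HasCompactSupport (dvg φ) := by
  have h1 : HasCompactSupport (fderiv ℝ φ) := h.fderiv (𝕜 := ℝ)
  refine h1.mono ?_
  intro x hx
  rw [Function.mem_support] at hx ⊢
  intro h0
  apply hx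
  unfold dvg
  rw [h0]
  simp

theorem integrable_dvg {φ : E d → E d} (h : ContDiff ℝ 1 φ) (hs : HasCompactSupport φ) :
    Integrable (dvg φ) :=
  (continuous_dvg h).integrable_of_hasCompactSupport (supp_dvg hs)

/-- The integral of a divergence vanishes. -/
theorem integral_dvg {φ : E d → E d} (h : ContDiff ℝ 1 φ) (hs : HasCompactSupport φ) :
    ∫ x, dvg φ x = 0 := by
  unfold dvg
  have hi : ∀ i : Fin d, Integrable fun x =>
      (fderiv ℝ φ x (EuclideanSpace.single i 1)) i := by
    intro i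
    have h1 : Continuous fun x => (fderiv ℝ φ x (EuclideanSpace.single i (1 : ℝ))) i :=
      (EuclideanSpace.proj (𝕜 := ℝ) i).continuous.comp
        ((h.continuous_fderiv one_ne_zero).clm_apply continuous_const)
    refine h1.integrable_of_hasCompactSupport ?_
    have h2 : HasCompactSupport (fderiv ℝ φ) := hs.fderiv (𝕜 := ℝ)
    refine h2.mono ?_
    intro x hx
    rw [Function.mem_support] at hx ⊢
    intro h0
    apply hx
    rw [h0]
    simp
  rw [integral_finsetSum _ fun i _ => hi i]
  refine Finset.sum_eq_zero fun i _ => ?_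
  have hcomp : ∀ x, fderiv ℝ (fun y => (φ y) i) x (EuclideanSpace.single i (1 : ℝ)) =
      (fderiv ℝ φ x (EuclideanSpace.single i 1)) i := by
    intro x
    have h1 : HasFDerivAt φ (fderiv ℝ φ x) x := (h.differentiable one_ne_zero x).hasFDerivAt
    have h2 : HasFDerivAt (fun y => (φ y) i)
        ((EuclideanSpace.proj (𝕜 := ℝ) i).comp (fderiv ℝ φ x)) x :=
      (EuclideanSpace.proj (𝕜 := ℝ) i).hasFDerivAt.comp x h1
    rw [h2.fderiv]
    rfl
  have hcs : HasCompactSupport fun y => (φ y) i :=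
    hs.comp_left (g := fun v : E d => v i) (by simp)
  have hcont : Continuous fun y => (φ y) i :=
    (EuclideanSpace.proj (𝕜 := ℝ) i).continuous.comp h.continuous
  have key := integral_mul_fderiv_eq_neg_fderiv_mul_of_integrable (μ := (volume : Measure (E d)))
    (f := fun _ : E d => (1 : ℝ)) (g := fun y => (φ y) i) (v := EuclideanSpace.single i (1 : ℝ))
    (by simp) (by simpa [hcomp] using hi i) (by simpa using hcont.integrable_of_hasCompactSupport hcs)
    (fun x _ => differentiableAt_const _)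
    (fun x _ => ((EuclideanSpace.proj (𝕜 := ℝ) i).differentiableAt).comp x
      (h.differentiable one_ne_zero x))
  simpa [hcomp] using key

/-! ### The cut-off -/

/-- The cut-off at the sphere. -/
noncomputable def cut (c : E d) (r ε : ℝ) (x : E d) : ℝ :=
  Real.smoothTransition ((‖x - c‖ ^ 2 - r ^ 2) / ε)

theorem cut_smooth (c : E d) (r ε : ℝ) : ContDiff ℝ ∞ (cut c r ε) := by
  unfold cut
  refine Real.smoothTransition.contDiff.comp ?_
  exact (((contDiff_id.sub contDiff_const).norm_sq ℝ).sub contDiff_const).div_const _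

theorem cut_nonneg (c : E d) (r ε : ℝ) (x : E d) : 0 ≤ cut c r ε x :=
  Real.smoothTransition.nonneg _

theorem cut_le_one (c : E d) (r ε : ℝ) (x : E d) : cut c r ε x ≤ 1 :=
  Real.smoothTransition.le_one _

theorem cut_inside {c : E d} {r ε : ℝ} (hr : 0 < r) (hε : 0 < ε) {x : E d} (h : ‖x - c‖ ≤ r) :
    cut c r ε x = 0 := by
  refine Real.smoothTransition.zero_of_nonpos ?_
  refine div_nonpos_of_nonpos_of_nonneg ?_ hε.le
  have := norm_nonneg (x - c)
  nlinarith

theorem cut_outside {c : E d} {r ε : ℝ} (hε : 0 < ε) {x : E d} (h : r ^ 2 + ε ≤ ‖x - c‖ ^ 2) :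
    cut c r ε x = 1 := by
  refine Real.smoothTransition.one_of_one_le ?_
  rw [le_div_iff₀ hε]
  linarith

theorem cut_deriv {c : E d} {r ε : ℝ} (x v : E d) :
    fderiv ℝ (cut c r ε) x v = deriv Real.smoothTransition ((‖x - c‖ ^ 2 - r ^ 2) / ε) *
      (2 * inner ℝ (x - c) v / ε) := by
  have h1 : HasFDerivAt (fun y : E d => ‖y - c‖ ^ 2)
      (2 • (innerSL ℝ (x - c)).comp (ContinuousLinearMap.id ℝ (E d))) x :=
    ((hasFDerivAt_id x).sub_const c).norm_sq
  have h2 : HasFDerivAt (fun y : E d => (‖y - c‖ ^ 2 - r ^ 2) / ε)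
      (ε⁻¹ • (2 • (innerSL ℝ (x - c)).comp (ContinuousLinearMap.id ℝ (E d)))) x := by
    have := (h1.sub_const (r ^ 2)).const_smul ε⁻¹
    refine this.congr_of_eventuallyEq (Eventually.of_forall fun y => ?_)
    simp only [Pi.smul_apply, smul_eq_mul]
    rw [div_eq_inv_mul]
  have h3 : HasDerivAt Real.smoothTransition
      (deriv Real.smoothTransition ((‖x - c‖ ^ 2 - r ^ 2) / ε)) ((‖x - c‖ ^ 2 - r ^ 2) / ε) :=
    ((Real.smoothTransition.contDiff (n := 1)).differentiable one_ne_zero _).hasDerivAt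
  have h4 := h3.comp_hasFDerivAt x h2
  have h5 : fderiv ℝ (cut c r ε) x = _ := h4.fderiv
  rw [h5]
  simp only [smul_apply, ContinuousLinearMap.comp_apply,
    ContinuousLinearMap.id_apply, innerSL_apply_apply, smul_eq_mul, nsmul_eq_mul]
  push_cast
  ring

/-- The modified field. -/
noncomputable def fld (φ : E d → E d) (c : E d) (r ε : ℝ) (x : E d) : E d :=
  cut c r ε x • φ x + (1 - cut c r ε x) • (r⁻¹ • (x - c))

theorem fld_smooth {φ : E d → E d} (hφ : ContDiff ℝ ∞ φ) (c : E d) (r ε : ℝ) :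
    ContDiff ℝ ∞ (fld φ c r ε) := by
  unfold fld
  exact ((cut_smooth c r ε).smul hφ).add ((contDiff_const.sub (cut_smooth c r ε)).smul
    ((contDiff_id.sub contDiff_const).const_smul _))

theorem supp_one_sub_cut (c : E d) (r : ℝ) {ε : ℝ} (hε : 0 < ε) :
    HasCompactSupport fun x => 1 - cut c r ε x := by
  refine HasCompactSupport.intro (isCompact_closedBall c (√(r ^ 2 + ε))) fun x hx => ?_
  rw [mem_closedBall, not_le, dist_eq_norm] at hx
  have h1 : r ^ 2 + ε ≤ ‖x - c‖ ^ 2 := by
    have h2 := Real.sq_sqrt (show 0 ≤ r ^ 2 + ε by positivity)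
    have h3 := Real.sqrt_nonneg (r ^ 2 + ε)
    nlinarith
  rw [cut_outside hε h1, sub_self]

theorem fld_supp {φ : E d → E d} (hφ : HasCompactSupport φ) (c : E d) (r : ℝ) {ε : ℝ}
    (hε : 0 < ε) : HasCompactSupport (fld φ c r ε) := by
  unfold fld
  exact (hφ.smul_left (f := cut c r ε)).add ((supp_one_sub_cut c r hε).smul_right)

theorem fld_dvg {φ : E d → E d} (hφ : ContDiff ℝ ∞ φ) (c : E d) (r ε : ℝ) (x : E d) :
    dvg (fld φ c r ε) x = cut c r ε x * dvg φ x + (1 - cut c r ε x) * (d / r) +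
      fderiv ℝ (cut c r ε) x (φ x - r⁻¹ • (x - c)) := by
  have hne : (∞ : WithTop ℕ∞) ≠ 0 := by simp
  have d1 : DifferentiableAt ℝ (cut c r ε) x := (cut_smooth c r ε).differentiable hne x
  have d2 : DifferentiableAt ℝ φ x := hφ.differentiable hne x
  have d3 : DifferentiableAt ℝ (fun y => 1 - cut c r ε y) x := d1.const_sub 1
  have d4 : DifferentiableAt ℝ (fun y : E d => r⁻¹ • (y - c)) x := by fun_prop
  have e1 : dvg (fld φ c r ε) x = dvg (fun y => cut c r ε y • φ y) x +
      dvg (fun y => (1 - cut c r ε y) • (r⁻¹ • (y - c))) x :=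
    dvg_add (d1.smul d2) (d3.smul d4)
  rw [e1, dvg_smul d1 d2, dvg_smul d3 d4, dvg_radial]
  have e2 : fderiv ℝ (fun y => 1 - cut c r ε y) x = -fderiv ℝ (cut c r ε) x := by
    rw [fderiv_const_sub]
  rw [e2, map_sub]
  simp only [neg_apply]
  rw [div_eq_mul_inv]
  ring

theorem fld_dvg_le {φ : E d → E d} (hφ : ContDiff ℝ ∞ φ) (hb : ∀ x, ‖φ x‖ ≤ 1) (c : E d)
    {r ε : ℝ} (hr : 0 < r) (hε : 0 < ε) (x : E d) :
    dvg (fld φ c r ε) x ≤ cut c r ε x * dvg φ x + (1 - cut c r ε x) * (d / r) := by
  rw [fld_dvg hφ]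
  have key : fderiv ℝ (cut c r ε) x (φ x - r⁻¹ • (x - c)) ≤ 0 := by
    rw [cut_deriv]
    by_cases h : ‖x - c‖ < r
    · have h0 : (‖x - c‖ ^ 2 - r ^ 2) / ε < 0 := by
        refine div_neg_of_neg_of_pos ?_ hε
        have := norm_nonneg (x - c)
        nlinarith
      have h1 : deriv Real.smoothTransition ((‖x - c‖ ^ 2 - r ^ 2) / ε) = 0 := by
        have h2 : Real.smoothTransition =ᶠ[𝓝 ((‖x - c‖ ^ 2 - r ^ 2) / ε)] fun _ => 0 := by
          filter_upwards [Iio_mem_nhds h0] with t ht
          exact Real.smoothTransition.zero_of_nonpos (le_of_lt ht)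
        rw [h2.deriv_eq, deriv_const]
      rw [h1, zero_mul]
    · push Not at h
      have h1 : 0 ≤ deriv Real.smoothTransition ((‖x - c‖ ^ 2 - r ^ 2) / ε) :=
        Real.smoothTransition.monotone.deriv_nonneg
      have h2 : inner ℝ (x - c) (φ x - r⁻¹ • (x - c)) ≤ 0 := by
        rw [inner_sub_right, inner_smul_right, real_inner_self_eq_norm_sq]
        have h3 : inner ℝ (x - c) (φ x) ≤ ‖x - c‖ * ‖φ x‖ := real_inner_le_norm _ _
        have h4 : ‖x - c‖ * ‖φ x‖ ≤ ‖x - c‖ := by
          have := mul_le_mul_of_nonneg_left (hb x) (norm_nonneg (x - c))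
          linarith
        have h5 : ‖x - c‖ ≤ r⁻¹ * ‖x - c‖ ^ 2 := by
          rw [inv_mul_eq_div, le_div_iff₀ hr]
          nlinarith [norm_nonneg (x - c)]
        linarith
      have h3 : 2 * inner ℝ (x - c) (φ x - r⁻¹ • (x - c)) / ε ≤ 0 :=
        div_nonpos_of_nonpos_of_nonneg (by linarith) hε.le
      exact mul_nonpos_of_nonneg_of_nonpos h1 h3
  linarith

theorem fld_bound {φ : E d → E d} (hb : ∀ x, ‖φ x‖ ≤ 1) (c : E d)
    {r ε : ℝ} (hr : 0 < r) (hε : 0 < ε) (x : E d) :
    ‖fld φ c r ε x‖ ≤ √(1 + ε / r ^ 2) := by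
  have h1 : 1 ≤ √(1 + ε / r ^ 2) := by
    rw [Real.one_le_sqrt]
    have : 0 < ε / r ^ 2 := by positivity
    linarith
  have hc0 := cut_nonneg c r ε x
  have hc1 := cut_le_one c r ε x
  have h2 : ‖fld φ c r ε x‖ ≤ cut c r ε x * 1 + (1 - cut c r ε x) * (r⁻¹ * ‖x - c‖) := by
    unfold fld
    refine (norm_add_le _ _).trans (add_le_add ?_ ?_)
    · rw [norm_smul, Real.norm_of_nonneg hc0]
      exact mul_le_mul_of_nonneg_left (hb x) hc0
    · rw [norm_smul, norm_smul, Real.norm_of_nonneg (by linarith), Real.norm_of_nonneg (by positivity)]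
  refine h2.trans ?_
  by_cases h : r ^ 2 + ε ≤ ‖x - c‖ ^ 2
  · rw [cut_outside hε h]
    linarith
  · push Not at h
    have h3 : r⁻¹ * ‖x - c‖ ≤ √(1 + ε / r ^ 2) := by
      refine Real.le_sqrt_of_sq_le ?_
      have e : (r⁻¹ * ‖x - c‖) ^ 2 = ‖x - c‖ ^ 2 / r ^ 2 := by
        field_simp
      rw [e, div_le_iff₀ (by positivity)]
      have e2 : (1 + ε / r ^ 2) * r ^ 2 = r ^ 2 + ε := by field_simp
      rw [e2]
      exact h.le
    nlinarith

/-- The inequality before the limit. -/
theorem pre_ineq {A : Set (E d)} (hA : MeasurableSet A) (c : E d) {r ε : ℝ} (hr : 0 < r)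
    (hε : 0 < ε) {p : ℝ≥0∞} (hp : p ≠ ⊤) (h : PerLe A p) {φ : E d → E d} (hφ : Test φ) :
    -(√(1 + ε / r ^ 2) * p.toReal) ≤
      ∫ x in Aᶜ, (cut c r ε x * dvg φ x + (1 - cut c r ε x) * (d / r)) := by
  set q := √(1 + ε / r ^ 2) with hq
  have hq0 : 0 < q := by rw [hq]; positivity
  have hsm := fld_smooth hφ.smooth c r ε
  have hsp := fld_supp hφ.supp c r hε
  have hle : (1 : WithTop ℕ∞) ≤ ((⊤ : ℕ∞) : WithTop ℕ∞) := by exact_mod_cast le_top
  have hs1 : ContDiff ℝ 1 (fld φ c r ε) := hsm.of_le hle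
  have ht : Test (fun x => q⁻¹ • fld φ c r ε x) := by
    refine ⟨hsm.const_smul _, hsp.smul_left (f := fun _ => q⁻¹), fun x => ?_⟩
    rw [norm_smul, Real.norm_of_nonneg (by positivity), inv_mul_le_iff₀ hq0, mul_one]
    exact fld_bound hφ.bound c hr hε x
  have h1 := h _ ht
  have h2 : ∫ x in A, dvg (fun x => q⁻¹ • fld φ c r ε x) x ≤ p.toReal :=
    (ENNReal.ofReal_le_iff_le_toReal hp).1 h1
  have h3 : ∫ x in A, dvg (fun x => q⁻¹ • fld φ c r ε x) x =
      q⁻¹ * ∫ x in A, dvg (fld φ c r ε) x := by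
    rw [← integral_const_mul]
    refine integral_congr_ae (Eventually.of_forall fun x => ?_)
    exact dvg_const_smul _ (hs1.differentiable one_ne_zero x)
  rw [h3, inv_mul_le_iff₀ hq0] at h2
  have hint := integrable_dvg hs1 hsp
  have h4 : ∫ x in A, dvg (fld φ c r ε) x = -∫ x in Aᶜ, dvg (fld φ c r ε) x := by
    have := integral_add_compl hA hint
    rw [integral_dvg hs1 hsp] at this
    linarith
  have h5 : ∫ x in Aᶜ, dvg (fld φ c r ε) x ≤
      ∫ x in Aᶜ, (cut c r ε x * dvg φ x + (1 - cut c r ε x) * (d / r)) := by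
    refine integral_mono hint.integrableOn ?_ fun x =>
      fld_dvg_le hφ.smooth hφ.bound c hr hε x
    refine Integrable.integrableOn ?_
    have hφ1 : ContDiff ℝ 1 φ := hφ.smooth.of_le hle
    have hcc : Continuous (cut c r ε) := (cut_smooth c r ε).continuous
    refine Continuous.integrable_of_hasCompactSupport ?_ ?_
    · exact (hcc.mul (continuous_dvg hφ1)).add ((continuous_const.sub hcc).mul continuous_const)
    · exact ((supp_dvg hφ.supp).mul_left (f := cut c r ε)).add
        ((supp_one_sub_cut c r hε).mul_right)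
  linarith

end Per

open Per

/-- [PER] the perimeter of the union with a ball -/
theorem per_ball {d : ℕ} (A : Set (E d)) (hA : MeasurableSet A) (c : E d) (r : ℝ) (hr : 0 < r)
    (p : ℝ≥0∞) (h : PerLe A p) :
    PerLe (A ∪ ball c r) (p + ENNReal.ofReal (d / r) * volume (ball c r \ A)) := by
  intro φ hφ
  by_cases hp : p = ⊤
  · rw [hp, top_add]
    exact le_top
  have hle : (1 : WithTop ℕ∞) ≤ ((⊤ : ℕ∞) : WithTop ℕ∞) := by exact_mod_cast le_top
  have hφ1 : ContDiff ℝ 1 φ := hφ.smooth.of_le hle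
  have hint := integrable_dvg hφ1 hφ.supp
  -- the limit
  have hlim : Tendsto (fun n : ℕ => ∫ x in Aᶜ, (cut c r (1 / ((n : ℝ) + 1)) x * dvg φ x +
      (1 - cut c r (1 / ((n : ℝ) + 1)) x) * (d / r))) atTop
      (𝓝 (∫ x in Aᶜ, ((closedBall c r)ᶜ.indicator (dvg φ) x +
        (closedBall c r).indicator (fun _ => (d : ℝ) / r) x))) := by
    refine tendsto_integral_of_dominated_convergence
      (fun x => |dvg φ x| + (closedBall c (√(r ^ 2 + 1))).indicator (fun _ => (d : ℝ) / r) x)
      ?_ ?_ ?_ ?_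
    · intro n
      refine Continuous.aestronglyMeasurable ?_
      have hcc : Continuous (cut c r (1 / ((n : ℝ) + 1))) := (cut_smooth c r _).continuous
      exact (hcc.mul (continuous_dvg hφ1)).add ((continuous_const.sub hcc).mul continuous_const)
    · refine Integrable.integrableOn (hint.abs.add ?_)
      exact (integrable_indicator_iff measurableSet_closedBall).2
        (integrableOn_const (isCompact_closedBall c _).measure_lt_top.ne)
    · intro n
      refine Eventually.of_forall fun x => ?_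
      set ε : ℝ := 1 / ((n : ℝ) + 1) with hε
      have hε0 : 0 < ε := by rw [hε]; positivity
      have hε1 : ε ≤ 1 := by
        rw [hε, div_le_one (by positivity)]
        have : (0 : ℝ) ≤ n := Nat.cast_nonneg n
        linarith
      have hc0 := cut_nonneg c r ε x
      have hc1 := cut_le_one c r ε x
      have hdr : (0 : ℝ) ≤ d / r := by positivity
      rw [Real.norm_eq_abs]
      refine (abs_add_le _ _).trans (add_le_add ?_ ?_)
      · rw [abs_mul, abs_of_nonneg hc0]
        have := mul_le_mul_of_nonneg_right hc1 (abs_nonneg (dvg φ x))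
        linarith
      · rw [abs_of_nonneg (mul_nonneg (by linarith) hdr)]
        by_cases hx : x ∈ closedBall c (√(r ^ 2 + 1))
        · rw [indicator_of_mem hx]
          have := mul_le_mul_of_nonneg_right (show 1 - cut c r ε x ≤ 1 by linarith) hdr
          linarith
        · rw [indicator_of_notMem hx]
          rw [mem_closedBall, not_le, dist_eq_norm] at hx
          have h1 : r ^ 2 + ε ≤ ‖x - c‖ ^ 2 := by
            have h2 := Real.sq_sqrt (show 0 ≤ r ^ 2 + 1 by positivity)
            have h3 := Real.sqrt_nonneg (r ^ 2 + 1)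
            nlinarith
          rw [cut_outside hε0 h1, sub_self, zero_mul]
    · refine Eventually.of_forall fun x => ?_
      by_cases hx : x ∈ closedBall c r
      · rw [indicator_of_notMem (by simpa using hx), indicator_of_mem hx]
        refine tendsto_const_nhds.congr fun n => ?_
        rw [cut_inside hr (by positivity) (by rwa [mem_closedBall, dist_eq_norm] at hx)]
        ring
      · rw [indicator_of_mem (by simpa using hx), indicator_of_notMem hx]
        rw [mem_closedBall, not_le, dist_eq_norm] at hx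
        have h1 : Tendsto (fun n : ℕ => 1 / ((n : ℝ) + 1)) atTop (𝓝 0) :=
          tendsto_one_div_add_atTop_nhds_zero_nat
        have h2 : ∀ᶠ n : ℕ in atTop, 1 / ((n : ℝ) + 1) < ‖x - c‖ ^ 2 - r ^ 2 :=
          h1.eventually (Iio_mem_nhds (by nlinarith))
        refine tendsto_const_nhds.congr' ?_
        filter_upwards [h2] with n hn
        rw [cut_outside (by positivity) (by linarith)]
        ring
  have hlim2 : Tendsto (fun n : ℕ => -(√(1 + (1 / ((n : ℝ) + 1)) / r ^ 2) * p.toReal)) atTop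
      (𝓝 (-(√(1 + 0 / r ^ 2) * p.toReal))) := by
    refine Tendsto.neg (Tendsto.mul_const _ ?_)
    refine (Real.continuous_sqrt.tendsto _).comp ?_
    exact (tendsto_one_div_add_atTop_nhds_zero_nat.div_const _).const_add 1
  have hfin := le_of_tendsto_of_tendsto' hlim2 hlim fun n =>
    pre_ineq hA c hr (by positivity) hp h hφ
  rw [zero_div, add_zero, Real.sqrt_one, one_mul] at hfin
  -- split the limit
  have hnull : volume (closedBall c r \ ball c r) = 0 := by
    rw [closedBall_sdiff_ball]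
    exact Measure.addHaar_sphere_of_ne_zero _ c hr.ne'
  have hae : (closedBall c r : Set (E d)) =ᵐ[volume] ball c r := by
    have h1 : (ball c r : Set (E d)) ⊆ closedBall c r := ball_subset_closedBall
    exact (ae_eq_of_subset_of_measure_ge h1 (by
      have := measure_sdiff_add_inter (μ := volume) (closedBall c r) (measurableSet_ball (x := c) (ε := r))
      rw [hnull, zero_add] at this
      rw [← this]
      exact measure_mono inter_subset_right) measurableSet_ball.nullMeasurableSet
      (isCompact_closedBall c r).measure_lt_top.ne).symm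
  have e1 : ∫ x in Aᶜ, ((closedBall c r)ᶜ.indicator (dvg φ) x +
        (closedBall c r).indicator (fun _ => (d : ℝ) / r) x) =
      (∫ x in Aᶜ ∩ (closedBall c r)ᶜ, dvg φ x) +
        (d / r) * (volume (ball c r \ A)).toReal := by
    rw [integral_add]
    · congr 1
      · rw [setIntegral_indicator measurableSet_closedBall.compl]
      · rw [setIntegral_indicator measurableSet_closedBall, setIntegral_const, smul_eq_mul,
          mul_comm]
        congr 1
        rw [Measure.real]
        congr 1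
        refine measure_congr ?_
        have : (Aᶜ ∩ closedBall c r : Set (E d)) =ᵐ[volume] (Aᶜ ∩ ball c r : Set (E d)) :=
          (ae_eq_refl _).inter hae
        have e3 : (Aᶜ ∩ ball c r : Set (E d)) = ball c r \ A := by
          rw [inter_comm]
          rfl
        rw [← e3]
        exact this
    · exact (hint.indicator measurableSet_closedBall.compl).integrableOn
    · exact ((integrable_indicator_iff measurableSet_closedBall).2
        (integrableOn_const (isCompact_closedBall c _).measure_lt_top.ne)).integrableOn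
  rw [e1] at hfin
  have e2 : ∫ x in A ∪ ball c r, dvg φ x = -∫ x in Aᶜ ∩ (closedBall c r)ᶜ, dvg φ x := by
    have h1 := integral_add_compl (hA.union (measurableSet_ball (x := c) (ε := r))) hint
    rw [integral_dvg hφ1 hφ.supp] at h1
    have h2 : ∫ x in (A ∪ ball c r)ᶜ, dvg φ x = ∫ x in Aᶜ ∩ (closedBall c r)ᶜ, dvg φ x := by
      refine setIntegral_congr_set ?_
      rw [compl_union]
      exact (ae_eq_refl _).inter hae.symm.compl
    linarith
  rw [e2]
  have hvol : volume (ball c r \ A) ≠ ⊤ :=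
    ((measure_mono sdiff_subset).trans_lt measure_ball_lt_top).ne
  have hfin2 : -∫ x in Aᶜ ∩ (closedBall c r)ᶜ, dvg φ x ≤
      p.toReal + (d / r) * (volume (ball c r \ A)).toReal := by linarith
  refine (ENNReal.ofReal_le_ofReal hfin2).trans ?_
  rw [ENNReal.ofReal_add ENNReal.toReal_nonneg (by positivity), ENNReal.ofReal_toReal hp,
    ENNReal.ofReal_mul (by positivity), ENNReal.ofReal_toReal hvol]

end P137
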