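import Vale.Agent.P137.Mollify
import Vale.Agent.P137.Perim
import Vale.Agent.P137.NiceH

/-!
# P137 [BV3]: mollification of a locally integrable function of finite variation
-/

open MeasureTheory Metric Set Filter Topology
open scoped ENNReal ContDiff NNReal

namespace P137

namespace BVM

open Vale.Agent.P137.Dens

variable {d : ℕ}

/-- the total variation of `f` is at most `K` -/
def VLe (f : E d → ℝ) (K : ℝ≥0) : Prop :=
  ∀ φ : E d → E d, Test φ → ENNReal.ofReal (∫ x, f x * dvg φ x) ≤ K

theorem one_le : (1 : WithTop ℕ∞) ≤ ((⊤ : ℕ∞) : WithTop ℕ∞) := by exact_mod_cast le_top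

theorem ibp {g : E d → ℝ} (hg : ContDiff ℝ 1 g) {φ : E d → E d} (hφ : ContDiff ℝ 1 φ)
    (hs : HasCompactSupport φ) : ∫ x, g x * dvg φ x = -∫ x, fderiv ℝ g x (φ x) := by
  have h1 : ContDiff ℝ 1 fun x => g x • φ x := hg.smul hφ
  have h2 : HasCompactSupport fun x => g x • φ x := by
    refine hs.mono ?_
    intro x hx
    rw [Function.mem_support] at hx ⊢
    intro h0
    apply hx
    rw [h0, smul_zero]
  have h4 : dvg (fun x => g x • φ x) = fun x => g x * dvg φ x + fderiv ℝ g x (φ x) :=
    funext fun x =>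
    Per.dvg_smul (hg.differentiable one_ne_zero x) (hφ.differentiable one_ne_zero x)
  have h3 : ∫ x, dvg (fun x => g x • φ x) x = 0 := Per.integral_dvg h1 h2
  have i1 : Integrable fun x => g x * dvg φ x :=
    (hg.continuous.mul (Per.continuous_dvg hφ)).integrable_of_hasCompactSupport
      (Per.supp_dvg hs).mul_left
  have i2 : Integrable fun x => fderiv ℝ g x (φ x) := by
    refine ((hg.continuous_fderiv one_ne_zero).clm_apply
      hφ.continuous).integrable_of_hasCompactSupport (hs.mono ?_)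
    intro x hx
    rw [Function.mem_support] at hx ⊢
    intro h0
    apply hx
    rw [h0, map_zero]
  rw [h4, integral_add i1 i2] at h3
  linarith

theorem gr_eq (g : E d → ℝ) (x : E d) :
    MollAux.gr g x = ∑ i, (fderiv ℝ g x (EuclideanSpace.single i 1)) •
      EuclideanSpace.single i (1 : ℝ) := by
  rw [← Per.sum_single (MollAux.gr g x)]
  refine Finset.sum_congr rfl fun i _ => ?_
  rw [MollAux.gr_inner, EuclideanSpace.inner_single_right]
  simp

theorem gr_smooth {g : E d → ℝ} (hg : ContDiff ℝ ∞ g) : ContDiff ℝ ∞ (MollAux.gr g) := by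
  have h : MollAux.gr g = fun x => ∑ i, (fderiv ℝ g x (EuclideanSpace.single i 1)) •
      EuclideanSpace.single i (1 : ℝ) := funext fun x => gr_eq g x
  rw [h]
  refine ContDiff.sum fun i _ => ?_
  have h1 : ContDiff ℝ ∞ fun x => fderiv ℝ g x (EuclideanSpace.single i 1) :=
    (hg.fderiv_right (m := ∞) (by simp)).clm_apply contDiff_const
  exact h1.smul contDiff_const

/-- the variation bounds the integral of the gradient -/
theorem grad_le {g : E d → ℝ} (hg : ContDiff ℝ ∞ g) {K : ℝ≥0} (hK : VLe g K) :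
    ∫⁻ x, ‖MollAux.gr g x‖ₑ ≤ K := by
  set G : E d → E d := MollAux.gr g with hG
  have hGs : ContDiff ℝ ∞ G := gr_smooth hg
  have hg1 : ContDiff ℝ 1 g := hg.of_le one_le
  have key : ∀ n : ℕ, ∫⁻ x in ball (0 : E d) n, ‖G x‖ₑ ≤ K := by
    intro n
    set χ : ContDiffBump (0 : E d) := ⟨n + 1, n + 2, by positivity, by linarith⟩ with hχ
    have hχs : ContDiff ℝ ∞ (χ : E d → ℝ) := χ.contDiff
    have hχi : Integrable (χ : E d → ℝ) := χ.continuous.integrable_of_hasCompactSupport
      χ.hasCompactSupport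
    have hχG : Integrable fun x => χ x * ‖G x‖ :=
      (χ.continuous.mul hGs.continuous.norm).integrable_of_hasCompactSupport
        χ.hasCompactSupport.mul_right
    have h1 : ∀ ε : ℝ, 0 < ε → ∫ x, χ x * ‖G x‖ ≤ K + ε * ∫ x, χ x := by
      intro ε hε
      set q : E d → ℝ := fun x => √(‖G x‖ ^ 2 + ε ^ 2) with hq
      have hq0 : ∀ x, 0 < q x := fun x => Real.sqrt_pos.2 (by positivity)
      have hqG : ∀ x, ‖G x‖ ≤ q x := fun x => Real.le_sqrt_of_sq_le (by nlinarith)
      have hqG2 : ∀ x, q x ≤ ‖G x‖ + ε := fun x => by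
        rw [hq]
        refine Real.sqrt_le_iff.2 ⟨by positivity, ?_⟩
        nlinarith [norm_nonneg (G x), mul_nonneg (norm_nonneg (G x)) hε.le]
      have hqs : ContDiff ℝ ∞ q := by
        refine ContDiff.sqrt ?_ fun x => (by positivity : ‖G x‖ ^ 2 + ε ^ 2 ≠ 0)
        exact (hGs.norm_sq ℝ).add contDiff_const
      set ψ : E d → E d := fun x => (-(χ x * (q x)⁻¹)) • G x with hψ
      have hψs : ContDiff ℝ ∞ ψ :=
        (hχs.mul (hqs.inv fun x => (hq0 x).ne')).neg.smul hGs
      have hψc : HasCompactSupport ψ := by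
        refine χ.hasCompactSupport.mono ?_
        intro x hx
        rw [Function.mem_support] at hx ⊢
        intro h0
        apply hx
        simp only [hψ, h0]
        simp
      have hψb : ∀ x, ‖ψ x‖ ≤ 1 := by
        intro x
        simp only [hψ]
        rw [norm_smul, norm_neg, Real.norm_of_nonneg (mul_nonneg χ.nonneg (inv_nonneg.2 (hq0 x).le)),
          mul_assoc]
        refine mul_le_one₀ χ.le_one (by have := hq0 x; positivity) ?_
        rw [inv_mul_le_iff₀ (hq0 x), mul_one]
        exact hqG x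
      have h2 := hK ψ ⟨hψs, hψc, hψb⟩
      rw [ENNReal.ofReal_le_coe, ibp hg1 (hψs.of_le one_le) hψc, ← integral_neg] at h2
      have e : ∀ x, -fderiv ℝ g x (ψ x) = χ x * ((q x)⁻¹ * ‖G x‖ ^ 2) := by
        intro x
        rw [MollAux.gr_inner, ← hG]
        simp only [hψ]
        rw [inner_smul_right, real_inner_self_eq_norm_sq]
        ring
      simp_rw [e] at h2
      have h3 : ∀ x, χ x * ‖G x‖ - ε * χ x ≤ χ x * ((q x)⁻¹ * ‖G x‖ ^ 2) := by
        intro x
        have h4 : ‖G x‖ - ε ≤ (q x)⁻¹ * ‖G x‖ ^ 2 := by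
          rw [← div_eq_inv_mul, le_div_iff₀ (hq0 x)]
          by_cases h5 : ‖G x‖ ≤ ε
          · have := hq0 x
            nlinarith [sq_nonneg ‖G x‖]
          · push Not at h5
            have := hqG2 x
            nlinarith [sq_nonneg ε]
        have := mul_le_mul_of_nonneg_left h4 (χ.nonneg (x := x))
        linarith
      have i3 : Integrable fun x => χ x * ((q x)⁻¹ * ‖G x‖ ^ 2) := by
        refine Continuous.integrable_of_hasCompactSupport ?_ χ.hasCompactSupport.mul_right
        exact χ.continuous.mul ((hqs.continuous.inv₀ fun x => (hq0 x).ne').mul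
          (hGs.continuous.norm.pow 2))
      have h5 : ∫ x, (χ x * ‖G x‖ - ε * χ x) ≤ ∫ x, χ x * ((q x)⁻¹ * ‖G x‖ ^ 2) :=
        integral_mono (hχG.sub (hχi.const_mul ε)) i3 h3
      rw [integral_sub hχG (hχi.const_mul ε), integral_const_mul] at h5
      linarith
    have h2 : ∫ x, χ x * ‖G x‖ ≤ K := by
      have hI : 0 ≤ ∫ x, χ x := integral_nonneg fun x => χ.nonneg
      refine le_of_forall_pos_le_add fun δ hδ => ?_
      refine (h1 (δ / ((∫ x, χ x) + 1)) (by positivity)).trans ?_
      have : δ / ((∫ x, χ x) + 1) * ∫ x, χ x ≤ δ := by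
        rw [div_mul_eq_mul_div, div_le_iff₀ (by positivity)]
        nlinarith
      linarith
    calc ∫⁻ x in ball (0 : E d) n, ‖G x‖ₑ
        ≤ ∫⁻ x in ball (0 : E d) n, ENNReal.ofReal (χ x * ‖G x‖) := by
          refine setLIntegral_mono' measurableSet_ball fun x hx => ?_
          have : χ x = 1 := χ.one_of_mem_closedBall (by
            rw [mem_closedBall]
            rw [mem_ball] at hx
            change dist x 0 ≤ (n : ℝ) + 1
            linarith)
          rw [this, one_mul, ofReal_norm]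
      _ ≤ ∫⁻ x, ENNReal.ofReal (χ x * ‖G x‖) := setLIntegral_le_lintegral _ _
      _ = ENNReal.ofReal (∫ x, χ x * ‖G x‖) :=
          (ofReal_integral_eq_lintegral_ofReal hχG (Eventually.of_forall fun x =>
            mul_nonneg χ.nonneg (norm_nonneg _))).symm
      _ ≤ K := by rw [ENNReal.ofReal_le_coe]; exact h2
  rw [← setLIntegral_univ, ← iUnion_ball_nat (0 : E d), setLIntegral_iUnion_of_directed]
  · exact iSup_le fun n => key n
  · refine Monotone.directed_le fun m n hmn => ?_
    exact ball_subset_ball (by exact_mod_cast hmn)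

theorem test_shift {φ : E d → E d} (hφ : Test φ) (t : E d) : Test fun x => φ (x + t) where
  smooth := hφ.smooth.comp (contDiff_id.add contDiff_const)
  supp := hφ.supp.comp_homeomorph (Homeomorph.addRight t)
  bound := fun _ => hφ.bound _

theorem dvg_shift (φ : E d → E d) (t x : E d) : dvg (fun x => φ (x + t)) x = dvg φ (x + t) := by
  unfold dvg
  rw [fderiv_comp_add_right]

/-- the variation does not increase under mollification -/
theorem mol_var (ρ : ContDiffBump (0 : E d)) {f : E d → ℝ} (hf : LocallyIntegrable f) {K : ℝ≥0}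
    (hK : VLe f K) : VLe (mol ρ f) K := by
  intro φ hφ
  have hφ1 : ContDiff ℝ 1 φ := hφ.smooth.of_le one_le
  have hdc : Continuous (dvg φ) := Per.continuous_dvg hφ1
  have hds : HasCompactSupport (dvg φ) := Per.supp_dvg hφ.supp
  obtain ⟨R, hR⟩ := hds.isCompact.isBounded.subset_ball (0 : E d)
  set f0 : E d → ℝ := (ball (0 : E d) (R + ρ.rOut)).indicator f with hf0
  have hf0i : Integrable f0 := by
    rw [hf0, integrable_indicator_iff measurableSet_ball]
    exact (hf.integrableOn_isCompact (isCompact_closedBall (0 : E d) (R + ρ.rOut))).mono_set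
      ball_subset_closedBall
  have hsub : ∀ x t, dvg φ x ≠ 0 → ρ.normed volume t ≠ 0 → f0 (x - t) = f (x - t) := by
    intro x t hx ht
    have h1 : x ∈ ball (0 : E d) R := hR (subset_tsupport _ hx)
    have h2 : t ∈ ball (0 : E d) ρ.rOut := by
      rw [← ρ.support_normed_eq (μ := (volume : Measure (E d)))]
      exact ht
    rw [hf0, indicator_of_mem]
    rw [mem_ball, dist_zero_right] at h1 h2 ⊢
    exact (norm_sub_le _ _).trans_lt (by linarith)
  set F : E d × E d → ℝ := fun p => (ρ.normed volume p.2 * f0 (p.1 - p.2)) * dvg φ p.1 with hF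
  have hFi : Integrable F ((volume : Measure (E d)).prod volume) := by
    have h1 : Integrable (fun p : E d × E d => ρ.normed volume p.2 * f0 (p.1 - p.2))
        ((volume : Measure (E d)).prod volume) :=
      Integrable.convolution_integrand (ContinuousLinearMap.mul ℝ ℝ) ρ.integrable_normed hf0i
    obtain ⟨C, hC⟩ := hdc.bounded_above_of_compact_support hds
    refine h1.mul_bdd (c := C) ?_ (Eventually.of_forall fun p => hC p.1)
    exact (hdc.comp continuous_fst).aestronglyMeasurable
  have e1 : ∫ x, mol ρ f x * dvg φ x = ∫ x, ∫ t, F (x, t) := by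
    refine integral_congr_ae (Eventually.of_forall fun x => ?_)
    simp only [hF]
    by_cases hx : dvg φ x = 0
    · simp [hx]
    · rw [integral_mul_const, mol_apply]
      congr 1
      refine integral_congr_ae (Eventually.of_forall fun t => ?_)
      by_cases ht : ρ.normed volume t = 0
      · simp [ht]
      · simp only [smul_eq_mul]
        rw [hsub x t hx ht]
  have e2 : ∫ x, ∫ t, F (x, t) = ∫ t, ∫ x, F (x, t) :=
    integral_integral_swap (f := fun x t => F (x, t)) hFi
  have e3 : ∀ t, ∫ x, F (x, t) = ρ.normed volume t * ∫ x, f x * dvg (fun x => φ (x + t)) x := by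
    intro t
    have h1 : ∫ x, f x * dvg (fun x => φ (x + t)) x = ∫ x, f (x - t) * dvg φ x := by
      rw [← integral_sub_right_eq_self (fun x => f x * dvg (fun x => φ (x + t)) x) t]
      refine integral_congr_ae (Eventually.of_forall fun x => ?_)
      simp only [dvg_shift, sub_add_cancel]
    rw [h1, ← integral_const_mul]
    refine integral_congr_ae (Eventually.of_forall fun x => ?_)
    simp only [hF]
    by_cases hx : dvg φ x = 0
    · simp [hx]
    · by_cases ht : ρ.normed volume t = 0
      · simp [ht]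
      · rw [hsub x t hx ht]
        ring
  rw [ENNReal.ofReal_le_coe, e1, e2]
  have h1 : ∀ t, ∫ x, F (x, t) ≤ ρ.normed volume t * K := by
    intro t
    rw [e3]
    refine mul_le_mul_of_nonneg_left ?_ (ρ.nonneg_normed t)
    have := hK _ (test_shift hφ t)
    rwa [ENNReal.ofReal_le_coe] at this
  calc ∫ t, ∫ x, F (x, t) ≤ ∫ t, ρ.normed volume t * K :=
        integral_mono hFi.integral_prod_right (ρ.integrable_normed.mul_const _) h1
    _ = K := by rw [integral_mul_const, ρ.integral_normed, one_mul]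

/-- translations of smooth functions -/
theorem trans_smooth {g : E d → ℝ} (hg : ContDiff ℝ 1 g) (t : E d) :
    ∫⁻ x, ‖g (x - t) - g x‖ₑ ≤ ‖t‖ₑ * ∫⁻ x, ‖fderiv ℝ g x‖ₑ := by
  have hc : Continuous (fderiv ℝ g) := hg.continuous_fderiv one_ne_zero
  have h1 : ∀ x, ‖g (x - t) - g x‖ₑ ≤
      ∫⁻ s in Ioc (0 : ℝ) 1, ‖fderiv ℝ g (x - s • t)‖ₑ * ‖t‖ₑ := by
    intro x
    have h2 : ∀ s : ℝ, HasDerivAt (fun s : ℝ => g (x - s • t)) (fderiv ℝ g (x - s • t) (-t)) s := by
      intro s
      have h3 : HasDerivAt (fun s : ℝ => x - s • t) (-t) s := by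
        have := ((hasDerivAt_id s).smul_const t).const_sub x
        simpa using this
      exact ((hg.differentiable one_ne_zero _).hasFDerivAt).comp_hasDerivAt s h3
    have h4 : Continuous fun s : ℝ => fderiv ℝ g (x - s • t) (-t) :=
      (hc.comp (by fun_prop)).clm_apply continuous_const
    have h5 : ∫ s in (0 : ℝ)..1, fderiv ℝ g (x - s • t) (-t) = g (x - t) - g x := by
      rw [intervalIntegral.integral_eq_sub_of_hasDerivAt (fun s _ => h2 s)
        (h4.intervalIntegrable _ _)]
      simp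
    rw [← h5, intervalIntegral.integral_of_le zero_le_one]
    refine (enorm_integral_le_lintegral_enorm _).trans ?_
    refine lintegral_mono fun s => ?_
    refine (ContinuousLinearMap.le_opENorm _ _).trans (le_of_eq ?_)
    rw [enorm_neg]
  calc ∫⁻ x, ‖g (x - t) - g x‖ₑ
      ≤ ∫⁻ x, ∫⁻ s in Ioc (0 : ℝ) 1, ‖fderiv ℝ g (x - s • t)‖ₑ * ‖t‖ₑ := lintegral_mono h1
    _ = ∫⁻ s in Ioc (0 : ℝ) 1, ∫⁻ x, ‖fderiv ℝ g (x - s • t)‖ₑ * ‖t‖ₑ := by
        refine lintegral_lintegral_swap ?_
        have h6 : Continuous fun p : E d × ℝ => fderiv ℝ g (p.1 - p.2 • t) :=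
          hc.comp (by fun_prop)
        exact (h6.enorm.measurable.mul_const _).aemeasurable
    _ = ∫⁻ _ in Ioc (0 : ℝ) 1, ‖t‖ₑ * ∫⁻ x, ‖fderiv ℝ g x‖ₑ := by
        refine lintegral_congr fun s => ?_
        rw [lintegral_mul_const' _ _ enorm_ne_top, mul_comm,
          lintegral_sub_right_eq_self (fun x => ‖fderiv ℝ g x‖ₑ) (s • t)]
    _ = ‖t‖ₑ * ∫⁻ x, ‖fderiv ℝ g x‖ₑ := by
        rw [lintegral_const]
        simp

/-- a sequence of bumps -/
noncomputable def bu (d : ℕ) (n : ℕ) : ContDiffBump (0 : E d) :=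
  ⟨1 / ((n : ℝ) + 1), 2 / ((n : ℝ) + 1), by positivity, by
    rw [div_lt_div_iff_of_pos_right (by positivity)]; norm_num⟩

theorem bu_tendsto : Tendsto (fun n => (bu d n).rOut) atTop (𝓝 0) := by
  have h : (fun n => (bu d n).rOut) = fun n : ℕ => 2 * (1 / ((n : ℝ) + 1)) := by
    funext n
    change 2 / ((n : ℝ) + 1) = _
    ring
  rw [h]
  simpa using (tendsto_one_div_add_atTop_nhds_zero_nat (𝕜 := ℝ)).const_mul 2

theorem mol_ae {f : E d → ℝ} (hf : LocallyIntegrable f) :
    ∀ᵐ x, Tendsto (fun n => mol (bu d n) f x) atTop (𝓝 (f x)) := by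
  refine ContDiffBump.ae_convolution_tendsto_right_of_locallyIntegrable (K := 2) bu_tendsto
    (Eventually.of_forall fun n => ?_) hf
  change 2 / ((n : ℝ) + 1) ≤ 2 * (1 / ((n : ℝ) + 1))
  exact le_of_eq (by ring)

/-- translations of functions of finite variation -/
theorem trans_bv {f : E d → ℝ} (hf : LocallyIntegrable f) {K : ℝ≥0} (hK : VLe f K) (t : E d) :
    ∫⁻ x, ‖f (x - t) - f x‖ₑ ≤ ‖t‖ₑ * K := by
  have h1 := mol_ae hf
  have h2 : ∀ᵐ x : E d, Tendsto (fun n => mol (bu d n) f (x - t)) atTop (𝓝 (f (x - t))) :=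
    (measurePreserving_sub_right (volume : Measure (E d)) t).quasiMeasurePreserving.ae h1
  have h3 : ∫⁻ x, ‖f (x - t) - f x‖ₑ =
      ∫⁻ x, liminf (fun n => ‖mol (bu d n) f (x - t) - mol (bu d n) f x‖ₑ) atTop := by
    refine lintegral_congr_ae ?_
    filter_upwards [h1, h2] with x hx1 hx2
    exact ((hx2.sub hx1).enorm.liminf_eq).symm
  have hs : ∀ n, ContDiff ℝ ∞ (mol (bu d n) f) := fun n => contDiff_mol (bu d n) hf
  rw [h3]
  refine (lintegral_liminf_le fun n => ?_).trans ?_
  · have := (hs n).continuous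
    exact ((this.comp (continuous_id.sub continuous_const)).sub this).enorm.measurable
  · refine liminf_le_of_le (by isBoundedDefault) fun b hb => ?_
    obtain ⟨n, hn⟩ := hb.exists
    refine hn.trans ((trans_smooth ((hs n).of_le one_le) t).trans ?_)
    gcongr
    refine le_trans (le_of_eq ?_) (grad_le (hs n) (mol_var (bu d n) hf hK))
    refine lintegral_congr fun x => ?_
    rw [← ofReal_norm, ← ofReal_norm, MollAux.gr_norm]

/-- the distance of a function of finite variation and its mollification -/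
theorem mol_dist (ρ : ContDiffBump (0 : E d)) {f : E d → ℝ} (hf : LocallyIntegrable f)
    (hm : Measurable f) {K : ℝ≥0} (hK : VLe f K) :
    ∫⁻ x, ‖mol ρ f x - f x‖ₑ ≤ ENNReal.ofReal ρ.rOut * K := by
  set r : E d → ℝ := ρ.normed volume with hr
  have h1 : ∀ x, ‖mol ρ f x - f x‖ₑ ≤ ∫⁻ t, ‖r t‖ₑ * ‖f (x - t) - f x‖ₑ := by
    intro x
    have h2 : mol ρ f x - f x = ∫ t, r t * (f (x - t) - f x) := by
      have i1 := mol_exists ρ hf x
      have i2 : Integrable fun t => r t * f x := ρ.integrable_normed.mul_const _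
      have e : (fun t => r t * (f (x - t) - f x)) = fun t => r t • f (x - t) - r t * f x := by
        funext t
        rw [smul_eq_mul]
        ring
      rw [e, integral_sub i1 i2, integral_mul_const, ρ.integral_normed, one_mul, mol_apply]
    rw [h2]
    refine (enorm_integral_le_lintegral_enorm _).trans (le_of_eq ?_)
    refine lintegral_congr fun t => ?_
    rw [enorm_mul]
  have hrm : Measurable r := ρ.continuous_normed.measurable
  calc ∫⁻ x, ‖mol ρ f x - f x‖ₑ
      ≤ ∫⁻ x, ∫⁻ t, ‖r t‖ₑ * ‖f (x - t) - f x‖ₑ := lintegral_mono h1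
    _ = ∫⁻ t, ∫⁻ x, ‖r t‖ₑ * ‖f (x - t) - f x‖ₑ := by
        refine lintegral_lintegral_swap (Measurable.aemeasurable ?_)
        refine (hrm.comp measurable_snd).enorm.mul (Measurable.enorm ?_)
        exact (hm.comp (measurable_fst.sub measurable_snd)).sub (hm.comp measurable_fst)
    _ ≤ ∫⁻ t, ‖r t‖ₑ * (ENNReal.ofReal ρ.rOut * K) := by
        refine lintegral_mono fun t => ?_
        rw [lintegral_const_mul' _ _ enorm_ne_top]
        by_cases ht : r t = 0
        · simp [ht]
        · gcongr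
          refine (trans_bv hf hK t).trans ?_
          gcongr
          have h2 : t ∈ ball (0 : E d) ρ.rOut := by
            rw [← ρ.support_normed_eq (μ := (volume : Measure (E d)))]
            exact ht
          rw [mem_ball, dist_zero_right] at h2
          rw [← ofReal_norm]
          exact ENNReal.ofReal_le_ofReal h2.le
    _ = ENNReal.ofReal ρ.rOut * K := by
        rw [lintegral_mul_const' _ _ (ENNReal.mul_ne_top ENNReal.ofReal_ne_top
          ENNReal.coe_ne_top)]
        have h3 : ∫⁻ t, ‖r t‖ₑ = 1 := by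
          have h4 : ∀ t, ‖r t‖ₑ = ENNReal.ofReal (r t) := fun t => by
            rw [← ofReal_norm, Real.norm_of_nonneg (ρ.nonneg_normed t)]
          simp_rw [h4]
          rw [← ofReal_integral_eq_lintegral_ofReal ρ.integrable_normed
            (Eventually.of_forall fun t => ρ.nonneg_normed t), ρ.integral_normed,
            ENNReal.ofReal_one]
        rw [h3, one_mul]

end BVM

open BVM Vale.Agent.P137.Dens

/-- [BV3] mollification of a locally integrable function of finite variation, sharp form -/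
theorem mollify_bv_sharp {d : ℕ} (f : E d → ℝ) (hf : LocallyIntegrable f) (K : ℝ≥0)
    (hK : ∀ φ : E d → E d, Test φ → ENNReal.ofReal (∫ x, f x * dvg φ x) ≤ K) :
    ∃ (fn : ℕ → E d → ℝ) (Gn : ℕ → E d → E d), (∀ n, NiceH (fn n) (Gn n)) ∧
      (∀ n, ContDiff ℝ ∞ (fn n)) ∧
      (∀ n, ∫⁻ x, ‖Gn n x‖ₑ ≤ K) ∧ (∀ n, Integrable (fun x => fn n x - f x)) ∧
      Tendsto (fun n => ∫ x, ‖fn n x - f x‖) atTop (𝓝 0) := by
  obtain ⟨f', hm, hff⟩ : ∃ f' : E d → ℝ, Measurable f' ∧ f =ᵐ[volume] f' :=
    ⟨hf.aestronglyMeasurable.mk f, hf.aestronglyMeasurable.stronglyMeasurable_mk.measurable,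
      hf.aestronglyMeasurable.ae_eq_mk⟩
  have hf' : LocallyIntegrable f' := fun x => by
    obtain ⟨U, hU, hi⟩ := hf x
    exact ⟨U, hU, hi.congr (ae_restrict_of_ae hff)⟩
  have hK' : VLe f' K := by
    intro φ hφ
    have e : ∫ x, f' x * dvg φ x = ∫ x, f x * dvg φ x := by
      refine integral_congr_ae ?_
      filter_upwards [hff] with x hx
      rw [hx]
    rw [e]
    exact hK φ hφ
  have hs : ∀ n, ContDiff ℝ ∞ (mol (bu d n) f') := fun n => contDiff_mol (bu d n) hf'
  have hgr : ∀ n, ∫⁻ x, ‖MollAux.gr (mol (bu d n) f') x‖ₑ ≤ K := fun n =>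
    grad_le (hs n) (mol_var (bu d n) hf' hK')
  have hd : ∀ n, ∫⁻ x, ‖mol (bu d n) f' x - f' x‖ₑ ≤ ENNReal.ofReal (bu d n).rOut * K := fun n =>
    mol_dist (bu d n) hf' hm hK'
  have hi : ∀ n, Integrable fun x => mol (bu d n) f' x - f' x := fun n =>
    ⟨((hs n).continuous.measurable.sub hm).aestronglyMeasurable,
      lt_of_le_of_lt (hd n) (ENNReal.mul_lt_top ENNReal.ofReal_lt_top ENNReal.coe_lt_top)⟩
  refine ⟨fun n => mol (bu d n) f', fun n => MollAux.gr (mol (bu d n) f'), fun n => ?_, hs, hgr,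
    fun n => ?_, ?_⟩
  · exact ⟨(hs n).of_le one_le, MollAux.gr_inner _,
      ⟨(gr_smooth (hs n)).continuous.aestronglyMeasurable,
        lt_of_le_of_lt (hgr n) ENNReal.coe_lt_top⟩⟩
  · refine (hi n).congr ?_
    filter_upwards [hff] with x hx
    rw [hx]
  · have h1 : ∀ n, ∫ x, ‖mol (bu d n) f' x - f x‖ ≤ (bu d n).rOut * K := by
      intro n
      have e : ∫ x, ‖mol (bu d n) f' x - f x‖ = ∫ x, ‖mol (bu d n) f' x - f' x‖ := by
        refine integral_congr_ae ?_
        filter_upwards [hff] with x hx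
        rw [hx]
      rw [e, integral_norm_eq_lintegral_enorm (hi n).aestronglyMeasurable]
      have h2 := ENNReal.toReal_mono (ENNReal.mul_ne_top ENNReal.ofReal_ne_top
        ENNReal.coe_ne_top) (hd n)
      rwa [ENNReal.toReal_mul, ENNReal.toReal_ofReal (bu d n).rOut_pos.le,
        ENNReal.coe_toReal] at h2
    refine squeeze_zero (fun n => integral_nonneg fun x => norm_nonneg _) h1 ?_
    simpa using (bu_tendsto (d := d)).mul_const (K : ℝ)

/-- [BV3] mollification of a locally integrable function of finite variation -/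
theorem mollify_bv {d : ℕ} (f : E d → ℝ) (hf : LocallyIntegrable f) (K : ℝ≥0)
    (hK : ∀ φ : E d → E d, Test φ → ENNReal.ofReal (∫ x, f x * dvg φ x) ≤ K) :
    ∃ (fn : ℕ → E d → ℝ) (Gn : ℕ → E d → E d), (∀ n, NiceH (fn n) (Gn n)) ∧
      (∀ n, ∫⁻ x, ‖Gn n x‖ₑ ≤ d * K) ∧ (∀ n, Integrable (fun x => fn n x - f x)) ∧
      Tendsto (fun n => ∫ x, ‖fn n x - f x‖) atTop (𝓝 0) := by
  obtain ⟨fn, Gn, h1, _, h3, h4, h5⟩ := mollify_bv_sharp f hf K hK
  refine ⟨fn, Gn, h1, fun n => ?_, h4, h5⟩
  rcases Nat.eq_zero_or_pos d with rfl | hd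
  · have : ∀ x, ‖Gn n x‖ₑ = 0 := fun x => by
      rw [Subsingleton.elim (Gn n x) 0, enorm_zero]
    simp [this]
  · refine (h3 n).trans ?_
    calc (K : ℝ≥0∞) = 1 * K := (one_mul _).symm
      _ ≤ d * K := by
        gcongr
        exact_mod_cast hd

end P137
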