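import Vale.Agent.P137.VarBound
import Vale.Agent.P137.NiceH

/-!
# P137: the variation of the truncated maximal function of a function that need not be integrable
-/

open MeasureTheory Metric Set Filter Topology
open scoped ENNReal ContDiff NNReal

namespace P137

namespace VarB

variable {d : ℕ}

theorem per_lay_of (f : E d → ℝ) (N : ℤ) {a : ℝ≥0∞} {n : ℕ} (hn : lay f (N - n) a = ∅) :
    PerLe (lay f N a) (∑' k : ℤ, term f a k) := by
  have key : ∀ j : ℕ, PerLe (lay f (N - n + j) a)
      (∑ i ∈ Finset.range j, term f a (N - n + i + 1)) := by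
    intro j
    induction j with
    | zero =>
      simp only [Nat.cast_zero, add_zero, Finset.range_zero, Finset.sum_empty]
      rw [hn]
      exact per_empty
    | succ j ih =>
      obtain ⟨S, hS, hSr, hSU⟩ := V_level f (rad (N - n + j + 1)) (rad_pos _) a
      have h1 : lay f (N - n + j + 1) a = ⋃ p ∈ S, ball p.1 p.2 := hSU
      have e : N - n + j + 1 - 1 = N - n + (j : ℤ) := by ring
      have h2 := per_union (lay f (N - n + j) a) (lay f (N - n + j + 1) a) (lay_meas f _ a)
        (by have := lay_sub f (N - n + j + 1) a; rwa [e] at this) (rad (N - n + j + 1))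
        (rad_pos _) S hS hSr h1 _ ih
      rw [Finset.sum_range_succ]
      push_cast
      rw [← add_assoc]
      unfold term at h2 ⊢
      rw [e]
      exact h2
  have h3 := key n
  have e2 : N - n + (n : ℤ) = N := by ring
  rw [e2] at h3
  intro φ hφ
  refine (h3 φ hφ).trans ?_
  have hinj : Function.Injective fun i : ℕ => N - n + (i : ℤ) + 1 := by
    intro i j h
    simp only [add_left_inj, add_right_inj] at h
    exact_mod_cast h
  calc ∑ i ∈ Finset.range n, term f a (N - n + i + 1)
      ≤ ∑' i : ℕ, term f a (N - n + i + 1) := ENNReal.sum_le_tsum _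
    _ ≤ ∑' k : ℤ, term f a k := ENNReal.tsum_comp_le_tsum_of_injective hinj _

/-- the set in the product space, shifted by `c` -/
def psetc (f : E d → ℝ) (c : ℝ≥0∞) (k : ℤ) : Set (E d × ℝ) :=
  {z | V (rad (k - 1)) f z.1 ≤ c + ENNReal.ofReal z.2 ∧
    c + ENNReal.ofReal z.2 < V (rad k) f z.1}

theorem psetc_meas (f : E d → ℝ) (c : ℝ≥0∞) (k : ℤ) : MeasurableSet (psetc f c k) := by
  have h1 : Measurable fun z : E d × ℝ => V (rad (k - 1)) f z.1 :=
    (V_lsc f _).measurable.comp measurable_fst
  have h2 : Measurable fun z : E d × ℝ => V (rad k) f z.1 :=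
    (V_lsc f _).measurable.comp measurable_fst
  have h3 : Measurable fun z : E d × ℝ => c + ENNReal.ofReal z.2 :=
    (ENNReal.measurable_ofReal.comp measurable_snd).const_add c
  exact (measurableSet_le h1 h3).inter (measurableSet_lt h3 h2)

theorem psetc_slice (f : E d → ℝ) (c : ℝ≥0∞) (k : ℤ) (t : ℝ) :
    (fun x => (x, t)) ⁻¹' psetc f c k =
      lay f k (c + ENNReal.ofReal t) \ lay f (k - 1) (c + ENNReal.ofReal t) := by
  ext x
  simp only [psetc, lay, mem_preimage, Set.mem_ofPred_eq, Set.mem_sdiff, not_lt]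
  tauto

theorem termc_meas (f : E d → ℝ) (c : ℝ≥0∞) (k : ℤ) :
    Measurable fun t : ℝ => term f (c + ENNReal.ofReal t) k := by
  unfold term
  refine Measurable.const_mul ?_ _
  have h0 := measurable_measure_prodMk_right (μ := (volume : Measure (E d))) (psetc_meas f c k)
  have h : (fun t : ℝ => volume (lay f k (c + ENNReal.ofReal t) \
      lay f (k - 1) (c + ENNReal.ofReal t))) =
      fun t : ℝ => volume ((fun x => (x, t)) ⁻¹' psetc f c k) := by
    funext t
    rw [psetc_slice]
  rw [h]
  exact h0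

theorem layerc (f : E d → ℝ) (c : ℝ≥0∞) (hct : c ≠ ⊤) (k : ℤ)
    (hq : ∀ x, V (rad k) f x < ⊤) :
    ∫⁻ t in Ioi (0 : ℝ), volume (lay f k (c + ENNReal.ofReal t) \
      lay f (k - 1) (c + ENNReal.ofReal t)) ≤
      ∫⁻ x, (V (rad k) f x - V (rad (k - 1)) f x) := by
  have h1 : ∫⁻ t in Ioi (0 : ℝ), volume (lay f k (c + ENNReal.ofReal t) \
      lay f (k - 1) (c + ENNReal.ofReal t))
      = ((volume : Measure (E d)).prod ((volume : Measure ℝ).restrict (Ioi 0))) (psetc f c k) := by
    rw [Measure.prod_apply_symm (psetc_meas f c k)]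
    refine lintegral_congr fun t => ?_
    rw [psetc_slice]
  rw [h1, Measure.prod_apply (psetc_meas f c k)]
  refine lintegral_mono fun x => ?_
  have hpq : V (rad (k - 1)) f x ≤ V (rad k) f x := V_anti f x (rad_mono k)
  have hq := hq x
  have hp : V (rad (k - 1)) f x < ⊤ := lt_of_le_of_lt hpq hq
  have h2 : (Prod.mk x ⁻¹' psetc f c k) ∩ Ioi 0 ⊆
      Ico ((V (rad (k - 1)) f x).toReal - c.toReal) ((V (rad k) f x).toReal - c.toReal) := by
    rintro t ⟨⟨h3, h4⟩, h5⟩
    have h5' : (0 : ℝ) < t := h5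
    have hs : (c + ENNReal.ofReal t).toReal = c.toReal + t := by
      rw [ENNReal.toReal_add hct ENNReal.ofReal_ne_top, ENNReal.toReal_ofReal h5'.le]
    have hst : c + ENNReal.ofReal t ≠ ⊤ := ENNReal.add_ne_top.2 ⟨hct, ENNReal.ofReal_ne_top⟩
    have h3' := ENNReal.toReal_mono hst h3
    have h4' := (ENNReal.toReal_lt_toReal hst hq.ne).2 h4
    simp only at h3' h4'
    rw [hs] at h3' h4'
    exact ⟨by linarith, by linarith⟩
  calc ((volume : Measure ℝ).restrict (Ioi 0)) (Prod.mk x ⁻¹' psetc f c k)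
      = volume ((Prod.mk x ⁻¹' psetc f c k) ∩ Ioi 0) := by
        rw [Measure.restrict_apply (measurable_prodMk_left (psetc_meas f c k))]
    _ ≤ volume (Ico ((V (rad (k - 1)) f x).toReal - c.toReal)
        ((V (rad k) f x).toReal - c.toReal)) := measure_mono h2
    _ = ENNReal.ofReal ((V (rad k) f x).toReal - (V (rad (k - 1)) f x).toReal) := by
        rw [Real.volume_Ico]
        congr 1
        ring
    _ = V (rad k) f x - V (rad (k - 1)) f x := by
        rw [ENNReal.ofReal_sub _ ENNReal.toReal_nonneg, ENNReal.ofReal_toReal hq.ne,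
          ENNReal.ofReal_toReal hp.ne]

end VarB

open VarB

/-- [BV2] the variation of the truncated maximal function of a function that need not be
integrable: `c` is a lower bound of the truncated maximal functions that is reached in the
limit of large radii. -/
theorem var_bound_of {d : ℕ} (f : E d → ℝ) (c : ℝ≥0∞) (hct : c ≠ ⊤) (N : ℤ)
    (hV : ∀ k x, V (rad k) f x < ⊤) (M : ℝ≥0∞) (hM : M ≠ ⊤) (hVM : ∀ x, V (rad N) f x ≤ M)
    (hcV : ∀ x, c ≤ V (rad N) f x)
    (hc : ∀ a : ℝ≥0∞, c < a → ∃ n : ℕ, ∀ x, V (rad (N - n)) f x ≤ a)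
    (φ : E d → E d) (hφ : Test φ) :
    ENNReal.ofReal (∫ x, (V (rad N) f x).toReal * dvg φ x) ≤
      d * ∑' k : ℤ, (ENNReal.ofReal (rad k))⁻¹ *
        ∫⁻ x, (V (rad k) f x - V (rad (k - 1)) f x) := by
  have hle : (1 : WithTop ℕ∞) ≤ ((⊤ : ℕ∞) : WithTop ℕ∞) := by exact_mod_cast le_top
  have hint := Per.integrable_dvg (hφ.smooth.of_le hle) hφ.supp
  have hzero := Per.integral_dvg (hφ.smooth.of_le hle) hφ.supp
  have hVm : Measurable fun x => (V (rad N) f x).toReal := (V_lsc f _).measurable.ennreal_toReal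
  have hum : Measurable fun x => (V (rad N) f x).toReal - c.toReal := hVm.sub_const _
  have hu0 : ∀ x, 0 ≤ (V (rad N) f x).toReal - c.toReal := fun x =>
    sub_nonneg.2 (ENNReal.toReal_mono (hV N x).ne (hcV x))
  have huM : ∀ x, (V (rad N) f x).toReal - c.toReal ≤ M.toReal - c.toReal := fun x =>
    sub_le_sub_right (ENNReal.toReal_mono hM (hVM x)) _
  have hVi : Integrable fun x => (V (rad N) f x).toReal * dvg φ x := by
    refine hint.bdd_mul (c := M.toReal) hVm.aestronglyMeasurable
      (Eventually.of_forall fun x => ?_)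
    rw [Real.norm_of_nonneg ENNReal.toReal_nonneg]
    exact ENNReal.toReal_mono hM (hVM x)
  have e0 : ∫ x, (V (rad N) f x).toReal * dvg φ x =
      ∫ x, ((V (rad N) f x).toReal - c.toReal) * dvg φ x := by
    have h1 : (fun x => ((V (rad N) f x).toReal - c.toReal) * dvg φ x) =
        fun x => (V (rad N) f x).toReal * dvg φ x - c.toReal * dvg φ x := by
      funext x
      ring
    rw [h1, integral_sub hVi (hint.const_mul _), integral_const_mul, hzero, mul_zero, sub_zero]
  rw [e0]
  refine (cake hum hu0 huM hint).trans ?_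
  calc ∫⁻ t in Ioc (0 : ℝ) (M.toReal - c.toReal),
        ENNReal.ofReal (∫ x in {x | t < (V (rad N) f x).toReal - c.toReal}, dvg φ x)
      ≤ ∫⁻ t in Ioc (0 : ℝ) (M.toReal - c.toReal),
          ∑' k : ℤ, term f (c + ENNReal.ofReal t) k := by
        refine setLIntegral_mono' measurableSet_Ioc fun t ht => ?_
        have hs : (c + ENNReal.ofReal t).toReal = c.toReal + t := by
          rw [ENNReal.toReal_add hct ENNReal.ofReal_ne_top, ENNReal.toReal_ofReal ht.1.le]
        have hst : c + ENNReal.ofReal t ≠ ⊤ := ENNReal.add_ne_top.2 ⟨hct, ENNReal.ofReal_ne_top⟩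
        have e : {x | t < (V (rad N) f x).toReal - c.toReal} =
            lay f N (c + ENNReal.ofReal t) := by
          ext x
          simp only [lay, Set.mem_ofPred_eq]
          rw [← ENNReal.toReal_lt_toReal hst (hV N x).ne, hs]
          constructor <;> intro h <;> linarith
        rw [e]
        obtain ⟨n, hn⟩ := hc (c + ENNReal.ofReal t)
          (ENNReal.lt_add_right hct (by simpa using ht.1))
        have hn' : lay f (N - n) (c + ENNReal.ofReal t) = ∅ := by
          rw [eq_empty_iff_forall_notMem]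
          intro x hx
          exact absurd hx (not_lt.2 (hn x))
        exact per_lay_of f N hn' φ hφ
    _ ≤ ∫⁻ t in Ioi (0 : ℝ), ∑' k : ℤ, term f (c + ENNReal.ofReal t) k :=
        lintegral_mono_set fun t ht => ht.1
    _ = ∑' k : ℤ, ∫⁻ t in Ioi (0 : ℝ), term f (c + ENNReal.ofReal t) k :=
        lintegral_tsum fun k => (termc_meas f c k).aemeasurable
    _ ≤ ∑' k : ℤ, d * ((ENNReal.ofReal (rad k))⁻¹ *
        ∫⁻ x, (V (rad k) f x - V (rad (k - 1)) f x)) := by
        refine ENNReal.tsum_le_tsum fun k => ?_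
        unfold term
        rw [lintegral_const_mul']
        · have h1 : ENNReal.ofReal (d / rad k) = d * (ENNReal.ofReal (rad k))⁻¹ := by
            rw [div_eq_mul_inv, ENNReal.ofReal_mul (Nat.cast_nonneg d), ENNReal.ofReal_natCast,
              ENNReal.ofReal_inv_of_pos (rad_pos k)]
          rw [h1, mul_assoc]
          gcongr
          exact layerc f c hct k (hV k)
        · exact ENNReal.ofReal_ne_top
    _ = _ := ENNReal.tsum_mul_left

/-- [BV2] `var_bound` when `V (rad k) f` decreases uniformly to a constant `c`. -/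
theorem var_bound_c {d : ℕ} (_hd : 0 < d) (f : E d → ℝ) (c : ℝ≥0∞) (hc : c < ⊤)
    (hVc : ∀ (k : ℤ) (x : E d), c ≤ V (rad k) f x)
    (hVlim : ∀ ε : ℝ≥0∞, 0 < ε → ∃ k : ℤ, ∀ x, V (rad k) f x ≤ c + ε)
    (hVtop : ∀ k : ℤ, ∃ M : ℝ≥0, ∀ x, V (rad k) f x ≤ M) (N : ℤ) (φ : E d → E d) (hφ : Test φ) :
    ENNReal.ofReal (∫ x, (V (rad N) f x).toReal * dvg φ x) ≤
      d * ∑' k : ℤ, (ENNReal.ofReal (rad k))⁻¹ *
        ∫⁻ x, (V (rad k) f x - V (rad (k - 1)) f x) := by
  obtain ⟨M, hM⟩ := hVtop N
  refine var_bound_of f c hc.ne N (fun k x => ?_) M ENNReal.coe_ne_top hM (hVc N)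
    (fun a ha => ?_) φ hφ
  · obtain ⟨M', hM'⟩ := hVtop k
    exact lt_of_le_of_lt (hM' x) ENNReal.coe_lt_top
  · obtain ⟨k, hk⟩ := hVlim (a - c) (tsub_pos_of_lt ha)
    refine ⟨(N - k).toNat, fun x => ?_⟩
    have h1 : rad k ≤ rad (N - ((N - k).toNat : ℤ)) := by
      unfold rad
      refine zpow_le_zpow_right₀ (by norm_num) ?_
      have := Int.self_le_toNat (N - k)
      omega
    refine (V_anti f x h1).trans ((hk x).trans (le_of_eq ?_))
    exact add_tsub_cancel_of_le ha.le

end P137
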