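import Vale.Agent.P137.NiceH

/-!
# P137 [REGH]: `√(f² + ε²) - ε` for `NiceH`
-/

open MeasureTheory Metric Set Filter Topology
open scoped ENNReal ContDiff NNReal

namespace P137

/-- [REGH] `√(f^2+ε^2) - ε` for `NiceH` -/
theorem regularizeH {d : ℕ} (f : E d → ℝ) (G : E d → E d) (h : NiceH f G) (ε : ℝ) (hε : 0 < ε) :
    ∃ (g : E d → ℝ) (G' : E d → E d), NiceH g G' ∧ (∀ y, 0 ≤ g y) ∧
      (∀ y, |g y - abs (f y)| ≤ ε) ∧ (∀ y, g y ≤ |f y|) ∧ (∀ y, ‖G' y‖ ≤ ‖G y‖) := by
  have hpos : ∀ t : ℝ, 0 < t ^ 2 + ε ^ 2 := fun t => by positivity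
  have hlow : ∀ t : ℝ, |t| ≤ √(t ^ 2 + ε ^ 2) := fun t => by
    rw [← Real.sqrt_sq_eq_abs]
    exact Real.sqrt_le_sqrt (by nlinarith [sq_nonneg ε])
  have hup : ∀ t : ℝ, √(t ^ 2 + ε ^ 2) ≤ |t| + ε := fun t => by
    rw [Real.sqrt_le_left (by positivity)]
    nlinarith [sq_abs t, abs_nonneg t]
  have hge : ∀ t : ℝ, ε ≤ √(t ^ 2 + ε ^ 2) := fun t => by
    refine Real.le_sqrt_of_sq_le ?_
    nlinarith [sq_nonneg t]
  have hGc : Continuous G := by
    have h1 : G = fun y => (InnerProductSpace.toDual ℝ (E d)).symm (fderiv ℝ f y) := by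
      funext y
      rw [LinearIsometryEquiv.eq_symm_apply]
      ext v
      rw [InnerProductSpace.toDual_apply_apply, h.grad y v]
    rw [h1]
    exact (LinearIsometryEquiv.continuous _).comp (h.smooth.continuous_fderiv one_ne_zero)
  have hfd : Differentiable ℝ f := h.smooth.differentiable one_ne_zero
  refine ⟨fun y => √(f y ^ 2 + ε ^ 2) - ε, fun y => (f y / √(f y ^ 2 + ε ^ 2)) • G y, ?_, ?_, ?_,
    ?_, ?_⟩
  · have hsm : ContDiff ℝ 1 fun y => √(f y ^ 2 + ε ^ 2) - ε :=
      (((h.smooth.pow 2).add contDiff_const).sqrt fun y => (hpos (f y)).ne').sub contDiff_const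
    have hnrm : ∀ y, ‖(f y / √(f y ^ 2 + ε ^ 2)) • G y‖ ≤ ‖G y‖ := fun y => by
      rw [norm_smul, Real.norm_eq_abs, abs_div, abs_of_nonneg (Real.sqrt_nonneg _)]
      refine mul_le_of_le_one_left (norm_nonneg _) ?_
      exact div_le_one_of_le₀ (hlow _) (Real.sqrt_nonneg _)
    refine ⟨hsm, fun y v => ?_, ?_⟩
    · have h1 : HasFDerivAt f (fderiv ℝ f y) y := (hfd y).hasFDerivAt
      have h2 : HasFDerivAt (fun y => f y ^ 2 + ε ^ 2) ((2 * f y) • fderiv ℝ f y) y := by
        have := (h1.pow 2).add_const (ε ^ 2)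
        simpa using this
      have h3 := (h2.sqrt (hpos (f y)).ne').sub_const ε
      rw [h3.fderiv]
      simp only [_root_.smul_apply, smul_eq_mul, inner_smul_left, h.grad y v]
      simp only [conj_trivial]
      have h4 : √(f y ^ 2 + ε ^ 2) ≠ 0 := (Real.sqrt_pos.2 (hpos _)).ne'
      field_simp
    · refine Integrable.mono' h.intG.norm ?_ (Eventually.of_forall fun y => hnrm y)
      have hc : Continuous fun y => f y / √(f y ^ 2 + ε ^ 2) :=
        h.smooth.continuous.div ((h.smooth.continuous.pow 2).add continuous_const).sqrt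
          fun y => (Real.sqrt_pos.2 (hpos _)).ne'
      exact (hc.smul hGc).aestronglyMeasurable
  · intro y
    simp only
    linarith [hge (f y)]
  · intro y
    rw [abs_le]
    constructor <;> simp only <;> linarith [hlow (f y), hup (f y)]
  · intro y
    simp only
    linarith [hup (f y)]
  · intro y
    simp only
    rw [norm_smul, Real.norm_eq_abs, abs_div, abs_of_nonneg (Real.sqrt_nonneg _)]
    refine mul_le_of_le_one_left (norm_nonneg _) ?_
    exact div_le_one_of_le₀ (hlow _) (Real.sqrt_nonneg _)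

end P137
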