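import Vale.Agent.P137.CellBound
import Vale.Agent.P137.NiceH

/-!
# P137, block [CELL] for functions with integrable gradient
-/

open MeasureTheory Metric Set Filter Topology
open scoped ENNReal ContDiff NNReal

namespace P137

namespace CellB

variable {d : ℕ}

lemma avg_eq_loc (g : E d → ℝ) (hg : Continuous g) (h0 : ∀ y, 0 ≤ g y) (c : E d) (r : ℝ)
    (hr : 0 < r) : avg g c r = ENNReal.ofReal (⨍ y in ball c r, g y) := by
  have hv : 0 < volume.real (ball c r) :=
    ENNReal.toReal_pos (measure_ball_pos _ _ hr).ne' measure_ball_lt_top.ne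
  have hi : IntegrableOn g (ball c r) :=
    (hg.continuousOn.integrableOn_compact (isCompact_closedBall c r)).mono_set
      ball_subset_closedBall
  rw [setAverage_eq, smul_eq_mul, ENNReal.ofReal_mul (by positivity),
    ENNReal.ofReal_inv_of_pos hv, Measure.real, ENNReal.ofReal_toReal measure_ball_lt_top.ne,
    ofReal_integral_eq_lintegral_ofReal hi (Eventually.of_forall h0)]
  unfold avg
  rw [ENNReal.div_eq_inv_mul]
  congr 1
  refine lintegral_congr fun y => ?_
  rw [Real.enorm_of_nonneg (h0 y)]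

end CellB

/-- [CELL] for `NiceH` functions -/
theorem cell_bound_H (d : ℕ) (hd : 0 < d) :
    ∃ C μ : ℝ≥0, μ < 1 ∧ ∀ (g : E d → ℝ) (G : E d → E d), NiceH g G → (∀ y, 0 ≤ g y) →
      ∀ (s : Fin d → Fin 2) (k : ℤ) (m0 : Fin d → ℤ),
      ∃ Rf : E d → ℝ≥0∞, Measurable Rf ∧
        (∀ (x c : E d) (ρ : ℝ), ball x (18 * rad k) ⊆ cell s k m0 → x ∈ ball c ρ →
          rad k ≤ ρ → ρ ≤ 3 * rad k →
          ∃ e : E d, ‖e‖ = 1 ∧ avg g c ρ ≤ avg g (x + (3 * ρ) • e) (3 * ρ) + Rf x) ∧
        ∫⁻ x, Rf x ≤ C * ENNReal.ofReal (rad k) *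
          ∑' n : ℕ, (μ : ℝ≥0∞) ^ n * ∑ m ∈ desc (ch s) m0 n, ENNReal.ofReal (D1 G s (k + n) m) := by
  refine ⟨CellB.CC d, Real.toNNReal CellB.q, ?_, ?_⟩
  · rw [← NNReal.coe_lt_coe, Real.coe_toNNReal _ CellB.q_pos.le]
    exact CellB.q_lt_one
  · intro g G hN h0 s k m0
    obtain ⟨e, he, hroot⟩ := CellB.exists_dir hd (aV G s k m0)
    refine ⟨(cell s k m0).indicator fun x => CellB.X1 G s k m0 + CellB.X2 G s e k m0 x, ?_, ?_, ?_⟩
    · exact ((CellB.measurable_X2 G s e k m0).const_add _).indicator (cell_meas s k m0)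
    · intro x c ρ hx hc h1 h2
      have hr := CellB.rad_pos k
      have hρ : 0 < ρ := hr.trans_le h1
      have hc' : ‖c - x‖ ≤ ρ := by
        rw [mem_ball, dist_comm, dist_eq_norm] at hc
        exact hc.le
      obtain ⟨K, κ, k1, k2, k3, k4, k5, k6, k7⟩ := kernel hd x c e ρ hρ hc' he
      have hKD : CellB.KD x e ρ K κ := ⟨k1, k2, fun y => (k3 y).1, fun y => (k3 y).2, k4, k5,
        fun y y' => by
          refine (k6 y y').trans ?_
          have : 0 ≤ √(ρ * ‖y - y'‖) := Real.sqrt_nonneg _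
          gcongr
          norm_num⟩
      refine ⟨e, he, ?_⟩
      have hxc : x ∈ cell s k m0 := hx (mem_ball_self (by positivity))
      have h3 := k7 g G hN.smooth hN.grad
      have h4 : ∫ y, inner ℝ (K y) (G y) = ∫ y in cell s k m0, inner ℝ (K y) (G y) := by
        rw [setIntegral_eq_integral_of_forall_compl_eq_zero]
        intro y hy
        have h5 : ‖y - x‖ ≥ 6 * ρ := by
          by_contra hcon
          push Not at hcon
          apply hy
          apply hx
          rw [mem_ball, dist_eq_norm]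
          linarith
        rw [hKD.supp y h5, inner_zero_left]
      rw [Set.indicator_of_mem hxc, CellB.avg_eq_loc g hN.smooth.continuous h0 c ρ hρ,
        CellB.avg_eq_loc g hN.smooth.continuous h0 _ _ (by linarith)]
      have h6 : (⨍ y in ball c ρ, g y) = (⨍ y in ball (x + (3 * ρ) • e) (3 * ρ), g y) +
          (-(∫ y in cell s k m0, inner ℝ (K y) (G y))) := by
        rw [← h4, ← h3]
        ring
      rw [h6]
      refine ENNReal.ofReal_add_le.trans (add_le_add le_rfl ?_)
      exact CellB.pointwise hd hKD he k h1 h2 G hN.intG s m0 hroot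
    · rw [lintegral_indicator (cell_meas s k m0)]
      exact CellB.int_X hd G hN.intG s e he k m0 hroot

end P137
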