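import Vale.Agent.P137.SumJ
import Vale.Agent.P137.CellBoundH

/-!
# P137 [SUMH]: the weighted sum of the increments without integrability of the function
-/

open MeasureTheory Metric Set Filter Topology
open scoped ENNReal ContDiff NNReal

namespace P137

/-- a competitor ball whose closure contains `x`; no integrability -/
theorem avg_le_V_closed {d : ℕ} (f : E d → ℝ) (c x : E d) (r η : ℝ)
    (hη : 0 < η) (hr : η ≤ r) (hx : x ∈ closedBall c r) : avg f c r ≤ V η f x := by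
  rcases eq_or_ne (V η f x) ⊤ with hV | hV
  · rw [hV]
    exact le_top
  have hVt : V η f x < ⊤ := lt_top_iff_ne_top.2 hV
  have hr0 : 0 < r := hη.trans_le hr
  have hv : ∀ s : ℝ, 0 < s → volume (ball c s)
      = ENNReal.ofReal (s ^ d) * volume (ball (0 : E d) 1) := by
    intro s hs
    rw [Measure.addHaar_ball_of_pos volume c hs]
    simp
  have h1 : ∀ δ : ℝ, 0 < δ → (∫⁻ y in ball c r, ‖f y‖ₑ) ≤
      V η f x * (ENNReal.ofReal ((r + δ) ^ d) * volume (ball (0 : E d) 1)) := by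
    intro δ hδ
    have hx' : x ∈ ball c (r + δ) := by
      rw [mem_ball]
      rw [mem_closedBall] at hx
      linarith
    have h2 := avg_le_V f c x (r + δ) η (by linarith) hx'
    unfold avg at h2
    have hv0 : volume (ball c (r + δ)) ≠ 0 := (measure_ball_pos volume _ (by linarith)).ne'
    have hvt : volume (ball c (r + δ)) ≠ ⊤ := measure_ball_lt_top.ne
    rw [ENNReal.div_le_iff hv0 hvt, hv _ (by linarith)] at h2
    exact (lintegral_mono_set (ball_subset_ball (by linarith))).trans h2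
  have h3 : (∫⁻ y in ball c r, ‖f y‖ₑ) ≤
      V η f x * (ENNReal.ofReal (r ^ d) * volume (ball (0 : E d) 1)) := by
    have hlim : Tendsto (fun δ : ℝ => V η f x *
        (ENNReal.ofReal ((r + δ) ^ d) * volume (ball (0 : E d) 1))) (𝓝[>] 0)
        (𝓝 (V η f x * (ENNReal.ofReal ((r + 0) ^ d) * volume (ball (0 : E d) 1)))) := by
      refine ENNReal.Tendsto.const_mul ?_ (Or.inr hVt.ne)
      refine ENNReal.Tendsto.mul_const ?_ (Or.inr measure_ball_lt_top.ne)
      refine ENNReal.tendsto_ofReal ?_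
      have : Continuous fun δ : ℝ => (r + δ) ^ d := by fun_prop
      exact (this.tendsto 0).mono_left nhdsWithin_le_nhds
    rw [add_zero] at hlim
    exact ge_of_tendsto hlim (by filter_upwards [self_mem_nhdsWithin] with δ hδ using h1 δ hδ)
  unfold avg
  rw [ENNReal.div_le_iff (measure_ball_pos volume _ hr0).ne' measure_ball_lt_top.ne, hv r hr0]
  exact h3

open SumJ

theorem sum_JH (d : ℕ) (hd : 0 < d) :
    ∃ C : ℝ≥0, ∀ (g : E d → ℝ) (G : E d → E d), NiceH g G → (∀ y, 0 ≤ g y) →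
      ∑' k : ℤ, (ENNReal.ofReal (rad k))⁻¹ * ∫⁻ x, (V (rad k) g x - V (rad (k - 1)) g x) ≤
        C * ∫⁻ x, ‖G x‖ₑ := by
  obtain ⟨C, μ, hμ, H⟩ := cell_bound_H d hd
  have hgeo : ∑' n : ℕ, (μ : ℝ≥0∞) ^ n ≠ ⊤ := by
    rw [ENNReal.tsum_geometric]
    refine ENNReal.inv_ne_top.2 ?_
    rw [← ENNReal.coe_one, ← ENNReal.coe_sub, ENNReal.coe_ne_zero]
    exact (tsub_pos_of_lt hμ).ne'
  refine ⟨(Fintype.card (Fin d → Fin 2) : ℝ≥0) * (C * (∑' n : ℕ, (μ : ℝ≥0∞) ^ n).toNNReal),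
    fun g G hgG hg0 => ?_⟩
  push_cast
  rw [ENNReal.coe_toNNReal hgeo]
  choose R hRm hR1 hR2 using fun (s : Fin d → Fin 2) (k : ℤ) (m0 : Fin d → ℤ) =>
    H g G hgG hg0 s k m0
  -- pointwise bound
  have hpt : ∀ (k : ℤ) (x : E d), V (rad k) g x - V (rad (k - 1)) g x ≤
      ∑ s : Fin d → Fin 2, ∑' m0 : Fin d → ℤ, R s k m0 x := by
    intro k x
    obtain ⟨s, m0, hs⟩ := cell_cover k x
    have h1 : R s k m0 x ≤ ∑ s : Fin d → Fin 2, ∑' m0 : Fin d → ℤ, R s k m0 x :=
      (ENNReal.le_tsum m0).trans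
        (Finset.single_le_sum (f := fun s => ∑' m0 : Fin d → ℤ, R s k m0 x)
          (fun _ _ => zero_le) (Finset.mem_univ s))
    refine le_trans ?_ h1
    rw [tsub_le_iff_left]
    unfold V
    refine iSup_le fun c => iSup_le fun ρ => iSup_le fun hρ => iSup_le fun hx => ?_
    have hrp := rad_pos k
    by_cases hbig : rad (k - 1) ≤ ρ
    · refine le_trans ?_ le_self_add
      exact le_iSup_of_le c (le_iSup_of_le ρ (le_iSup_of_le hbig (le_iSup_of_le hx le_rfl)))
    · push Not at hbig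
      rw [rad_pred] at hbig
      obtain ⟨e, he, hav⟩ := hR1 s k m0 x c ρ hs hx hρ hbig.le
      refine hav.trans ?_
      gcongr
      refine avg_le_V_closed g _ x (3 * ρ) (rad (k - 1)) (rad_pos _) ?_ ?_
      · rw [rad_pred]
        linarith
      · rw [mem_closedBall, dist_eq_norm]
        have hρ0 : 0 < ρ := lt_of_lt_of_le hrp hρ
        have e1 : x - (x + (3 * ρ) • e) = -((3 * ρ) • e) := by abel
        rw [e1, norm_neg, norm_smul, he, Real.norm_of_nonneg (by positivity), mul_one]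
  -- integrate
  have hint : ∀ k : ℤ, (ENNReal.ofReal (rad k))⁻¹ *
      ∫⁻ x, (V (rad k) g x - V (rad (k - 1)) g x) ≤
      ∑ s : Fin d → Fin 2, ∑' m0 : Fin d → ℤ, (C * ∑' n : ℕ, (μ : ℝ≥0∞) ^ n *
        ∑ m ∈ desc (ch s) m0 n, ENNReal.ofReal (D1 G s (k + n) m)) := by
    intro k
    have hr0 : ENNReal.ofReal (rad k) ≠ 0 := by
      rw [Ne, ENNReal.ofReal_eq_zero, not_le]
      exact rad_pos k
    calc (ENNReal.ofReal (rad k))⁻¹ * ∫⁻ x, (V (rad k) g x - V (rad (k - 1)) g x)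
        ≤ (ENNReal.ofReal (rad k))⁻¹ *
          ∫⁻ x, ∑ s : Fin d → Fin 2, ∑' m0 : Fin d → ℤ, R s k m0 x := by
          gcongr with x
          exact hpt k x
      _ = ∑ s : Fin d → Fin 2, ∑' m0 : Fin d → ℤ,
          (ENNReal.ofReal (rad k))⁻¹ * ∫⁻ x, R s k m0 x := by
          rw [lintegral_finsetSum _ fun s _ => Measurable.ennreal_tsum fun m0 => hRm s k m0,
            Finset.mul_sum]
          refine Finset.sum_congr rfl fun s _ => ?_
          rw [lintegral_tsum fun m0 => (hRm s k m0).aemeasurable, ENNReal.tsum_mul_left]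
      _ ≤ _ := by
          refine Finset.sum_le_sum fun s _ => ENNReal.tsum_le_tsum fun m0 => ?_
          calc (ENNReal.ofReal (rad k))⁻¹ * ∫⁻ x, R s k m0 x
              ≤ (ENNReal.ofReal (rad k))⁻¹ * (C * ENNReal.ofReal (rad k) *
                ∑' n : ℕ, (μ : ℝ≥0∞) ^ n *
                  ∑ m ∈ desc (ch s) m0 n, ENNReal.ofReal (D1 G s (k + n) m)) := by
                gcongr
                exact hR2 s k m0
            _ = (ENNReal.ofReal (rad k))⁻¹ * ENNReal.ofReal (rad k) * (C *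
                ∑' n : ℕ, (μ : ℝ≥0∞) ^ n *
                  ∑ m ∈ desc (ch s) m0 n, ENNReal.ofReal (D1 G s (k + n) m)) := by ring
            _ = _ := by rw [ENNReal.inv_mul_cancel hr0 ENNReal.ofReal_ne_top, one_mul]
  calc ∑' k : ℤ, (ENNReal.ofReal (rad k))⁻¹ * ∫⁻ x, (V (rad k) g x - V (rad (k - 1)) g x)
      ≤ ∑' k : ℤ, ∑ s : Fin d → Fin 2, ∑' m0 : Fin d → ℤ, (C * ∑' n : ℕ, (μ : ℝ≥0∞) ^ n *
        ∑ m ∈ desc (ch s) m0 n, ENNReal.ofReal (D1 G s (k + n) m)) :=
        ENNReal.tsum_le_tsum hint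
    _ = ∑ s : Fin d → Fin 2, ∑' k : ℤ, ∑' m0 : Fin d → ℤ, (C * ∑' n : ℕ, (μ : ℝ≥0∞) ^ n *
        ∑ m ∈ desc (ch s) m0 n, ENNReal.ofReal (D1 G s (k + n) m)) :=
        Summable.tsum_finsetSum fun s _ => ENNReal.summable
    _ ≤ ∑ _s : Fin d → Fin 2, C * ((∑' n : ℕ, (μ : ℝ≥0∞) ^ n) * ∫⁻ y, ‖G y‖ₑ) :=
        Finset.sum_le_sum fun s _ => one_grid G hgG.intG s C μ
    _ = _ := by
        rw [Finset.sum_const, Finset.card_univ, nsmul_eq_mul]
        simp only [Fintype.card_pi, Fintype.card_fin, Finset.prod_const, Finset.card_univ]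
        push_cast
        ring

end P137
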