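import Vale.Agent.P137.MaxBasic
import Vale.Agent.P137.SumJH
import Vale.Agent.P137.BVInf
import Vale.Agent.P137.BVVar
import Vale.Agent.P137.BVMoll
import Vale.Agent.P137.RegularizeH

/-!
# P137 [BV4]: the variation bound for functions of bounded variation.
-/

open MeasureTheory Metric Set Filter Topology
open scoped ENNReal ContDiff NNReal

namespace P137.BVFin

variable {d : ℕ}

theorem avg_le_of (f g h : E d → ℝ) (hf : AEStronglyMeasurable f) (ε : ℝ≥0∞)
    (hle : ∀ y, ‖g y‖ₑ ≤ ‖f y‖ₑ + ‖h y‖ₑ + ε) (c : E d) (r : ℝ) :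
    avg g c r ≤ avg f c r + avg h c r + ε := by
  unfold avg
  have h1 : ∫⁻ y in ball c r, ‖g y‖ₑ ≤
      (∫⁻ y in ball c r, ‖f y‖ₑ) + (∫⁻ y in ball c r, ‖h y‖ₑ) + ε * volume (ball c r) := by
    calc ∫⁻ y in ball c r, ‖g y‖ₑ ≤ ∫⁻ y in ball c r, (‖f y‖ₑ + ‖h y‖ₑ + ε) :=
          lintegral_mono fun y => hle y
      _ = (∫⁻ y in ball c r, ‖f y‖ₑ) + (∫⁻ y in ball c r, ‖h y‖ₑ) + ε * volume (ball c r) := by
          rw [lintegral_add_right _ measurable_const, lintegral_add_left' hf.enorm.restrict,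
            setLIntegral_const]
  calc (∫⁻ y in ball c r, ‖g y‖ₑ) / volume (ball c r)
      ≤ ((∫⁻ y in ball c r, ‖f y‖ₑ) + (∫⁻ y in ball c r, ‖h y‖ₑ) + ε * volume (ball c r)) /
          volume (ball c r) := by gcongr
    _ = (∫⁻ y in ball c r, ‖f y‖ₑ) / volume (ball c r) +
          (∫⁻ y in ball c r, ‖h y‖ₑ) / volume (ball c r) +
          ε * volume (ball c r) / volume (ball c r) := by
        rw [ENNReal.add_div, ENNReal.add_div]
    _ ≤ _ := by
        gcongr
        rw [mul_div_assoc]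
        exact mul_le_of_le_one_right (by positivity) ENNReal.div_self_le_one

theorem V_pert_le (f g h : E d → ℝ) (hf : AEStronglyMeasurable f) (ε : ℝ≥0∞)
    (hle : ∀ y, ‖g y‖ₑ ≤ ‖f y‖ₑ + ‖h y‖ₑ + ε) (η : ℝ) (hη : 0 < η) (x : E d) :
    V η g x ≤ V η f x + ((∫⁻ y, ‖h y‖ₑ) / volume (ball (0 : E d) η) + ε) := by
  refine iSup_le fun c => iSup_le fun r => iSup_le fun hr => iSup_le fun hx => ?_
  calc avg g c r ≤ avg f c r + avg h c r + ε := avg_le_of f g h hf ε hle c r
    _ ≤ V η f x + (∫⁻ y, ‖h y‖ₑ) / volume (ball (0 : E d) η) + ε := by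
        gcongr
        · exact le_iSup_of_le c (le_iSup_of_le r (le_iSup_of_le hr (le_iSup_of_le hx le_rfl)))
        · exact avg_le h c r η hη hr
    _ = _ := by rw [add_assoc]

theorem dvg_continuous (φ : E d → E d) (hφ : Test φ) : Continuous (dvg φ) := by
  unfold dvg
  refine continuous_finsetSum _ fun i _ => ?_
  have h1 : Continuous (fderiv ℝ φ) := hφ.smooth.continuous_fderiv (by simp)
  have h2 : Continuous fun x => fderiv ℝ φ x (EuclideanSpace.single i 1) :=
    h1.clm_apply continuous_const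
  exact (EuclideanSpace.proj (𝕜 := ℝ) i).continuous.comp h2

theorem dvg_supp (φ : E d → E d) (hφ : Test φ) : HasCompactSupport (dvg φ) := by
  refine HasCompactSupport.intro (K := tsupport φ) hφ.supp fun x hx => ?_
  unfold dvg
  refine Finset.sum_eq_zero fun i _ => ?_
  have : fderiv ℝ φ x = 0 := by
    by_contra hne
    exact hx (support_fderiv_subset ℝ hne)
  rw [this]; rfl

theorem dvg_integrable (φ : E d → E d) (hφ : Test φ) : Integrable (dvg φ) :=
  (dvg_continuous φ hφ).integrable_of_hasCompactSupport (dvg_supp φ hφ)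

theorem V_meas (η : ℝ) (f : E d → ℝ) : Measurable (V η f) := (V_lsc f η).measurable

theorem Mt_meas (f : E d → ℝ) : Measurable (Mt f) := (Mt_lsc f).measurable

theorem rad_pos' (k : ℤ) : 0 < rad k := by unfold rad; positivity

theorem rad_anti {j k : ℤ} (h : j ≤ k) : rad k ≤ rad j := by
  unfold rad
  exact zpow_le_zpow_right₀ (by norm_num) (by omega)

/-- the sum of the increments controls the difference of two truncations -/
theorem diff_le (g : E d → ℝ) (hfin : ∀ (k : ℤ) (x : E d), V (rad k) g x < ⊤) (k : ℤ) (n : ℕ) :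
    ∫⁻ x, (V (rad (k + n)) g x - V (rad k) g x) ≤ ENNReal.ofReal (rad k) *
      ∑ j ∈ Finset.range n, (ENNReal.ofReal (rad (k + j + 1)))⁻¹ *
        ∫⁻ x, (V (rad (k + j + 1)) g x - V (rad (k + j + 1 - 1)) g x) := by
  induction n with
  | zero => simp
  | succ n ih =>
    rw [Finset.sum_range_succ, mul_add]
    have h1 : ∀ x, V (rad (k + (n + 1 : ℕ))) g x - V (rad k) g x ≤
        (V (rad (k + n)) g x - V (rad k) g x) +
          (V (rad (k + n + 1)) g x - V (rad (k + n + 1 - 1)) g x) := by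
      intro x
      have e : k + ((n + 1 : ℕ) : ℤ) = k + n + 1 := by push_cast; ring
      have e2 : k + (n : ℤ) + 1 - 1 = k + n := by ring
      rw [e, e2, add_comm (V (rad (k + n)) g x - V (rad k) g x)]
      exact tsub_le_tsub_add_tsub (a := V (rad (k + n + 1)) g x) (b := V (rad (k + n)) g x)
        (c := V (rad k) g x)
    calc ∫⁻ x, (V (rad (k + (n + 1 : ℕ))) g x - V (rad k) g x)
        ≤ ∫⁻ x, ((V (rad (k + n)) g x - V (rad k) g x) +
          (V (rad (k + n + 1)) g x - V (rad (k + n + 1 - 1)) g x)) := lintegral_mono h1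
      _ = (∫⁻ x, (V (rad (k + n)) g x - V (rad k) g x)) +
          ∫⁻ x, (V (rad (k + n + 1)) g x - V (rad (k + n + 1 - 1)) g x) := by
          rw [lintegral_add_left]
          exact (V_meas _ g).sub (V_meas _ g)
      _ ≤ _ := by
          gcongr
          have hp : ENNReal.ofReal (rad (k + n + 1)) ≠ 0 := by
            simpa using rad_pos' (k + n + 1)
          have hr : ENNReal.ofReal (rad (k + n + 1)) ≤ ENNReal.ofReal (rad k) :=
            ENNReal.ofReal_le_ofReal (rad_anti (by omega))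
          rw [← mul_assoc]
          refine le_mul_of_one_le_left (by positivity) ?_
          calc (1 : ℝ≥0∞) = ENNReal.ofReal (rad (k + n + 1)) *
                (ENNReal.ofReal (rad (k + n + 1)))⁻¹ :=
                (ENNReal.mul_inv_cancel hp ENNReal.ofReal_ne_top).symm
            _ ≤ _ := by gcongr

theorem diff_le_tsum (g : E d → ℝ) (hfin : ∀ (k : ℤ) (x : E d), V (rad k) g x < ⊤) (k : ℤ)
    (n : ℕ) (B : ℝ≥0∞) (hB : ∑' k : ℤ, (ENNReal.ofReal (rad k))⁻¹ *
      ∫⁻ x, (V (rad k) g x - V (rad (k - 1)) g x) ≤ B) :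
    ∫⁻ x, (V (rad (k + n)) g x - V (rad k) g x) ≤ ENNReal.ofReal (rad k) * B := by
  refine (diff_le g hfin k n).trans ?_
  gcongr
  refine le_trans ?_ hB
  have hinj : Function.Injective fun j : ℕ => k + (j : ℤ) + 1 := by
    intro a b h
    simp only at h
    omega
  have := ENNReal.sum_le_tsum (f := fun k : ℤ => (ENNReal.ofReal (rad k))⁻¹ *
      ∫⁻ x, (V (rad k) g x - V (rad (k - 1)) g x)) ((Finset.range n).map ⟨_, hinj⟩)
  rwa [Finset.sum_map] at this

/-- limits of truncated maximal functions under perturbations -/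
theorem V_tendsto (f : E d → ℝ) (g h : ℕ → E d → ℝ) (hf : AEStronglyMeasurable f)
    (hg : ∀ n, AEStronglyMeasurable (g n)) (ε : ℕ → ℝ≥0∞)
    (h1 : ∀ n y, ‖g n y‖ₑ ≤ ‖f y‖ₑ + ‖h n y‖ₑ + ε n)
    (h2 : ∀ n y, ‖f y‖ₑ ≤ ‖g n y‖ₑ + ‖h n y‖ₑ + ε n)
    (hε : Tendsto ε atTop (𝓝 0)) (hh : Tendsto (fun n => ∫⁻ y, ‖h n y‖ₑ) atTop (𝓝 0))
    (η : ℝ) (hη : 0 < η) (x : E d) (hfin : V η f x ≠ ⊤) :
    Tendsto (fun n => V η (g n) x) atTop (𝓝 (V η f x)) := by
  have hv : volume (ball (0 : E d) η) ≠ 0 := (measure_ball_pos volume 0 hη).ne'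
  set δ : ℕ → ℝ≥0∞ := fun n => (∫⁻ y, ‖h n y‖ₑ) / volume (ball (0 : E d) η) + ε n with hδ
  have hδ0 : Tendsto δ atTop (𝓝 0) := by
    have : Tendsto δ atTop (𝓝 (0 / volume (ball (0 : E d) η) + 0)) :=
      (ENNReal.Tendsto.div_const hh (Or.inr hv)).add hε
    simpa using this
  have a1 : ∀ n, V η (g n) x ≤ V η f x + δ n := fun n => V_pert_le f (g n) (h n) hf _ (h1 n) η hη x
  have a2 : ∀ n, V η f x ≤ V η (g n) x + δ n := fun n =>
    V_pert_le (g n) f (h n) (hg n) _ (h2 n) η hη x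
  have b1 : Tendsto (fun n => V η f x + δ n) atTop (𝓝 (V η f x)) := by
    simpa using tendsto_const_nhds.add hδ0
  have b2 : Tendsto (fun n => V η f x - δ n) atTop (𝓝 (V η f x)) := by
    simpa using ENNReal.Tendsto.sub tendsto_const_nhds hδ0 (Or.inl hfin)
  exact tendsto_of_tendsto_of_tendsto_of_le_of_le b2 b1 (fun n => tsub_le_iff_right.2 (a2 n)) a1

end P137.BVFin

namespace P137

open BVFin

theorem main_bv (d : ℕ) (hd : 2 ≤ d) :
    ∃ C : ℝ≥0, ∀ (f : E d → ℝ) (K : ℝ≥0), LocallyIntegrable f →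
      (∀ φ : E d → E d, Test φ → ENNReal.ofReal (∫ x, f x * dvg φ x) ≤ K) →
      (∀ᵐ x, Mt f x < ⊤) ∧ LocallyIntegrable (fun x => (Mt f x).toReal) ∧
      ∀ φ : E d → E d, Test φ → ENNReal.ofReal (∫ x, (Mt f x).toReal * dvg φ x) ≤ C * K := by
  have hd0 : 0 < d := by omega
  obtain ⟨C0, hC0⟩ := sum_JH d hd0
  obtain ⟨C1, hC1⟩ := V_inf d hd
  refine ⟨(d : ℝ≥0) * (C0 * d), fun f K hf hK => ?_⟩
  obtain ⟨fn, Gn, hN, hGK, hint, hlim⟩ := mollify_bv f hf K hK
  have hεn : ∀ n : ℕ, (0 : ℝ) < 1 / ((n : ℝ) + 1) := fun n => by positivity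
  choose g G' hg hg0 hgf hgle hGG using fun n => regularizeH (fn n) (Gn n) (hN n) _ (hεn n)
  set B : ℝ≥0∞ := C0 * (d * K) with hB
  have hBfin : B < ⊤ := by
    rw [hB]
    exact ENNReal.mul_lt_top ENNReal.coe_lt_top
      (ENNReal.mul_lt_top (by simp) ENNReal.coe_lt_top)
  -- (A)
  have hA : ∀ n, ∑' k : ℤ, (ENNReal.ofReal (rad k))⁻¹ *
      ∫⁻ x, (V (rad k) (g n) x - V (rad (k - 1)) (g n) x) ≤ B := by
    intro n
    refine (hC0 (g n) (G' n) (hg n) (hg0 n)).trans ?_
    rw [hB]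
    gcongr
    refine le_trans (lintegral_mono fun x => ?_) (hGK n)
    rw [← ofReal_norm, ← ofReal_norm]
    exact ENNReal.ofReal_le_ofReal (hGG n x)
  -- pointwise closeness
  have hle1 : ∀ n y, abs (g n y - abs (f y)) ≤ abs (fn n y - f y) + 1 / ((n : ℝ) + 1) := by
    intro n y
    have := hgf n y
    have h2 : abs (abs (fn n y) - abs (f y)) ≤ abs (fn n y - f y) := abs_abs_sub_abs_le _ _
    calc abs (g n y - abs (f y)) = abs ((g n y - abs (fn n y)) + (abs (fn n y) - abs (f y))) := by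
              ring_nf
      _ ≤ abs (g n y - abs (fn n y)) + abs (abs (fn n y) - abs (f y)) := abs_add_le _ _
      _ ≤ _ := by linarith
  have c1 : ∀ n y, ‖g n y‖ₑ ≤ ‖f y‖ₑ + ‖fn n y - f y‖ₑ + ENNReal.ofReal (1 / ((n : ℝ) + 1)) := by
    intro n y
    rw [← ofReal_norm, ← ofReal_norm, ← ofReal_norm,
      ← ENNReal.ofReal_add (norm_nonneg _) (norm_nonneg _),
      ← ENNReal.ofReal_add (by positivity) (hεn n).le]
    refine ENNReal.ofReal_le_ofReal ?_
    simp only [Real.norm_eq_abs]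
    rw [abs_of_nonneg (hg0 n y)]
    have := (abs_le.1 (hle1 n y)).2
    linarith
  have c2 : ∀ n y, ‖f y‖ₑ ≤ ‖g n y‖ₑ + ‖fn n y - f y‖ₑ + ENNReal.ofReal (1 / ((n : ℝ) + 1)) := by
    intro n y
    rw [← ofReal_norm, ← ofReal_norm, ← ofReal_norm,
      ← ENNReal.ofReal_add (norm_nonneg _) (norm_nonneg _),
      ← ENNReal.ofReal_add (by positivity) (hεn n).le]
    refine ENNReal.ofReal_le_ofReal ?_
    simp only [Real.norm_eq_abs]
    rw [abs_of_nonneg (hg0 n y)]
    have := (abs_le.1 (hle1 n y)).1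
    linarith
  have hgm : ∀ n, AEStronglyMeasurable (g n) := fun n =>
    (hg n).smooth.continuous.aestronglyMeasurable
  have hfm : AEStronglyMeasurable f := hf.aestronglyMeasurable
  have hG'fin : ∀ n, ∫⁻ y, ‖G' n y‖ₑ < ⊤ := fun n => (hg n).intG.2
  -- bounds for `V (g n)`
  have hVg : ∀ n, ∃ c : ℝ≥0∞, c < ⊤ ∧ ∀ (k : ℤ) (x : E d), c ≤ V (rad k) (g n) x ∧
      V (rad k) (g n) x ≤ c + C1 * ENNReal.ofReal (rad k ^ (1 - (d : ℤ))) * ∫⁻ y, ‖G' n y‖ₑ :=
    fun n => hC1 (g n) (G' n) (hg n) (hg0 n)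
  have hVgM : ∀ n (k : ℤ), ∃ M : ℝ≥0, ∀ x, V (rad k) (g n) x ≤ M := by
    intro n k
    obtain ⟨c, hc, hcV⟩ := hVg n
    have hfin : c + C1 * ENNReal.ofReal (rad k ^ (1 - (d : ℤ))) * ∫⁻ y, ‖G' n y‖ₑ ≠ ⊤ :=
      ENNReal.add_ne_top.2 ⟨hc.ne, (ENNReal.mul_lt_top (ENNReal.mul_lt_top ENNReal.coe_lt_top
        ENNReal.ofReal_lt_top) (hG'fin n)).ne⟩
    refine ⟨(c + C1 * ENNReal.ofReal (rad k ^ (1 - (d : ℤ))) * ∫⁻ y, ‖G' n y‖ₑ).toNNReal,
      fun x => ?_⟩
    rw [ENNReal.coe_toNNReal hfin]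
    exact (hcV k x).2
  -- bounds for `V f`
  have hVfM : ∀ k : ℤ, ∃ M : ℝ≥0, ∀ x, V (rad k) f x ≤ M := by
    intro k
    obtain ⟨M, hM⟩ := hVgM 0 k
    have hfin : (M : ℝ≥0∞) + ((∫⁻ y, ‖fn 0 y - f y‖ₑ) / volume (ball (0 : E d) (rad k)) +
        ENNReal.ofReal (1 / (((0 : ℕ) : ℝ) + 1))) ≠ ⊤ := by
      refine ENNReal.add_ne_top.2 ⟨ENNReal.coe_ne_top, ENNReal.add_ne_top.2
        ⟨(ENNReal.div_lt_top (hint 0).2.ne (measure_ball_pos volume 0 (rad_pos' k)).ne').ne,
          ENNReal.ofReal_ne_top⟩⟩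
    refine ⟨_, fun x => le_trans ?_ (ENNReal.coe_toNNReal hfin).ge⟩
    refine (V_pert_le (g 0) f (fun y => fn 0 y - f y) (hgm 0) _ (c2 0) (rad k) (rad_pos' k) x).trans ?_
    gcongr
    exact hM x
  have hVffin : ∀ (k : ℤ) x, V (rad k) f x < ⊤ := fun k x => by
    obtain ⟨M, hM⟩ := hVfM k
    exact (hM x).trans_lt ENNReal.coe_lt_top
  have hVgfin : ∀ n (k : ℤ) x, V (rad k) (g n) x < ⊤ := fun n k x => by
    obtain ⟨M, hM⟩ := hVgM n k
    exact (hM x).trans_lt ENNReal.coe_lt_top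
  have hε0 : Tendsto (fun n : ℕ => ENNReal.ofReal (1 / ((n : ℝ) + 1))) atTop (𝓝 0) := by
    have := ENNReal.tendsto_ofReal tendsto_one_div_add_atTop_nhds_zero_nat
    simpa using this
  have hh0 : Tendsto (fun n => ∫⁻ y, ‖fn n y - f y‖ₑ) atTop (𝓝 0) := by
    have := ENNReal.tendsto_ofReal hlim
    simp only [ENNReal.ofReal_zero] at this
    refine this.congr fun n => ?_
    rw [ofReal_integral_norm_eq_lintegral_enorm (hint n)]
  have hVt : ∀ (k : ℤ) x, Tendsto (fun n => V (rad k) (g n) x) atTop (𝓝 (V (rad k) f x)) :=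
    fun k x => V_tendsto f g (fun n y => fn n y - f y) hfm hgm _ c1 c2 hε0 hh0 (rad k)
      (rad_pos' k) x (hVffin k x).ne
  -- (E)
  have hE : ∀ m : ℕ, ∫⁻ x, (V (rad (0 + (m : ℤ))) f x - V (rad 0) f x) ≤
      ENNReal.ofReal (rad 0) * B := by
    intro m
    have e1 : ∀ x, V (rad (0 + (m : ℤ))) f x - V (rad 0) f x =
        liminf (fun n => V (rad (0 + (m : ℤ))) (g n) x - V (rad 0) (g n) x) atTop := by
      intro x
      refine (Tendsto.liminf_eq ?_).symm
      exact ENNReal.Tendsto.sub (hVt _ x) (hVt _ x) (Or.inl (hVffin _ x).ne)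
    simp_rw [e1]
    refine (lintegral_liminf_le fun n => (V_meas _ _).sub (V_meas _ _)).trans ?_
    refine liminf_le_of_frequently_le' (Eventually.frequently (Eventually.of_forall fun n => ?_))
    exact diff_le_tsum (g n) (hVgfin n) 0 m B (hA n)
  have hE' : ∫⁻ x, (Mt f x - V (rad 0) f x) ≤ ENNReal.ofReal (rad 0) * B := by
    have e1 : ∀ x, Mt f x - V (rad 0) f x =
        ⨆ m : ℕ, (V (rad (0 + (m : ℤ))) f x - V (rad 0) f x) := by
      intro x
      rw [Mt_eq_iSup, ENNReal.iSup_sub]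
      simp
    simp_rw [e1]
    rw [lintegral_iSup (f := fun (m : ℕ) x => V (rad (0 + (m : ℤ))) f x - V (rad 0) f x)
      (fun m => (V_meas _ _).sub (V_meas _ _))]
    · exact iSup_le hE
    · intro a b hab x
      refine tsub_le_tsub_right ?_ _
      exact V_anti f x (rad_anti (by simpa using hab))
  have hball : ∀ ρ : ℝ, ∫⁻ x in ball (0 : E d) ρ, Mt f x < ⊤ := by
    intro ρ
    obtain ⟨M, hM⟩ := hVfM 0
    calc ∫⁻ x in ball (0 : E d) ρ, Mt f x
        ≤ ∫⁻ x in ball (0 : E d) ρ, ((Mt f x - V (rad 0) f x) + M) := by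
          refine lintegral_mono fun x => ?_
          calc Mt f x ≤ (Mt f x - V (rad 0) f x) + V (rad 0) f x := le_tsub_add
            _ ≤ (Mt f x - V (rad 0) f x) + M := add_le_add le_rfl (hM x)
      _ = (∫⁻ x in ball (0 : E d) ρ, (Mt f x - V (rad 0) f x)) + M * volume (ball (0 : E d) ρ) := by
          rw [lintegral_add_right _ measurable_const, setLIntegral_const]
      _ ≤ (∫⁻ x, (Mt f x - V (rad 0) f x)) + M * volume (ball (0 : E d) ρ) := by
          gcongr
          exact Measure.restrict_le_self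
      _ < ⊤ := by
          refine ENNReal.add_lt_top.2 ⟨hE'.trans_lt ?_, ?_⟩
          · exact ENNReal.mul_lt_top ENNReal.ofReal_lt_top hBfin
          · exact ENNReal.mul_lt_top ENNReal.coe_lt_top measure_ball_lt_top
  have hae : ∀ᵐ x, Mt f x < ⊤ := by
    have h1 : ∀ n : ℕ, ∀ᵐ x, x ∈ ball (0 : E d) n → Mt f x < ⊤ := fun n => by
      rw [← ae_restrict_iff' measurableSet_ball]
      exact ae_lt_top (Mt_meas f) (hball n).ne
    filter_upwards [ae_all_iff.2 h1] with x hx
    obtain ⟨n, hn⟩ := exists_nat_gt ‖x‖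
    exact hx n (by simpa using hn)
  have hloc : LocallyIntegrable (fun x => (Mt f x).toReal) := by
    rw [locallyIntegrable_iff]
    intro K' hK'
    obtain ⟨R, hR⟩ := hK'.isBounded.subset_ball (0 : E d)
    refine IntegrableOn.mono_set ?_ hR
    exact integrable_toReal_of_lintegral_ne_top (Mt_meas f).aemeasurable (hball R).ne
  refine ⟨hae, hloc, fun φ hφ => ?_⟩
  have hi := dvg_integrable φ hφ
  -- (D)
  have hD : ∀ (N : ℤ) n, ENNReal.ofReal (∫ x, (V (rad N) (g n) x).toReal * dvg φ x) ≤ d * B := by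
    intro N n
    obtain ⟨c, hc, hcV⟩ := hVg n
    refine (var_bound_c hd0 (g n) c hc (fun k x => (hcV k x).1) ?_ (hVgM n) N φ hφ).trans ?_
    · intro ε hε
      have ht : Tendsto (fun m : ℕ => C1 * ENNReal.ofReal (rad (-(m : ℤ)) ^ (1 - (d : ℤ))) *
          ∫⁻ y, ‖G' n y‖ₑ) atTop (𝓝 (C1 * ENNReal.ofReal 0 * ∫⁻ y, ‖G' n y‖ₑ)) := by
        refine ENNReal.Tendsto.mul_const (ENNReal.Tendsto.const_mul
          (ENNReal.tendsto_ofReal ?_) (Or.inr ENNReal.coe_ne_top)) (Or.inr (hG'fin n).ne)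
        have e : ∀ m : ℕ, rad (-(m : ℤ)) ^ (1 - (d : ℤ)) =
            (3 : ℝ) ^ (-4 * (1 - (d : ℤ))) * ((3 : ℝ) ^ (1 - (d : ℤ))) ^ m := by
          intro m
          unfold rad
          rw [← zpow_natCast, ← zpow_mul, ← zpow_mul, ← zpow_add₀ (by norm_num)]
          congr 1
          ring
        simp_rw [e]
        rw [show (0 : ℝ) = (3 : ℝ) ^ (-4 * (1 - (d : ℤ))) * 0 by simp]
        refine Tendsto.const_mul _ (tendsto_pow_atTop_nhds_zero_of_lt_one (by positivity) ?_)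
        exact zpow_lt_one_of_neg₀ (by norm_num) (by omega)
      simp only [ENNReal.ofReal_zero, mul_zero, zero_mul] at ht
      obtain ⟨m, hm⟩ := (ht.eventually (gt_mem_nhds hε)).exists
      refine ⟨-(m : ℤ), fun x => (hcV _ x).2.trans ?_⟩
      gcongr
    · gcongr
      exact hA n
  have hVi : ∀ (w : E d → ℝ) (N : ℤ) (M : ℝ≥0), (∀ x, V (rad N) w x ≤ M) →
      Integrable fun x => (V (rad N) w x).toReal * dvg φ x := by
    intro w N M hM
    refine hi.bdd_mul (c := M) (V_meas _ _).ennreal_toReal.aestronglyMeasurable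
      (Eventually.of_forall fun x => ?_)
    rw [Real.norm_eq_abs, abs_of_nonneg ENNReal.toReal_nonneg]
    exact ENNReal.toReal_le_of_le_ofReal M.2 (by simpa using hM x)
  -- limit in n
  have hF : ∀ N : ℤ, ENNReal.ofReal (∫ x, (V (rad N) f x).toReal * dvg φ x) ≤ d * B := by
    intro N
    have t : Tendsto (fun n => ∫ x, (V (rad N) (g n) x).toReal * dvg φ x) atTop
        (𝓝 (∫ x, (V (rad N) f x).toReal * dvg φ x)) := by
      obtain ⟨M, hM⟩ := hVfM N
      -- a uniform bound for `V (g n)` for large `n`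
      have hδ : Tendsto (fun n => (∫⁻ y, ‖fn n y - f y‖ₑ) / volume (ball (0 : E d) (rad N)) +
          ENNReal.ofReal (1 / ((n : ℝ) + 1))) atTop (𝓝 0) := by
        have hv : volume (ball (0 : E d) (rad N)) ≠ 0 :=
          (measure_ball_pos volume 0 (rad_pos' N)).ne'
        have := (ENNReal.Tendsto.div_const hh0 (Or.inr hv)).add hε0
        simpa using this
      refine tendsto_integral_filter_of_dominated_convergence
        (fun x => (M + 1 : ℝ) * ‖dvg φ x‖) ?_ ?_ ?_ ?_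
      · exact Eventually.of_forall fun n =>
          ((V_meas _ _).ennreal_toReal.mul (dvg_continuous φ hφ).measurable).aestronglyMeasurable
      · filter_upwards [hδ.eventually (gt_mem_nhds one_pos)] with n hn
        refine Eventually.of_forall fun x => ?_
        rw [norm_mul]
        gcongr
        rw [Real.norm_eq_abs, abs_of_nonneg ENNReal.toReal_nonneg]
        refine ENNReal.toReal_le_of_le_ofReal (by positivity) ?_
        refine (V_pert_le f (g n) (fun y => fn n y - f y) hfm _ (c1 n) (rad N) (rad_pos' N) x).trans ?_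
        rw [ENNReal.ofReal_add (by positivity) zero_le_one]
        refine add_le_add ?_ ?_
        · simpa using hM x
        · simpa using hn.le
      · exact hi.norm.const_mul _
      · exact Eventually.of_forall fun x =>
          ((ENNReal.tendsto_toReal (hVffin N x).ne).comp (hVt N x)).mul_const _
    exact le_of_tendsto (ENNReal.tendsto_ofReal t) (Eventually.of_forall fun n => hD N n)
  -- limit in N
  have t2 : Tendsto (fun N : ℕ => ∫ x, (V (rad (N : ℤ)) f x).toReal * dvg φ x) atTop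
      (𝓝 (∫ x, (Mt f x).toReal * dvg φ x)) := by
    refine tendsto_integral_of_dominated_convergence
      (fun x => ‖(Mt f x).toReal * dvg φ x‖) ?_ ?_ ?_ ?_
    · exact fun N =>
        ((V_meas _ _).ennreal_toReal.mul (dvg_continuous φ hφ).measurable).aestronglyMeasurable
    · have := hloc.integrable_smul_left_of_hasCompactSupport (dvg_continuous φ hφ) (dvg_supp φ hφ)
      simpa [smul_eq_mul, mul_comm] using this.norm
    · intro N
      filter_upwards [hae] with x hx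
      rw [norm_mul, norm_mul]
      gcongr
      rw [Real.norm_eq_abs, Real.norm_eq_abs, abs_of_nonneg ENNReal.toReal_nonneg,
        abs_of_nonneg ENNReal.toReal_nonneg]
      exact ENNReal.toReal_mono hx.ne (V_le_Mt f _ x)
    · filter_upwards [hae] with x hx
      refine Tendsto.mul_const _ ((ENNReal.tendsto_toReal hx.ne).comp ?_)
      rw [Mt_eq_iSup]
      refine tendsto_atTop_iSup fun a b hab => V_anti f x (rad_anti (by exact_mod_cast hab))
  have hfinal := le_of_tendsto (ENNReal.tendsto_ofReal t2) (Eventually.of_forall fun N => hF N)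
  refine hfinal.trans (le_of_eq ?_)
  rw [hB]
  push_cast
  ring

end P137
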