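import Vale.Agent.P137.MaxBasic

/-!
# P137: the truncated maximal function is Lipschitz and tends to zero at infinity
-/

open MeasureTheory Metric Set Filter Topology
open scoped ENNReal ContDiff NNReal

namespace P137

namespace Lip

theorem vol_ball {d : ℕ} (c : E d) {s : ℝ} (hs : 0 < s) :
    volume (ball c s) = ENNReal.ofReal (s ^ d) * volume (ball (0 : E d) 1) := by
  rw [Measure.addHaar_ball_of_pos volume c hs]
  simp

/-- bound of `V` -/
noncomputable def M {d : ℕ} (f : E d → ℝ) (η : ℝ) : ℝ≥0∞ :=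
  (∫⁻ y, ‖f y‖ₑ) / volume (ball (0 : E d) η)

theorem M_lt_top {d : ℕ} (f : E d → ℝ) (hf : Integrable f) {η : ℝ} (hη : 0 < η) :
    M f η < ⊤ := ENNReal.div_lt_top hf.2.ne (measure_ball_pos volume _ hη).ne'

theorem avg_lt_top {d : ℕ} (f : E d → ℝ) (hf : Integrable f) (c : E d) {η r : ℝ} (hη : 0 < η)
    (hr : η ≤ r) : avg f c r < ⊤ := (avg_le f c r η hη hr).trans_lt (M_lt_top f hf hη)

/-- comparison of the averages over concentric balls -/
theorem avg_comp {d : ℕ} (f : E d → ℝ) (hf : Integrable f) (c : E d) {η r δ : ℝ} (hη : 0 < η)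
    (hr : η ≤ r) (hδ : 0 ≤ δ) :
    (avg f c r).toReal ≤ (avg f c (r + δ)).toReal + d * δ / η * (M f η).toReal := by
  have hr0 : 0 < r := hη.trans_le hr
  have hrd : 0 < r + δ := by linarith
  obtain ⟨v, hv⟩ : ∃ v : ℝ, v = (volume (ball (0 : E d) 1)).toReal := ⟨_, rfl⟩
  have hv0 : 0 < v := by
    rw [hv]
    exact ENNReal.toReal_pos (measure_ball_pos volume _ one_pos).ne' measure_ball_lt_top.ne
  have hA : ∀ s : ℝ, 0 < s → (avg f c s).toReal =
      (∫⁻ y in ball c s, ‖f y‖ₑ).toReal / (s ^ d * v) := by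
    intro s hs
    rw [avg, ENNReal.toReal_div, vol_ball c hs, ENNReal.toReal_mul,
      ENNReal.toReal_ofReal (by positivity), hv]
  have hI : (∫⁻ y in ball c r, ‖f y‖ₑ).toReal ≤ (∫⁻ y in ball c (r + δ), ‖f y‖ₑ).toReal := by
    refine ENNReal.toReal_mono ?_ (lintegral_mono_set (ball_subset_ball (by linarith)))
    exact ((setLIntegral_le_lintegral _ _).trans_lt hf.2).ne
  have hMr : (avg f c r).toReal ≤ (M f η).toReal :=
    ENNReal.toReal_mono (M_lt_top f hf hη).ne (avg_le f c r η hη hr)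
  have h1 : (avg f c r).toReal * (r / (r + δ)) ^ d ≤ (avg f c (r + δ)).toReal := by
    rw [hA r hr0, hA (r + δ) hrd, div_pow, div_mul_div_comm, div_le_div_iff₀ (by positivity)
      (by positivity)]
    calc (∫⁻ y in ball c r, ‖f y‖ₑ).toReal * r ^ d * ((r + δ) ^ d * v)
        ≤ (∫⁻ y in ball c (r + δ), ‖f y‖ₑ).toReal * r ^ d * ((r + δ) ^ d * v) := by gcongr
      _ = _ := by ring
  have h2 : 1 - d * δ / η ≤ (r / (r + δ)) ^ d := by
    have e : r / (r + δ) = 1 + -(δ / (r + δ)) := by field_simp; ring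
    have hle : δ / (r + δ) ≤ 1 := by rw [div_le_one hrd]; linarith
    have h3 := one_add_mul_le_pow (a := -(δ / (r + δ))) (by linarith) d
    rw [← e] at h3
    have h4 : (d : ℝ) * (δ / (r + δ)) ≤ d * δ / η := by
      rw [mul_div_assoc]
      exact mul_le_mul_of_nonneg_left (div_le_div_of_nonneg_left hδ hη (by linarith))
        (Nat.cast_nonneg d)
    linarith
  have h0 : 0 ≤ (avg f c r).toReal := ENNReal.toReal_nonneg
  have h5 := mul_le_mul_of_nonneg_left h2 h0
  have h6 : (avg f c r).toReal * (d * δ / η) ≤ d * δ / η * (M f η).toReal := by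
    rw [mul_comm]
    exact mul_le_mul_of_nonneg_left hMr (by positivity)
  nlinarith

theorem V_le_add {d : ℕ} (f : E d → ℝ) (hf : Integrable f) (η : ℝ) (hη : 0 < η) (x y : E d) :
    (V η f x).toReal ≤ (V η f y).toReal + d * dist x y / η * (M f η).toReal := by
  have h0 : 0 ≤ (V η f y).toReal + d * dist x y / η * (M f η).toReal := by positivity
  have h1 : V η f x ≤ ENNReal.ofReal ((V η f y).toReal + d * dist x y / η * (M f η).toReal) := by
    refine V_le_of fun c r hr hx => ?_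
    rw [← ENNReal.ofReal_toReal (avg_lt_top f hf c hη hr).ne]
    refine ENNReal.ofReal_le_ofReal ?_
    refine (avg_comp f hf c hη hr (dist_nonneg (x := x) (y := y))).trans ?_
    have h2 : avg f c (r + dist x y) ≤ V η f y := by
      refine avg_le_V f c y _ η (by linarith [dist_nonneg (x := x) (y := y)]) ?_
      rw [mem_ball] at hx ⊢
      have := dist_triangle y x c
      rw [dist_comm y x] at this
      linarith
    have h3 := ENNReal.toReal_mono (V_lt_top f hf η hη y).ne h2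
    linarith
  have h2 := ENNReal.toReal_mono ENNReal.ofReal_ne_top h1
  rwa [ENNReal.toReal_ofReal h0] at h2

end Lip

theorem V_lip {d : ℕ} (f : E d → ℝ) (hf : Integrable f) (η : ℝ) (hη : 0 < η) :
    ∃ L : ℝ≥0, LipschitzWith L fun x => (V η f x).toReal := by
  refine ⟨Real.toNNReal (d / η * (Lip.M f η).toReal), ?_⟩
  refine LipschitzWith.of_le_add_mul _ fun x y => ?_
  have h := Lip.V_le_add f hf η hη x y
  rw [Real.coe_toNNReal _ (by positivity)]
  calc (V η f x).toReal ≤ _ := h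
    _ = _ := by ring

theorem V_decay {d : ℕ} (hd : 0 < d) (f : E d → ℝ) (hf : Integrable f) (η : ℝ) (hη : 0 < η) :
    Tendsto (fun x => (V η f x).toReal) (cocompact (E d)) (𝓝 0) := by
  rw [Metric.tendsto_nhds]
  intro ε hε
  -- large balls
  obtain ⟨v, hv⟩ : ∃ v : ℝ≥0∞, v = volume (ball (0 : E d) 1) := ⟨_, rfl⟩
  have hv0 : v ≠ 0 := by rw [hv]; exact (measure_ball_pos volume _ one_pos).ne'
  have hvt : v ≠ ⊤ := by rw [hv]; exact measure_ball_lt_top.ne
  have hlim : Tendsto (fun ρ : ℝ => Lip.M f ρ) atTop (𝓝 0) := by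
    have h1 : Tendsto (fun ρ : ℝ => (∫⁻ y, ‖f y‖ₑ) / (ENNReal.ofReal (ρ ^ d) * v)) atTop
        (𝓝 0) := by
      have h2 : Tendsto (fun ρ : ℝ => ENNReal.ofReal (ρ ^ d) * v) atTop (𝓝 ⊤) := by
        have h3 : Tendsto (fun ρ : ℝ => ENNReal.ofReal (ρ ^ d)) atTop (𝓝 ⊤) :=
          ENNReal.tendsto_ofReal_atTop.comp (tendsto_pow_atTop hd.ne')
        have h4 := ENNReal.Tendsto.mul_const (b := v) h3 (Or.inl ENNReal.top_ne_zero)
        rwa [ENNReal.top_mul hv0] at h4
      have h5 := ENNReal.Tendsto.const_div (a := ∫⁻ y, ‖f y‖ₑ) h2 (Or.inr hf.2.ne)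
      simpa using h5
    refine h1.congr' ?_
    filter_upwards [eventually_gt_atTop 0] with ρ hρ
    rw [Lip.M, Lip.vol_ball 0 hρ, hv]
  have hε' : (0 : ℝ≥0∞) < ENNReal.ofReal (ε / 2) := ENNReal.ofReal_pos.2 (by linarith)
  obtain ⟨ρ, hρη, hρ⟩ : ∃ ρ : ℝ, η ≤ ρ ∧ Lip.M f ρ ≤ ENNReal.ofReal (ε / 2) := by
    obtain ⟨ρ, h1, h2⟩ := ((eventually_ge_atTop η).and (hlim.eventually (gt_mem_nhds hε'))).exists
    exact ⟨ρ, h1, h2.le⟩
  -- tails
  have htail : Tendsto (fun n : ℕ => ∫⁻ y in (ball (0 : E d) n)ᶜ, ‖f y‖ₑ) atTop (𝓝 0) := by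
    have h1 := tendsto_setIntegral_of_antitone (μ := (volume : Measure (E d)))
      (f := fun y => ‖f y‖) (s := fun n : ℕ => (ball (0 : E d) (n : ℝ))ᶜ)
      (fun n => measurableSet_ball.compl)
      (fun m n h => compl_subset_compl.2 (ball_subset_ball (by exact_mod_cast h)))
      ⟨0, hf.norm.integrableOn⟩
    have h2 : (⋂ n : ℕ, (ball (0 : E d) (n : ℝ))ᶜ) = ∅ := by
      rw [← compl_iUnion, iUnion_ball_nat, compl_univ]
    rw [h2, setIntegral_empty] at h1
    have h3 := ENNReal.tendsto_ofReal h1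
    rw [ENNReal.ofReal_zero] at h3
    refine h3.congr fun n => ?_
    rw [ofReal_integral_norm_eq_lintegral_enorm hf.integrableOn]
  have hvη0 : volume (ball (0 : E d) η) ≠ 0 := (measure_ball_pos volume _ hη).ne'
  have hvηt : volume (ball (0 : E d) η) ≠ ⊤ := measure_ball_lt_top.ne
  obtain ⟨n, hn⟩ : ∃ n : ℕ, (∫⁻ y in (ball (0 : E d) n)ᶜ, ‖f y‖ₑ) ≤
      ENNReal.ofReal (ε / 2) * volume (ball (0 : E d) η) := by
    have h1 : (0 : ℝ≥0∞) < ENNReal.ofReal (ε / 2) * volume (ball (0 : E d) η) :=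
      ENNReal.mul_pos hε'.ne' hvη0
    obtain ⟨n, h2⟩ := (htail.eventually (gt_mem_nhds h1)).exists
    exact ⟨n, h2.le⟩
  -- outside of a large ball
  have hev : ∀ᶠ x in cocompact (E d), x ∉ closedBall (0 : E d) (n + 2 * ρ) :=
    (isCompact_closedBall (0 : E d) (n + 2 * ρ)).compl_mem_cocompact
  filter_upwards [hev] with x hx
  rw [mem_closedBall, not_le, dist_zero_right] at hx
  have hV : V η f x ≤ ENNReal.ofReal (ε / 2) := by
    refine V_le_of fun c r hr hxc => ?_
    rcases le_total ρ r with h | h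
    · exact (avg_le f c r ρ (hη.trans_le hρη) h).trans hρ
    · have hsub : ball c r ⊆ (ball (0 : E d) n)ᶜ := by
        intro y hy hy'
        rw [mem_ball] at hy hxc
        rw [mem_ball, dist_zero_right] at hy'
        have h1 : dist x y ≤ dist x c + dist c y := dist_triangle x c y
        rw [dist_comm c y] at h1
        have h2 : ‖x‖ ≤ dist x y + ‖y‖ := by
          have := norm_sub_norm_le x y
          rw [dist_eq_norm]; linarith
        linarith
      unfold avg
      refine ENNReal.div_le_of_le_mul ?_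
      refine (lintegral_mono_set hsub).trans (hn.trans ?_)
      refine mul_le_mul_right ?_ _
      rw [Measure.addHaar_ball_center volume c r]
      exact measure_mono (ball_subset_ball hr)
  rw [Real.dist_eq, sub_zero, abs_of_nonneg ENNReal.toReal_nonneg]
  have h1 := ENNReal.toReal_mono ENNReal.ofReal_ne_top hV
  rw [ENNReal.toReal_ofReal (by linarith)] at h1
  linarith

end P137
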