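import Vale.Agent.P137.CellBoundH
import Vale.Agent.P137.MaxLip

/-!
# P137: the truncated maximal function of a `C^1` function with integrable gradient, `d ≥ 2`

`V η g` is finite, and `c ≤ V η g x ≤ c + C η^(1-d) ∫ |∇g|` with a constant `c` independent of
`x` and `η`.
-/

open MeasureTheory Metric Set Filter Topology
open scoped ENNReal ContDiff NNReal

namespace P137

namespace BV1

variable {d : ℕ} {g : E d → ℝ} {G : E d → E d}

/-- the volume of the unit ball -/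
noncomputable def b1 (d : ℕ) : ℝ := bv (volume : Measure (E d)) 1

lemma b1_pos : 0 < b1 d := bv_pos one_pos

/-- real average -/
noncomputable def av (g : E d → ℝ) (c : E d) (r : ℝ) : ℝ := ⨍ y in ball c r, g y

/-- the error of one step -/
noncomputable def DD (G : E d → E d) (ρ : ℝ) : ℝ := 6 * (ρ / ρ ^ d) * ((∫ y, ‖G y‖) / b1 d)

lemma DD_nonneg {ρ : ℝ} (hρ : 0 < ρ) : 0 ≤ DD G ρ := by
  unfold DD
  have := b1_pos (d := d)
  have h2 : 0 ≤ ∫ y, ‖G y‖ := integral_nonneg fun _ => norm_nonneg _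
  positivity

lemma ratio_anti (hd : 1 ≤ d) {ρ r : ℝ} (hρ : 0 < ρ) (h : ρ ≤ r) : r / r ^ d ≤ ρ / ρ ^ d := by
  obtain ⟨m, rfl⟩ : ∃ m, d = m + 1 := ⟨d - 1, by omega⟩
  have hr : 0 < r := hρ.trans_le h
  have e1 : ∀ t : ℝ, 0 < t → t / t ^ (m + 1) = (t ^ m)⁻¹ := by
    intro t ht
    rw [pow_succ]
    field_simp
  rw [e1 r hr, e1 ρ hρ]
  exact inv_anti₀ (by positivity) (by gcongr)

lemma DD_anti (hd : 1 ≤ d) {ρ r : ℝ} (hρ : 0 < ρ) (h : ρ ≤ r) : DD G r ≤ DD G ρ := by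
  unfold DD
  have := b1_pos (d := d)
  have h2 : 0 ≤ ∫ y, ‖G y‖ := integral_nonneg fun _ => norm_nonneg _
  have h3 := ratio_anti hd hρ h
  gcongr

lemma DD_three (hd : 2 ≤ d) {ρ : ℝ} (hρ : 0 < ρ) : DD G (3 * ρ) ≤ DD G ρ / 3 := by
  unfold DD
  have := b1_pos (d := d)
  have h2 : 0 ≤ ∫ y, ‖G y‖ := integral_nonneg fun _ => norm_nonneg _
  have h3 : 3 * ρ / (3 * ρ) ^ d ≤ (ρ / ρ ^ d) / 3 := by
    obtain ⟨m, rfl⟩ : ∃ m, d = m + 2 := ⟨d - 2, by omega⟩
    have e1 : 3 * ρ / (3 * ρ) ^ (m + 2) = (ρ / ρ ^ (m + 2)) / 3 * (1 / 3 ^ m) := by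
      rw [mul_pow, pow_add 3 m 2]
      field_simp
    rw [e1]
    have : (1 : ℝ) / 3 ^ m ≤ 1 := by
      rw [div_le_one (by positivity)]
      exact one_le_pow₀ (by norm_num)
    exact mul_le_of_le_one_right (by positivity) this
  calc 6 * (3 * ρ / (3 * ρ) ^ d) * ((∫ y, ‖G y‖) / b1 d)
      ≤ 6 * ((ρ / ρ ^ d) / 3) * ((∫ y, ‖G y‖) / b1 d) := by gcongr
    _ = 6 * (ρ / ρ ^ d) * ((∫ y, ‖G y‖) / b1 d) / 3 := by ring

/-- one step -/
lemma av_step (hN : NiceH g G) {x c e : E d} {ρ : ℝ} (hρ : 0 < ρ) (hc : ‖c - x‖ ≤ ρ)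
    (he : ‖e‖ = 1) : |av g (x + (3 * ρ) • e) (3 * ρ) - av g c ρ| ≤ DD G ρ := by
  unfold av
  rw [competitor hρ hc he hN.smooth, ← Real.norm_eq_abs]
  have h1 : ‖∫ y, fderiv ℝ g y (Ker volume x c e ρ y)‖ ≤
      ∫ y, 6 * ρ * (bv (volume : Measure (E d)) ρ)⁻¹ * ‖G y‖ := by
    apply norm_integral_le_of_norm_le (hN.intG.norm.const_mul _)
    filter_upwards with y
    rw [hN.grad]
    calc ‖inner ℝ (G y) (Ker volume x c e ρ y)‖ ≤ ‖G y‖ * ‖Ker volume x c e ρ y‖ :=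
          norm_inner_le_norm _ _
      _ ≤ ‖G y‖ * (6 * ρ * (bv (volume : Measure (E d)) ρ)⁻¹) := by
          gcongr
          exact Ker_norm_le hρ hc he
      _ = _ := by ring
  refine h1.trans (le_of_eq ?_)
  rw [integral_const_mul, bv_mul hρ]
  unfold DD b1
  have hfr : Module.finrank ℝ (E d) = d := by simp
  rw [hfr]
  have := bv_pos (μ := (volume : Measure (E d))) one_pos
  field_simp

/-- a unit vector -/
lemma exists_unit (hd : 1 ≤ d) : ∃ e : E d, ‖e‖ = 1 :=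
  ⟨EuclideanSpace.single ⟨0, hd⟩ 1, by simp⟩

/-- chain of competitors -/
lemma av_chain (hd : 2 ≤ d) (hN : NiceH g G) (x : E d) (j : ℕ) : ∀ (c : E d) (ρ : ℝ), 0 < ρ →
    ‖c - x‖ ≤ ρ → ∃ c' : E d, ‖c' - x‖ ≤ 3 ^ j * ρ ∧
      |av g c' (3 ^ j * ρ) - av g c ρ| ≤ 3 / 2 * DD G ρ := by
  obtain ⟨e, he⟩ := exists_unit (d := d) (by omega)
  induction j with
  | zero =>
    intro c ρ hρ hc
    refine ⟨c, by simpa using hc, ?_⟩
    have := DD_nonneg (G := G) hρ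
    simp only [pow_zero, one_mul, sub_self, abs_zero]
    positivity
  | succ j ih =>
    intro c ρ hρ hc
    have h3 : 0 < 3 * ρ := by positivity
    obtain ⟨c', h1, h2⟩ := ih (x + (3 * ρ) • e) (3 * ρ) h3 (by
      rw [add_sub_cancel_left, norm_smul, he, Real.norm_of_nonneg h3.le, mul_one])
    have e1 : (3 : ℝ) ^ (j + 1) * ρ = 3 ^ j * (3 * ρ) := by ring
    refine ⟨c', by rw [e1]; exact h1, ?_⟩
    rw [e1]
    have h4 := av_step hN hρ hc he
    have h5 := DD_three (G := G) hd hρ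
    calc |av g c' (3 ^ j * (3 * ρ)) - av g c ρ|
        ≤ |av g c' (3 ^ j * (3 * ρ)) - av g (x + (3 * ρ) • e) (3 * ρ)| +
          |av g (x + (3 * ρ) • e) (3 * ρ) - av g c ρ| := abs_sub_le _ _ _
      _ ≤ 3 / 2 * DD G (3 * ρ) + DD G ρ := add_le_add h2 h4
      _ ≤ 3 / 2 * DD G ρ := by linarith

/-- two balls of the same radius -/
lemma av_same (hd : 1 ≤ d) (hN : NiceH g G) {x c c' : E d} {ρ : ℝ} (hρ : 0 < ρ)
    (hc : ‖c - x‖ ≤ ρ) (hc' : ‖c' - x‖ ≤ ρ) : |av g c ρ - av g c' ρ| ≤ 2 * DD G ρ := by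
  obtain ⟨e, he⟩ := exists_unit (d := d) hd
  have h1 := abs_le.1 (av_step hN hρ hc he)
  have h2 := abs_le.1 (av_step hN hρ hc' he)
  rw [abs_le]
  constructor <;> linarith [h1.1, h1.2, h2.1, h2.2]

lemma avg_eq (hN : NiceH g G) (h0 : ∀ y, 0 ≤ g y) (c : E d) {r : ℝ} (hr : 0 < r) :
    avg g c r = ENNReal.ofReal (av g c r) :=
  CellB.avg_eq_loc g hN.smooth.continuous h0 c r hr

lemma av_nonneg (h0 : ∀ y, 0 ≤ g y) (c : E d) (r : ℝ) : 0 ≤ av g c r := by
  unfold av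
  rw [setAverage_eq, smul_eq_mul]
  apply mul_nonneg (inv_nonneg.2 measureReal_nonneg)
  exact integral_nonneg fun y => h0 y

/-- volumes -/
lemma avg_ratio (f : E d → ℝ) {c c' : E d} {r r' : ℝ} (hr : 0 < r) (hr' : 0 < r')
    (hsub : ball c r ⊆ ball c' r') :
    avg f c r ≤ ENNReal.ofReal ((r' / r) ^ d) * avg f c' r' := by
  unfold avg
  rw [Lip.vol_ball c hr, Lip.vol_ball c' hr']
  have hv : volume (ball (0 : E d) 1) ≠ 0 := (measure_ball_pos volume _ one_pos).ne'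
  have hvt : volume (ball (0 : E d) 1) ≠ ⊤ := measure_ball_lt_top.ne
  have h1 : (∫⁻ y in ball c r, ‖f y‖ₑ) ≤ ∫⁻ y in ball c' r', ‖f y‖ₑ :=
    lintegral_mono_set hsub
  set I := ∫⁻ y in ball c' r', ‖f y‖ₑ
  rw [ENNReal.div_le_iff (by
      apply mul_ne_zero _ hv
      simpa using pow_pos hr d) (ENNReal.mul_ne_top ENNReal.ofReal_ne_top hvt)]
  refine h1.trans (le_of_eq ?_)
  have hp' : ENNReal.ofReal (r' ^ d) * volume (ball (0 : E d) 1) ≠ 0 := by
    apply mul_ne_zero _ hv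
    simpa using pow_pos hr' d
  have hpt' : ENNReal.ofReal (r' ^ d) * volume (ball (0 : E d) 1) ≠ ⊤ :=
    ENNReal.mul_ne_top ENNReal.ofReal_ne_top hvt
  have e1 : ENNReal.ofReal ((r' / r) ^ d) * (ENNReal.ofReal (r ^ d)) = ENNReal.ofReal (r' ^ d) := by
    rw [← ENNReal.ofReal_mul (by positivity)]
    congr 1
    rw [div_pow]
    field_simp
  calc I = I / (ENNReal.ofReal (r' ^ d) * volume (ball (0 : E d) 1)) *
        (ENNReal.ofReal (r' ^ d) * volume (ball (0 : E d) 1)) :=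
        (ENNReal.div_mul_cancel hp' hpt').symm
    _ = _ := by
        nth_rw 2 [← e1]
        ring

/-- a competitor ball whose closure contains `x`, for arbitrary `f` -/
theorem avg_le_V_of_closedBall' (f : E d → ℝ) {c x : E d} {r η : ℝ}
    (hη : 0 < η) (hr : η ≤ r) (hx : x ∈ closedBall c r) : avg f c r ≤ V η f x := by
  rcases eq_or_ne (V η f x) ⊤ with htop | hVt
  · rw [htop]; exact le_top
  have hr0 : 0 < r := hη.trans_le hr
  have h1 : ∀ δ : ℝ, 0 < δ → avg f c r ≤ ENNReal.ofReal (((r + δ) / r) ^ d) * V η f x := by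
    intro δ hδ
    refine (avg_ratio f (c' := c) (r' := r + δ) hr0 (by linarith)
      (ball_subset_ball (by linarith))).trans ?_
    gcongr
    apply avg_le_V f c x (r + δ) η (by linarith)
    rw [mem_ball]
    rw [mem_closedBall] at hx
    linarith
  have hlim : Tendsto (fun δ : ℝ => ENNReal.ofReal (((r + δ) / r) ^ d) * V η f x) (𝓝[>] 0)
      (𝓝 (ENNReal.ofReal (((r + 0) / r) ^ d) * V η f x)) := by
    refine ENNReal.Tendsto.mul_const ?_ (Or.inr hVt)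
    refine ENNReal.tendsto_ofReal ?_
    have : Continuous fun δ : ℝ => ((r + δ) / r) ^ d := by fun_prop
    exact (this.tendsto 0).mono_left nhdsWithin_le_nhds
  rw [add_zero, div_self hr0.ne', one_pow, ENNReal.ofReal_one, one_mul] at hlim
  exact ge_of_tendsto hlim (by filter_upwards [self_mem_nhdsWithin] with δ hδ using h1 δ hδ)

/-- `V η ≤ V R + error` -/
lemma V_le_V_add (hd : 2 ≤ d) (hN : NiceH g G) (h0 : ∀ y, 0 ≤ g y) {η R : ℝ} (hη : 0 < η)
    (hR : 0 < R) (x : E d) : V η g x ≤ V R g x + ENNReal.ofReal (3 / 2 * DD G η) := by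
  apply V_le_of
  intro c r hr hx
  have hr0 : 0 < r := hη.trans_le hr
  have hcx : ‖c - x‖ ≤ r := by
    rw [mem_ball, dist_comm, dist_eq_norm] at hx
    exact hx.le
  obtain ⟨j, hj⟩ : ∃ j : ℕ, R ≤ 3 ^ j * r := by
    obtain ⟨j, hj⟩ := pow_unbounded_of_one_lt (R / r) (show (1 : ℝ) < 3 by norm_num)
    refine ⟨j, ?_⟩
    rw [div_lt_iff₀ hr0] at hj
    exact hj.le
  obtain ⟨c', h1, h2⟩ := av_chain hd hN x j c r hr0 hcx
  have h3 : 0 < 3 ^ j * r := by positivity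
  have h4 : avg g c' (3 ^ j * r) ≤ V R g x := by
    apply avg_le_V_of_closedBall' g hR hj
    rw [mem_closedBall, dist_comm, dist_eq_norm]
    exact h1
  have h5 := (abs_le.1 h2).1
  have h6 := DD_anti (G := G) (by omega : 1 ≤ d) hη hr
  rw [avg_eq hN h0 c hr0]
  rw [avg_eq hN h0 c' h3] at h4
  calc ENNReal.ofReal (av g c r) ≤ ENNReal.ofReal (av g c' (3 ^ j * r) + 3 / 2 * DD G η) := by
        apply ENNReal.ofReal_le_ofReal
        linarith
    _ ≤ ENNReal.ofReal (av g c' (3 ^ j * r)) + ENNReal.ofReal (3 / 2 * DD G η) :=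
        ENNReal.ofReal_add_le
    _ ≤ _ := by gcongr

/-- `V` is finite -/
theorem V_lt_top' (hd : 2 ≤ d) (hN : NiceH g G) (h0 : ∀ y, 0 ≤ g y) {η : ℝ} (hη : 0 < η)
    (x : E d) : V η g x < ⊤ := by
  -- it is enough to bound `V 1`
  refine (V_le_V_add hd hN h0 hη one_pos x).trans_lt (ENNReal.add_lt_top.2 ⟨?_, ENNReal.ofReal_lt_top⟩)
  have hb : ∀ (c : E d) (r : ℝ), 1 ≤ r → x ∈ ball c r →
      avg g c r ≤ ENNReal.ofReal (3 ^ d) * ENNReal.ofReal (av g x 1 + 4 * DD G 1) := by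
    intro c r hr hx
    have hr0 : 0 < r := by linarith
    obtain ⟨m, hm1, hm2⟩ : ∃ m : ℕ, r ≤ 3 ^ m ∧ (3 : ℝ) ^ m ≤ 3 * r := by
      obtain ⟨m, h1, h2⟩ := exists_nat_pow_near hr (show (1 : ℝ) < 3 by norm_num)
      exact ⟨m + 1, h2.le, by rw [pow_succ]; linarith⟩
    have h3m : (0 : ℝ) < 3 ^ m := by positivity
    have h1m : (1 : ℝ) ≤ 3 ^ m := hr.trans hm1
    have hcx : ‖c - x‖ ≤ 3 ^ m := by
      rw [mem_ball, dist_comm, dist_eq_norm] at hx
      linarith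
    obtain ⟨c', h1, h2⟩ := av_chain hd hN x m x 1 one_pos (by simp)
    rw [mul_one] at h1 h2
    have h3 := (abs_le.1 (av_same (by omega) hN h3m hcx h1)).2
    have h4 := DD_anti (G := G) (by omega : 1 ≤ d) one_pos h1m
    have h5 := (abs_le.1 h2).2
    have h6 := DD_nonneg (G := G) one_pos
    refine (avg_ratio g (c' := c) (r' := 3 ^ m) hr0 h3m (ball_subset_ball hm1)).trans ?_
    rw [avg_eq hN h0 c h3m]
    gcongr
    · rw [div_le_iff₀ hr0]
      exact hm2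
    · linarith
  exact (V_le_of hb).trans_lt (ENNReal.mul_lt_top ENNReal.ofReal_lt_top ENNReal.ofReal_lt_top)

/-- comparison of two points -/
lemma V_point (f : E d → ℝ) {R : ℝ} (hR : 0 < R) (x y : E d) :
    V R f x ≤ ENNReal.ofReal ((1 + dist x y / R) ^ d) * V R f y := by
  apply V_le_of
  intro c r hr hx
  have hr0 : 0 < r := hR.trans_le hr
  have hdist : 0 ≤ dist x y := dist_nonneg
  refine (avg_ratio f (c' := c) (r' := r + dist x y) hr0 (by linarith)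
    (ball_subset_ball (by linarith))).trans ?_
  gcongr
  · rw [add_div, div_self hr0.ne']
    gcongr
  · apply avg_le_V f c y _ R (by linarith)
    rw [mem_ball] at hx ⊢
    have := dist_triangle y x c
    rw [dist_comm y x] at this
    linarith

lemma tendsto_factor (a : ℝ) :
    Tendsto (fun n : ℕ => ENNReal.ofReal ((1 + a / 3 ^ n) ^ d)) atTop (𝓝 1) := by
  have h1 : Tendsto (fun n : ℕ => a / (3 : ℝ) ^ n) atTop (𝓝 0) :=
    Tendsto.div_atTop tendsto_const_nhds (tendsto_pow_atTop_atTop_of_one_lt (by norm_num))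
  have h2 : Tendsto (fun n : ℕ => (1 + a / (3 : ℝ) ^ n) ^ d) atTop (𝓝 ((1 + 0) ^ d)) :=
    (h1.const_add 1).pow d
  rw [add_zero, one_pow] at h2
  have h3 := ENNReal.tendsto_ofReal h2
  rwa [ENNReal.ofReal_one] at h3

end BV1

open BV1 in
/-- **BV1** the truncated maximal functions differ from a constant by `C η^(1-d) ∫ |∇g|`. -/
theorem V_const (d : ℕ) (hd : 2 ≤ d) :
    ∃ C : ℝ≥0, ∀ (g : E d → ℝ) (G : E d → E d), NiceH g G → (∀ y, 0 ≤ g y) →
      ∃ c : ℝ≥0, ∀ (η : ℝ), 0 < η → ∀ x : E d, (c : ℝ≥0∞) ≤ V η g x ∧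
        V η g x ≤ c + C * ENNReal.ofReal (η / η ^ d) * ∫⁻ y, ‖G y‖ₑ := by
  refine ⟨Real.toNNReal (9 / b1 d), fun g G hN h0 => ?_⟩
  have hb := b1_pos (d := d)
  set c0 : ℝ≥0∞ := ⨅ n : ℕ, V ((3 : ℝ) ^ n) g 0 with hc0
  have hfin : c0 ≠ ⊤ := by
    refine ((iInf_le _ 0).trans_lt ?_).ne
    exact V_lt_top' hd hN h0 (by positivity) 0
  have hanti : Antitone fun n : ℕ => V ((3 : ℝ) ^ n) g (0 : E d) := by
    intro n m hnm
    exact V_anti g 0 (pow_le_pow_right₀ (by norm_num) hnm)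
  have hlim : Tendsto (fun n : ℕ => V ((3 : ℝ) ^ n) g (0 : E d)) atTop (𝓝 c0) :=
    tendsto_atTop_iInf hanti
  refine ⟨c0.toNNReal, fun η hη x => ⟨?_, ?_⟩⟩
  · rw [ENNReal.coe_toNNReal hfin]
    have hVx := V_lt_top' hd hN h0 hη x
    have h1 : ∀ᶠ n : ℕ in atTop, V ((3 : ℝ) ^ n) g (0 : E d) ≤
        ENNReal.ofReal ((1 + dist (0 : E d) x / 3 ^ n) ^ d) * V η g x := by
      obtain ⟨j, hj⟩ := pow_unbounded_of_one_lt η (show (1 : ℝ) < 3 by norm_num)
      filter_upwards [eventually_ge_atTop j] with n hn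
      refine (V_point g (by positivity : (0 : ℝ) < 3 ^ n) 0 x).trans ?_
      gcongr
      exact V_anti g x (hj.le.trans (pow_le_pow_right₀ (by norm_num) hn))
    have h2 : Tendsto (fun n : ℕ => ENNReal.ofReal ((1 + dist (0 : E d) x / 3 ^ n) ^ d) * V η g x)
        atTop (𝓝 (1 * V η g x)) :=
      ENNReal.Tendsto.mul_const (tendsto_factor _) (Or.inr hVx.ne)
    rw [one_mul] at h2
    exact le_of_tendsto_of_tendsto hlim h2 h1
  · rw [ENNReal.coe_toNNReal hfin]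
    have h1 : ∀ n : ℕ, V η g x ≤ ENNReal.ofReal ((1 + dist x (0 : E d) / 3 ^ n) ^ d) *
        V ((3 : ℝ) ^ n) g (0 : E d) + ENNReal.ofReal (3 / 2 * DD G η) := by
      intro n
      refine (V_le_V_add hd hN h0 hη (by positivity : (0 : ℝ) < 3 ^ n) x).trans ?_
      gcongr
      exact V_point g (by positivity) x 0
    have h2 : Tendsto (fun n : ℕ => ENNReal.ofReal ((1 + dist x (0 : E d) / 3 ^ n) ^ d) *
        V ((3 : ℝ) ^ n) g (0 : E d) + ENNReal.ofReal (3 / 2 * DD G η)) atTop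
        (𝓝 (1 * c0 + ENNReal.ofReal (3 / 2 * DD G η))) := by
      apply Tendsto.add_const
      exact ENNReal.Tendsto.mul (tendsto_factor _) (Or.inl one_ne_zero) hlim (Or.inr ENNReal.one_ne_top)
    rw [one_mul] at h2
    refine (ge_of_tendsto' h2 h1).trans ?_
    gcongr
    have h3 : ∫⁻ y, ‖G y‖ₑ = ENNReal.ofReal (∫ y, ‖G y‖) := by
      rw [ofReal_integral_norm_eq_lintegral_enorm hN.intG]
    rw [h3]
    have h4 : ((Real.toNNReal (9 / b1 d) : ℝ≥0) : ℝ≥0∞) = ENNReal.ofReal (9 / b1 d) := rfl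
    have h5 : 0 ≤ ∫ y, ‖G y‖ := integral_nonneg fun _ => norm_nonneg _
    rw [h4, ← ENNReal.ofReal_mul (by positivity), ← ENNReal.ofReal_mul (by positivity)]
    apply ENNReal.ofReal_le_ofReal
    unfold DD
    apply le_of_eq
    ring

end P137
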