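import Vale.Agent.P137.KInt

/-!
# P137: the competitor identity
-/

open MeasureTheory Set Metric
open scoped RealInnerProductSpace

set_option linter.unusedSectionVars false

namespace P137

variable {E : Type*} [NormedAddCommGroup E] [InnerProductSpace ℝ E]
  [MeasurableSpace E] [BorelSpace E] [FiniteDimensional ℝ E] {μ : Measure E} [μ.IsAddHaarMeasure]
variable {x c e : E} {ρ : ℝ}

/-- change of variables `y = a + r u` on balls -/
lemma ball_cov {F : Type*} [NormedAddCommGroup F] [NormedSpace ℝ F] (f : E → F) (a : E) {r : ℝ}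
    (hr : 0 < r) :
    ∫ u in ball (0 : E) 1, f (a + r • u) ∂μ =
      (r ^ Module.finrank ℝ E)⁻¹ • ∫ y in ball a r, f y ∂μ := by
  rw [← integral_indicator measurableSet_ball, ← integral_indicator measurableSet_ball]
  have h1 : (fun u => (ball (0 : E) 1).indicator (fun u => f (a + r • u)) u) =
      fun u => (fun v => (ball a r).indicator f (a + v)) (r • u) := by
    funext u
    have : u ∈ ball (0 : E) 1 ↔ a + r • u ∈ ball a r := by
      rw [mem_ball_zero_iff, mem_ball_iff_norm, add_sub_cancel_left, norm_smul,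
        Real.norm_of_nonneg hr.le]
      constructor
      · intro h; nlinarith
      · intro h; by_contra h2; push Not at h2; nlinarith
    by_cases hu : u ∈ ball (0 : E) 1
    · rw [indicator_of_mem hu]
      simp only
      rw [indicator_of_mem (this.1 hu)]
    · rw [indicator_of_notMem hu]
      simp only
      rw [indicator_of_notMem (fun h => hu (this.2 h))]
  rw [h1, Measure.integral_comp_smul μ (fun v => (ball a r).indicator f (a + v)) r,
    integral_add_left_eq_self (μ := μ) (fun v => (ball a r).indicator f v) a,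
    abs_of_nonneg (by positivity)]

lemma average_ball_eq (g : E → ℝ) (a : E) {r : ℝ} (hr : 0 < r) :
    ⨍ y in ball a r, g y ∂μ = (bv μ 1)⁻¹ * ∫ u in ball (0 : E) 1, g (a + r • u) ∂μ := by
  rw [ball_cov g a hr, setAverage_eq, Measure.addHaar_real_ball_center, smul_eq_mul, smul_eq_mul]
  have h1 : μ.real (ball (0 : E) r) = bv μ r := rfl
  rw [h1, bv_mul hr, mul_inv]
  ring

lemma hasDerivAt_path (u : E) (s : ℝ) :
    HasDerivAt (fun s => cs x c e ρ s + rs ρ s • u)
      ((x + (3 * ρ) • e - c) + (2 * ρ) • u) s := by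
  have h1 : HasDerivAt (fun s : ℝ => c + s • (x + (3 * ρ) • e - c) + (ρ • u + s • ((2 * ρ) • u)))
      ((x + (3 * ρ) • e - c) + (2 * ρ) • u) s := by
    have e1 : HasDerivAt (fun s : ℝ => c + s • (x + (3 * ρ) • e - c))
        (x + (3 * ρ) • e - c) s := by
      have := ((hasDerivAt_id s).smul_const (x + (3 * ρ) • e - c)).const_add c
      simpa using this
    have e2 : HasDerivAt (fun s : ℝ => ρ • u + s • ((2 * ρ) • u)) ((2 * ρ) • u) s := by
      have := ((hasDerivAt_id s).smul_const ((2 * ρ) • u)).const_add (ρ • u)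
      simpa using this
    exact e1.add e2
  refine h1.congr_of_eventuallyEq ?_
  filter_upwards with t
  unfold cs rs
  module

lemma ws_path (hρ : 0 < ρ) {s : ℝ} (hs : 0 ≤ s) (u : E) :
    ws x c e ρ s (cs x c e ρ s + rs ρ s • u) = (x + (3 * ρ) • e - c) + (2 * ρ) • u := by
  have hr := rs_pos hρ hs
  unfold ws
  rw [add_sub_cancel_left, smul_smul, div_mul_cancel₀ _ hr.ne']

lemma ftc_path {g : E → ℝ} (hg : ContDiff ℝ 1 g) (u : E) :
    g (x + (3 * ρ) • e + (3 * ρ) • u) - g (c + ρ • u) =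
      ∫ s in Ioc (0 : ℝ) 1, fderiv ℝ g (cs x c e ρ s + rs ρ s • u)
        ((x + (3 * ρ) • e - c) + (2 * ρ) • u) := by
  have hdc : Continuous (fderiv ℝ g) := hg.continuous_fderiv one_ne_zero
  have h1 : ∀ s ∈ uIcc (0 : ℝ) 1, HasDerivAt (fun s => g (cs x c e ρ s + rs ρ s • u))
      (fderiv ℝ g (cs x c e ρ s + rs ρ s • u) ((x + (3 * ρ) • e - c) + (2 * ρ) • u)) s := by
    intro s _
    have h2 := (hg.differentiable one_ne_zero (cs x c e ρ s + rs ρ s • u)).hasFDerivAt
    exact h2.comp_hasDerivAt s (hasDerivAt_path u s)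
  have h3 : IntervalIntegrable (fun s => fderiv ℝ g (cs x c e ρ s + rs ρ s • u)
      ((x + (3 * ρ) • e - c) + (2 * ρ) • u)) volume 0 1 := by
    apply Continuous.intervalIntegrable
    apply Continuous.clm_apply _ continuous_const
    apply hdc.comp
    unfold cs rs
    fun_prop
  rw [← intervalIntegral.integral_of_le zero_le_one,
    intervalIntegral.integral_eq_sub_of_hasDerivAt h1 h3]
  have e1 : cs x c e ρ 1 + rs ρ 1 • u = x + (3 * ρ) • e + (3 * ρ) • u := by
    unfold cs rs; module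
  have e0 : cs x c e ρ 0 + rs ρ 0 • u = c + ρ • u := by
    unfold cs rs; module
  rw [e1, e0]

lemma integrable_path {g : E → ℝ} (hg : ContDiff ℝ 1 g) :
    Integrable (Function.uncurry fun (u : E) (s : ℝ) =>
      fderiv ℝ g (cs x c e ρ s + rs ρ s • u) ((x + (3 * ρ) • e - c) + (2 * ρ) • u))
      ((μ.restrict (ball 0 1)).prod (volume.restrict (Ioc (0 : ℝ) 1))) := by
  have hdc : Continuous (fderiv ℝ g) := hg.continuous_fderiv one_ne_zero
  rw [Measure.prod_restrict]
  apply IntegrableOn.mono_set (t := closedBall 0 1 ×ˢ Icc 0 1) _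
    (prod_mono ball_subset_closedBall Ioc_subset_Icc_self)
  apply ContinuousOn.integrableOn_compact ((isCompact_closedBall 0 1).prod isCompact_Icc)
  apply Continuous.continuousOn
  apply Continuous.clm_apply
  · apply hdc.comp
    unfold cs rs
    fun_prop
  · fun_prop

lemma inner_path (hρ : 0 < ρ) {g : E → ℝ} {s : ℝ} (hs : s ∈ Ioc (0 : ℝ) 1) :
    (bv μ 1)⁻¹ * ∫ u in ball (0 : E) 1,
      fderiv ℝ g (cs x c e ρ s + rs ρ s • u) ((x + (3 * ρ) • e - c) + (2 * ρ) • u) ∂μ =
    ∫ y, fderiv ℝ g y (ph μ x c e ρ y s • ws x c e ρ s y) ∂μ := by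
  have hr := rs_pos hρ hs.1.le
  have h1 : ∫ u in ball (0 : E) 1,
      fderiv ℝ g (cs x c e ρ s + rs ρ s • u) ((x + (3 * ρ) • e - c) + (2 * ρ) • u) ∂μ =
      ∫ u in ball (0 : E) 1, (fun y => fderiv ℝ g y (ws x c e ρ s y))
        (cs x c e ρ s + rs ρ s • u) ∂μ := by
    congr 1
    funext u
    simp only
    rw [ws_path hρ hs.1.le u]
  rw [h1, ball_cov (fun y => fderiv ℝ g y (ws x c e ρ s y)) _ hr, smul_eq_mul, ← mul_assoc,
    ← mul_inv, mul_comm (bv μ 1), ← bv_mul hr, ← integral_indicator measurableSet_ball,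
    ← integral_const_mul]
  congr 1
  funext y
  unfold ph
  by_cases hy : y ∈ ball (cs x c e ρ s) (rs ρ s)
  · rw [indicator_of_mem hy, indicator_of_mem hy, map_smul, smul_eq_mul]
  · rw [indicator_of_notMem hy, indicator_of_notMem hy, zero_smul, map_zero, mul_zero]

lemma norm_fderiv_ph_le (hρ : 0 < ρ) (hc : ‖c - x‖ ≤ ρ) (he : ‖e‖ = 1) (L : E →L[ℝ] ℝ) {s : ℝ}
    (hs : 0 ≤ s) (y : E) :
    ‖L (ph μ x c e ρ y s • ws x c e ρ s y)‖ ≤ (bv μ ρ)⁻¹ * (6 * ρ) * ‖L‖ := by
  calc ‖L (ph μ x c e ρ y s • ws x c e ρ s y)‖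
      ≤ ‖L‖ * ‖ph μ x c e ρ y s • ws x c e ρ s y‖ :=
        ContinuousLinearMap.le_opNorm _ _
    _ ≤ ‖L‖ * ((bv μ ρ)⁻¹ * (6 * ρ)) := by
        apply mul_le_mul_of_nonneg_left _ (norm_nonneg _)
        refine (norm_ph_smul_le hρ hc he hs).trans ?_
        apply mul_le_mul_of_nonneg_right (ph_le hρ hs) (by positivity)
    _ = (bv μ ρ)⁻¹ * (6 * ρ) * ‖L‖ := by ring

lemma measurable_ph' : Measurable fun p : ℝ × E => ph μ x c e ρ p.2 p.1 :=
  measurable_ph.comp measurable_swap

lemma measurable_ws' : Measurable fun p : ℝ × E => ws x c e ρ p.1 p.2 :=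
  measurable_ws.comp measurable_swap

lemma measurable_ph_smul_ws :
    Measurable fun p : ℝ × E => ph μ x c e ρ p.2 p.1 • ws x c e ρ p.1 p.2 :=
  measurable_ph'.smul measurable_ws'

lemma measurable_inner_integrand {G : E → E} (hG : Measurable G) :
    Measurable (fun p : ℝ × E =>
      ⟪G p.2, ph μ x c e ρ p.2 p.1 • ws x c e ρ p.1 p.2⟫) := by
  have h4 : Measurable fun p : ℝ × E => G p.2 := hG.comp measurable_snd
  exact h4.inner measurable_ph_smul_ws

lemma measurable_integrand {g : E → ℝ} (hg : ContDiff ℝ 1 g) :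
    Measurable (fun p : ℝ × E =>
      fderiv ℝ g p.2 (ph μ x c e ρ p.2 p.1 • ws x c e ρ p.1 p.2)) := by
  have hdc : Continuous (fderiv ℝ g) := hg.continuous_fderiv one_ne_zero
  have h1 : Continuous (fun y => (InnerProductSpace.toDual ℝ E).symm (fderiv ℝ g y)) :=
    (InnerProductSpace.toDual ℝ E).symm.continuous.comp hdc
  have h2 := measurable_inner_integrand (μ := μ) (x := x) (c := c) (e := e) (ρ := ρ) h1.measurable
  simpa only [InnerProductSpace.toDual_symm_apply] using h2

lemma integrable_integrand (hρ : 0 < ρ) (hc : ‖c - x‖ ≤ ρ) (he : ‖e‖ = 1) {g : E → ℝ}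
    (hg : ContDiff ℝ 1 g) :
    Integrable (fun p : ℝ × E =>
      fderiv ℝ g p.2 (ph μ x c e ρ p.2 p.1 • ws x c e ρ p.1 p.2))
      ((volume.restrict (Ioc (0 : ℝ) 1)).prod μ) := by
  have hdc : Continuous (fderiv ℝ g) := hg.continuous_fderiv one_ne_zero
  have hloc : Integrable ((closedBall x (6 * ρ)).indicator fun y => ‖fderiv ℝ g y‖) μ := by
    rw [integrable_indicator_iff measurableSet_closedBall]
    exact hdc.norm.continuousOn.integrableOn_compact (isCompact_closedBall x (6 * ρ))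
  have hdom : Integrable (fun p : ℝ × E => (bv μ ρ)⁻¹ * (6 * ρ) *
      (closedBall x (6 * ρ)).indicator (fun y => ‖fderiv ℝ g y‖) p.2)
      ((volume.restrict (Ioc (0 : ℝ) 1)).prod μ) := by
    apply Integrable.const_mul
    exact Integrable.comp_snd (f := (closedBall x (6 * ρ)).indicator fun y => ‖fderiv ℝ g y‖)
      hloc _
  refine hdom.mono' (measurable_integrand hg).aestronglyMeasurable ?_
  have : ∀ᵐ p ∂((volume.restrict (Ioc (0 : ℝ) 1)).prod μ), p.1 ∈ Ioc (0 : ℝ) 1 := by
    have h2 : ∀ᵐ s ∂(volume.restrict (Ioc (0 : ℝ) 1)), s ∈ Ioc (0 : ℝ) 1 :=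
      ae_restrict_mem measurableSet_Ioc
    exact Measure.quasiMeasurePreserving_fst.ae h2
  filter_upwards [this] with p hp
  by_cases hfar : 6 * ρ ≤ ‖p.2 - x‖
  · rw [ph_eq_zero_of_far hρ hc he hp hfar, zero_smul, map_zero, norm_zero]
    have := bv_pos (μ := μ) hρ
    have h0 : 0 ≤ (closedBall x (6 * ρ)).indicator (fun y => ‖fderiv ℝ g y‖) p.2 :=
      indicator_nonneg (fun _ _ => norm_nonneg _) _
    positivity
  · rw [indicator_of_mem (by rw [mem_closedBall_iff_norm]; linarith)]
    exact norm_fderiv_ph_le hρ hc he _ hp.1.le _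

/-- **Competitor identity.** -/
theorem competitor (hρ : 0 < ρ) (hc : ‖c - x‖ ≤ ρ) (he : ‖e‖ = 1) {g : E → ℝ}
    (hg : ContDiff ℝ 1 g) :
    (⨍ y in ball (x + (3 * ρ) • e) (3 * ρ), g y ∂μ) - ⨍ y in ball c ρ, g y ∂μ =
      ∫ y, fderiv ℝ g y (Ker μ x c e ρ y) ∂μ := by
  have hgcont : Continuous g := hg.continuous
  have hi1 : IntegrableOn (fun u : E => g (x + (3 * ρ) • e + (3 * ρ) • u)) (ball 0 1) μ := by
    apply IntegrableOn.mono_set (t := closedBall 0 1) _ ball_subset_closedBall
    apply ContinuousOn.integrableOn_compact (isCompact_closedBall 0 1)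
    fun_prop
  have hi0 : IntegrableOn (fun u : E => g (c + ρ • u)) (ball 0 1) μ := by
    apply IntegrableOn.mono_set (t := closedBall 0 1) _ ball_subset_closedBall
    apply ContinuousOn.integrableOn_compact (isCompact_closedBall 0 1)
    fun_prop
  rw [average_ball_eq g _ (by positivity : 0 < 3 * ρ), average_ball_eq g c hρ, ← mul_sub,
    ← integral_sub hi1 hi0]
  simp_rw [ftc_path hg]
  rw [integral_integral_swap (integrable_path hg), ← integral_const_mul,
    setIntegral_congr_fun measurableSet_Ioc (fun s hs => inner_path hρ hs),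
    integral_integral_swap (integrable_integrand hρ hc he hg)]
  congr 1
  funext y
  rw [Ker]
  exact ContinuousLinearMap.integral_comp_comm _ (integrable_ph_smul hρ hc he y)

end P137
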