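import Vale.Agent.P137.KInt

/-!
# P137: the competitor kernel is Hölder continuous of exponent 1/2
-/

open MeasureTheory Set Metric
open scoped RealInnerProductSpace

set_option linter.unusedSectionVars false

namespace P137

/-- One monotone piece: a set contained in `[0,1]`, on which the concave quadratic `a + b s - q s²`
takes values in `[0, η]` and has nonnegative derivative. -/
lemma quad_piece {q b a η : ℝ} (T : Set ℝ) (hT : IsCompact T) (hTn : T.Nonempty)
    (h0 : ∀ s ∈ T, 0 ≤ a + b * s - q * s ^ 2) (h1 : ∀ s ∈ T, a + b * s - q * s ^ 2 ≤ η)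
    (h2 : ∀ s ∈ T, 2 * q * s ≤ b) :
    ∃ u v : ℝ, u ∈ T ∧ v ∈ T ∧ u ≤ v ∧ T ⊆ Icc u v ∧ q * (v - u) ^ 2 ≤ η ∧
      (a + b * v - q * v ^ 2) - (a + b * u - q * u ^ 2) ≤ η := by
  refine ⟨sInf T, sSup T, hT.sInf_mem hTn, hT.sSup_mem hTn, ?_, ?_, ?_, ?_⟩
  · exact csInf_le_csSup hTn hT.bddBelow hT.bddAbove
  · intro s hs
    exact ⟨csInf_le hT.bddBelow hs, le_csSup hT.bddAbove hs⟩
  · have hu := hT.sInf_mem hTn
    have hv := hT.sSup_mem hTn
    have huv : sInf T ≤ sSup T := csInf_le_csSup hTn hT.bddBelow hT.bddAbove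
    have e1 := h0 _ hu
    have e2 := h1 _ hv
    have e3 := h2 _ hv
    set u := sInf T
    set v := sSup T
    nlinarith [mul_nonneg (sub_nonneg.2 huv) (sub_nonneg.2 e3)]
  · have hu := hT.sInf_mem hTn
    have hv := hT.sSup_mem hTn
    have e1 := h0 _ hu
    have e2 := h1 _ hv
    linarith

/-- integral of `f` over a piece where `f² ≤ q + 2 h'`, `h = a + b s - q s²` increasing from a
value `≥ 0` to a value `≤ η`. -/
lemma piece_integral {q b a η : ℝ} (hη : 0 < η) (T : Set ℝ) (hT : IsCompact T) {u v : ℝ} (hu0 : 0 ≤ u) (hv1 : v ≤ 1) (huv : u ≤ v) (hTuv : T ⊆ Icc u v)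
    (hb : 2 * q * v ≤ b) (hq : 0 ≤ q)
    (h1 : q * (v - u) ^ 2 ≤ η)
    (h2 : (a + b * v - q * v ^ 2) - (a + b * u - q * u ^ 2) ≤ η)
    (f : ℝ → ℝ)
    (hf : ∀ s ∈ T, f s ^ 2 ≤ q + 2 * (b - 2 * q * s)) :
    ∫ s in T, f s ≤ 2 * √η := by
  have hs : 0 < √η := Real.sqrt_pos.2 hη
  have hss : √η * √η = η := Real.mul_self_sqrt hη.le
  rcases huv.eq_or_lt with h | h
  · have hT0 : volume T = 0 := by
      refine measure_mono_null (t := {u}) ?_ (by simp)
      intro s hs
      have := hTuv hs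
      rw [← h] at this
      simpa using this
    rw [setIntegral_measure_zero _ hT0]
    positivity
  · have hd : 0 < v - u := by linarith
    have hd1 : v - u ≤ 1 := by linarith
    -- λ = √(3η)/(v-u); we use a rational bound instead: `2 λ f ≤ λ² + f²`, λ = 2√η/(v-u)
    set L : ℝ := 2 * √η / (v - u) with hL
    have hL0 : 0 < L := by positivity
    have hLd : L * (v - u) = 2 * √η := by rw [hL]; field_simp
    have hint : IntegrableOn (fun s : ℝ => L / 2 + (q + 2 * (b - 2 * q * s)) / (2 * L))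
        (Icc u v) := by
      apply ContinuousOn.integrableOn_compact isCompact_Icc
      fun_prop
    have hle : ∀ s ∈ T, f s ≤ L / 2 + (q + 2 * (b - 2 * q * s)) / (2 * L) := by
      intro s hs
      have e1 := hf s hs
      have e2 : 2 * L * f s ≤ L ^ 2 + f s ^ 2 := by nlinarith [sq_nonneg (L - f s)]
      have e3 : f s * (2 * L) ≤ (L / 2 + (q + 2 * (b - 2 * q * s)) / (2 * L)) * (2 * L) := by
        rw [add_mul, div_mul_cancel₀ _ (by positivity : (2 * L) ≠ 0)]
        nlinarith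
      exact le_of_mul_le_mul_right e3 (by positivity)
    have hnn : ∀ s ∈ Icc u v, 0 ≤ L / 2 + (q + 2 * (b - 2 * q * s)) / (2 * L) := by
      intro s hs
      have : 0 ≤ b - 2 * q * s := by
        have := mul_le_mul_of_nonneg_left hs.2 hq
        linarith
      positivity
    calc ∫ s in T, f s ≤ ∫ s in T, (L / 2 + (q + 2 * (b - 2 * q * s)) / (2 * L)) := by
          by_cases hfi : IntegrableOn f T
          · exact setIntegral_mono_on hfi (hint.mono_set hTuv) hT.measurableSet hle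
          · rw [integral_undef hfi]
            exact setIntegral_nonneg hT.measurableSet fun s hs => hnn s (hTuv hs)
      _ ≤ ∫ s in Icc u v, (L / 2 + (q + 2 * (b - 2 * q * s)) / (2 * L)) := by
          apply setIntegral_mono_set hint
          · filter_upwards [ae_restrict_mem measurableSet_Icc] with s hs
            exact hnn s hs
          · exact LE.le.eventuallyLE hTuv
      _ = ∫ s in u..v, (L / 2 + (q + 2 * (b - 2 * q * s)) / (2 * L)) := by
          rw [intervalIntegral.integral_of_le h.le, integral_Icc_eq_integral_Ioc]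
      _ = (L / 2 + q / (2 * L)) * (v - u) +
            ((a + b * v - q * v ^ 2) - (a + b * u - q * u ^ 2)) / L := by
          have e1 : ∀ s : ℝ, HasDerivAt (fun s => (L / 2 + q / (2 * L)) * s +
              (a + b * s - q * s ^ 2) / L)
              (L / 2 + (q + 2 * (b - 2 * q * s)) / (2 * L)) s := by
            intro s
            have h1 : HasDerivAt (fun s : ℝ => (L / 2 + q / (2 * L)) * s)
                ((L / 2 + q / (2 * L)) * 1) s := (hasDerivAt_id s).const_mul _
            have h2 : HasDerivAt (fun s : ℝ => a + b * s - q * s ^ 2)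
                (b * 1 - q * (2 * s)) s := by
              have h3 : HasDerivAt (fun s : ℝ => a + b * s) (b * 1) s :=
                ((hasDerivAt_id s).const_mul b).const_add a
              have h4 : HasDerivAt (fun s : ℝ => q * s ^ 2) (q * (2 * s)) s := by
                have := (hasDerivAt_pow 2 s).const_mul q
                simpa using this
              exact h3.sub h4
            refine (h1.add (h2.div_const L)).congr_deriv ?_
            field_simp
            ring
          rw [intervalIntegral.integral_eq_sub_of_hasDerivAt (fun s _ => e1 s)]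
          · ring
          · apply Continuous.intervalIntegrable
            fun_prop
      _ ≤ 2 * √η := by
          have e1 : (L / 2 + q / (2 * L)) * (v - u) +
            ((a + b * v - q * v ^ 2) - (a + b * u - q * u ^ 2)) / L ≤
            (L / 2) * (v - u) + (q * (v - u) + 2 * η) / (2 * L) := by
            have : ((a + b * v - q * v ^ 2) - (a + b * u - q * u ^ 2)) / L ≤ η / L := by
              gcongr
            have e2 : (L / 2) * (v - u) + (q * (v - u) + 2 * η) / (2 * L) =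
              (L / 2 + q / (2 * L)) * (v - u) + η / L := by
              field_simp
              ring
            rw [e2]
            linarith
          have e3 : (q * (v - u) + 2 * η) / (2 * L) ≤ √η := by
            rw [div_le_iff₀ (by positivity)]
            have e4 : (q * (v - u) + 2 * η) * (v - u) ≤ √η * (2 * L) * (v - u) := by
              have : √η * (2 * L) * (v - u) = 4 * η := by
                calc √η * (2 * L) * (v - u) = 2 * √η * (L * (v - u)) := by ring
                  _ = 4 * (√η * √η) := by rw [hLd]; ring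
                  _ = 4 * η := by rw [hss]
              rw [this]
              nlinarith
            exact le_of_mul_le_mul_right e4 hd
          nlinarith

/-- the decreasing piece -/
lemma quad_piece' {q b a η : ℝ} (T : Set ℝ) (hT : IsCompact T) (hTn : T.Nonempty)
    (h0 : ∀ s ∈ T, 0 ≤ a + b * s - q * s ^ 2) (h1 : ∀ s ∈ T, a + b * s - q * s ^ 2 ≤ η)
    (h2 : ∀ s ∈ T, b ≤ 2 * q * s) :
    ∃ u v : ℝ, u ∈ T ∧ v ∈ T ∧ u ≤ v ∧ T ⊆ Icc u v ∧ q * (v - u) ^ 2 ≤ η := by
  refine ⟨sInf T, sSup T, hT.sInf_mem hTn, hT.sSup_mem hTn, ?_, ?_, ?_⟩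
  · exact csInf_le_csSup hTn hT.bddBelow hT.bddAbove
  · intro s hs
    exact ⟨csInf_le hT.bddBelow hs, le_csSup hT.bddAbove hs⟩
  · have hu := hT.sInf_mem hTn
    have hv := hT.sSup_mem hTn
    have huv : sInf T ≤ sSup T := csInf_le_csSup hTn hT.bddBelow hT.bddAbove
    have e1 := h1 _ hu
    have e2 := h0 _ hv
    have e3 := h2 _ hu
    set u := sInf T
    set v := sSup T
    nlinarith [mul_nonneg (sub_nonneg.2 huv) (sub_nonneg.2 e3)]

lemma piece_integral' {q η : ℝ} (hq : 0 ≤ q) (T : Set ℝ) (hT : IsCompact T)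
    {u v : ℝ} (huv : u ≤ v) (hTuv : T ⊆ Icc u v) (h1 : q * (v - u) ^ 2 ≤ η)
    (f : ℝ → ℝ) (hf : ∀ s ∈ T, f s ^ 2 ≤ q) :
    ∫ s in T, f s ≤ √η := by
  have hle : ∀ s ∈ T, f s ≤ √q := by
    intro s hs
    exact Real.le_sqrt_of_sq_le (hf s hs)
  have hint : IntegrableOn (fun _ : ℝ => √q) (Icc u v) := by
    simp
  calc ∫ s in T, f s ≤ ∫ s in T, √q := by
        by_cases hfi : IntegrableOn f T
        · exact setIntegral_mono_on hfi (hint.mono_set hTuv) hT.measurableSet hle
        · rw [integral_undef hfi]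
          exact setIntegral_nonneg hT.measurableSet fun s _ => Real.sqrt_nonneg _
    _ ≤ ∫ s in Icc u v, √q := by
        apply setIntegral_mono_set hint
        · filter_upwards with s
          exact Real.sqrt_nonneg _
        · exact LE.le.eventuallyLE hTuv
    _ = (v - u) * √q := by
        rw [setIntegral_const, smul_eq_mul, Real.volume_real_Icc_of_le huv]
    _ ≤ √η := by
        apply Real.le_sqrt_of_sq_le
        rw [mul_pow, Real.sq_sqrt hq]
        linarith

section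

variable {E : Type*} [NormedAddCommGroup E] [InnerProductSpace ℝ E]
variable {x c e y : E} {ρ s : ℝ}

/-- `ρ_s² - |y - c_s|²` is a quadratic polynomial in `s` -/
lemma h_eq : rs ρ s ^ 2 - ‖y - cs x c e ρ s‖ ^ 2 =
    (ρ ^ 2 - ‖y - c‖ ^ 2) + (4 * ρ ^ 2 + 2 * ⟪y - c, x + (3 * ρ) • e - c⟫) * s -
      (‖x + (3 * ρ) • e - c‖ ^ 2 - 4 * ρ ^ 2) * s ^ 2 := by
  have e1 : y - cs x c e ρ s = (y - c) - s • (x + (3 * ρ) • e - c) := by
    unfold cs
    module
  rw [e1, norm_sub_sq_real, inner_smul_right, norm_smul, mul_pow, Real.norm_eq_abs, sq_abs]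
  unfold rs
  ring

lemma q_nonneg (hρ : 0 < ρ) (hc : ‖c - x‖ ≤ ρ) (he : ‖e‖ = 1) :
    0 ≤ ‖x + (3 * ρ) • e - c‖ ^ 2 - 4 * ρ ^ 2 := by
  have h1 : 2 * ρ ≤ ‖x + (3 * ρ) • e - c‖ := by
    have h2 : ‖(3 * ρ) • e‖ = 3 * ρ := by
      rw [norm_smul, he, Real.norm_of_nonneg (by positivity), mul_one]
    have h3 : (3 * ρ) • e = (x + (3 * ρ) • e - c) + (c - x) := by abel
    have h4 := norm_add_le (x + (3 * ρ) • e - c) (c - x)
    rw [← h3, h2] at h4
    linarith
  nlinarith

lemma ws_sq_le (hρ : 0 < ρ) (h0 : 0 ≤ s) (hy : ‖y - cs x c e ρ s‖ ≤ rs ρ s) :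
    ‖ws x c e ρ s y‖ ^ 2 ≤ (‖x + (3 * ρ) • e - c‖ ^ 2 - 4 * ρ ^ 2) +
      (2 * ρ / rs ρ s) * ((4 * ρ ^ 2 + 2 * ⟪y - c, x + (3 * ρ) • e - c⟫) -
        2 * (‖x + (3 * ρ) • e - c‖ ^ 2 - 4 * ρ ^ 2) * s) := by
  have hr := rs_pos hρ h0
  set C := x + (3 * ρ) • e - c with hC
  have e1 : y - c = (y - cs x c e ρ s) + s • C := by
    rw [hC]
    unfold cs
    module
  have e2 : ⟪y - c, C⟫ = ⟪y - cs x c e ρ s, C⟫ + s * ‖C‖ ^ 2 := by
    rw [e1, inner_add_left, real_inner_smul_left, real_inner_self_eq_norm_sq]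
  have e3 : ‖ws x c e ρ s y‖ ^ 2 = ‖C‖ ^ 2 + 2 * ((2 * ρ / rs ρ s) * ⟪y - cs x c e ρ s, C⟫) +
      (2 * ρ / rs ρ s) ^ 2 * ‖y - cs x c e ρ s‖ ^ 2 := by
    have : ws x c e ρ s y = C + (2 * ρ / rs ρ s) • (y - cs x c e ρ s) := rfl
    rw [this, norm_add_sq_real, inner_smul_right, norm_smul, mul_pow, Real.norm_eq_abs, sq_abs,
      real_inner_comm]
  rw [e3, e2]
  have h5 : ‖y - cs x c e ρ s‖ ^ 2 ≤ rs ρ s ^ 2 := by gcongr
  have h6 : (2 * ρ / rs ρ s) ^ 2 * ‖y - cs x c e ρ s‖ ^ 2 ≤ 4 * ρ ^ 2 := by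
    calc (2 * ρ / rs ρ s) ^ 2 * ‖y - cs x c e ρ s‖ ^ 2
        ≤ (2 * ρ / rs ρ s) ^ 2 * rs ρ s ^ 2 := by gcongr
      _ = 4 * ρ ^ 2 := by field_simp; ring
  have h7 : (2 * ρ / rs ρ s) * (4 * ρ ^ 2 * (1 + 2 * s)) = 8 * ρ ^ 2 := by
    unfold rs
    have : (1 + 2 * s) ≠ 0 := by positivity
    field_simp
    ring
  nlinarith

/-- the set of times at which the ball boundary is close to `y` -/
def TT (x c e : E) (ρ η : ℝ) (y : E) : Set ℝ :=
  {s | s ∈ Icc (0 : ℝ) 1 ∧ 0 ≤ rs ρ s ^ 2 - ‖y - cs x c e ρ s‖ ^ 2 ∧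
    rs ρ s ^ 2 - ‖y - cs x c e ρ s‖ ^ 2 ≤ η}

lemma continuous_cs : Continuous fun s => cs x c e ρ s := by
  unfold cs; fun_prop

lemma continuous_rs : Continuous fun s => rs ρ s := by
  unfold rs; fun_prop

lemma continuous_hh : Continuous fun s => rs ρ s ^ 2 - ‖y - cs x c e ρ s‖ ^ 2 := by
  unfold rs cs; fun_prop

lemma isCompact_TT {η : ℝ} : IsCompact (TT x c e ρ η y) := by
  have : TT x c e ρ η y = Icc (0 : ℝ) 1 ∩
      ({s | 0 ≤ rs ρ s ^ 2 - ‖y - cs x c e ρ s‖ ^ 2} ∩
        {s | rs ρ s ^ 2 - ‖y - cs x c e ρ s‖ ^ 2 ≤ η}) := by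
    ext s; rfl
  rw [this]
  apply isCompact_Icc.inter_right
  exact (isClosed_le continuous_const continuous_hh).inter
    (isClosed_le continuous_hh continuous_const)

lemma continuousOn_ws (hρ : 0 < ρ) : ContinuousOn (fun s => ws x c e ρ s y) (Icc 0 1) := by
  unfold ws cs
  apply ContinuousOn.add continuousOn_const
  apply ContinuousOn.smul
  · apply ContinuousOn.div continuousOn_const continuous_rs.continuousOn
    intro s hs
    exact (rs_pos hρ hs.1).ne'
  · fun_prop

lemma integral_TT (hρ : 0 < ρ) (hc : ‖c - x‖ ≤ ρ) (he : ‖e‖ = 1) {η : ℝ} (hη : 0 < η) :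
    ∫ s in TT x c e ρ η y, ‖ws x c e ρ s y‖ ≤ 3 * √η := by
  set q := ‖x + (3 * ρ) • e - c‖ ^ 2 - 4 * ρ ^ 2 with hqd
  set b := 4 * ρ ^ 2 + 2 * ⟪y - c, x + (3 * ρ) • e - c⟫ with hbd
  set a := ρ ^ 2 - ‖y - c‖ ^ 2 with had
  have hq : 0 ≤ q := q_nonneg hρ hc he
  have hh : ∀ s, rs ρ s ^ 2 - ‖y - cs x c e ρ s‖ ^ 2 = a + b * s - q * s ^ 2 := fun s => h_eq
  set T1 : Set ℝ := TT x c e ρ η y ∩ {s | 2 * q * s ≤ b} with hT1
  set T2 : Set ℝ := TT x c e ρ η y ∩ {s | b ≤ 2 * q * s} with hT2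
  have hT1c : IsCompact T1 :=
    isCompact_TT.inter_right (isClosed_le (by fun_prop) continuous_const)
  have hT2c : IsCompact T2 :=
    isCompact_TT.inter_right (isClosed_le continuous_const (by fun_prop))
  have hTI : TT x c e ρ η y ⊆ Icc 0 1 := fun s hs => hs.1
  have hfi : IntegrableOn (fun s => ‖ws x c e ρ s y‖) (Icc 0 1) := by
    apply ContinuousOn.integrableOn_compact isCompact_Icc
    exact (continuousOn_ws hρ).norm
  have hw : ∀ s ∈ TT x c e ρ η y, ‖ws x c e ρ s y‖ ^ 2 ≤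
      q + (2 * ρ / rs ρ s) * (b - 2 * q * s) := by
    intro s hs
    apply ws_sq_le hρ hs.1.1
    have h1 := hs.2.1
    have h2 := rs_pos hρ hs.1.1
    exact le_of_pow_le_pow_left₀ two_ne_zero h2.le (by linarith)
  have hr2 : ∀ s ∈ TT x c e ρ η y, 0 ≤ 2 * ρ / rs ρ s ∧ 2 * ρ / rs ρ s ≤ 2 := by
    intro s hs
    have h2 := rs_pos hρ hs.1.1
    refine ⟨by positivity, ?_⟩
    rw [div_le_iff₀ h2]
    have := le_rs hρ hs.1.1
    linarith
  have hsub : TT x c e ρ η y ⊆ T1 ∪ T2 := by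
    intro s hs
    rcases le_total (2 * q * s) b with h | h
    · exact Or.inl ⟨hs, h⟩
    · exact Or.inr ⟨hs, h⟩
  have hI1 : ∫ s in T1, ‖ws x c e ρ s y‖ ≤ 2 * √η := by
    rcases T1.eq_empty_or_nonempty with h | h
    · rw [h]; simp
    · obtain ⟨u, v, hu, hv, huv, hTuv, g1, g2⟩ := quad_piece (q := q) (b := b) (a := a) (η := η) T1
        hT1c h (fun s hs => by rw [← hh]; exact hs.1.2.1)
        (fun s hs => by rw [← hh]; exact hs.1.2.2) (fun s hs => hs.2)
      exact piece_integral (a := a) hη T1 hT1c (hTI hu.1).1 (hTI hv.1).2 huv hTuv hv.2 hq g1 g2 _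
        (fun s hs => by
          have e1 := hw s hs.1
          have e2 := hr2 s hs.1
          have e3 : 0 ≤ b - 2 * q * s := by have := hs.2; simp only [mem_ofPred_eq] at this; linarith
          have e4 := mul_le_mul_of_nonneg_right e2.2 e3
          linarith)
  have hI2 : ∫ s in T2, ‖ws x c e ρ s y‖ ≤ √η := by
    rcases T2.eq_empty_or_nonempty with h | h
    · rw [h]; simp
    · obtain ⟨u, v, hu, hv, huv, hTuv, g1⟩ := quad_piece' (q := q) (b := b) (a := a) (η := η) T2
        hT2c h (fun s hs => by rw [← hh]; exact hs.1.2.1)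
        (fun s hs => by rw [← hh]; exact hs.1.2.2) (fun s hs => hs.2)
      exact piece_integral' hq T2 hT2c huv hTuv g1 _
        (fun s hs => by
          have e1 := hw s hs.1
          have e2 := hr2 s hs.1
          have e3 : 0 ≤ 2 * q * s - b := by have := hs.2; simp only [mem_ofPred_eq] at this; linarith
          have e4 := mul_nonneg e2.1 e3
          nlinarith)
  calc ∫ s in TT x c e ρ η y, ‖ws x c e ρ s y‖
      ≤ ∫ s in T1 ∪ T2, ‖ws x c e ρ s y‖ := by
        apply setIntegral_mono_set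
        · exact hfi.mono_set (union_subset (fun s hs => hTI hs.1) (fun s hs => hTI hs.1))
        · filter_upwards with s
          exact norm_nonneg _
        · exact LE.le.eventuallyLE hsub
    _ ≤ (∫ s in T1, ‖ws x c e ρ s y‖) + ∫ s in T2, ‖ws x c e ρ s y‖ := by
        have h1 : IntegrableOn (fun s => ‖ws x c e ρ s y‖) T1 :=
          hfi.mono_set (fun s hs => hTI hs.1)
        have h2 : IntegrableOn (fun s => ‖ws x c e ρ s y‖) T2 :=
          hfi.mono_set (fun s hs => hTI hs.1)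
        have e1 : T1 ∪ T2 = T1 ∪ (T2 \ T1) := by rw [union_sdiff_self]
        rw [e1, setIntegral_union disjoint_sdiff_right
          (hT2c.measurableSet.diff hT1c.measurableSet) h1 (h2.mono_set sdiff_subset)]
        apply add_le_add le_rfl
        apply setIntegral_mono_set h2
        · filter_upwards with s
          exact norm_nonneg _
        · exact LE.le.eventuallyLE sdiff_subset
    _ ≤ 3 * √η := by linarith

end

section

variable {E : Type*} [NormedAddCommGroup E] [InnerProductSpace ℝ E]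
  [MeasurableSpace E] [BorelSpace E] [FiniteDimensional ℝ E] {μ : Measure E} [μ.IsAddHaarMeasure]
variable {x c e y y' : E} {ρ s : ℝ}

lemma TT_of_mem_notMem (hρ : 0 < ρ) (h0 : 0 ≤ s) (h1 : s ≤ 1)
    (hy : y ∈ ball (cs x c e ρ s) (rs ρ s)) (hy' : y' ∉ ball (cs x c e ρ s) (rs ρ s)) :
    s ∈ TT x c e ρ (6 * ρ * ‖y - y'‖) y := by
  rw [mem_ball, dist_eq_norm] at hy
  rw [mem_ball, dist_eq_norm, not_lt] at hy'
  have hr := rs_pos hρ h0
  have hr3 := rs_le hρ h1
  have h2 : ‖y' - cs x c e ρ s‖ ≤ ‖y - cs x c e ρ s‖ + ‖y - y'‖ := by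
    calc ‖y' - cs x c e ρ s‖ = ‖(y - cs x c e ρ s) - (y - y')‖ := by congr 1; abel
      _ ≤ _ := norm_sub_le _ _
  have h3 := norm_nonneg (y - cs x c e ρ s)
  have h4 := norm_nonneg (y - y')
  refine ⟨⟨h0, h1⟩, ?_, ?_⟩
  · nlinarith
  · have e1 : rs ρ s ^ 2 - ‖y - cs x c e ρ s‖ ^ 2 =
      (rs ρ s - ‖y - cs x c e ρ s‖) * (rs ρ s + ‖y - cs x c e ρ s‖) := by ring
    rw [e1]
    calc (rs ρ s - ‖y - cs x c e ρ s‖) * (rs ρ s + ‖y - cs x c e ρ s‖)
        ≤ ‖y - y'‖ * (3 * ρ + 3 * ρ) := by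
          apply mul_le_mul (by linarith) (by linarith) (by linarith) h4
      _ = 6 * ρ * ‖y - y'‖ := by ring

lemma ph_smul_sub_le (hρ : 0 < ρ) (h0 : 0 ≤ s) (h1 : s ≤ 1) :
    ‖ph μ x c e ρ y s • ws x c e ρ s y - ph μ x c e ρ y' s • ws x c e ρ s y'‖ ≤
      (bv μ ρ)⁻¹ * (2 * ‖y - y'‖ +
        (TT x c e ρ (6 * ρ * ‖y - y'‖) y).indicator (fun s => ‖ws x c e ρ s y‖) s +
        (TT x c e ρ (6 * ρ * ‖y - y'‖) y').indicator (fun s => ‖ws x c e ρ s y'‖) s) := by
  have hb : 0 < (bv μ ρ)⁻¹ := inv_pos.2 (bv_pos hρ)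
  have hr := rs_pos hρ h0
  have hi1 : 0 ≤ (TT x c e ρ (6 * ρ * ‖y - y'‖) y).indicator (fun s => ‖ws x c e ρ s y‖) s :=
    indicator_nonneg (fun _ _ => norm_nonneg _) _
  have hi2 : 0 ≤ (TT x c e ρ (6 * ρ * ‖y - y'‖) y').indicator (fun s => ‖ws x c e ρ s y'‖) s :=
    indicator_nonneg (fun _ _ => norm_nonneg _) _
  have hn := norm_nonneg (y - y')
  by_cases hy : y ∈ ball (cs x c e ρ s) (rs ρ s)
  · by_cases hy' : y' ∈ ball (cs x c e ρ s) (rs ρ s)
    · have e1 : ph μ x c e ρ y s • ws x c e ρ s y - ph μ x c e ρ y' s • ws x c e ρ s y' =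
          (bv μ (rs ρ s))⁻¹ • ((2 * ρ / rs ρ s) • (y - y')) := by
        unfold ph
        rw [indicator_of_mem hy, indicator_of_mem hy', ← smul_sub]
        congr 1
        unfold ws
        module
      rw [e1, norm_smul, norm_smul, Real.norm_of_nonneg (inv_nonneg.2 (bv_pos hr).le),
        Real.norm_of_nonneg (by positivity)]
      have e2 : 2 * ρ / rs ρ s ≤ 2 := by
        rw [div_le_iff₀ hr]
        have := le_rs hρ h0
        linarith
      have e3 : (bv μ (rs ρ s))⁻¹ ≤ (bv μ ρ)⁻¹ := inv_anti₀ (bv_pos hρ) (bv_mono (le_rs hρ h0))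
      calc (bv μ (rs ρ s))⁻¹ * (2 * ρ / rs ρ s * ‖y - y'‖)
          ≤ (bv μ ρ)⁻¹ * (2 * ‖y - y'‖) := by gcongr
        _ ≤ _ := by
          apply mul_le_mul_of_nonneg_left _ hb.le
          linarith
    · have e1 := TT_of_mem_notMem (x := x) (c := c) (e := e) hρ h0 h1 hy hy'
      rw [ph_eq_zero hy', zero_smul, sub_zero, norm_smul,
        Real.norm_of_nonneg (ph_nonneg hρ h0), indicator_of_mem e1]
      apply mul_le_mul (ph_le hρ h0) _ (norm_nonneg _) hb.le
      linarith
  · by_cases hy' : y' ∈ ball (cs x c e ρ s) (rs ρ s)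
    · have e1 := TT_of_mem_notMem (x := x) (c := c) (e := e) hρ h0 h1 hy' hy
      rw [norm_sub_rev] at e1
      rw [ph_eq_zero hy, zero_smul, zero_sub, norm_neg, norm_smul,
        Real.norm_of_nonneg (ph_nonneg hρ h0), indicator_of_mem e1]
      apply mul_le_mul (ph_le hρ h0) _ (norm_nonneg _) hb.le
      linarith
    · rw [ph_eq_zero hy, ph_eq_zero hy', zero_smul, zero_smul, sub_zero, norm_zero]
      positivity

/-- Hölder continuity of the kernel -/
theorem Ker_holder (hρ : 0 < ρ) (hc : ‖c - x‖ ≤ ρ) (he : ‖e‖ = 1) :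
    ‖Ker μ x c e ρ y - Ker μ x c e ρ y'‖ ≤
      (bv μ ρ)⁻¹ * (2 * ‖y - y'‖ + 6 * √(6 * ρ * ‖y - y'‖)) := by
  rcases (norm_nonneg (y - y')).eq_or_lt with h | h
  · have h2 : y = y' := by
      rw [← sub_eq_zero, ← norm_eq_zero]
      exact h.symm
    subst h2
    simp
  have hη : 0 < 6 * ρ * ‖y - y'‖ := by positivity
  have hb : 0 < (bv μ ρ)⁻¹ := inv_pos.2 (bv_pos hρ)
  have hws : ∀ z : E, IntegrableOn (fun s => ‖ws x c e ρ s z‖) (Icc 0 1) := fun z => by
    apply ContinuousOn.integrableOn_compact isCompact_Icc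
    exact (continuousOn_ws hρ).norm
  have hTI : ∀ z : E, TT x c e ρ (6 * ρ * ‖y - y'‖) z ⊆ Icc 0 1 := fun z s hs => hs.1
  have hind : ∀ z : E, Integrable
      ((TT x c e ρ (6 * ρ * ‖y - y'‖) z).indicator (fun s => ‖ws x c e ρ s z‖)) := fun z => by
    rw [integrable_indicator_iff isCompact_TT.measurableSet]
    exact (hws z).mono_set (hTI z)
  have hindI : ∀ z : E, ∫ s in Ioc (0 : ℝ) 1,
      (TT x c e ρ (6 * ρ * ‖y - y'‖) z).indicator (fun s => ‖ws x c e ρ s z‖) s ≤
      3 * √(6 * ρ * ‖y - y'‖) := fun z => by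
    calc _ ≤ ∫ s, (TT x c e ρ (6 * ρ * ‖y - y'‖) z).indicator (fun s => ‖ws x c e ρ s z‖) s := by
          apply setIntegral_le_integral (hind z)
          filter_upwards with s
          exact indicator_nonneg (fun _ _ => norm_nonneg _) _
      _ = ∫ s in TT x c e ρ (6 * ρ * ‖y - y'‖) z, ‖ws x c e ρ s z‖ := by
          rw [integral_indicator isCompact_TT.measurableSet]
      _ ≤ _ := integral_TT hρ hc he hη
  unfold Ker
  rw [← integral_sub (integrable_ph_smul hρ hc he y) (integrable_ph_smul hρ hc he y')]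
  calc ‖∫ s in Ioc (0 : ℝ) 1, (ph μ x c e ρ y s • ws x c e ρ s y -
          ph μ x c e ρ y' s • ws x c e ρ s y')‖
      ≤ ∫ s in Ioc (0 : ℝ) 1, (bv μ ρ)⁻¹ * (2 * ‖y - y'‖ +
        (TT x c e ρ (6 * ρ * ‖y - y'‖) y).indicator (fun s => ‖ws x c e ρ s y‖) s +
        (TT x c e ρ (6 * ρ * ‖y - y'‖) y').indicator (fun s => ‖ws x c e ρ s y'‖) s) := by
        apply norm_integral_le_of_norm_le
        · apply Integrable.const_mul
          apply Integrable.add
          · apply Integrable.add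
            · exact integrable_const _
            · exact (hind y).integrableOn
          · exact (hind y').integrableOn
        · filter_upwards [ae_restrict_mem measurableSet_Ioc] with s hs
          exact ph_smul_sub_le hρ hs.1.le hs.2
    _ = (bv μ ρ)⁻¹ * (2 * ‖y - y'‖ +
        (∫ s in Ioc (0 : ℝ) 1,
          (TT x c e ρ (6 * ρ * ‖y - y'‖) y).indicator (fun s => ‖ws x c e ρ s y‖) s) +
        (∫ s in Ioc (0 : ℝ) 1,
          (TT x c e ρ (6 * ρ * ‖y - y'‖) y').indicator (fun s => ‖ws x c e ρ s y'‖) s)) := by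
        rw [integral_const_mul, integral_add, integral_add]
        · simp
        · exact integrable_const _
        · exact (hind y).integrableOn
        · apply Integrable.add
          · exact integrable_const _
          · exact (hind y).integrableOn
        · exact (hind y').integrableOn
    _ ≤ (bv μ ρ)⁻¹ * (2 * ‖y - y'‖ + 6 * √(6 * ρ * ‖y - y'‖)) := by
        apply mul_le_mul_of_nonneg_left _ hb.le
        have e1 := hindI y
        have e2 := hindI y'
        linarith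

end

end P137
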