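import Vale.Agent.P137.Defs
import Vale.Agent.P137.KHolder
import Vale.Agent.P137.KComp

/-!
# P137: the kernel theorem (assembly)
-/

open MeasureTheory Set Metric
open scoped RealInnerProductSpace

set_option linter.unusedSectionVars false

namespace P137

/-- `T ⊆ [0,1]` compact, `0 ≤ h ≤ η` on `T`, `h = a + b s - q s²`:
`∫_T (h')₊ ≤ η` and `q |T|² ≤ 4 η`. -/
lemma quad_two {q b a η : ℝ} (hη : 0 ≤ η) (hq : 0 ≤ q) (T : Set ℝ) (hT : IsCompact T)
    (h0 : ∀ s ∈ T, 0 ≤ a + b * s - q * s ^ 2) (h1 : ∀ s ∈ T, a + b * s - q * s ^ 2 ≤ η) :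
    ∫ s in T, max (b - 2 * q * s) 0 ≤ η ∧ q * volume.real T ^ 2 ≤ 4 * η := by
  set T1 : Set ℝ := T ∩ {s | 2 * q * s ≤ b} with hT1
  set T2 : Set ℝ := T ∩ {s | b ≤ 2 * q * s} with hT2
  have hT1c : IsCompact T1 :=
    hT.inter_right (isClosed_le (by fun_prop) continuous_const)
  have hT2c : IsCompact T2 :=
    hT.inter_right (isClosed_le continuous_const (by fun_prop))
  have hsub : T ⊆ T1 ∪ T2 := by
    intro s hs
    rcases le_total (2 * q * s) b with h | h
    · exact Or.inl ⟨hs, h⟩
    · exact Or.inr ⟨hs, h⟩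
  have hcont : Continuous fun s : ℝ => max (b - 2 * q * s) 0 := by fun_prop
  -- first piece
  have hA : (∫ s in T1, max (b - 2 * q * s) 0 ≤ η) ∧
      ∃ t1, 0 ≤ t1 ∧ volume.real T1 ≤ t1 ∧ q * t1 ^ 2 ≤ η := by
    rcases T1.eq_empty_or_nonempty with h | h
    · rw [h]
      refine ⟨by simpa using hη, 0, le_rfl, by simp, by simpa using hη⟩
    · obtain ⟨u, v, hu, hv, huv, hTuv, g1, g2⟩ := quad_piece (q := q) (b := b) (a := a) (η := η) T1
        hT1c h (fun s hs => h0 s hs.1) (fun s hs => h1 s hs.1) (fun s hs => hs.2)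
      refine ⟨?_, v - u, sub_nonneg.2 huv, ?_, g1⟩
      · calc ∫ s in T1, max (b - 2 * q * s) 0 ≤ ∫ s in Icc u v, max (b - 2 * q * s) 0 := by
              apply setIntegral_mono_set
              · exact hcont.continuousOn.integrableOn_compact isCompact_Icc
              · filter_upwards with s
                exact le_max_right _ _
              · exact LE.le.eventuallyLE hTuv
          _ = ∫ s in Icc u v, (b - 2 * q * s) := by
              apply setIntegral_congr_fun measurableSet_Icc
              intro s hs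
              apply max_eq_left
              have h5 : 2 * q * v ≤ b := hv.2
              have := mul_le_mul_of_nonneg_left hs.2 hq
              linarith
          _ = ∫ s in u..v, (b - 2 * q * s) := by
              rw [intervalIntegral.integral_of_le huv, integral_Icc_eq_integral_Ioc]
          _ = (a + b * v - q * v ^ 2) - (a + b * u - q * u ^ 2) := by
              have e1 : ∀ s : ℝ, HasDerivAt (fun s => a + b * s - q * s ^ 2)
                  (b - 2 * q * s) s := by
                intro s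
                have h3 : HasDerivAt (fun s : ℝ => a + b * s) (b * 1) s :=
                  ((hasDerivAt_id s).const_mul b).const_add a
                have h4 : HasDerivAt (fun s : ℝ => q * s ^ 2) (q * (2 * s)) s := by
                  have := (hasDerivAt_pow 2 s).const_mul q
                  simpa using this
                refine (h3.sub h4).congr_deriv ?_
                ring
              rw [intervalIntegral.integral_eq_sub_of_hasDerivAt (fun s _ => e1 s)]
              apply Continuous.intervalIntegrable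
              fun_prop
          _ ≤ η := g2
      · calc volume.real T1 ≤ volume.real (Icc u v) :=
              measureReal_mono hTuv measure_Icc_lt_top.ne
          _ = v - u := Real.volume_real_Icc_of_le huv
  have hB : ∃ t2, 0 ≤ t2 ∧ volume.real T2 ≤ t2 ∧ q * t2 ^ 2 ≤ η := by
    rcases T2.eq_empty_or_nonempty with h | h
    · rw [h]
      exact ⟨0, le_rfl, by simp, by simpa using hη⟩
    · obtain ⟨u, v, hu, hv, huv, hTuv, g1⟩ := quad_piece' (q := q) (b := b) (a := a) (η := η) T2
        hT2c h (fun s hs => h0 s hs.1) (fun s hs => h1 s hs.1) (fun s hs => hs.2)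
      refine ⟨v - u, sub_nonneg.2 huv, ?_, g1⟩
      calc volume.real T2 ≤ volume.real (Icc u v) :=
            measureReal_mono hTuv measure_Icc_lt_top.ne
        _ = v - u := Real.volume_real_Icc_of_le huv
  obtain ⟨hA1, t1, ht1, hv1, hq1⟩ := hA
  obtain ⟨t2, ht2, hv2, hq2⟩ := hB
  constructor
  · have e1 : ∫ s in T, max (b - 2 * q * s) 0 = ∫ s in T1, max (b - 2 * q * s) 0 := by
      have hT1T : T1 ⊆ T := fun s hs => hs.1
      apply setIntegral_eq_of_subset_of_forall_sdiff_eq_zero hT.measurableSet hT1T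
      intro s hs
      apply max_eq_right
      by_contra hcon
      push Not at hcon
      exact hs.2 ⟨hs.1, by
        show 2 * q * s ≤ b
        linarith⟩
    rw [e1]
    exact hA1
  · have e1 : volume.real T ≤ t1 + t2 := by
      calc volume.real T ≤ volume.real (T1 ∪ T2) :=
            measureReal_mono hsub (hT1c.union hT2c).measure_lt_top.ne
        _ ≤ volume.real T1 + volume.real T2 := measureReal_union_le _ _
        _ ≤ t1 + t2 := by linarith
    have e0 : 0 ≤ volume.real T := measureReal_nonneg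
    have e2 : volume.real T ^ 2 ≤ (t1 + t2) ^ 2 := by gcongr
    have e3 : q * volume.real T ^ 2 ≤ q * (t1 + t2) ^ 2 := mul_le_mul_of_nonneg_left e2 hq
    nlinarith [mul_nonneg hq (sq_nonneg (t1 - t2))]

section

variable {E : Type*} [NormedAddCommGroup E] [InnerProductSpace ℝ E]
variable {x c e y : E} {ρ s : ℝ}

lemma integral_TT' (hρ : 0 < ρ) (hc : ‖c - x‖ ≤ ρ) (he : ‖e‖ = 1) {η : ℝ} (hη : 0 < η) :
    ∫ s in TT x c e ρ η y, ‖ws x c e ρ s y‖ ≤ √(6 * η) := by
  set q := ‖x + (3 * ρ) • e - c‖ ^ 2 - 4 * ρ ^ 2 with hqd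
  set b := 4 * ρ ^ 2 + 2 * ⟪y - c, x + (3 * ρ) • e - c⟫ with hbd
  set a := ρ ^ 2 - ‖y - c‖ ^ 2 with had
  have hq : 0 ≤ q := q_nonneg hρ hc he
  have hh : ∀ s, rs ρ s ^ 2 - ‖y - cs x c e ρ s‖ ^ 2 = a + b * s - q * s ^ 2 := fun s => h_eq
  set T := TT x c e ρ η y with hTd
  have hT : IsCompact T := isCompact_TT
  have hTI : T ⊆ Icc 0 1 := fun s hs => hs.1
  obtain ⟨g1, g2⟩ := quad_two (q := q) (b := b) (a := a) (η := η) hη.le hq T hT
    (fun s hs => by rw [← hh]; exact hs.2.1) (fun s hs => by rw [← hh]; exact hs.2.2)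
  have hfi : IntegrableOn (fun s => ‖ws x c e ρ s y‖) (Icc 0 1) := by
    apply ContinuousOn.integrableOn_compact isCompact_Icc
    exact (continuousOn_ws hρ).norm
  have hw : ∀ s ∈ T, ‖ws x c e ρ s y‖ ^ 2 ≤ q + 2 * max (b - 2 * q * s) 0 := by
    intro s hs
    have h2 := rs_pos hρ hs.1.1
    have h3 : ‖ws x c e ρ s y‖ ^ 2 ≤ q + (2 * ρ / rs ρ s) * (b - 2 * q * s) := by
      apply ws_sq_le hρ hs.1.1
      have h1 := hs.2.1
      exact le_of_pow_le_pow_left₀ two_ne_zero h2.le (by linarith)
    have h4 : 2 * ρ / rs ρ s ≤ 2 := by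
      rw [div_le_iff₀ h2]
      have := le_rs hρ hs.1.1
      linarith
    have h5 : 0 ≤ 2 * ρ / rs ρ s := by positivity
    calc ‖ws x c e ρ s y‖ ^ 2 ≤ q + (2 * ρ / rs ρ s) * (b - 2 * q * s) := h3
      _ ≤ q + (2 * ρ / rs ρ s) * max (b - 2 * q * s) 0 := by gcongr; exact le_max_left _ _
      _ ≤ q + 2 * max (b - 2 * q * s) 0 := by gcongr
  have hs6 : 0 < √(6 * η) := Real.sqrt_pos.2 (by positivity)
  have hs66 : √(6 * η) * √(6 * η) = 6 * η := Real.mul_self_sqrt (by positivity)
  have hm0 : 0 ≤ volume.real T := measureReal_nonneg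
  have hm1 : volume.real T ≤ 1 := by
    calc volume.real T ≤ volume.real (Icc (0 : ℝ) 1) :=
          measureReal_mono hTI measure_Icc_lt_top.ne
      _ = 1 := by rw [Real.volume_real_Icc_of_le zero_le_one]; ring
  rcases hm0.eq_or_lt with h | h
  · have hT0 : volume T = 0 := by
      have := h.symm
      rwa [measureReal_eq_zero_iff hT.measure_lt_top.ne] at this
    rw [setIntegral_measure_zero _ hT0]
    exact hs6.le
  · set t := volume.real T with ht
    set L : ℝ := √(6 * η) / t with hL
    have hL0 : 0 < L := by positivity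
    have hLt : L * t = √(6 * η) := by rw [hL]; field_simp
    have hcont : Continuous fun s : ℝ => L / 2 + (q + 2 * max (b - 2 * q * s) 0) / (2 * L) := by
      fun_prop
    have hcont2 : Continuous fun s : ℝ => max (b - 2 * q * s) 0 := by fun_prop
    have hint : IntegrableOn (fun s : ℝ => L / 2 + (q + 2 * max (b - 2 * q * s) 0) / (2 * L)) T :=
      hcont.continuousOn.integrableOn_compact hT
    have hint2 : IntegrableOn (fun s : ℝ => max (b - 2 * q * s) 0) T :=
      hcont2.continuousOn.integrableOn_compact hT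
    calc ∫ s in T, ‖ws x c e ρ s y‖
        ≤ ∫ s in T, (L / 2 + (q + 2 * max (b - 2 * q * s) 0) / (2 * L)) := by
          apply setIntegral_mono_on (hfi.mono_set hTI) hint hT.measurableSet
          intro s hs
          have e1 := hw s hs
          have e2 : 2 * L * ‖ws x c e ρ s y‖ ≤ L ^ 2 + ‖ws x c e ρ s y‖ ^ 2 := by
            nlinarith [sq_nonneg (L - ‖ws x c e ρ s y‖)]
          have e3 : ‖ws x c e ρ s y‖ * (2 * L) ≤
              (L / 2 + (q + 2 * max (b - 2 * q * s) 0) / (2 * L)) * (2 * L) := by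
            rw [add_mul, div_mul_cancel₀ _ (by positivity : (2 * L) ≠ 0)]
            nlinarith
          exact le_of_mul_le_mul_right e3 (by positivity)
      _ = (L / 2 + q / (2 * L)) * t + (∫ s in T, max (b - 2 * q * s) 0) / L := by
          have e1 : ∀ s : ℝ, L / 2 + (q + 2 * max (b - 2 * q * s) 0) / (2 * L) =
              (L / 2 + q / (2 * L)) + max (b - 2 * q * s) 0 / L := by
            intro s
            field_simp
            ring
          simp_rw [e1]
          rw [integral_add _ (hint2.div_const L), integral_div, setIntegral_const, smul_eq_mul]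
          · ring
          · exact (continuous_const.continuousOn.integrableOn_compact hT)
      _ ≤ (L / 2 + q / (2 * L)) * t + η / L := by gcongr
      _ ≤ √(6 * η) := by
          have e3 : (q * t + 2 * η) / (2 * L) ≤ √(6 * η) / 2 := by
            rw [div_le_iff₀ (by positivity)]
            have e4 : (q * t + 2 * η) * t ≤ √(6 * η) / 2 * (2 * L) * t := by
              have : √(6 * η) / 2 * (2 * L) * t = 6 * η := by
                calc √(6 * η) / 2 * (2 * L) * t = √(6 * η) * (L * t) := by ring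
                  _ = 6 * η := by rw [hLt, hs66]
              rw [this]
              nlinarith
            exact le_of_mul_le_mul_right e4 h
          have e5 : (L / 2 + q / (2 * L)) * t + η / L =
              (L * t) / 2 + (q * t + 2 * η) / (2 * L) := by
            field_simp
            ring
          rw [e5, hLt]
          linarith

end

section

variable {E : Type*} [NormedAddCommGroup E] [InnerProductSpace ℝ E]
  [MeasurableSpace E] [BorelSpace E] [FiniteDimensional ℝ E] {μ : Measure E} [μ.IsAddHaarMeasure]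
variable {x c e y y' : E} {ρ s : ℝ}

/-- Hölder continuity of the kernel, better constant -/
theorem Ker_holder' (hρ : 0 < ρ) (hc : ‖c - x‖ ≤ ρ) (he : ‖e‖ = 1) :
    ‖Ker μ x c e ρ y - Ker μ x c e ρ y'‖ ≤
      (2 * ‖y - y'‖ + 12 * √(ρ * ‖y - y'‖)) / bv μ ρ := by
  rcases (norm_nonneg (y - y')).eq_or_lt with h | h
  · have h2 : y = y' := by
      rw [← sub_eq_zero, ← norm_eq_zero]
      exact h.symm
    subst h2
    simp
  have hη : 0 < 6 * ρ * ‖y - y'‖ := by positivity
  have hb : 0 < (bv μ ρ)⁻¹ := inv_pos.2 (bv_pos hρ)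
  have hws : ∀ z : E, IntegrableOn (fun s => ‖ws x c e ρ s z‖) (Icc 0 1) := fun z => by
    apply ContinuousOn.integrableOn_compact isCompact_Icc
    exact (continuousOn_ws hρ).norm
  have hTI : ∀ z : E, TT x c e ρ (6 * ρ * ‖y - y'‖) z ⊆ Icc 0 1 := fun z s hs => hs.1
  have hind : ∀ z : E, Integrable
      ((TT x c e ρ (6 * ρ * ‖y - y'‖) z).indicator (fun s => ‖ws x c e ρ s z‖)) := fun z => by
    rw [integrable_indicator_iff isCompact_TT.measurableSet]
    exact (hws z).mono_set (hTI z)
  have hsq : √(6 * (6 * ρ * ‖y - y'‖)) = 6 * √(ρ * ‖y - y'‖) := by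
    have : 6 * (6 * ρ * ‖y - y'‖) = 6 ^ 2 * (ρ * ‖y - y'‖) := by ring
    rw [this, Real.sqrt_mul (by positivity), Real.sqrt_sq (by positivity)]
  have hindI : ∀ z : E, ∫ s in Ioc (0 : ℝ) 1,
      (TT x c e ρ (6 * ρ * ‖y - y'‖) z).indicator (fun s => ‖ws x c e ρ s z‖) s ≤
      6 * √(ρ * ‖y - y'‖) := fun z => by
    calc _ ≤ ∫ s, (TT x c e ρ (6 * ρ * ‖y - y'‖) z).indicator (fun s => ‖ws x c e ρ s z‖) s := by
          apply setIntegral_le_integral (hind z)
          filter_upwards with s
          exact indicator_nonneg (fun _ _ => norm_nonneg _) _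
      _ = ∫ s in TT x c e ρ (6 * ρ * ‖y - y'‖) z, ‖ws x c e ρ s z‖ := by
          rw [integral_indicator isCompact_TT.measurableSet]
      _ ≤ _ := by
          rw [← hsq]
          exact integral_TT' hρ hc he hη
  unfold Ker
  rw [← integral_sub (integrable_ph_smul hρ hc he y) (integrable_ph_smul hρ hc he y'),
    div_eq_inv_mul]
  calc ‖∫ s in Ioc (0 : ℝ) 1, (ph μ x c e ρ y s • ws x c e ρ s y -
          ph μ x c e ρ y' s • ws x c e ρ s y')‖
      ≤ ∫ s in Ioc (0 : ℝ) 1, (bv μ ρ)⁻¹ * (2 * ‖y - y'‖ +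
        (TT x c e ρ (6 * ρ * ‖y - y'‖) y).indicator (fun s => ‖ws x c e ρ s y‖) s +
        (TT x c e ρ (6 * ρ * ‖y - y'‖) y').indicator (fun s => ‖ws x c e ρ s y'‖) s) := by
        apply norm_integral_le_of_norm_le
        · apply Integrable.const_mul
          apply Integrable.add
          · apply Integrable.add
            · exact integrable_const _
            · exact (hind y).integrableOn
          · exact (hind y').integrableOn
        · filter_upwards [ae_restrict_mem measurableSet_Ioc] with s hs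
          exact ph_smul_sub_le hρ hs.1.le hs.2
    _ = (bv μ ρ)⁻¹ * (2 * ‖y - y'‖ +
        (∫ s in Ioc (0 : ℝ) 1,
          (TT x c e ρ (6 * ρ * ‖y - y'‖) y).indicator (fun s => ‖ws x c e ρ s y‖) s) +
        (∫ s in Ioc (0 : ℝ) 1,
          (TT x c e ρ (6 * ρ * ‖y - y'‖) y').indicator (fun s => ‖ws x c e ρ s y'‖) s)) := by
        rw [integral_const_mul, integral_add, integral_add]
        · simp
        · exact integrable_const _
        · exact (hind y).integrableOn
        · apply Integrable.add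
          · exact integrable_const _
          · exact (hind y).integrableOn
        · exact (hind y').integrableOn
    _ ≤ (bv μ ρ)⁻¹ * (2 * ‖y - y'‖ + 12 * √(ρ * ‖y - y'‖)) := by
        apply mul_le_mul_of_nonneg_left _ hb.le
        have e1 := hindI y
        have e2 := hindI y'
        linarith

/-- the kernel is continuous -/
theorem Ker_continuous (hρ : 0 < ρ) (hc : ‖c - x‖ ≤ ρ) (he : ‖e‖ = 1) :
    Continuous (Ker μ x c e ρ) := by
  rw [Metric.continuous_iff]
  intro b ε hε
  have hcont : Continuous fun t : ℝ => (2 * t + 12 * √(ρ * t)) / bv μ ρ := by fun_prop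
  have h0 : (2 * (0 : ℝ) + 12 * √(ρ * 0)) / bv μ ρ = 0 := by simp
  have h1 := (Metric.continuous_iff.1 hcont 0 ε hε)
  obtain ⟨δ, hδ, h2⟩ := h1
  refine ⟨δ, hδ, fun z hz => ?_⟩
  rw [dist_eq_norm] at hz ⊢
  have h3 := h2 ‖z - b‖ (by rw [Real.dist_eq, sub_zero, abs_of_nonneg (norm_nonneg _)]; exact hz)
  rw [h0, Real.dist_eq, sub_zero] at h3
  exact (Ker_holder' hρ hc he).trans_lt ((le_abs_self _).trans_lt h3)

end

/-- [KER] the kernel theorem -/
theorem kernel {d : ℕ} (_hd : 0 < d) (x c e : E d) (ρ : ℝ) (hρ : 0 < ρ) (hc : ‖c - x‖ ≤ ρ)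
    (he : ‖e‖ = 1) :
    ∃ (K : E d → E d) (κ : E d → ℝ),
      Measurable K ∧ (∀ y, 6 * ρ ≤ ‖y - x‖ → K y = 0) ∧
      (∀ y, 0 ≤ κ y ∧ κ y ≤ 1 / volume.real (ball (0 : E d) ρ)) ∧
      (∀ y, ‖K y‖ ^ 2 ≤ 6 * ρ * κ y * inner ℝ (K y) e) ∧
      (∀ y, κ y * ‖y - x‖ ^ 2 ≤ 20 * ρ * inner ℝ (K y) e) ∧
      (∀ y y', ‖K y - K y'‖ ≤ (2 * ‖y - y'‖ + 12 * √(ρ * ‖y - y'‖)) /
        volume.real (ball (0 : E d) ρ)) ∧
      (∀ (g : E d → ℝ) (G : E d → E d), ContDiff ℝ 1 g →
        (∀ y v, fderiv ℝ g y v = inner ℝ (G y) v) →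
        (⨍ y in ball (x + (3 * ρ) • e) (3 * ρ), g y) - (⨍ y in ball c ρ, g y) =
          ∫ y, inner ℝ (K y) (G y)) := by
  refine ⟨Ker volume x c e ρ, kap volume x c e ρ, (Ker_continuous hρ hc he).measurable,
    fun y hy => Ker_eq_zero_of_far hρ hc he hy,
    fun y => ⟨kap_nonneg hρ, by rw [one_div]; exact kap_le hρ⟩,
    fun y => Ker_norm_sq_le hρ hc he, fun y => ?_, fun y y' => Ker_holder' hρ hc he, ?_⟩
  · have h1 := kap_mul_sq_le (μ := (volume : Measure (E d))) (y := y) hρ hc he
    have h2 := Ker_inner_e_nonneg (μ := (volume : Measure (E d))) (y := y) hρ hc he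
    nlinarith [mul_nonneg hρ.le h2]
  · intro g G hg hG
    rw [competitor hρ hc he hg]
    congr 1
    funext y
    rw [hG, real_inner_comm]

end P137
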