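import Vale.Agent.P137.CellInt
import Vale.Agent.P137.KernelThm

/-!
# P137, block [CELL]
-/

open MeasureTheory Metric Set Filter Topology
open scoped ENNReal ContDiff NNReal

namespace P137

namespace CellB

lemma kernelHyp (d : ℕ) (hd : 0 < d) : KernelHyp d := by
  intro x c e ρ hρ hc he
  obtain ⟨K, κ, h1, h2, h3, h4, h5, h6, h7⟩ := kernel hd x c e ρ hρ hc he
  refine ⟨K, κ, ⟨h1, h2, fun y => (h3 y).1, fun y => (h3 y).2, h4, h5, fun y y' => ?_⟩, ?_⟩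
  · refine (h6 y y').trans ?_
    have : 0 ≤ √(ρ * ‖y - y'‖) := Real.sqrt_nonneg _
    gcongr
    norm_num
  · intro g G hN
    exact h7 g G hN.smooth hN.grad

end CellB

/-- [CELL] CellBound.lean -/
theorem cell_bound (d : ℕ) (hd : 0 < d) :
    ∃ C μ : ℝ≥0, μ < 1 ∧ ∀ (g : E d → ℝ) (G : E d → E d), Nice g G → (∀ y, 0 ≤ g y) →
      ∀ (s : Fin d → Fin 2) (k : ℤ) (m0 : Fin d → ℤ),
      ∃ Rf : E d → ℝ≥0∞, Measurable Rf ∧
        (∀ (x c : E d) (ρ : ℝ), ball x (18 * rad k) ⊆ cell s k m0 → x ∈ ball c ρ →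
          rad k ≤ ρ → ρ ≤ 3 * rad k →
          ∃ e : E d, ‖e‖ = 1 ∧ avg g c ρ ≤ avg g (x + (3 * ρ) • e) (3 * ρ) + Rf x) ∧
        ∫⁻ x, Rf x ≤ C * ENNReal.ofReal (rad k) *
          ∑' n : ℕ, (μ : ℝ≥0∞) ^ n * ∑ m ∈ desc (ch s) m0 n, ENNReal.ofReal (D1 G s (k + n) m) :=
  CellB.cell_bound_of d hd (CellB.kernelHyp d hd)

end P137
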