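import Vale.Agent.P137.CellTree

/-!
# P137, block [CELL], part 2: passage to the limit and integration in `x`
-/

open MeasureTheory Metric Set Filter Topology
open scoped ENNReal ContDiff NNReal

namespace P137

namespace CellB

variable {d : ℕ}

/-- sum of the defects of relative generation `n` -/
noncomputable def Dl (G : E d → E d) (s : Fin d → Fin 2) (k : ℤ) (m0 : Fin d → ℤ) (n : ℕ) :
    ℝ≥0∞ := ∑ m ∈ desc (ch s) m0 n, ENNReal.ofReal (D1 G s (k + n) m)

/-- `|a| - a · e` -/
noncomputable def ps (G : E d → E d) (s : Fin d → Fin 2) (e : E d) (k : ℤ) (m : Fin d → ℤ) : ℝ :=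
  ‖aV G s k m‖ - inner ℝ (aV G s k m) e

lemma ps_nonneg (G : E d → E d) (s : Fin d → Fin 2) (e : E d) (he : ‖e‖ = 1) (k : ℤ)
    (m : Fin d → ℤ) : 0 ≤ ps G s e k m := by
  have := real_inner_le_norm (aV G s k m) e
  rw [he, mul_one] at this
  unfold ps
  linarith

lemma sum_ps (G : E d → E d) (hG : Integrable G) (s : Fin d → Fin 2) (e : E d) (k : ℤ)
    (m0 : Fin d → ℤ) (hroot : ps G s e k m0 = 0) (n : ℕ) :
    ∑ m ∈ desc (ch s) m0 n, ps G s e (k + n) m =
      ∑ j ∈ Finset.range n, ∑ m ∈ desc (ch s) m0 j, D1 G s (k + j) m := by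
  induction n with
  | zero => simpa [desc] using hroot
  | succ n ih =>
    rw [Finset.sum_range_succ, ← ih, sum_desc_succ, ← Finset.sum_add_distrib]
    refine Finset.sum_congr rfl fun m _ => ?_
    have e1 : k + ((n + 1 : ℕ) : ℤ) = k + n + 1 := by push_cast; ring
    rw [e1]
    unfold ps D1
    rw [Finset.sum_sub_distrib]
    have h2 : inner ℝ (aV G s (k + n) m) e = ∑ m' ∈ ch s m, inner ℝ (aV G s (k + n + 1) m') e := by
      rw [aV_sum G hG s (k + n) m, sum_inner]
    rw [h2]
    ring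

lemma sum_ps_enn (G : E d → E d) (hG : Integrable G) (s : Fin d → Fin 2) (e : E d)
    (he : ‖e‖ = 1) (k : ℤ) (m0 : Fin d → ℤ) (hroot : ps G s e k m0 = 0) (n : ℕ) :
    ∑ m ∈ desc (ch s) m0 n, ENNReal.ofReal (ps G s e (k + n) m) =
      ∑ j ∈ Finset.range n, Dl G s k m0 j := by
  unfold Dl
  rw [← ENNReal.ofReal_sum_of_nonneg fun m _ => ps_nonneg G s e he _ m,
    sum_ps G hG s e k m0 hroot n,
    ENNReal.ofReal_sum_of_nonneg fun j _ => Finset.sum_nonneg fun m _ => D1_nonneg G hG s _ m]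
  refine Finset.sum_congr rfl fun j _ => ?_
  rw [ENNReal.ofReal_sum_of_nonneg fun m _ => D1_nonneg G hG s _ m]

lemma tsum_range (a : ℕ → ℝ≥0∞) (u : ℝ≥0∞) :
    ∑' n, u ^ n * ∑ j ∈ Finset.range (n + 1), a j = (1 - u)⁻¹ * ∑' n, u ^ n * a n := by
  calc ∑' n, u ^ n * ∑ j ∈ Finset.range (n + 1), a j =
      ∑' n, ∑' j, (if j ≤ n then u ^ n * a j else 0) := by
        refine tsum_congr fun n => ?_
        rw [Finset.mul_sum, tsum_eq_sum (s := Finset.range (n + 1))]
        · refine Finset.sum_congr rfl fun j hj => ?_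
          rw [Finset.mem_range] at hj
          rw [if_pos (by omega)]
        · intro j hj
          rw [Finset.mem_range] at hj
          rw [if_neg (by omega)]
    _ = ∑' j, ∑' n, (if j ≤ n then u ^ n * a j else 0) := ENNReal.tsum_comm
    _ = ∑' j, (1 - u)⁻¹ * (u ^ j * a j) := by
        refine tsum_congr fun j => ?_
        rw [← Summable.sum_add_tsum_nat_add' (k := j) ENNReal.summable]
        rw [Finset.sum_eq_zero, zero_add]
        · have : ∀ i, (if j ≤ i + j then u ^ (i + j) * a j else 0) = u ^ i * (u ^ j * a j) := by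
            intro i
            rw [if_pos (by omega), pow_add, mul_assoc]
          simp only [this]
          rw [ENNReal.tsum_mul_right, ENNReal.tsum_geometric]
        · intro i hi
          rw [Finset.mem_range] at hi
          rw [if_neg (by omega)]
    _ = _ := ENNReal.tsum_mul_left

/-- majorant of `wt` -/
noncomputable def wE (k : ℤ) (n : ℕ) (y x : E d) : ℝ≥0∞ :=
  ENNReal.ofReal (1 / Br d k) * (closedBall y (q ^ n * rad k)).indicator (fun _ => 1) x +
    ENNReal.ofReal (60 * (2 * th d k + Hc d k) * q ^ (2 * n) / rad k)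

lemma wt_le_wE (k : ℤ) (n : ℕ) (y x : E d) :
    ENNReal.ofReal (wt d k n ‖y - x‖) ≤ wE k n y x := by
  unfold wt wE
  split_ifs with h
  · have hx : x ∈ closedBall y (q ^ n * rad k) := by
      rw [mem_closedBall, dist_comm, dist_eq_norm]
      exact h
    rw [Set.indicator_of_mem hx, mul_one]
    exact le_self_add
  · exact le_add_self

lemma measurable_wE (k : ℤ) (n : ℕ) (y : E d) : Measurable fun x => wE k n y x := by
  unfold wE
  exact ((measurable_const.indicator measurableSet_closedBall).const_mul _).add_const _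

/-- first part of the majorant -/
noncomputable def X1 (G : E d → E d) (s : Fin d → Fin 2) (k : ℤ) (m0 : Fin d → ℤ) : ℝ≥0∞ :=
  ENNReal.ofReal (th d k) * ∑' n, ENNReal.ofReal q ^ n * Dl G s k m0 n

/-- second part of the majorant -/
noncomputable def X2 (G : E d → E d) (s : Fin d → Fin 2) (e : E d) (k : ℤ) (m0 : Fin d → ℤ)
    (x : E d) : ℝ≥0∞ :=
  ENNReal.ofReal (18 * rad k) * ∑' n : ℕ, ∑ m ∈ desc (ch s) m0 (n + 1),
    wE k n (ctr s (k + (n + 1 : ℕ)) m) x * ENNReal.ofReal (ps G s e (k + (n + 1 : ℕ)) m)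

lemma measurable_X2 (G : E d → E d) (s : Fin d → Fin 2) (e : E d) (k : ℤ) (m0 : Fin d → ℤ) :
    Measurable (X2 G s e k m0) := by
  unfold X2
  refine Measurable.const_mul ?_ _
  refine Measurable.tsum fun n => ?_
  refine Finset.measurable_sum _ fun m _ => ?_
  exact (measurable_wE k n _).mul_const _

lemma tendsto_err (k : ℤ) : Tendsto (fun N => err d k N) atTop (𝓝 0) := by
  have h1 : Tendsto (fun N => (q ^ 4) ^ N) atTop (𝓝 0) :=
    tendsto_pow_atTop_nhds_zero_of_lt_one (by have := q_pos; positivity) q_four_lt_one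
  have h2 : Tendsto (fun N => Hc d k * (q ^ 4) ^ N) atTop (𝓝 (Hc d k * 0)) := h1.const_mul _
  have h3 : Tendsto (fun N => √(36 * rad k * th d k / Br d k * (q ^ 4) ^ N)) atTop
      (𝓝 (√(36 * rad k * th d k / Br d k * 0))) := (h1.const_mul _).sqrt
  have h4 := h2.add h3
  rw [mul_zero, mul_zero, Real.sqrt_zero, add_zero] at h4
  exact h4

/-- the pointwise bound -/
theorem pointwise (hd : 0 < d) {x e : E d} {ρ : ℝ} {K : E d → E d} {κ : E d → ℝ}
    (h : KD x e ρ K κ) (he : ‖e‖ = 1) (k : ℤ) (h1 : rad k ≤ ρ) (h2 : ρ ≤ 3 * rad k)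
    (G : E d → E d) (hG : Integrable G) (s : Fin d → Fin 2) (m0 : Fin d → ℤ)
    (hroot : ps G s e k m0 = 0) :
    ENNReal.ofReal (-(∫ y in cell s k m0, inner ℝ (K y) (G y))) ≤
      X1 G s k m0 + X2 G s e k m0 x := by
  have hq := q_pos
  have hlim : Tendsto (fun N => X1 G s k m0 + X2 G s e k m0 x +
      ENNReal.ofReal (err d k N * ∫ y in cell s k m0, ‖G y‖)) atTop
      (𝓝 (X1 G s k m0 + X2 G s e k m0 x + ENNReal.ofReal (0 * ∫ y in cell s k m0, ‖G y‖))) := by
    refine tendsto_const_nhds.add ?_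
    exact ENNReal.tendsto_ofReal ((tendsto_err k).mul_const _)
  rw [zero_mul, ENNReal.ofReal_zero, add_zero] at hlim
  refine ge_of_tendsto' hlim fun N => ?_
  refine (ENNReal.ofReal_le_ofReal (tree_cell hd h he k h1 h2 G hG s m0 hroot N)).trans ?_
  refine ENNReal.ofReal_add_le.trans (add_le_add_left ?_ _)
  refine ENNReal.ofReal_add_le.trans (add_le_add ?_ ?_)
  · unfold X1
    rw [ENNReal.ofReal_mul (th_nonneg k)]
    refine mul_le_mul_right ?_ _
    rw [ENNReal.ofReal_sum_of_nonneg]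
    · refine le_trans (Finset.sum_le_sum fun n _ => ?_) (ENNReal.sum_le_tsum (Finset.range N))
      rw [ENNReal.ofReal_mul (by positivity), ← pow_mul, ← ENNReal.ofReal_pow hq.le]
      refine mul_le_mul' (ENNReal.ofReal_le_ofReal ?_) (le_of_eq ?_)
      · exact pow_le_pow_of_le_one hq.le q_lt_one.le (by omega)
      · rw [ENNReal.ofReal_sum_of_nonneg fun m _ => D1_nonneg G hG s _ m]
        rfl
    · intro n _
      exact mul_nonneg (by positivity) (Finset.sum_nonneg fun m _ => D1_nonneg G hG s _ m)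
  · unfold X2
    rw [ENNReal.ofReal_mul (by have := rad_pos k; positivity)]
    refine mul_le_mul_right ?_ _
    rw [ENNReal.ofReal_sum_of_nonneg]
    · refine le_trans (Finset.sum_le_sum fun n _ => ?_) (ENNReal.sum_le_tsum (Finset.range N))
      rw [ENNReal.ofReal_sum_of_nonneg]
      · refine Finset.sum_le_sum fun m _ => ?_
        rw [ENNReal.ofReal_mul (wt_nonneg k _ _)]
        exact mul_le_mul' (wt_le_wE k n _ x) le_rfl
      · intro m _
        exact mul_nonneg (wt_nonneg k _ _) (ps_nonneg G s e he _ m)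
    · intro n _
      exact Finset.sum_nonneg fun m _ => mul_nonneg (wt_nonneg k _ _) (ps_nonneg G s e he _ m)

/-! ## integration in `x` -/

/-- volume of the unit ball -/
noncomputable def b1 (d : ℕ) : ℝ := volume.real (ball (0 : E d) 1)

lemma b1_pos : 0 < b1 d :=
  ENNReal.toReal_pos (measure_ball_pos _ _ one_pos).ne' measure_ball_lt_top.ne

lemma Br_eq (k : ℤ) : Br d k = rad k ^ d * b1 d := by
  unfold Br b1
  have h := Measure.addHaar_ball_mul_of_pos volume (0 : E d) (rad_pos k) 1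
  rw [mul_one] at h
  unfold Measure.real
  rw [h, ENNReal.toReal_mul, ENNReal.toReal_ofReal (by have := rad_pos k; positivity)]
  simp

/-- constant of the second part -/
noncomputable def C2 (d : ℕ) : ℝ :=
  1 + 60 * (402 * √d * (2 / (1 - q ^ 4) + 1)) * 81 ^ d / b1 d

lemma C2_nonneg : 0 ≤ C2 d := by
  have := b1_pos (d := d)
  have : 0 < 1 - q ^ 4 := by linarith [q_four_lt_one]
  unfold C2
  positivity

/-- constant of the first part -/
noncomputable def C1 (d : ℕ) : ℝ := 402 * √d * 81 ^ d / (b1 d * (1 - q ^ 4))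

lemma C1_nonneg : 0 ≤ C1 d := by
  have := b1_pos (d := d)
  have : 0 < 1 - q ^ 4 := by linarith [q_four_lt_one]
  unfold C1
  positivity

lemma vol_cell_le (s : Fin d → Fin 2) (k : ℤ) (m : Fin d → ℤ) :
    volume (cell s k m) ≤ ENNReal.ofReal ((81 * rad k) ^ d) := by
  refine (cell_vol s k m).trans (ENNReal.ofReal_le_ofReal (le_of_eq ?_))
  have := side_eq k 0
  simp only [Nat.cast_zero, add_zero, mul_zero, pow_zero, mul_one] at this
  rw [this]

lemma th_mul (k : ℤ) : th d k * (81 * rad k) ^ d = C1 d * rad k := by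
  unfold th Hc C1
  rw [Br_eq]
  have hr := rad_pos k
  have hb := b1_pos (d := d)
  have : 0 < 1 - q ^ 4 := by linarith [q_four_lt_one]
  rw [mul_pow]
  field_simp

lemma wE_int (hd : 0 < d) (k : ℤ) (n : ℕ) (y : E d) (S : Set (E d))
    (hS : volume S ≤ ENNReal.ofReal ((81 * rad k) ^ d)) :
    ∫⁻ x in S, wE k n y x ≤ ENNReal.ofReal (C2 d) * ENNReal.ofReal q ^ n := by
  have hr := rad_pos k
  have hb := b1_pos (d := d)
  have hB := Br_pos (d := d) k
  have hq := q_pos
  have h1q : 0 < 1 - q ^ 4 := by linarith [q_four_lt_one]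
  have hth := th_nonneg (d := d) k
  have hHc := Hc_nonneg (d := d) k
  unfold wE
  rw [lintegral_add_right _ measurable_const, lintegral_const_mul _
    (measurable_const.indicator measurableSet_closedBall),
    lintegral_indicator_const measurableSet_closedBall, setLIntegral_const, one_mul]
  have e1 : ENNReal.ofReal (1 / Br d k) * volume.restrict S (closedBall y (q ^ n * rad k)) ≤
      ENNReal.ofReal (q ^ n) := by
    have h2 : volume.restrict S (closedBall y (q ^ n * rad k)) ≤
        ENNReal.ofReal ((q ^ n * rad k) ^ d * b1 d) := by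
      refine (Measure.restrict_apply_le _ _).trans ?_
      rw [Measure.addHaar_closedBall _ _ (by positivity), ENNReal.ofReal_mul (by positivity)]
      unfold b1 Measure.real
      rw [ENNReal.ofReal_toReal measure_ball_lt_top.ne]
      simp
    refine (mul_le_mul' le_rfl h2).trans ?_
    rw [← ENNReal.ofReal_mul (by positivity)]
    refine ENNReal.ofReal_le_ofReal ?_
    rw [Br_eq, mul_pow]
    have h3 : 1 / (rad k ^ d * b1 d) * ((q ^ n) ^ d * rad k ^ d * b1 d) = (q ^ n) ^ d := by
      field_simp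
    rw [h3]
    exact pow_le_of_le_one (by positivity) (pow_le_one₀ hq.le q_lt_one.le) hd.ne'
  have e2 : ENNReal.ofReal (60 * (2 * th d k + Hc d k) * q ^ (2 * n) / rad k) * volume S ≤
      ENNReal.ofReal ((C2 d - 1) * q ^ n) := by
    refine (mul_le_mul' le_rfl hS).trans ?_
    rw [← ENNReal.ofReal_mul (by positivity)]
    refine ENNReal.ofReal_le_ofReal ?_
    have h4 : 60 * (2 * th d k + Hc d k) * q ^ (2 * n) / rad k * (81 * rad k) ^ d =
        (C2 d - 1) * q ^ (2 * n) := by
      unfold th Hc C2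
      rw [Br_eq, mul_pow]
      field_simp
      ring
    rw [h4]
    have h5 : 0 ≤ C2 d - 1 := by
      unfold C2
      rw [add_sub_cancel_left]
      positivity
    refine mul_le_mul_of_nonneg_left ?_ h5
    exact pow_le_pow_of_le_one hq.le q_lt_one.le (by omega)
  have h5 : 0 ≤ C2 d - 1 := by
    unfold C2
    rw [add_sub_cancel_left]
    positivity
  refine (add_le_add e1 e2).trans (le_of_eq ?_)
  rw [← ENNReal.ofReal_add (by positivity) (by positivity), ← ENNReal.ofReal_pow hq.le,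
    ← ENNReal.ofReal_mul C2_nonneg]
  congr 1
  ring

lemma int_X2 (hd : 0 < d) (G : E d → E d) (hG : Integrable G) (s : Fin d → Fin 2) (e : E d)
    (he : ‖e‖ = 1) (k : ℤ) (m0 : Fin d → ℤ) (hroot : ps G s e k m0 = 0) (S : Set (E d))
    (hS : volume S ≤ ENNReal.ofReal ((81 * rad k) ^ d)) :
    ∫⁻ x in S, X2 G s e k m0 x ≤ ENNReal.ofReal (18 * rad k) * (ENNReal.ofReal (C2 d) *
      ((1 - ENNReal.ofReal q)⁻¹ * ∑' n, ENNReal.ofReal q ^ n * Dl G s k m0 n)) := by
  unfold X2
  rw [lintegral_const_mul]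
  · refine mul_le_mul' le_rfl ?_
    rw [lintegral_tsum]
    · calc ∑' n : ℕ, ∫⁻ x in S, ∑ m ∈ desc (ch s) m0 (n + 1),
            wE k n (ctr s (k + (n + 1 : ℕ)) m) x * ENNReal.ofReal (ps G s e (k + (n + 1 : ℕ)) m)
          ≤ ∑' n : ℕ, ENNReal.ofReal (C2 d) * (ENNReal.ofReal q ^ n *
              ∑ j ∈ Finset.range (n + 1), Dl G s k m0 j) := by
            refine ENNReal.tsum_le_tsum fun n => ?_
            rw [lintegral_finsetSum _ fun m _ => (measurable_wE k n _).mul_const _]
            rw [← sum_ps_enn G hG s e he k m0 hroot (n + 1), ← mul_assoc, Finset.mul_sum]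
            refine Finset.sum_le_sum fun m _ => ?_
            rw [lintegral_mul_const _ (measurable_wE k n _)]
            exact mul_le_mul' (wE_int hd k n _ S hS) le_rfl
        _ = _ := by rw [ENNReal.tsum_mul_left, tsum_range]
    · intro n
      refine (Finset.measurable_sum _ fun m _ => ?_).aemeasurable
      exact (measurable_wE k n _).mul_const _
  · refine Measurable.tsum fun n => ?_
    refine Finset.measurable_sum _ fun m _ => ?_
    exact (measurable_wE k n _).mul_const _

/-- the final constant -/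
noncomputable def CC (d : ℕ) : ℝ≥0 :=
  Real.toNNReal (C1 d + 18 * C2 d * (1 - q)⁻¹)

lemma int_X (hd : 0 < d) (G : E d → E d) (hG : Integrable G) (s : Fin d → Fin 2) (e : E d)
    (he : ‖e‖ = 1) (k : ℤ) (m0 : Fin d → ℤ) (hroot : ps G s e k m0 = 0) :
    ∫⁻ x in cell s k m0, (X1 G s k m0 + X2 G s e k m0 x) ≤
      CC d * ENNReal.ofReal (rad k) * ∑' n, ENNReal.ofReal q ^ n * Dl G s k m0 n := by
  have hr := rad_pos k
  have hq := q_pos
  have hq1 : 0 < 1 - q := by linarith [q_lt_one]
  have hC1 := C1_nonneg (d := d)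
  have hC2 := C2_nonneg (d := d)
  rw [lintegral_add_right _ (measurable_X2 G s e k m0), setLIntegral_const]
  refine (add_le_add (mul_le_mul' le_rfl (vol_cell_le s k m0))
    (int_X2 hd G hG s e he k m0 hroot _ (vol_cell_le s k m0))).trans ?_
  unfold X1 CC
  generalize ∑' n, ENNReal.ofReal q ^ n * Dl G s k m0 n = Y
  have e1 : ENNReal.ofReal (th d k) * Y * ENNReal.ofReal ((81 * rad k) ^ d) =
      ENNReal.ofReal (C1 d * rad k) * Y := by
    rw [mul_right_comm, ← ENNReal.ofReal_mul (th_nonneg k), th_mul]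
  have e2 : (1 - ENNReal.ofReal q)⁻¹ = ENNReal.ofReal ((1 - q)⁻¹) := by
    rw [ENNReal.ofReal_inv_of_pos hq1, ENNReal.ofReal_sub _ hq.le, ENNReal.ofReal_one]
  have e3 : ENNReal.ofReal (18 * rad k) * (ENNReal.ofReal (C2 d) *
      ((1 - ENNReal.ofReal q)⁻¹ * Y)) = ENNReal.ofReal (18 * C2 d * (1 - q)⁻¹ * rad k) * Y := by
    rw [e2, ← mul_assoc, ← mul_assoc, ← ENNReal.ofReal_mul (by positivity),
      ← ENNReal.ofReal_mul (by positivity)]
    congr 2
    ring
  rw [e1, e3, ← add_mul, ← ENNReal.ofReal_add (by positivity) (by positivity)]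
  refine mul_le_mul' (le_of_eq ?_) le_rfl
  rw [ENNReal.ofNNReal_toNNReal, ← ENNReal.ofReal_mul (by positivity)]
  congr 1
  ring

/-- averages of nonnegative functions -/
lemma avg_eq (g : E d → ℝ) (hg : Integrable g) (h0 : ∀ y, 0 ≤ g y) (c : E d) (r : ℝ)
    (hr : 0 < r) : avg g c r = ENNReal.ofReal (⨍ y in ball c r, g y) := by
  have hv : 0 < volume.real (ball c r) :=
    ENNReal.toReal_pos (measure_ball_pos _ _ hr).ne' measure_ball_lt_top.ne
  rw [setAverage_eq, smul_eq_mul, ENNReal.ofReal_mul (by positivity),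
    ENNReal.ofReal_inv_of_pos hv, Measure.real, ENNReal.ofReal_toReal measure_ball_lt_top.ne,
    ofReal_integral_eq_lintegral_ofReal hg.integrableOn (Eventually.of_forall h0)]
  unfold avg
  rw [ENNReal.div_eq_inv_mul]
  congr 1
  refine lintegral_congr fun y => ?_
  rw [Real.enorm_of_nonneg (h0 y)]

/-- the kernel theorem in the form used here -/
def KernelHyp (d : ℕ) : Prop := ∀ (x c e : E d) (ρ : ℝ), 0 < ρ → ‖c - x‖ ≤ ρ → ‖e‖ = 1 →
  ∃ (K : E d → E d) (κ : E d → ℝ), KD x e ρ K κ ∧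
    ∀ (g : E d → ℝ) (G : E d → E d), Nice g G →
      (⨍ y in ball (x + (3 * ρ) • e) (3 * ρ), g y) - (⨍ y in ball c ρ, g y) =
        ∫ y, inner ℝ (K y) (G y)

lemma exists_dir (hd : 0 < d) (a : E d) : ∃ e : E d, ‖e‖ = 1 ∧ ‖a‖ - inner ℝ a e = 0 := by
  by_cases ha : a = 0
  · refine ⟨EuclideanSpace.single ⟨0, hd⟩ 1, by simp, by simp [ha]⟩
  · have hn : 0 < ‖a‖ := norm_pos_iff.2 ha
    refine ⟨‖a‖⁻¹ • a, ?_, ?_⟩
    · rw [norm_smul, norm_inv, norm_norm, inv_mul_cancel₀ hn.ne']
    · rw [inner_smul_right, real_inner_self_eq_norm_sq]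
      field_simp
      ring

/-- [CELL] from the kernel theorem -/
theorem cell_bound_of (d : ℕ) (hd : 0 < d) (hK : KernelHyp d) :
    ∃ C μ : ℝ≥0, μ < 1 ∧ ∀ (g : E d → ℝ) (G : E d → E d), Nice g G → (∀ y, 0 ≤ g y) →
      ∀ (s : Fin d → Fin 2) (k : ℤ) (m0 : Fin d → ℤ),
      ∃ Rf : E d → ℝ≥0∞, Measurable Rf ∧
        (∀ (x c : E d) (ρ : ℝ), ball x (18 * rad k) ⊆ cell s k m0 → x ∈ ball c ρ →
          rad k ≤ ρ → ρ ≤ 3 * rad k →
          ∃ e : E d, ‖e‖ = 1 ∧ avg g c ρ ≤ avg g (x + (3 * ρ) • e) (3 * ρ) + Rf x) ∧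
        ∫⁻ x, Rf x ≤ C * ENNReal.ofReal (rad k) *
          ∑' n : ℕ, (μ : ℝ≥0∞) ^ n * ∑ m ∈ desc (ch s) m0 n, ENNReal.ofReal (D1 G s (k + n) m) := by
  refine ⟨CC d, Real.toNNReal q, ?_, ?_⟩
  · rw [← NNReal.coe_lt_coe, Real.coe_toNNReal _ q_pos.le]
    exact q_lt_one
  · intro g G hN h0 s k m0
    obtain ⟨e, he, hroot⟩ := exists_dir hd (aV G s k m0)
    refine ⟨(cell s k m0).indicator fun x => X1 G s k m0 + X2 G s e k m0 x, ?_, ?_, ?_⟩
    · exact ((measurable_X2 G s e k m0).const_add _).indicator (cell_meas s k m0)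
    · intro x c ρ hx hc h1 h2
      have hr := rad_pos k
      have hρ : 0 < ρ := hr.trans_le h1
      have hc' : ‖c - x‖ ≤ ρ := by
        rw [mem_ball, dist_comm, dist_eq_norm] at hc
        exact hc.le
      obtain ⟨K, κ, hKD, hrep⟩ := hK x c e ρ hρ hc' he
      refine ⟨e, he, ?_⟩
      have hxc : x ∈ cell s k m0 := hx (mem_ball_self (by positivity))
      have h3 := hrep g G hN
      have h4 : ∫ y, inner ℝ (K y) (G y) = ∫ y in cell s k m0, inner ℝ (K y) (G y) := by
        rw [setIntegral_eq_integral_of_forall_compl_eq_zero]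
        intro y hy
        have h5 : ‖y - x‖ ≥ 6 * ρ := by
          by_contra hcon
          push Not at hcon
          apply hy
          apply hx
          rw [mem_ball, dist_eq_norm]
          linarith
        rw [hKD.supp y h5, inner_zero_left]
      rw [Set.indicator_of_mem hxc, avg_eq g hN.int h0 c ρ hρ, avg_eq g hN.int h0 _ _ (by linarith)]
      have h6 : (⨍ y in ball c ρ, g y) = (⨍ y in ball (x + (3 * ρ) • e) (3 * ρ), g y) +
          (-(∫ y in cell s k m0, inner ℝ (K y) (G y))) := by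
        rw [← h4, ← h3]
        ring
      rw [h6]
      refine ENNReal.ofReal_add_le.trans (add_le_add le_rfl ?_)
      exact pointwise hd hKD he k h1 h2 G hN.intG s m0 hroot
    · rw [lintegral_indicator (cell_meas s k m0)]
      exact int_X hd G hN.intG s e he k m0 hroot

end CellB

end P137
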