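import Mathlib

/-!
# P137: the tree lemma (linear algebra of the telescoping argument).

Cells form a type `C`, every cell `c` has the children `ch c i`.
-/

open scoped RealInnerProductSpace

namespace P137

namespace Tree

variable {C ι E : Type*} [Fintype ι] [NormedAddCommGroup E] [InnerProductSpace ℝ E]

/-- sum over the children -/
def Aop (ch : C → ι → C) (Φ : C → ℝ) : C → ℝ := fun c => ∑ i, Φ (ch c i)

lemma iter_mono (ch : C → ι → C) (G : ℕ → C → Prop) (hG : ∀ n c i, G n c → G (n + 1) (ch c i))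
    (Φ Ψ : C → ℝ) (n : ℕ) : ∀ k c, G k c → (∀ c', G (k + n) c' → Φ c' ≤ Ψ c') →
      (Aop ch)^[n] Φ c ≤ (Aop ch)^[n] Ψ c := by
  induction n with
  | zero => intro k c hc h; simpa using h c (by simpa using hc)
  | succ n ih =>
    intro k c hc h
    rw [Function.iterate_succ_apply', Function.iterate_succ_apply']
    refine Finset.sum_le_sum fun i _ => ih (k + 1) _ (hG k c i hc) fun c' hc' => h c' ?_
    have e : k + 1 + n = k + (n + 1) := by ring
    rwa [e] at hc'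

lemma iter_add (ch : C → ι → C) (Φ Ψ : C → ℝ) (n : ℕ) :
    (Aop ch)^[n] (fun c => Φ c + Ψ c) = fun c => (Aop ch)^[n] Φ c + (Aop ch)^[n] Ψ c := by
  induction n generalizing Φ Ψ with
  | zero => rfl
  | succ n ih =>
    rw [Function.iterate_succ_apply]
    have : Aop ch (fun c => Φ c + Ψ c) = fun c => Aop ch Φ c + Aop ch Ψ c := by
      funext c
      simp [Aop, Finset.sum_add_distrib]
    rw [this, ih]
    rfl

lemma iter_smul (ch : C → ι → C) (t : ℝ) (Φ : C → ℝ) (n : ℕ) :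
    (Aop ch)^[n] (fun c => t * Φ c) = fun c => t * (Aop ch)^[n] Φ c := by
  induction n generalizing Φ with
  | zero => rfl
  | succ n ih =>
    rw [Function.iterate_succ_apply]
    have : Aop ch (fun c => t * Φ c) = fun c => t * Aop ch Φ c := by
      funext c
      simp [Aop, Finset.mul_sum]
    rw [this, ih]
    rfl

lemma iter_additive (ch : C → ι → C) (Φ : C → ℝ) (h : ∀ c, Φ c = ∑ i, Φ (ch c i)) (n : ℕ) :
    (Aop ch)^[n] Φ = Φ := by
  have h1 : Aop ch Φ = Φ := by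
    funext c
    exact (h c).symm
  exact Function.iterate_fixed h1 n

/-- `D c = ∑ ‖a (child)‖ - ‖a c‖` -/
noncomputable def Dd (ch : C → ι → C) (a : C → E) (c : C) : ℝ := (∑ i, ‖a (ch c i)‖) - ‖a c‖

/-- `ψ c = ‖a c‖ - ⟪a c, e⟫` -/
noncomputable def psi (a : C → E) (e : E) (c : C) : ℝ := ‖a c‖ - ⟪a c, e⟫

omit [InnerProductSpace ℝ E] in
lemma Dd_nonneg (ch : C → ι → C) (a : C → E) (ha : ∀ c, a c = ∑ i, a (ch c i)) (c : C) :
    0 ≤ Dd ch a c := by
  have := norm_sum_le Finset.univ fun i => a (ch c i)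
  rw [← ha c] at this
  unfold Dd
  linarith

lemma psi_nonneg (a : C → E) (e : E) (he : ‖e‖ ≤ 1) (c : C) : 0 ≤ psi a e c := by
  have h1 := real_inner_le_norm (a c) e
  have h2 : ‖a c‖ * ‖e‖ ≤ ‖a c‖ * 1 := mul_le_mul_of_nonneg_left he (norm_nonneg _)
  unfold psi
  linarith

section main

variable (ch : C → ι → C) (G : ℕ → C → Prop) (a K : C → E) (κ : C → ℝ) (w : ℕ → C → ℝ) (e : E)
  (lam H θ μ : ℝ)

open Classical in
/-- the truncated functional -/
noncomputable def PhiT (n : ℕ) (c : C) : ℝ :=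
  if 2 * θ * lam ^ n ≤ ⟪K c, e⟫ then ⟪K c, a c⟫ - θ * lam ^ n * ‖a c‖ else 0

/-- one generation -/
lemma step (he : ‖e‖ ≤ 1) (hlam : 0 ≤ lam) (hH : 0 ≤ H) (hθ : 0 ≤ θ) (hHθ : H + θ * lam = θ)
    (hμ : 0 ≤ μ) (hG : ∀ n c i, G n c → G (n + 1) (ch c i))
    (ha : ∀ c, a c = ∑ i, a (ch c i))
    (h1 : ∀ n c, G n c → 1 / 2 * ⟪K c, e⟫ * ‖a c‖ - μ * κ c * psi a e c ≤ ⟪K c, a c⟫)
    (h2 : ∀ n c i, G n c → ‖K (ch c i) - K c‖ ≤ H * lam ^ n)
    (h3 : ∀ n c, G (n + 1) c → ⟪K c, e⟫ ≤ (2 * θ + H) * lam ^ n → κ c ≤ w (n + 1) c)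
    (hw : ∀ n c, 0 ≤ w n c) (n : ℕ) (c : C) (hc : G n c) :
    PhiT a K e lam θ n c ≤ Aop ch (PhiT a K e lam θ (n + 1)) c + θ * lam ^ n * Dd ch a c +
      μ * Aop ch (fun c => w (n + 1) c * psi a e c) c := by
  have hln : 0 ≤ lam ^ n := pow_nonneg hlam n
  have hD := Dd_nonneg ch a ha c
  have hψ := psi_nonneg a e he
  have hin : ∀ i, |⟪K (ch c i), e⟫ - ⟪K c, e⟫| ≤ H * lam ^ n := by
    intro i
    rw [← inner_sub_left]
    refine (abs_real_inner_le_norm _ _).trans ?_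
    calc ‖K (ch c i) - K c‖ * ‖e‖ ≤ ‖K (ch c i) - K c‖ * 1 :=
          mul_le_mul_of_nonneg_left he (norm_nonneg _)
      _ ≤ H * lam ^ n := by rw [mul_one]; exact h2 n c i hc
  have hwψ : 0 ≤ Aop ch (fun c => w (n + 1) c * psi a e c) c :=
    Finset.sum_nonneg fun i _ => mul_nonneg (hw _ _) (hψ _)
  by_cases hgood : 2 * θ * lam ^ n ≤ ⟪K c, e⟫
  · -- all children are good
    have hch : ∀ i, 2 * θ * lam ^ (n + 1) ≤ ⟪K (ch c i), e⟫ := by
      intro i
      have h4 := (abs_le.1 (hin i)).1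
      have h5 : 2 * θ * lam ^ (n + 1) = 2 * (θ - H) * lam ^ n := by
        rw [pow_succ]
        have : θ * lam = θ - H := by linarith
        calc 2 * θ * (lam ^ n * lam) = 2 * (θ * lam) * lam ^ n := by ring
          _ = _ := by rw [this]
      rw [h5]
      nlinarith
    have e1 : Aop ch (PhiT a K e lam θ (n + 1)) c =
        ∑ i, (⟪K (ch c i), a (ch c i)⟫ - θ * lam ^ (n + 1) * ‖a (ch c i)‖) := by
      refine Finset.sum_congr rfl fun i _ => ?_
      simp only [PhiT]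
      rw [if_pos (hch i)]
    have e2 : PhiT a K e lam θ n c = ⟪K c, a c⟫ - θ * lam ^ n * ‖a c‖ := by
      simp only [PhiT]
      rw [if_pos hgood]
    have h6 : ⟪K c, a c⟫ = ∑ i, ⟪K c, a (ch c i)⟫ := by
      conv_lhs => rw [ha c]
      rw [inner_sum]
    have h7 : ∀ i, ⟪K c, a (ch c i)⟫ - H * lam ^ n * ‖a (ch c i)‖ ≤ ⟪K (ch c i), a (ch c i)⟫ := by
      intro i
      have h8 : ⟪K c, a (ch c i)⟫ - ⟪K (ch c i), a (ch c i)⟫ ≤ H * lam ^ n * ‖a (ch c i)‖ := by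
        rw [← inner_sub_left]
        refine (real_inner_le_norm _ _).trans ?_
        refine mul_le_mul_of_nonneg_right ?_ (norm_nonneg _)
        rw [norm_sub_rev]
        exact h2 n c i hc
      linarith
    have h9 : ⟪K c, a c⟫ - θ * lam ^ n * ∑ i, ‖a (ch c i)‖ ≤
        Aop ch (PhiT a K e lam θ (n + 1)) c := by
      rw [e1, h6, Finset.mul_sum, ← Finset.sum_sub_distrib]
      refine Finset.sum_le_sum fun i _ => ?_
      have h10 := h7 i
      have h11 : θ * lam ^ n * ‖a (ch c i)‖ =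
          H * lam ^ n * ‖a (ch c i)‖ + θ * lam ^ (n + 1) * ‖a (ch c i)‖ := by
        conv_lhs => rw [← hHθ]
        rw [pow_succ]
        ring
      linarith
    rw [e2]
    have h12 : θ * lam ^ n * Dd ch a c =
        θ * lam ^ n * (∑ i, ‖a (ch c i)‖) - θ * lam ^ n * ‖a c‖ := by
      unfold Dd; ring
    have h13 : 0 ≤ μ * Aop ch (fun c => w (n + 1) c * psi a e c) c := mul_nonneg hμ hwψ
    linarith
  · have e2 : PhiT a K e lam θ n c = 0 := by
      simp only [PhiT]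
      rw [if_neg hgood]
    rw [e2]
    push Not at hgood
    have h14 : 0 ≤ θ * lam ^ n * Dd ch a c := mul_nonneg (mul_nonneg hθ hln) hD
    have h15 : 0 ≤ Aop ch (PhiT a K e lam θ (n + 1)) c +
        μ * Aop ch (fun c => w (n + 1) c * psi a e c) c := by
      unfold Aop
      rw [Finset.mul_sum, ← Finset.sum_add_distrib]
      refine Finset.sum_nonneg fun i _ => ?_
      by_cases hg : 2 * θ * lam ^ (n + 1) ≤ ⟪K (ch c i), e⟫
      · have h4 := (abs_le.1 (hin i)).2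
        have h16 := h3 n (ch c i) (hG n c i hc) (by nlinarith)
        have h17 := h1 (n + 1) (ch c i) (hG n c i hc)
        simp only [PhiT]
        rw [if_pos hg]
        have h18 : μ * κ (ch c i) * psi a e (ch c i) ≤
            μ * (w (n + 1) (ch c i) * psi a e (ch c i)) := by
          rw [mul_assoc]
          exact mul_le_mul_of_nonneg_left (mul_le_mul_of_nonneg_right h16 (hψ _)) hμ
        have h19 : θ * lam ^ (n + 1) * ‖a (ch c i)‖ ≤
            1 / 2 * ⟪K (ch c i), e⟫ * ‖a (ch c i)‖ :=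
          mul_le_mul_of_nonneg_right (by linarith) (norm_nonneg _)
        linarith
      · simp only [PhiT]
        rw [if_neg hg, zero_add]
        exact mul_nonneg hμ (mul_nonneg (hw _ _) (hψ _))
    linarith

/-- all generations -/
lemma all_steps (he : ‖e‖ ≤ 1) (hlam : 0 ≤ lam) (hH : 0 ≤ H) (hθ : 0 ≤ θ)
    (hHθ : H + θ * lam = θ) (hμ : 0 ≤ μ) (hG : ∀ n c i, G n c → G (n + 1) (ch c i))
    (ha : ∀ c, a c = ∑ i, a (ch c i))
    (h1 : ∀ n c, G n c → 1 / 2 * ⟪K c, e⟫ * ‖a c‖ - μ * κ c * psi a e c ≤ ⟪K c, a c⟫)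
    (h2 : ∀ n c i, G n c → ‖K (ch c i) - K c‖ ≤ H * lam ^ n)
    (h3 : ∀ n c, G (n + 1) c → ⟪K c, e⟫ ≤ (2 * θ + H) * lam ^ n → κ c ≤ w (n + 1) c)
    (hw : ∀ n c, 0 ≤ w n c) (Q : C) (hQ : G 0 Q) (hQe : psi a e Q = 0) (N : ℕ) :
    0 ≤ (Aop ch)^[N] (PhiT a K e lam θ N) Q +
      θ * ∑ n ∈ Finset.range N, lam ^ n * (Aop ch)^[n] (Dd ch a) Q +
      μ * ∑ n ∈ Finset.range N, (Aop ch)^[n + 1] (fun c => w (n + 1) c * psi a e c) Q := by
  induction N with
  | zero =>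
    simp only [Function.iterate_zero, id_eq, Finset.range_zero, Finset.sum_empty, mul_zero,
      add_zero, PhiT, pow_zero, mul_one]
    split_ifs with hg
    · have h4 := h1 0 Q hQ
      rw [hQe, mul_zero, sub_zero] at h4
      have : θ * ‖a Q‖ ≤ 1 / 2 * ⟪K Q, e⟫ * ‖a Q‖ :=
        mul_le_mul_of_nonneg_right (by linarith) (norm_nonneg _)
      linarith
    · exact le_rfl
  | succ N ih =>
    rw [Finset.sum_range_succ, Finset.sum_range_succ]
    have h5 : (Aop ch)^[N] (PhiT a K e lam θ N) Q ≤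
        (Aop ch)^[N] (fun c => Aop ch (PhiT a K e lam θ (N + 1)) c +
          (θ * lam ^ N) * Dd ch a c + μ * Aop ch (fun c => w (N + 1) c * psi a e c) c) Q := by
      refine iter_mono ch G hG _ _ N 0 Q hQ fun c' hc' => ?_
      rw [zero_add] at hc'
      exact step ch G a K κ w e lam H θ μ he hlam hH hθ hHθ hμ hG ha h1 h2 h3 hw N c' hc'
    rw [iter_add, iter_add, iter_smul, iter_smul] at h5
    simp only [← Function.iterate_succ_apply (Aop ch)] at h5
    simp only [Nat.succ_eq_add_one] at h5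
    have e3 : θ * (∑ n ∈ Finset.range N, lam ^ n * (Aop ch)^[n] (Dd ch a) Q +
        lam ^ N * (Aop ch)^[N] (Dd ch a) Q) =
        θ * ∑ n ∈ Finset.range N, lam ^ n * (Aop ch)^[n] (Dd ch a) Q +
        θ * lam ^ N * (Aop ch)^[N] (Dd ch a) Q := by ring
    rw [e3, mul_add]
    linarith

/-- **Tree lemma.** -/
theorem tree_bound (he : ‖e‖ ≤ 1) (hlam : 0 ≤ lam) (hH : 0 ≤ H) (hθ : 0 ≤ θ)
    (hHθ : H + θ * lam = θ) (hμ : 0 ≤ μ) (hG : ∀ n c i, G n c → G (n + 1) (ch c i))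
    (ha : ∀ c, a c = ∑ i, a (ch c i))
    (h1 : ∀ n c, G n c → 1 / 2 * ⟪K c, e⟫ * ‖a c‖ - μ * κ c * psi a e c ≤ ⟪K c, a c⟫)
    (h2 : ∀ n c i, G n c → ‖K (ch c i) - K c‖ ≤ H * lam ^ n)
    (h3 : ∀ n c, G (n + 1) c → ⟪K c, e⟫ ≤ (2 * θ + H) * lam ^ n → κ c ≤ w (n + 1) c)
    (hw : ∀ n c, 0 ≤ w n c) (Q : C) (hQ : G 0 Q) (hQe : psi a e Q = 0) (N : ℕ)
    (I m : C → ℝ) (hI : ∀ c, I c = ∑ i, I (ch c i)) (hm : ∀ c, m c = ∑ i, m (ch c i))
    (ham : ∀ c, ‖a c‖ ≤ m c) (r b : ℝ) (hb : 0 ≤ b)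
    (h4 : ∀ c, G N c → |I c - ⟪K c, a c⟫| ≤ r * m c)
    (h5 : ∀ c, G N c → ⟪K c, e⟫ ≤ 2 * θ * lam ^ N → ‖K c‖ ≤ b) :
    -I Q ≤ θ * ∑ n ∈ Finset.range N, lam ^ n * (Aop ch)^[n] (Dd ch a) Q +
      μ * ∑ n ∈ Finset.range N, (Aop ch)^[n + 1] (fun c => w (n + 1) c * psi a e c) Q +
      (r + b) * m Q := by
  have hall := all_steps ch G a K κ w e lam H θ μ he hlam hH hθ hHθ hμ hG ha h1 h2 h3 hw Q hQ
    hQe N
  have h6 : (Aop ch)^[N] (PhiT a K e lam θ N) Q ≤
      (Aop ch)^[N] (fun c => I c + (r + b) * m c) Q := by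
    refine iter_mono ch G hG _ _ N 0 Q hQ fun c hc => ?_
    rw [zero_add] at hc
    have hmc : 0 ≤ m c := (norm_nonneg _).trans (ham c)
    have h7 := (abs_le.1 (h4 c hc)).1
    simp only [PhiT]
    split_ifs with hg
    · have h8 : 0 ≤ θ * lam ^ N * ‖a c‖ :=
        mul_nonneg (mul_nonneg hθ (pow_nonneg hlam N)) (norm_nonneg _)
      have h9 : 0 ≤ b * m c := mul_nonneg hb hmc
      linarith
    · push Not at hg
      have h8 := h5 c hc hg.le
      have h9 : -(b * m c) ≤ ⟪K c, a c⟫ := by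
        have h10 := (abs_le.1 (abs_real_inner_le_norm (K c) (a c))).1
        have h11 : ‖K c‖ * ‖a c‖ ≤ b * m c :=
          mul_le_mul h8 (ham c) (norm_nonneg _) hb
        linarith
      linarith
  rw [iter_add, iter_smul, iter_additive ch I hI, iter_additive ch m hm] at h6
  linarith

end main

end Tree

end P137
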