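import Vale.Agent.P137.Grid
import Vale.Agent.P137.Tree

/-!
# P137, block [CELL], part 1: the tree lemma on the triadic grid
-/

open MeasureTheory Metric Set Filter Topology
open scoped ENNReal ContDiff NNReal

namespace P137

namespace CellB

variable {d : ℕ}

/-- a cell together with its generation -/
abbrev Q (d : ℕ) := ℤ × (Fin d → ℤ)

/-- children, indexed -/
def chI (s : Fin d → Fin 2) (c : Q d) (j : Fin d → Fin 3) : Q d :=
  (c.1 + 1, fun i => 3 * c.2 i + ((s i : ℕ) : ℤ) + ((j i : ℕ) : ℤ))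

lemma ch_eq_image (s : Fin d → Fin 2) (m : Fin d → ℤ) :
    ch s m = Finset.univ.image (fun j : Fin d → Fin 3 => fun i =>
      3 * m i + ((s i : ℕ) : ℤ) + ((j i : ℕ) : ℤ)) := by
  ext m'
  simp only [ch, Fintype.mem_piFinset, Finset.mem_Icc, Finset.mem_image, Finset.mem_univ,
    true_and]
  constructor
  · intro h
    refine ⟨fun i => ⟨(m' i - (3 * m i + ((s i : ℕ) : ℤ))).toNat, by have := h i; omega⟩, ?_⟩
    funext i
    have := h i
    simp only
    omega
  · rintro ⟨j, rfl⟩ i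
    have := (j i).2
    constructor
    · simp
    · simp only
      omega

lemma sum_chI {M : Type*} [AddCommMonoid M] (s : Fin d → Fin 2) (k : ℤ) (m : Fin d → ℤ)
    (F : Q d → M) : ∑ j, F (chI s (k, m) j) = ∑ m' ∈ ch s m, F (k + 1, m') := by
  rw [ch_eq_image, Finset.sum_image]
  · rfl
  · intro j _ j' _ h
    funext i
    have h1 := congrFun h i
    simp only at h1
    apply Fin.ext
    omega

lemma sum_desc_succ {M : Type*} [AddCommMonoid M] (s : Fin d → Fin 2) (m : Fin d → ℤ) (n : ℕ)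
    (F : (Fin d → ℤ) → M) :
    ∑ m' ∈ desc (ch s) m (n + 1), F m' = ∑ m' ∈ desc (ch s) m n, ∑ m'' ∈ ch s m', F m'' := by
  show ∑ m' ∈ (desc (ch s) m n).biUnion (ch s), F m' = _
  rw [Finset.sum_biUnion]
  intro a _ b _ hab
  exact Grid.ch_disj s a b hab

lemma iter_eq (s : Fin d → Fin 2) (n : ℕ) : ∀ (Φ : Q d → ℝ) (k : ℤ) (m : Fin d → ℤ),
    (Tree.Aop (chI s))^[n] Φ (k, m) = ∑ m' ∈ desc (ch s) m n, Φ (k + n, m') := by
  induction n with
  | zero =>
    intro Φ k m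
    simp [desc]
  | succ n ih =>
    intro Φ k m
    rw [Function.iterate_succ_apply, ih, sum_desc_succ]
    refine Finset.sum_congr rfl fun m' _ => ?_
    have e : k + ((n + 1 : ℕ) : ℤ) = k + n + 1 := by push_cast; ring
    rw [e]
    exact sum_chI s (k + n) m' Φ

lemma int_sum {F : Type*} [NormedAddCommGroup F] [NormedSpace ℝ F] (f : E d → F)
    (hf : Integrable f) (s : Fin d → Fin 2) (k : ℤ) (m : Fin d → ℤ) :
    ∫ y in cell s k m, f y = ∑ m' ∈ ch s m, ∫ y in cell s (k + 1) m', f y := by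
  rw [Grid.cell_eq, integral_biUnion_finset]
  · intro c _
    exact cell_meas _ _ _
  · intro c _ c' _ h
    exact Grid.cell_disj s (k + 1) h
  · intro c _
    exact hf.integrableOn

/-- the properties of the kernel used here -/
structure KD (x e : E d) (ρ : ℝ) (K : E d → E d) (κ : E d → ℝ) : Prop where
  meas : Measurable K
  supp : ∀ y, 6 * ρ ≤ ‖y - x‖ → K y = 0
  nn : ∀ y, 0 ≤ κ y
  le : ∀ y, κ y ≤ 1 / volume.real (ball (0 : E d) ρ)
  two : ∀ y, ‖K y‖ ^ 2 ≤ 6 * ρ * κ y * inner ℝ (K y) e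
  three : ∀ y, κ y * ‖y - x‖ ^ 2 ≤ 20 * ρ * inner ℝ (K y) e
  hol : ∀ y y', ‖K y - K y'‖ ≤ (2 * ‖y - y'‖ + 15 * √(ρ * ‖y - y'‖)) /
    volume.real (ball (0 : E d) ρ)

section kd

variable {x e : E d} {ρ : ℝ} {K : E d → E d} {κ : E d → ℝ}

lemma KD.inner_nonneg (h : KD x e ρ K κ) (hρ : 0 < ρ) (y : E d) : 0 ≤ inner ℝ (K y) e := by
  by_contra hcon
  push Not at hcon
  have h1 := h.two y
  have h2 : 6 * ρ * κ y * inner ℝ (K y) e ≤ 0 :=
    mul_nonpos_of_nonneg_of_nonpos (mul_nonneg (by positivity) (h.nn y)) hcon.le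
  have h3 : ‖K y‖ = 0 := by
    have := sq_nonneg ‖K y‖
    exact pow_eq_zero_iff two_ne_zero |>.1 (le_antisymm (h1.trans h2) this)
  rw [norm_eq_zero] at h3
  rw [h3, inner_zero_left] at hcon
  exact lt_irrefl _ hcon

lemma KD.norm_le (h : KD x e ρ K κ) (hρ : 0 < ρ) (he : ‖e‖ = 1) (y : E d) :
    ‖K y‖ ≤ 6 * ρ * κ y := by
  have h1 := h.two y
  have h2 := real_inner_le_norm (K y) e
  rw [he, mul_one] at h2
  have h3 : 0 ≤ 6 * ρ * κ y := mul_nonneg (by positivity) (h.nn y)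
  by_contra hcon
  push Not at hcon
  have h4 : 0 < ‖K y‖ := h3.trans_lt hcon
  have h5 : 6 * ρ * κ y * inner ℝ (K y) e ≤ 6 * ρ * κ y * ‖K y‖ :=
    mul_le_mul_of_nonneg_left h2 h3
  nlinarith

lemma KD.coercive (h : KD x e ρ K κ) (hρ : 0 < ρ) (he : ‖e‖ = 1) (y a : E d) :
    1 / 2 * inner ℝ (K y) e * ‖a‖ - 6 * ρ * κ y * (‖a‖ - inner ℝ a e) ≤ inner ℝ (K y) a := by
  have hp := h.inner_nonneg hρ y
  have h2 := h.two y
  have hκ := h.nn y
  have hA : 0 ≤ ‖a‖ := norm_nonneg a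
  have hψ : 0 ≤ ‖a‖ - inner ℝ a e := by
    have := real_inner_le_norm a e
    rw [he, mul_one] at this
    linarith
  have h3 : ‖a - ‖a‖ • e‖ ^ 2 = 2 * ‖a‖ * (‖a‖ - inner ℝ a e) := by
    rw [norm_sub_sq_real, norm_smul, he, inner_smul_right, norm_norm]
    ring
  have h4 : inner ℝ (K y) a = ‖a‖ * inner ℝ (K y) e + inner ℝ (K y) (a - ‖a‖ • e) := by
    rw [inner_sub_right, inner_smul_right]
    ring
  have h5 := (abs_le.1 (abs_real_inner_le_norm (K y) (a - ‖a‖ • e))).1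
  have h6 : ‖K y‖ * ‖a - ‖a‖ • e‖ ≤
      1 / 2 * inner ℝ (K y) e * ‖a‖ + 6 * ρ * κ y * (‖a‖ - inner ℝ a e) := by
    have h7 : 0 ≤ 1 / 2 * inner ℝ (K y) e * ‖a‖ + 6 * ρ * κ y * (‖a‖ - inner ℝ a e) := by
      positivity
    refine le_of_sq_le_sq ?_ h7
    rw [mul_pow, h3]
    calc ‖K y‖ ^ 2 * (2 * ‖a‖ * (‖a‖ - inner ℝ a e)) ≤
          6 * ρ * κ y * inner ℝ (K y) e * (2 * ‖a‖ * (‖a‖ - inner ℝ a e)) :=
          mul_le_mul_of_nonneg_right h2 (by positivity)
      _ ≤ _ := by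
          have := sq_nonneg (1 / 2 * inner ℝ (K y) e * ‖a‖ -
            6 * ρ * κ y * (‖a‖ - inner ℝ a e))
          nlinarith
  rw [h4]
  linarith

end kd

/-! ## constants -/

/-- `q ^ 8 = 1 / 3` -/
noncomputable def q : ℝ := √√√(1 / 3 : ℝ)

lemma q_pos : 0 < q := by unfold q; positivity

lemma q_pow_eight : q ^ 8 = 1 / 3 := by
  unfold q
  have h1 : (0 : ℝ) ≤ 1 / 3 := by norm_num
  calc √√√(1 / 3 : ℝ) ^ 8 = (((√√√(1 / 3 : ℝ)) ^ 2) ^ 2) ^ 2 := by ring
    _ = 1 / 3 := by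
      rw [Real.sq_sqrt (by positivity), Real.sq_sqrt (by positivity), Real.sq_sqrt h1]

lemma q_lt_one : q < 1 := by
  by_contra hcon
  push Not at hcon
  have h1 := one_le_pow₀ (n := 8) hcon
  rw [q_pow_eight] at h1
  norm_num at h1

lemma q_four_lt_one : q ^ 4 < 1 := pow_lt_one₀ q_pos.le q_lt_one (by norm_num)

lemma rad_pos (k : ℤ) : 0 < rad k := by unfold rad; positivity

lemma side_eq (k : ℤ) (n : ℕ) : (3 : ℝ) ^ (-(k + (n : ℤ))) = 81 * rad k * q ^ (8 * n) := by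
  rw [pow_mul, q_pow_eight]
  unfold rad
  have h3 : (3 : ℝ) ≠ 0 := by norm_num
  rw [neg_add, zpow_add₀ h3, sub_eq_add_neg, zpow_add₀ h3, zpow_neg, zpow_neg, zpow_natCast,
    one_div, inv_pow]
  norm_num
  ring

/-- volume of the ball of radius `rad k` -/
noncomputable def Br (d : ℕ) (k : ℤ) : ℝ := volume.real (ball (0 : E d) (rad k))

lemma Br_pos (k : ℤ) : 0 < Br d k :=
  ENNReal.toReal_pos (measure_ball_pos _ _ (rad_pos k)).ne' measure_ball_lt_top.ne

/-- Hölder constant -/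
noncomputable def Hc (d : ℕ) (k : ℤ) : ℝ := 402 * √d * rad k / Br d k

lemma Hc_nonneg (k : ℤ) : 0 ≤ Hc d k := by
  unfold Hc
  have := rad_pos k
  have := Br_pos (d := d) k
  positivity

/-- the slope of the truncation -/
noncomputable def th (d : ℕ) (k : ℤ) : ℝ := Hc d k / (1 - q ^ 4)

lemma th_nonneg (k : ℤ) : 0 ≤ th d k :=
  div_nonneg (Hc_nonneg k) (by linarith [q_four_lt_one])

lemma th_eq (k : ℤ) : Hc d k + th d k * q ^ 4 = th d k := by
  unfold th
  have := q_four_lt_one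
  have h2 : 1 - q ^ 4 ≠ 0 := by linarith
  field_simp
  ring

/-- bound of `κ` in newly good cells -/
noncomputable def wt (d : ℕ) (k : ℤ) (n : ℕ) (t : ℝ) : ℝ :=
  if t ≤ q ^ n * rad k then 1 / Br d k else 60 * (2 * th d k + Hc d k) * q ^ (2 * n) / rad k

lemma wt_nonneg (k : ℤ) (n : ℕ) (t : ℝ) : 0 ≤ wt d k n t := by
  unfold wt
  have := rad_pos k
  have := Br_pos (d := d) k
  have := Hc_nonneg (d := d) k
  have := th_nonneg (d := d) k
  have := q_pos
  split_ifs <;> positivity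

/-- the error term -/
noncomputable def err (d : ℕ) (k : ℤ) (N : ℕ) : ℝ :=
  Hc d k * (q ^ 4) ^ N + √(36 * rad k * th d k / Br d k * (q ^ 4) ^ N)

section kd

variable {x e : E d} {ρ : ℝ} {K : E d → E d} {κ : E d → ℝ}

lemma KD.kap_le (h : KD x e ρ K κ) {k : ℤ} (h1 : rad k ≤ ρ) (y : E d) : κ y ≤ 1 / Br d k := by
  refine (h.le y).trans ?_
  refine one_div_le_one_div_of_le (Br_pos k) ?_
  exact measureReal_mono (ball_subset_ball h1) measure_ball_lt_top.ne

lemma KD.hold (hd : 0 < d) (h : KD x e ρ K κ) {k : ℤ} (h1 : rad k ≤ ρ) (h2 : ρ ≤ 3 * rad k)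
    (n : ℕ) (y y' : E d) (hy : ‖y - y'‖ ≤ √d * (3 : ℝ) ^ (-(k + (n : ℤ)))) :
    ‖K y - K y'‖ ≤ Hc d k * (q ^ 4) ^ n := by
  have hr := rad_pos k
  have hρ : 0 < ρ := hr.trans_le h1
  have hq := q_pos
  have hB := Br_pos (d := d) k
  have hBρ : Br d k ≤ volume.real (ball (0 : E d) ρ) :=
    measureReal_mono (ball_subset_ball h1) measure_ball_lt_top.ne
  have hD1 : (1 : ℝ) ≤ √d := by
    rw [Real.one_le_sqrt]
    exact_mod_cast hd
  rw [side_eq] at hy
  have hq8 : q ^ (8 * n) = (q ^ (4 * n)) ^ 2 := by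
    rw [← pow_mul]; congr 1; ring
  have hq4 : (q ^ 4) ^ n = q ^ (4 * n) := (pow_mul q 4 n).symm
  have hu0 : 0 < q ^ (4 * n) := by positivity
  have hu1 : q ^ (4 * n) ≤ 1 := pow_le_one₀ hq.le q_lt_one.le
  rw [hq8] at hy
  rw [hq4]
  generalize q ^ (4 * n) = u at hy hu0 hu1 ⊢
  have e1 : 2 * ‖y - y'‖ ≤ 162 * √d * rad k * u := by
    have h3 : u ^ 2 ≤ u := by nlinarith
    have h4 : √d * (81 * rad k * u ^ 2) ≤ √d * (81 * rad k * u) := by gcongr
    linarith
  have e2 : √(ρ * ‖y - y'‖) ≤ 16 * √d * rad k * u := by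
    rw [Real.sqrt_le_left (by positivity)]
    calc ρ * ‖y - y'‖ ≤ (3 * rad k) * (√d * (81 * rad k * u ^ 2)) := by gcongr
      _ = 243 * √d * (rad k * u) ^ 2 := by ring
      _ ≤ 256 * (√d * √d) * (rad k * u) ^ 2 := by
        have h5 : √d ≤ √d * √d := by nlinarith
        have h6 : 0 ≤ (rad k * u) ^ 2 := sq_nonneg _
        have h7 : 243 * √d ≤ 256 * (√d * √d) := by nlinarith
        exact mul_le_mul_of_nonneg_right h7 h6
      _ = (16 * √d * rad k * u) ^ 2 := by ring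
  refine (h.hol y y').trans ?_
  have e3 : 2 * ‖y - y'‖ + 15 * √(ρ * ‖y - y'‖) ≤ 402 * √d * rad k * u := by linarith
  calc (2 * ‖y - y'‖ + 15 * √(ρ * ‖y - y'‖)) / volume.real (ball (0 : E d) ρ) ≤
        (402 * √d * rad k * u) / Br d k := by gcongr
    _ = Hc d k * u := by unfold Hc; ring

lemma KD.newly (h : KD x e ρ K κ) {k : ℤ} (h1 : rad k ≤ ρ) (h2 : ρ ≤ 3 * rad k) (n : ℕ)
    (y : E d) (hy : inner ℝ (K y) e ≤ (2 * th d k + Hc d k) * (q ^ 4) ^ n) :
    κ y ≤ wt d k n ‖y - x‖ := by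
  have hr := rad_pos k
  have hρ : 0 < ρ := hr.trans_le h1
  have hq := q_pos
  have hT : 0 ≤ 2 * th d k + Hc d k := by
    have := th_nonneg (d := d) k
    have := Hc_nonneg (d := d) k
    positivity
  unfold wt
  split_ifs with ht
  · exact h.kap_le h1 y
  · push Not at ht
    have h3 := h.three y
    have h4 := h.nn y
    have hq2 : 0 < q ^ n := by positivity
    have h5 : κ y * (q ^ n * rad k) ^ 2 ≤ κ y * ‖y - x‖ ^ 2 := by gcongr
    have h6 : 20 * ρ * inner ℝ (K y) e ≤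
        20 * (3 * rad k) * ((2 * th d k + Hc d k) * (q ^ 4) ^ n) := by
      have h7 := h.inner_nonneg hρ y
      gcongr
    rw [le_div_iff₀ hr]
    have hq4 : (q ^ 4) ^ n = (q ^ n) ^ 2 * q ^ (2 * n) := by
      rw [← pow_mul, ← pow_mul, ← pow_add]; congr 1; ring
    rw [hq4] at h6
    have h8 : 0 < (q ^ n) ^ 2 * rad k := by positivity
    refine le_of_mul_le_mul_left ?_ h8
    calc (q ^ n) ^ 2 * rad k * (κ y * rad k) = κ y * (q ^ n * rad k) ^ 2 := by ring
      _ ≤ 20 * (3 * rad k) * ((2 * th d k + Hc d k) * ((q ^ n) ^ 2 * q ^ (2 * n))) := by linarith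
      _ = _ := by ring

lemma KD.bad (h : KD x e ρ K κ) {k : ℤ} (h1 : rad k ≤ ρ) (h2 : ρ ≤ 3 * rad k) (N : ℕ)
    (y : E d) (hy : inner ℝ (K y) e ≤ 2 * th d k * (q ^ 4) ^ N) :
    ‖K y‖ ≤ √(36 * rad k * th d k / Br d k * (q ^ 4) ^ N) := by
  have hr := rad_pos k
  have hρ : 0 < ρ := hr.trans_le h1
  refine Real.le_sqrt_of_sq_le ?_
  refine (h.two y).trans ?_
  have h3 := h.nn y
  have h4 := h.kap_le h1 y
  have h5 := h.inner_nonneg hρ y
  have hB := Br_pos (d := d) k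
  have hth := th_nonneg (d := d) k
  calc 6 * ρ * κ y * inner ℝ (K y) e ≤
        6 * (3 * rad k) * (1 / Br d k) * (2 * th d k * (q ^ 4) ^ N) := by gcongr
    _ = _ := by ring

end kd

/-- the tree lemma on the triadic grid -/
theorem tree_cell (hd : 0 < d) {x e : E d} {ρ : ℝ} {K : E d → E d} {κ : E d → ℝ}
    (h : KD x e ρ K κ) (he : ‖e‖ = 1) (k : ℤ) (h1 : rad k ≤ ρ) (h2 : ρ ≤ 3 * rad k)
    (G : E d → E d) (hG : Integrable G) (s : Fin d → Fin 2) (m0 : Fin d → ℤ)
    (hroot : ‖aV G s k m0‖ - inner ℝ (aV G s k m0) e = 0) (N : ℕ) :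
    -(∫ y in cell s k m0, inner ℝ (K y) (G y)) ≤
      th d k * ∑ n ∈ Finset.range N, (q ^ 4) ^ n *
        ∑ m ∈ desc (ch s) m0 n, D1 G s (k + n) m +
      18 * rad k * ∑ n ∈ Finset.range N, ∑ m ∈ desc (ch s) m0 (n + 1),
        wt d k n ‖ctr s (k + (n + 1 : ℕ)) m - x‖ *
          (‖aV G s (k + (n + 1 : ℕ)) m‖ - inner ℝ (aV G s (k + (n + 1 : ℕ)) m) e) +
      err d k N * ∫ y in cell s k m0, ‖G y‖ := by
  have hr := rad_pos k
  have hρ : 0 < ρ := hr.trans_le h1
  have hB := Br_pos (d := d) k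
  have hth := th_nonneg (d := d) k
  have hHc := Hc_nonneg (d := d) k
  have hq := q_pos
  have hKb : ∀ y, ‖K y‖ ≤ 6 * ρ * (1 / Br d k) := fun y =>
    (h.norm_le hρ he y).trans (by gcongr; exact h.kap_le h1 y)
  have hKGi : Integrable fun y => inner ℝ (K y) (G y) := by
    refine Integrable.mono' (hG.norm.const_mul (6 * ρ * (1 / Br d k)))
      (h.meas.aestronglyMeasurable.inner hG.aestronglyMeasurable) ?_
    filter_upwards with y
    refine (norm_inner_le_norm _ _).trans ?_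
    exact mul_le_mul_of_nonneg_right (hKb y) (norm_nonneg _)
  have key := Tree.tree_bound (chI s) (fun n c => c.1 = k + n) (fun c : Q d => aV G s c.1 c.2)
    (fun c => K (ctr s c.1 c.2)) (fun c => κ (ctr s c.1 c.2))
    (fun n c => wt d k (n - 1) ‖ctr s c.1 c.2 - x‖) e (q ^ 4) (Hc d k) (th d k) (18 * rad k)
    he.le (by positivity) hHc hth (th_eq k) (by positivity)
    (by
      intro n c i hc
      simp only [chI, hc]
      push_cast
      ring)
    (by
      intro c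
      obtain ⟨k', m⟩ := c
      rw [sum_chI s k' m (fun c => aV G s c.1 c.2)]
      exact aV_sum G hG s k' m)
    (by
      intro n c _
      have h3 := h.coercive hρ he (ctr s c.1 c.2) (aV G s c.1 c.2)
      have h4 : 0 ≤ κ (ctr s c.1 c.2) * (‖aV G s c.1 c.2‖ - inner ℝ (aV G s c.1 c.2) e) :=
        mul_nonneg (h.nn _) (Tree.psi_nonneg (fun c : Q d => aV G s c.1 c.2) e he.le c)
      have h5 : 6 * ρ * (κ (ctr s c.1 c.2) *
          (‖aV G s c.1 c.2‖ - inner ℝ (aV G s c.1 c.2) e)) ≤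
          18 * rad k * (κ (ctr s c.1 c.2) *
          (‖aV G s c.1 c.2‖ - inner ℝ (aV G s c.1 c.2) e)) :=
        mul_le_mul_of_nonneg_right (by linarith) h4
      unfold Tree.psi
      linarith)
    (by
      intro n c j hc
      obtain ⟨k', m⟩ := c
      simp only at hc
      subst hc
      refine h.hold hd h1 h2 n _ _ ?_
      refine ctr_ctr s (k + n) m _ ?_
      rw [ch_eq_image]
      exact Finset.mem_image.2 ⟨j, Finset.mem_univ _, rfl⟩)
    (by
      intro n c _ hc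
      simpa using h.newly h1 h2 n _ hc)
    (fun n c => wt_nonneg k _ _) (k, m0) (by simp) hroot N
    (fun c => ∫ y in cell s c.1 c.2, inner ℝ (K y) (G y)) (fun c => ∫ y in cell s c.1 c.2, ‖G y‖)
    (by
      intro c
      obtain ⟨k', m⟩ := c
      rw [sum_chI s k' m (fun c => ∫ y in cell s c.1 c.2, inner ℝ (K y) (G y))]
      exact int_sum _ hKGi s k' m)
    (by
      intro c
      obtain ⟨k', m⟩ := c
      rw [sum_chI s k' m (fun c => ∫ y in cell s c.1 c.2, ‖G y‖)]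
      exact int_sum _ hG.norm s k' m)
    (fun c => norm_integral_le_integral_norm _)
    (Hc d k * (q ^ 4) ^ N) (√(36 * rad k * th d k / Br d k * (q ^ 4) ^ N)) (by positivity)
    (by
      intro c hc
      obtain ⟨k', m⟩ := c
      simp only at hc
      subst hc
      simp only
      have e1 : inner ℝ (K (ctr s (k + N) m)) (aV G s (k + N) m) =
          ∫ y in cell s (k + N) m, inner ℝ (K (ctr s (k + N) m)) (G y) := by
        unfold aV
        rw [integral_inner hG.integrableOn]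
      have hci : Integrable fun y => inner ℝ (K (ctr s (k + N) m)) (G y) :=
        hG.const_inner _
      rw [e1, ← integral_sub hKGi.integrableOn hci.integrableOn, ← Real.norm_eq_abs,
        ← integral_const_mul]
      refine norm_integral_le_of_norm_le (hG.norm.integrableOn.const_mul _) ?_
      refine (ae_restrict_iff' (cell_meas s (k + N) m)).2 (Eventually.of_forall fun y hy => ?_)
      rw [← inner_sub_left]
      refine (norm_inner_le_norm _ _).trans ?_
      refine mul_le_mul_of_nonneg_right ?_ (norm_nonneg _)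
      exact h.hold hd h1 h2 N _ _ (cell_ctr s (k + N) m y hy))
    (by
      intro c _ hc
      exact h.bad h1 h2 N _ hc)
  simp only [iter_eq] at key
  unfold err
  refine key.trans (le_of_eq ?_)
  congr 1
  congr 1
  · congr 1
    refine Finset.sum_congr rfl fun n _ => ?_
    congr 1
    refine Finset.sum_congr rfl fun m _ => ?_
    unfold Tree.Dd D1
    rw [sum_chI s (k + n) m (fun c => ‖aV G s c.1 c.2‖)]

end CellB

end P137
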