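import Mathlib

/-!
# P137: the uncentered Hardy-Littlewood maximal function on Sobolev space W^{1,1}. Definitions.
-/

open MeasureTheory Metric Set Filter Topology
open scoped ENNReal ContDiff NNReal

namespace P137

/-- Euclidean space `ℝ^d`. -/
abbrev E (d : ℕ) := EuclideanSpace ℝ (Fin d)

/-- `G` is a weak gradient of `f` on `ℝ^d`. -/
def IsWeakGrad {d : ℕ} (f : E d → ℝ) (G : E d → E d) : Prop :=
  ∀ φ : E d → ℝ, ContDiff ℝ ∞ φ → HasCompactSupport φ → ∀ v : E d,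
    ∫ x, f x * fderiv ℝ φ x v = -∫ x, inner ℝ (G x) v * φ x

/-- The average of `|f|` over the open ball `B(c, r)`. -/
noncomputable def avg {d : ℕ} (f : E d → ℝ) (c : E d) (r : ℝ) : ℝ≥0∞ :=
  (∫⁻ y in ball c r, ‖f y‖ₑ) / volume (ball c r)

/-- The uncentered maximal function (all open balls that contain `x`). -/
noncomputable def Mt {d : ℕ} (f : E d → ℝ) (x : E d) : ℝ≥0∞ :=
  ⨆ (c : E d) (r : ℝ) (_ : x ∈ ball c r), avg f c r

/-- The truncated maximal function: only balls of radius at least `η`. -/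
noncomputable def V {d : ℕ} (η : ℝ) (f : E d → ℝ) (x : E d) : ℝ≥0∞ :=
  ⨆ (c : E d) (r : ℝ) (_ : η ≤ r) (_ : x ∈ ball c r), avg f c r

/-- The radii `3^(-k-4)`. -/
noncomputable def rad (k : ℤ) : ℝ := (3 : ℝ) ^ (-k - 4)

/-- `g` is of class `C^1` with gradient `G`, both integrable. -/
structure Nice {d : ℕ} (g : E d → ℝ) (G : E d → E d) : Prop where
  smooth : ContDiff ℝ 1 g
  grad : ∀ y v, fderiv ℝ g y v = inner ℝ (G y) v
  int : Integrable g
  intG : Integrable G

/-- `f` is in `W^{1,1}` with weak gradient `G`. -/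
structure W11 {d : ℕ} (f : E d → ℝ) (G : E d → E d) : Prop where
  int : Integrable f
  intG : Integrable G
  weak : IsWeakGrad f G

/-! ## Perimeter -/

/-- Divergence of a vector field. -/
noncomputable def dvg {d : ℕ} (φ : E d → E d) (x : E d) : ℝ :=
  ∑ i, (fderiv ℝ φ x (EuclideanSpace.single i 1)) i

/-- Test fields: smooth, compactly supported, bounded by one. -/
structure Test {d : ℕ} (φ : E d → E d) : Prop where
  smooth : ContDiff ℝ ∞ φ
  supp : HasCompactSupport φ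
  bound : ∀ x, ‖φ x‖ ≤ 1

/-- The perimeter of `A` is at most `p`. -/
def PerLe {d : ℕ} (A : Set (E d)) (p : ℝ≥0∞) : Prop :=
  ∀ φ : E d → E d, Test φ → ENNReal.ofReal (∫ x in A, dvg φ x) ≤ p

/-! ## Shifted triadic grids -/

/-- The index of the cell of generation `k` that contains `y` in the grid shifted by `s / 2`. -/
noncomputable def idx {d : ℕ} (s : Fin d → Fin 2) (k : ℤ) (y : E d) : Fin d → ℤ :=
  fun i => ⌊(3 : ℝ) ^ k * y i - ((s i : ℕ) : ℝ) / 2⌋

/-- The cell of generation `k` and index `m` (side length `3^(-k)`). -/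
def cell {d : ℕ} (s : Fin d → Fin 2) (k : ℤ) (m : Fin d → ℤ) : Set (E d) :=
  {y | idx s k y = m}

/-- The centre of a cell. -/
noncomputable def ctr {d : ℕ} (s : Fin d → Fin 2) (k : ℤ) (m : Fin d → ℤ) : E d :=
  WithLp.toLp 2 fun i => (3 : ℝ) ^ (-k) * ((m i : ℝ) + ((s i : ℕ) : ℝ) / 2 + 1 / 2)

/-- The index of the parent cell. -/
def par {d : ℕ} (s : Fin d → Fin 2) (m : Fin d → ℤ) : Fin d → ℤ :=
  fun i => (m i - ((s i : ℕ) : ℤ)) / 3

/-- The indices of the `3^d` children. -/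
noncomputable def ch {d : ℕ} (s : Fin d → Fin 2) (m : Fin d → ℤ) : Finset (Fin d → ℤ) :=
  Fintype.piFinset fun i =>
    Finset.Icc (3 * m i + ((s i : ℕ) : ℤ)) (3 * m i + ((s i : ℕ) : ℤ) + 2)

/-- Descendants of relative generation `n`. -/
def desc {I : Type*} [DecidableEq I] (c : I → Finset I) (m : I) : ℕ → Finset I
  | 0 => {m}
  | n + 1 => (desc c m n).biUnion c

/-- The vector `∫_Q G` of the cell `Q`. -/
noncomputable def aV {d : ℕ} (G : E d → E d) (s : Fin d → Fin 2) (k : ℤ) (m : Fin d → ℤ) : E d :=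
  ∫ y in cell s k m, G y

/-- The defect `Σ_{children} |a_{Q'}| - |a_Q|` of the cell `Q`. -/
noncomputable def D1 {d : ℕ} (G : E d → E d) (s : Fin d → Fin 2) (k : ℤ) (m : Fin d → ℤ) : ℝ :=
  ∑ m' ∈ ch s m, ‖aV G s (k + 1) m'‖ - ‖aV G s k m‖

/-! ## The kernel of the path of balls `B_s`, `0 ≤ s ≤ 1`, from `B(c, ρ)` to `B(x + 3ρe, 3ρ)` -/

namespace Ker

/-- centre of `B_s` -/
noncomputable def cs {d : ℕ} (x c e : E d) (ρ s : ℝ) : E d :=
  (1 - s) • c + s • (x + (3 * ρ) • e)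

/-- radius of `B_s` -/
noncomputable def rs (ρ s : ℝ) : ℝ := (1 + 2 * s) * ρ

/-- the velocity field -/
noncomputable def wv {d : ℕ} (x c e : E d) (ρ s : ℝ) (y : E d) : E d :=
  (x + (3 * ρ) • e - c) + (2 * ρ / rs ρ s) • (y - cs x c e ρ s)

/-- the vector kernel -/
noncomputable def K {d : ℕ} (x c e : E d) (ρ : ℝ) (y : E d) : E d :=
  ∫ s in (0 : ℝ)..1, (ball (cs x c e ρ s) (rs ρ s)).indicator
    (fun y => (volume.real (ball (0 : E d) (rs ρ s)))⁻¹ • wv x c e ρ s y) y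

/-- the scalar kernel -/
noncomputable def kap {d : ℕ} (x c e : E d) (ρ : ℝ) (y : E d) : ℝ :=
  ∫ s in (0 : ℝ)..1, (ball (cs x c e ρ s) (rs ρ s)).indicator
    (fun _ => (volume.real (ball (0 : E d) (rs ρ s)))⁻¹) y

end Ker

end P137
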