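import Mathlib

/-!
# P137: density of smooth compactly supported functions in `W^{1,1}`
-/

open MeasureTheory Set Filter Topology Metric
open scoped ENNReal ContDiff Convolution

namespace Vale.Agent.P137

namespace Dens

set_option linter.unusedSectionVars false

variable {E : Type*} [NormedAddCommGroup E] [InnerProductSpace ℝ E] [FiniteDimensional ℝ E]
  [MeasurableSpace E] [BorelSpace E]

/-- `G` is the weak gradient of `f`. -/
def HasWeakGrad (f : E → ℝ) (G : E → E) : Prop :=
  ∀ φ : E → ℝ, ContDiff ℝ ∞ φ → HasCompactSupport φ → ∀ v : E,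
    ∫ x, f x * fderiv ℝ φ x v = - ∫ x, inner ℝ (G x) v * φ x

section Mol

variable {F : Type*} [NormedAddCommGroup F] [NormedSpace ℝ F] [CompleteSpace F]

/-- Convolution with a normalised bump. -/
noncomputable def mol (ρ : ContDiffBump (0 : E)) (u : E → F) : E → F :=
  (ρ.normed volume) ⋆[ContinuousLinearMap.lsmul ℝ ℝ, volume] u

theorem integrable_mol (ρ : ContDiffBump (0 : E)) {u : E → F} (hu : Integrable u) :
    Integrable (mol ρ u) :=
  Integrable.integrable_convolution _ ρ.integrable_normed hu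

theorem mol_apply (ρ : ContDiffBump (0 : E)) (u : E → F) (x : E) :
    mol ρ u x = ∫ t, ρ.normed volume t • u (x - t) := by
  simp [mol, convolution_def]

theorem mol_apply' (ρ : ContDiffBump (0 : E)) (u : E → F) (x : E) :
    mol ρ u x = ∫ t, ρ.normed volume (x - t) • u t := by
  unfold mol
  rw [convolution_lsmul_swap]

theorem mol_exists (ρ : ContDiffBump (0 : E)) {u : E → F} (hu : LocallyIntegrable u) (x : E) :
    Integrable (fun t => ρ.normed volume t • u (x - t)) := by
  have := (ρ.hasCompactSupport_normed (μ := (volume : Measure E))).convolutionExists_left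
    (ContinuousLinearMap.lsmul ℝ ℝ : ℝ →L[ℝ] F →L[ℝ] F) ρ.continuous_normed hu x
  simpa [ConvolutionExistsAt] using this

theorem mol_sub (ρ : ContDiffBump (0 : E)) {u w : E → F} (hu : LocallyIntegrable u)
    (hw : LocallyIntegrable w) (x : E) :
    mol ρ (fun y => u y - w y) x = mol ρ u x - mol ρ w x := by
  rw [mol_apply, mol_apply, mol_apply, ← integral_sub (mol_exists ρ hu x) (mol_exists ρ hw x)]
  refine integral_congr_ae (Eventually.of_forall fun t => ?_)
  simp only [smul_sub]

theorem norm_mol_le (ρ : ContDiffBump (0 : E)) (u : E → F) (x : E) :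
    ‖mol ρ u x‖ ≤ mol ρ (fun y => ‖u y‖) x := by
  rw [mol_apply, mol_apply]
  refine (norm_integral_le_integral_norm _).trans (le_of_eq ?_)
  refine integral_congr_ae (Eventually.of_forall fun t => ?_)
  simp only [norm_smul, Real.norm_eq_abs, abs_of_nonneg (ρ.nonneg_normed t), smul_eq_mul]

theorem integral_norm_mol_le (ρ : ContDiffBump (0 : E)) {u : E → F} (hu : Integrable u) :
    ∫ x, ‖mol ρ u x‖ ≤ ∫ x, ‖u x‖ := by
  have h1 : ∫ x, mol ρ (fun y => ‖u y‖) x = ∫ x, ‖u x‖ := by
    unfold mol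
    rw [integral_convolution _ ρ.integrable_normed hu.norm]
    rw [ρ.integral_normed]
    simp
  rw [← h1]
  exact integral_mono (integrable_mol ρ hu).norm (integrable_mol ρ hu.norm)
    fun x => norm_mol_le ρ u x

theorem mol_zero_of_far (ρ : ContDiffBump (0 : E)) {w : E → F} {x : E}
    (hx : ∀ y ∈ ball x ρ.rOut, w y = 0) : mol ρ w x = 0 := by
  rw [mol_apply]
  refine integral_eq_zero_of_ae (Eventually.of_forall fun t => ?_)
  by_cases ht : t ∈ ball (0 : E) ρ.rOut
  · have : x - t ∈ ball x ρ.rOut := by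
      rw [mem_ball, dist_eq_norm]
      rw [mem_ball, dist_eq_norm, sub_zero] at ht
      simpa using ht
    simp [hx _ this]
  · have h0 : ρ.normed volume t = 0 := by
      have h1 : t ∉ Function.support (ρ.normed (volume : Measure E)) := by
        rw [ρ.support_normed_eq]
        exact ht
      simpa using h1
    simp [h0]

/-- Mollification converges in `L¹`. -/
theorem exists_mol_close {u : E → F} (hu : Integrable u) {ε : ℝ} (hε : 0 < ε) :
    ∃ δ > 0, ∀ ρ : ContDiffBump (0 : E), ρ.rOut < δ → ∫ x, ‖mol ρ u x - u x‖ ≤ ε := by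
  obtain ⟨w, hwc, hwu, hwcont, hwi⟩ :=
    hu.exists_hasCompactSupport_integral_sub_le (ε := ε / 3) (by linarith)
  set K : Set E := cthickening 1 (tsupport w) with hK
  have hKc : IsCompact K := hwc.isCompact.cthickening
  set m : ℝ := (volume K).toReal with hm
  have hm0 : 0 ≤ m := ENNReal.toReal_nonneg
  set η : ℝ := ε / 3 / (m + 1) with hη
  have hη0 : 0 < η := by positivity
  have huc : UniformContinuous w := hwc.uniformContinuous_of_continuous hwcont
  obtain ⟨δ, hδ0, hδ⟩ := Metric.uniformContinuous_iff.1 huc η hη0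
  refine ⟨min δ 1, lt_min hδ0 one_pos, fun ρ hρ => ?_⟩
  have hρδ : ρ.rOut < δ := hρ.trans_le (min_le_left _ _)
  have hρ1 : ρ.rOut < 1 := hρ.trans_le (min_le_right _ _)
  have hclose : ∀ x, ‖mol ρ w x - w x‖ ≤ K.indicator (fun _ => η) x := by
    intro x
    by_cases hx : x ∈ K
    · rw [indicator_of_mem hx, ← dist_eq_norm]
      unfold mol
      refine ρ.dist_normed_convolution_le hwcont.aestronglyMeasurable fun y hy => ?_
      exact (hδ ((mem_ball.1 hy).trans hρδ)).le
    · rw [indicator_of_notMem hx]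
      have hfar : ∀ y ∈ ball x 1, w y = 0 := by
        intro y hy
        by_contra hne
        refine hx (mem_cthickening_of_dist_le x y 1 _ (subset_tsupport _ hne) ?_)
        rw [dist_comm]
        exact (mem_ball.1 hy).le
      have h1 : mol ρ w x = 0 :=
        mol_zero_of_far ρ fun y hy => hfar y (ball_subset_ball hρ1.le hy)
      rw [h1, hfar x (mem_ball_self one_pos)]
      simp
  have hmw : ∫ x, ‖mol ρ w x - w x‖ ≤ ε / 3 := by
    have hind : Integrable (K.indicator fun _ : E => η) :=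
      (integrable_indicator_iff hKc.measurableSet).2
        (integrableOn_const (hKc.measure_lt_top.ne))
    calc ∫ x, ‖mol ρ w x - w x‖ ≤ ∫ x, K.indicator (fun _ => η) x :=
          integral_mono ((integrable_mol ρ hwi).sub hwi).norm hind hclose
      _ = m * η := by
          rw [integral_indicator hKc.measurableSet, setIntegral_const]
          simp [hm, Measure.real]
      _ ≤ ε / 3 := by
          rw [hη, mul_div_assoc', div_le_iff₀ (by positivity)]
          nlinarith
  have hsub : ∫ x, ‖mol ρ u x - mol ρ w x‖ ≤ ε / 3 := by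
    have h1 : ∀ x, mol ρ u x - mol ρ w x = mol ρ (fun y => u y - w y) x := fun x =>
      (mol_sub ρ hu.locallyIntegrable hwi.locallyIntegrable x).symm
    simp_rw [h1]
    exact (integral_norm_mol_le ρ (hu.sub hwi)).trans hwu
  have hsym : ∫ x, ‖w x - u x‖ ≤ ε / 3 := by
    refine le_trans (le_of_eq ?_) hwu
    exact integral_congr_ae (Eventually.of_forall fun x => norm_sub_rev _ _)
  have hi1 : Integrable fun x => ‖mol ρ u x - mol ρ w x‖ :=
    ((integrable_mol ρ hu).sub (integrable_mol ρ hwi)).norm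
  have hi2 : Integrable fun x => ‖mol ρ w x - w x‖ := ((integrable_mol ρ hwi).sub hwi).norm
  have hi3 : Integrable fun x => ‖w x - u x‖ := (hwi.sub hu).norm
  calc ∫ x, ‖mol ρ u x - u x‖
      ≤ ∫ x, (‖mol ρ u x - mol ρ w x‖ + ‖mol ρ w x - w x‖ + ‖w x - u x‖) := by
        refine integral_mono ((integrable_mol ρ hu).sub hu).norm ((hi1.add hi2).add hi3)
          fun x => ?_
        have : mol ρ u x - u x = (mol ρ u x - mol ρ w x) + (mol ρ w x - w x) + (w x - u x) := by
          abel
        rw [this]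
        exact norm_add₃_le
    _ = (∫ x, ‖mol ρ u x - mol ρ w x‖) + (∫ x, ‖mol ρ w x - w x‖) + ∫ x, ‖w x - u x‖ := by
        have hi12 : Integrable fun x => ‖mol ρ u x - mol ρ w x‖ + ‖mol ρ w x - w x‖ :=
          hi1.add hi2
        rw [integral_add hi12 hi3, integral_add hi1 hi2]
    _ ≤ ε / 3 + ε / 3 + ε / 3 := add_le_add (add_le_add hsub hmw) hsym
    _ = ε := by ring

end Mol

/-! ### The gradient of the mollification -/

theorem contDiff_mol (ρ : ContDiffBump (0 : E)) {f : E → ℝ} (hf : LocallyIntegrable f) :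
    ContDiff ℝ ∞ (mol ρ f) :=
  HasCompactSupport.contDiff_convolution_left _ ρ.hasCompactSupport_normed ρ.contDiff_normed hf

theorem fderiv_mol (ρ : ContDiffBump (0 : E)) {f : E → ℝ} {G : E → E}
    (hf : LocallyIntegrable f) (hG : LocallyIntegrable G) (h : HasWeakGrad f G) (x : E) :
    fderiv ℝ (mol ρ f) x = innerSL ℝ (mol ρ G x) := by
  set r : E → ℝ := ρ.normed volume with hr
  have hr1 : ContDiff ℝ ∞ r := ρ.contDiff_normed
  have hrc : HasCompactSupport r := ρ.hasCompactSupport_normed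
  have hd := hrc.hasFDerivAt_convolution_left (μ := (volume : Measure E))
    (ContinuousLinearMap.lsmul ℝ ℝ : ℝ →L[ℝ] ℝ →L[ℝ] ℝ) (hr1.of_le (by exact_mod_cast le_top))
    hf x
  have hfd : fderiv ℝ (mol ρ f) x =
      (fderiv ℝ r ⋆[(ContinuousLinearMap.lsmul ℝ ℝ : ℝ →L[ℝ] ℝ →L[ℝ] ℝ).precompL E, volume] f) x :=
    hd.fderiv
  -- the test function `t ↦ r (x - t)`
  set φ : E → ℝ := fun t => r (x - t) with hφ
  have hφ1 : ContDiff ℝ ∞ φ := hr1.comp (contDiff_const.sub contDiff_id)
  have hφc : HasCompactSupport φ := by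
    have : φ = r ∘ (Homeomorph.subLeft x) := by
      funext t
      simp [hφ]
    rw [this]
    exact hrc.comp_homeomorph _
  have hφd : ∀ t v, fderiv ℝ φ t v = - fderiv ℝ r (x - t) v := by
    intro t v
    have h1 : HasFDerivAt (fun t : E => x - t) (-(ContinuousLinearMap.id ℝ E)) t := by
      exact (hasFDerivAt_id t).const_sub x
    have h2 : HasFDerivAt r (fderiv ℝ r (x - t)) (x - t) :=
      ((hr1.differentiable (by simp)) _).hasFDerivAt
    have h3 : HasFDerivAt φ ((fderiv ℝ r (x - t)).comp (-(ContinuousLinearMap.id ℝ E))) t :=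
      h2.comp t h1
    rw [h3.fderiv]
    simp
  have hint : Integrable (fun t => r (x - t) • G t) := by
    have h1 := mol_exists ρ hG x
    have h2 := h1.comp_sub_left x
    simpa [hr] using h2
  have hcv : Integrable (fun t =>
      ((ContinuousLinearMap.lsmul ℝ ℝ : ℝ →L[ℝ] ℝ →L[ℝ] ℝ).precompL E) (fderiv ℝ r (x - t))
        (f t)) := by
    have h1 := (hrc.fderiv ℝ).convolutionExists_left
      ((ContinuousLinearMap.lsmul ℝ ℝ : ℝ →L[ℝ] ℝ →L[ℝ] ℝ).precompL E)
      (hr1.continuous_fderiv (by simp)) hf x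
    have h2 := (convolutionExistsAt_iff_integrable_swap (μ := (volume : Measure E))
      (L := (ContinuousLinearMap.lsmul ℝ ℝ : ℝ →L[ℝ] ℝ →L[ℝ] ℝ).precompL E)).1 h1
    exact h2
  ext v
  rw [hfd, convolution_eq_swap, ContinuousLinearMap.integral_apply hcv]
  simp only [innerSL_apply_apply]
  have h4 : inner ℝ (mol ρ G x) v = ∫ t, inner ℝ (G t) v * φ t := by
    rw [mol_apply', real_inner_comm]
    rw [← integral_inner hint]
    refine integral_congr_ae (Eventually.of_forall fun t => ?_)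
    simp only [inner_smul_right, hφ]
    rw [real_inner_comm, mul_comm]
  rw [h4]
  have h5 := h φ hφ1 hφc v
  have h6 : ∫ t, f t * fderiv ℝ φ t v = - ∫ t, fderiv ℝ r (x - t) v * f t := by
    rw [← integral_neg]
    refine integral_congr_ae (Eventually.of_forall fun t => ?_)
    simp only [hφd]
    ring
  rw [h6] at h5
  have h7 : ∫ t, fderiv ℝ r (x - t) v * f t = ∫ t, inner ℝ (G t) v * φ t := neg_injective h5
  rw [← h7]
  refine integral_congr_ae (Eventually.of_forall fun t => ?_)
  simp [ContinuousLinearMap.precompL_apply]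

/-! ### Cut-off -/

/-- Cutting off a smooth function which is integrable together with its gradient. -/
theorem exists_cutoff {m : E → ℝ} (hm : ContDiff ℝ ∞ m) (hmi : Integrable m)
    (hmd : Integrable (fderiv ℝ m)) {ε : ℝ} (hε : 0 < ε) :
    ∃ h : E → ℝ, ContDiff ℝ ∞ h ∧ HasCompactSupport h ∧ ∫ x, |h x - m x| ≤ ε ∧
      ∫ x, ‖fderiv ℝ h x - fderiv ℝ m x‖ ≤ ε := by
  set χ : ContDiffBump (0 : E) := ⟨1, 2, one_pos, one_lt_two⟩ with hχ
  have hχs : ContDiff ℝ ∞ (χ : E → ℝ) := χ.contDiff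
  obtain ⟨C, hC⟩ : ∃ C, ∀ y, ‖fderiv ℝ (χ : E → ℝ) y‖ ≤ C :=
    (hχs.continuous_fderiv (by simp)).bounded_above_of_compact_support
      (χ.hasCompactSupport.fderiv ℝ)
  have hC0 : 0 ≤ C := (norm_nonneg _).trans (hC 0)
  set c : ℕ → E → ℝ := fun n x => χ ((1 / ((n : ℝ) + 1)) • x) with hc
  have hcs : ∀ n, ContDiff ℝ ∞ (c n) := fun n => hχs.comp (contDiff_const_smul _)
  have hc01 : ∀ n x, 0 ≤ c n x ∧ c n x ≤ 1 := fun n x => ⟨χ.nonneg, χ.le_one⟩
  have hcd : ∀ n x, ‖fderiv ℝ (c n) x‖ ≤ C := by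
    intro n x
    have h1 : HasFDerivAt (fun x : E => (1 / ((n : ℝ) + 1)) • x)
        ((1 / ((n : ℝ) + 1)) • ContinuousLinearMap.id ℝ E) x :=
      (hasFDerivAt_id x).const_smul _
    have h2 : HasFDerivAt (c n) ((fderiv ℝ (χ : E → ℝ) ((1 / ((n : ℝ) + 1)) • x)).comp
        ((1 / ((n : ℝ) + 1)) • ContinuousLinearMap.id ℝ E)) x :=
      ((hχs.differentiable (by simp)) _).hasFDerivAt.comp x h1
    rw [h2.fderiv]
    have h3 : ‖(1 / ((n : ℝ) + 1)) • ContinuousLinearMap.id ℝ E‖ ≤ 1 := by
      rw [norm_smul]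
      have h4 : ‖(1 / ((n : ℝ) + 1))‖ ≤ 1 := by
        rw [Real.norm_eq_abs, abs_of_nonneg (by positivity), div_le_one (by positivity)]
        linarith [Nat.cast_nonneg (α := ℝ) n]
      have h5 : ‖ContinuousLinearMap.id ℝ E‖ ≤ 1 := ContinuousLinearMap.norm_id_le
      calc ‖(1 / ((n : ℝ) + 1))‖ * ‖ContinuousLinearMap.id ℝ E‖ ≤ 1 * 1 :=
            mul_le_mul h4 h5 (norm_nonneg _) zero_le_one
        _ = 1 := one_mul _
    calc _ ≤ ‖fderiv ℝ (χ : E → ℝ) ((1 / ((n : ℝ) + 1)) • x)‖ *
          ‖(1 / ((n : ℝ) + 1)) • ContinuousLinearMap.id ℝ E‖ :=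
          ContinuousLinearMap.opNorm_comp_le _ _
      _ ≤ C * 1 := mul_le_mul (hC _) h3 (norm_nonneg _) hC0
      _ = C := mul_one _
  have hcc : ∀ n, HasCompactSupport (c n) := by
    intro n
    have hne : (1 / ((n : ℝ) + 1)) ≠ 0 := by positivity
    have : c n = (χ : E → ℝ) ∘ (Homeomorph.smulOfNeZero _ hne) := by
      funext x
      rfl
    rw [this]
    exact χ.hasCompactSupport.comp_homeomorph _
  have hone : ∀ x, ∀ᶠ n : ℕ in atTop, c n =ᶠ[𝓝 x] fun _ => (1 : ℝ) := by
    intro x
    obtain ⟨N, hN⟩ := exists_nat_gt (‖x‖ + 1)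
    filter_upwards [eventually_ge_atTop N] with n hn
    have hn' : (N : ℝ) ≤ n := by exact_mod_cast hn
    filter_upwards [ball_mem_nhds x one_pos] with y hy
    refine χ.one_of_mem_closedBall ?_
    rw [mem_closedBall, dist_zero_right, norm_smul, Real.norm_eq_abs,
      abs_of_nonneg (by positivity), one_div, inv_mul_le_iff₀ (by positivity)]
    have h1 : ‖y‖ ≤ ‖x‖ + 1 := by
      have := norm_le_insert' y x
      rw [mem_ball, dist_eq_norm] at hy
      linarith
    change ‖y‖ ≤ ((n : ℝ) + 1) * 1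
    linarith
  have hmD : Differentiable ℝ m := hm.differentiable (by simp)
  have hfd : ∀ n x, fderiv ℝ (fun y => c n y * m y) x =
      c n x • fderiv ℝ m x + m x • fderiv ℝ (c n) x := by
    intro n x
    exact fderiv_fun_mul ((hcs n).differentiable (by simp) x) (hmD x)
  -- the functions converge
  have hL1 : Tendsto (fun n => ∫ x, |c n x * m x - m x|) atTop (𝓝 (∫ _ : E, (0 : ℝ))) := by
    refine tendsto_integral_of_dominated_convergence (fun x => |m x|) (fun n => ?_) hmi.abs
      (fun n => Eventually.of_forall fun x => ?_) (Eventually.of_forall fun x => ?_)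
    · exact (((hcs n).continuous.mul hm.continuous).sub hm.continuous).abs.aestronglyMeasurable
    · have h1 : c n x * m x - m x = (c n x - 1) * m x := by ring
      rw [Real.norm_eq_abs, abs_abs, h1, abs_mul]
      have h2 : |c n x - 1| ≤ 1 := by
        rw [abs_le]
        constructor <;> linarith [(hc01 n x).1, (hc01 n x).2]
      exact mul_le_of_le_one_left (abs_nonneg _) h2
    · refine tendsto_const_nhds.congr' ?_
      filter_upwards [hone x] with n hn
      rw [hn.self_of_nhds]
      simp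
  have hL2 : Tendsto (fun n => ∫ x, ‖fderiv ℝ (fun y => c n y * m y) x - fderiv ℝ m x‖) atTop
      (𝓝 (∫ _ : E, (0 : ℝ))) := by
    refine tendsto_integral_of_dominated_convergence (fun x => ‖fderiv ℝ m x‖ + C * |m x|)
      (fun n => ?_) (hmd.norm.add (hmi.abs.const_mul C))
      (fun n => Eventually.of_forall fun x => ?_) (Eventually.of_forall fun x => ?_)
    · have h1 : ContDiff ℝ ∞ (fun y => c n y * m y) := (hcs n).mul hm
      exact ((h1.continuous_fderiv (by simp)).sub
        (hm.continuous_fderiv (by simp))).norm.aestronglyMeasurable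
    · rw [norm_norm, hfd]
      have h1 : c n x • fderiv ℝ m x + m x • fderiv ℝ (c n) x - fderiv ℝ m x =
          (c n x - 1) • fderiv ℝ m x + m x • fderiv ℝ (c n) x := by
        rw [sub_smul, one_smul]
        abel
      rw [h1]
      refine (norm_add_le _ _).trans (add_le_add ?_ ?_)
      · rw [norm_smul]
        have h2 : ‖c n x - 1‖ ≤ 1 := by
          rw [Real.norm_eq_abs, abs_le]
          constructor <;> linarith [(hc01 n x).1, (hc01 n x).2]
        exact mul_le_of_le_one_left (norm_nonneg _) h2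
      · rw [norm_smul, mul_comm, Real.norm_eq_abs]
        exact mul_le_mul_of_nonneg_right (hcd n x) (abs_nonneg _)
    · refine tendsto_const_nhds.congr' ?_
      filter_upwards [hone x] with n hn
      have h1 : (fun y => c n y * m y) =ᶠ[𝓝 x] m := by
        filter_upwards [hn] with y hy
        rw [hy, one_mul]
      rw [h1.fderiv_eq]
      simp
  simp only [integral_zero] at hL1 hL2
  have e1 := (tendsto_order.1 hL1).2 ε hε
  have e2 := (tendsto_order.1 hL2).2 ε hε
  obtain ⟨n, hn1, hn2⟩ := (e1.and e2).exists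
  exact ⟨fun y => c n y * m y, (hcs n).mul hm, (hcc n).mul_right, hn1.le, hn2.le⟩

/-- **Density of test functions in `W^{1,1}`.** -/
theorem exists_testFunction {f : E → ℝ} {G : E → E} (hf : Integrable f) (hG : Integrable G)
    (h : HasWeakGrad f G) {ε : ℝ} (hε : 0 < ε) :
    ∃ g : E → ℝ, ContDiff ℝ ∞ g ∧ HasCompactSupport g ∧ ∫ x, |g x - f x| ≤ ε ∧
      ∫ x, ‖fderiv ℝ g x - innerSL ℝ (G x)‖ ≤ ε := by
  obtain ⟨δ₁, hδ₁, h1⟩ := exists_mol_close hf (half_pos hε)
  obtain ⟨δ₂, hδ₂, h2⟩ := exists_mol_close hG (half_pos hε)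
  have hδ : 0 < min δ₁ δ₂ := lt_min hδ₁ hδ₂
  set ρ : ContDiffBump (0 : E) := ⟨min δ₁ δ₂ / 4, min δ₁ δ₂ / 2, by positivity, by linarith⟩
  have hρ : ρ.rOut = min δ₁ δ₂ / 2 := rfl
  have hρ1 : ρ.rOut < δ₁ := by
    rw [hρ]
    linarith [min_le_left δ₁ δ₂]
  have hρ2 : ρ.rOut < δ₂ := by
    rw [hρ]
    linarith [min_le_right δ₁ δ₂]
  have hm : ContDiff ℝ ∞ (mol ρ f) := contDiff_mol ρ hf.locallyIntegrable
  have hmi : Integrable (mol ρ f) := integrable_mol ρ hf
  have hGi : Integrable (mol ρ G) := integrable_mol ρ hG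
  have hfd : fderiv ℝ (mol ρ f) = fun x => innerSL ℝ (mol ρ G x) :=
    funext fun x => fderiv_mol ρ hf.locallyIntegrable hG.locallyIntegrable h x
  have hmd : Integrable (fderiv ℝ (mol ρ f)) := by
    rw [hfd]
    exact (innerSL ℝ (E := E)).integrable_comp hGi
  obtain ⟨g, hg1, hg2, hg3, hg4⟩ := exists_cutoff hm hmi hmd (half_pos hε)
  have hgi : Integrable g := hg1.continuous.integrable_of_hasCompactSupport hg2
  have hgd : Integrable (fderiv ℝ g) :=
    (hg1.continuous_fderiv (by simp)).integrable_of_hasCompactSupport (hg2.fderiv ℝ)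
  refine ⟨g, hg1, hg2, ?_, ?_⟩
  · have hb : ∫ x, |mol ρ f x - f x| ≤ ε / 2 := h1 ρ hρ1
    calc ∫ x, |g x - f x| ≤ ∫ x, (|g x - mol ρ f x| + |mol ρ f x - f x|) := by
          refine integral_mono (hgi.sub hf).abs ((hgi.sub hmi).abs.add (hmi.sub hf).abs)
            fun x => ?_
          exact abs_sub_le _ _ _
      _ = (∫ x, |g x - mol ρ f x|) + ∫ x, |mol ρ f x - f x| :=
          integral_add (hgi.sub hmi).abs (hmi.sub hf).abs
      _ ≤ ε / 2 + ε / 2 := add_le_add hg3 hb
      _ = ε := by ring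
  · have hGs : Integrable (fun x => innerSL ℝ (G x) : E → E →L[ℝ] ℝ) :=
      (innerSL ℝ (E := E)).integrable_comp hG
    have hb : ∫ x, ‖fderiv ℝ (mol ρ f) x - innerSL ℝ (G x)‖ ≤ ε / 2 := by
      refine le_trans (le_of_eq ?_) (h2 ρ hρ2)
      refine integral_congr_ae (Eventually.of_forall fun x => ?_)
      simp only [hfd]
      rw [← map_sub, innerSL_apply_norm]
    calc ∫ x, ‖fderiv ℝ g x - innerSL ℝ (G x)‖
        ≤ ∫ x, (‖fderiv ℝ g x - fderiv ℝ (mol ρ f) x‖ +
            ‖fderiv ℝ (mol ρ f) x - innerSL ℝ (G x)‖) := by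
          refine integral_mono (hgd.sub hGs).norm ((hgd.sub hmd).norm.add (hmd.sub hGs).norm)
            fun x => ?_
          exact norm_sub_le_norm_sub_add_norm_sub _ _ _
      _ = (∫ x, ‖fderiv ℝ g x - fderiv ℝ (mol ρ f) x‖) +
            ∫ x, ‖fderiv ℝ (mol ρ f) x - innerSL ℝ (G x)‖ :=
          integral_add (hgd.sub hmd).norm (hmd.sub hGs).norm
      _ ≤ ε / 2 + ε / 2 := add_le_add hg4 hb
      _ = ε := by ring

end Dens

end Vale.Agent.P137
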