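import Vale.Agent.P137.Defs
import Vale.Agent.P137.Dens

/-!
# P137 [DUAL]: the total variation of a Lipschitz function by duality
-/

open MeasureTheory Metric Set Filter Topology
open scoped ENNReal ContDiff NNReal

namespace P137

namespace DualAux

variable {d : ℕ}

open Vale.Agent.P137.Dens

theorem dvg_single (ψ : E d → ℝ) (hψ : ContDiff ℝ ∞ ψ) (i : Fin d) (x : E d) :
    dvg (fun x => ψ x • EuclideanSpace.single i (1 : ℝ)) x =
      fderiv ℝ ψ x (EuclideanSpace.single i 1) := by
  have hd : HasFDerivAt ψ (fderiv ℝ ψ x) x := ((hψ.differentiable (by simp)) x).hasFDerivAt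
  have h := (hd.smul_const (EuclideanSpace.single i (1 : ℝ))).fderiv
  unfold dvg
  rw [h, Finset.sum_eq_single i]
  · simp
  · intro j _ hj
    simp [hj]
  · simp

theorem mol_bound (ρ : ContDiffBump (0 : E d)) {s : E d → ℝ} (hs : ∀ x, |s x| ≤ 1) (x : E d) :
    |mol ρ s x| ≤ 1 := by
  rw [mol_apply, ← Real.norm_eq_abs, ← ρ.integral_normed (μ := (volume : Measure (E d)))]
  refine norm_integral_le_of_norm_le ρ.integrable_normed (Eventually.of_forall fun t => ?_)
  rw [smul_eq_mul, norm_mul, Real.norm_eq_abs, Real.norm_eq_abs, abs_of_nonneg (ρ.nonneg_normed t)]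
  exact mul_le_of_le_one_right (ρ.nonneg_normed t) (hs _)

theorem mol_supp (ρ : ContDiffBump (0 : E d)) {s : E d → ℝ} {R : ℝ}
    (hs : ∀ x, x ∉ ball (0 : E d) R → s x = 0) : HasCompactSupport (mol ρ s) := by
  refine HasCompactSupport.intro (isCompact_closedBall (0 : E d) (R + ρ.rOut)) fun x hx => ?_
  refine mol_zero_of_far ρ fun y hy => hs y fun hy2 => hx ?_
  rw [mem_closedBall, dist_zero_right]
  rw [mem_ball, dist_eq_norm] at hy
  rw [mem_ball, dist_zero_right] at hy2
  calc ‖x‖ = ‖y - (y - x)‖ := by congr 1; abel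
    _ ≤ ‖y‖ + ‖y - x‖ := norm_sub_le _ _
    _ ≤ R + ρ.rOut := by linarith

/-- the duality bound for one test function -/
theorem test_le (u : E d → ℝ) (L : ℝ≥0) (hu : LipschitzWith L u) (C : ℝ≥0∞)
    (h : ∀ φ : E d → E d, Test φ → ENNReal.ofReal (∫ x, u x * dvg φ x) ≤ C) (i : Fin d)
    (ψ : E d → ℝ) (hψ : ContDiff ℝ ∞ ψ) (hc : HasCompactSupport ψ) (hb : ∀ x, |ψ x| ≤ 1) :
    ENNReal.ofReal (∫ x, lineDeriv ℝ u x (EuclideanSpace.single i 1) * ψ x) ≤ C := by
  set v : E d := EuclideanSpace.single i (1 : ℝ) with hv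
  have hnψ : ContDiff ℝ ∞ (fun x => -ψ x) := hψ.neg
  have hv1 : ‖v‖ = 1 := by rw [hv]; simp
  have hT1 : ContDiff ℝ ∞ (fun x => (-ψ x) • v) := by
    have hc2 : ContDiff ℝ ∞ (fun _ : E d => v) := contDiff_const
    exact ContDiff.smul hnψ hc2
  have hT2 : HasCompactSupport (fun x => (-ψ x) • v) :=
    hc.comp_left (g := fun t : ℝ => (-t) • v) (by simp)
  have hT : Test (fun x => (-ψ x) • v) := by
    refine ⟨hT1, hT2, fun x => ?_⟩
    rw [norm_smul, norm_neg, Real.norm_eq_abs, hv1, mul_one]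
    exact hb x
  have h1 := h _ hT
  have hψ1 : ContDiff ℝ 1 ψ := hψ.of_le (by exact_mod_cast le_top)
  obtain ⟨K, hK⟩ := hψ1.lipschitzWith_of_hasCompactSupport hc one_ne_zero
  have h2 := hu.integral_lineDeriv_mul_eq (μ := (volume : Measure (E d))) hK hc v
  rw [h2]
  refine le_trans (le_of_eq ?_) h1
  congr 1
  refine integral_congr_ae (Eventually.of_forall fun x => ?_)
  simp only
  rw [dvg_single _ hnψ i x]
  have hd : DifferentiableAt ℝ ψ x := (hψ.differentiable (by simp)) x
  rw [hd.lineDeriv_eq_fderiv, fderiv_fun_neg]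
  simp only [map_neg, ContinuousLinearMap.neg_apply]
  rw [← hv]
  ring

theorem ball_le (u : E d → ℝ) (L : ℝ≥0) (hu : LipschitzWith L u) (C : ℝ≥0∞)
    (h : ∀ φ : E d → E d, Test φ → ENNReal.ofReal (∫ x, u x * dvg φ x) ≤ C) (i : Fin d) (R : ℝ) :
    ∫⁻ x in ball (0 : E d) R, ‖lineDeriv ℝ u x (EuclideanSpace.single i 1)‖ₑ ≤ C := by
  set v : E d := EuclideanSpace.single i (1 : ℝ) with hv
  have hv1 : ‖v‖ = 1 := by rw [hv]; simp
  set D : E d → ℝ := fun x => lineDeriv ℝ u x v with hD
  have hDm : Measurable D := measurable_lineDeriv hu.continuous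
  have hDb : ∀ x, |D x| ≤ L := by
    intro x
    have := norm_lineDeriv_le_of_lipschitz ℝ hu (x₀ := x) (v := v)
    rwa [hv1, mul_one, Real.norm_eq_abs] at this
  set σ : E d → ℝ := fun x => if 0 ≤ D x then (1 : ℝ) else -1 with hσ
  have hσm : Measurable σ := Measurable.ite (measurableSet_le measurable_const hDm)
    measurable_const measurable_const
  set s : E d → ℝ := (ball (0 : E d) R).indicator σ with hs
  have hsm : Measurable s := hσm.indicator measurableSet_ball
  have hσb : ∀ x, |σ x| ≤ 1 := by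
    intro x
    simp only [hσ]
    split_ifs <;> simp
  have hsb : ∀ x, |s x| ≤ 1 := by
    intro x
    by_cases hx : x ∈ ball (0 : E d) R
    · rw [hs, indicator_of_mem hx]; exact hσb x
    · rw [hs, indicator_of_notMem hx]; simp
  have hs0 : ∀ x, x ∉ ball (0 : E d) R → s x = 0 := fun x hx => by
    rw [hs, indicator_of_notMem hx]
  have hsi : Integrable s := by
    rw [hs, integrable_indicator_iff measurableSet_ball]
    refine Measure.integrableOn_of_bounded (M := 1) measure_ball_lt_top.ne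
      hσm.aestronglyMeasurable (Eventually.of_forall fun x => ?_)
    rw [Real.norm_eq_abs]; exact hσb x
  have hDs : Integrable (fun x => D x * s x) := by
    refine hsi.bdd_mul (c := L) hDm.aestronglyMeasurable (Eventually.of_forall fun x => ?_)
    rw [Real.norm_eq_abs]; exact hDb x
  have key : ∀ x, D x * s x = (ball (0 : E d) R).indicator (fun x => |D x|) x := by
    intro x
    by_cases hx : x ∈ ball (0 : E d) R
    · rw [hs, indicator_of_mem hx, indicator_of_mem hx]
      simp only [hσ]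
      split_ifs with h0
      · rw [mul_one, abs_of_nonneg h0]
      · rw [mul_neg_one, abs_of_neg (not_le.1 h0)]
    · rw [hs, indicator_of_notMem hx, indicator_of_notMem hx, mul_zero]
  have e1 : ∫⁻ x in ball (0 : E d) R, ‖D x‖ₑ = ENNReal.ofReal (∫ x, D x * s x) := by
    have h0 : ∀ x, 0 ≤ D x * s x := fun x => by
      rw [key x]; exact indicator_nonneg (fun x _ => abs_nonneg _) x
    rw [ofReal_integral_eq_lintegral_ofReal hDs (Eventually.of_forall h0),
      ← lintegral_indicator measurableSet_ball]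
    refine lintegral_congr fun x => ?_
    rw [key x]
    by_cases hx : x ∈ ball (0 : E d) R
    · rw [indicator_of_mem hx, indicator_of_mem hx, ← Real.norm_eq_abs, ofReal_norm]
    · rw [indicator_of_notMem hx, indicator_of_notMem hx, ENNReal.ofReal_zero]
  change ∫⁻ x in ball (0 : E d) R, ‖D x‖ₑ ≤ C
  rw [e1]
  refine ENNReal.le_of_forall_pos_le_add fun ε hε _ => ?_
  obtain ⟨δ, hδ, hmol⟩ := exists_mol_close hsi (ε := ε / (L + 1)) (by positivity)
  set ρ : ContDiffBump (0 : E d) := ⟨δ / 4, δ / 2, by positivity, by linarith⟩ with hρ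
  have h1 := hmol ρ (by change δ / 2 < δ; linarith)
  have h2 := test_le u L hu C h i (mol ρ s) (contDiff_mol ρ hsi.locallyIntegrable)
    (mol_supp ρ hs0) (mol_bound ρ hsb)
  have hDψ : Integrable (fun x => D x * mol ρ s x) := by
    refine (integrable_mol ρ hsi).bdd_mul (c := L) hDm.aestronglyMeasurable
      (Eventually.of_forall fun x => ?_)
    rw [Real.norm_eq_abs]; exact hDb x
  have h3 : ∫ x, D x * s x ≤ (∫ x, D x * mol ρ s x) + ε := by
    have h4 : (∫ x, D x * s x) - (∫ x, D x * mol ρ s x) ≤ ε := by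
      rw [← integral_sub hDs hDψ]
      have h5 : ∫ x, (D x * s x - D x * mol ρ s x) ≤ ∫ x, L * ‖mol ρ s x - s x‖ := by
        refine integral_mono (hDs.sub hDψ) (((integrable_mol ρ hsi).sub hsi).norm.const_mul _)
          fun x => ?_
        simp only
        calc D x * s x - D x * mol ρ s x = D x * (s x - mol ρ s x) := by ring
          _ ≤ |D x * (s x - mol ρ s x)| := le_abs_self _
          _ = |D x| * |mol ρ s x - s x| := by rw [abs_mul, abs_sub_comm]
          _ ≤ L * ‖mol ρ s x - s x‖ := by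
            rw [Real.norm_eq_abs]
            exact mul_le_mul_of_nonneg_right (hDb x) (abs_nonneg _)
      refine h5.trans ?_
      rw [integral_const_mul]
      calc (L : ℝ) * ∫ x, ‖mol ρ s x - s x‖ ≤ L * (ε / (L + 1)) :=
            mul_le_mul_of_nonneg_left h1 L.coe_nonneg
        _ ≤ ε := by
          have hL : (0 : ℝ) ≤ L := L.coe_nonneg
          have hε0 : (0 : ℝ) ≤ ε := ε.coe_nonneg
          rw [mul_div_assoc', div_le_iff₀ (by positivity)]
          nlinarith
    linarith
  calc ENNReal.ofReal (∫ x, D x * s x)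
      ≤ ENNReal.ofReal ((∫ x, D x * mol ρ s x) + ε) := ENNReal.ofReal_le_ofReal h3
    _ ≤ ENNReal.ofReal (∫ x, D x * mol ρ s x) + ENNReal.ofReal ε := ENNReal.ofReal_add_le
    _ ≤ C + ε := by
      refine add_le_add h2 (le_of_eq ?_)
      exact ENNReal.ofReal_coe_nnreal

end DualAux

/-- [DUAL] Dual.lean -/
theorem dual_bound {d : ℕ} (u : E d → ℝ) (L : ℝ≥0) (hu : LipschitzWith L u) (C : ℝ≥0∞)
    (h : ∀ φ : E d → E d, Test φ → ENNReal.ofReal (∫ x, u x * dvg φ x) ≤ C) (i : Fin d) :
    ∫⁻ x, ‖lineDeriv ℝ u x (EuclideanSpace.single i 1)‖ₑ ≤ C := by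
  rw [← setLIntegral_univ, ← iUnion_ball_nat (0 : E d),
    setLIntegral_iUnion_of_directed]
  · exact iSup_le fun n => DualAux.ball_le u L hu C h i n
  · refine Monotone.directed_le fun m n hmn => ?_
    exact ball_subset_ball (by exact_mod_cast hmn)

end P137
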