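import Vale.Agent.P137.Defs

/-!
# P137 [GRID]: the shifted triadic grids
-/

open MeasureTheory Metric Set Filter Topology
open scoped ENNReal ContDiff NNReal

namespace P137

theorem mem_ch {d : ℕ} (s : Fin d → Fin 2) (m m' : Fin d → ℤ) : m' ∈ ch s m ↔ par s m' = m := by
  unfold ch par
  rw [Fintype.mem_piFinset, funext_iff]
  refine forall_congr' fun i => ?_
  rw [Finset.mem_Icc]
  omega

theorem idx_par {d : ℕ} (s : Fin d → Fin 2) (k : ℤ) (y : E d) :
    par s (idx s (k + 1) y) = idx s k y := by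
  funext i
  unfold par idx
  have h1 := Int.floor_le ((3 : ℝ) ^ (k + 1) * y i - ((s i : ℕ) : ℝ) / 2)
  have h2 := Int.lt_floor_add_one ((3 : ℝ) ^ (k + 1) * y i - ((s i : ℕ) : ℝ) / 2)
  set n : ℤ := ⌊(3 : ℝ) ^ (k + 1) * y i - ((s i : ℕ) : ℝ) / 2⌋ with hn
  symm
  rw [Int.floor_eq_iff]
  have h3 : (3 : ℝ) ^ (k + 1) = 3 ^ k * 3 := zpow_add_one₀ (by norm_num) k
  rw [h3] at h1 h2
  have h4 : 3 * ((n - ((s i : ℕ) : ℤ)) / 3) ≤ n - ((s i : ℕ) : ℤ) := by omega
  have h5 : n - ((s i : ℕ) : ℤ) + 1 ≤ 3 * ((n - ((s i : ℕ) : ℤ)) / 3) + 3 := by omega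
  have h4' : (3 : ℝ) * (((n - ((s i : ℕ) : ℤ)) / 3 : ℤ) : ℝ) ≤ (n : ℝ) - ((s i : ℕ) : ℝ) := by
    exact_mod_cast h4
  have h5' : (n : ℝ) - ((s i : ℕ) : ℝ) + 1 ≤
      (3 : ℝ) * (((n - ((s i : ℕ) : ℤ)) / 3 : ℤ) : ℝ) + 3 := by
    exact_mod_cast h5
  constructor <;> linarith

namespace Grid

theorem side_pos (k : ℤ) : (0 : ℝ) < (3 : ℝ) ^ (-k) := by positivity

theorem side_mul (k : ℤ) : (3 : ℝ) ^ (-k) * (3 : ℝ) ^ k = 1 := by
  rw [← zpow_add₀ (by norm_num : (3 : ℝ) ≠ 0)]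
  simp

theorem side_succ (k : ℤ) : (3 : ℝ) ^ (-k) = 3 * (3 : ℝ) ^ (-(k + 1)) := by
  rw [show -k = 1 + -(k + 1) by ring, zpow_add₀ (by norm_num : (3 : ℝ) ≠ 0)]
  norm_num

/-- membership in a cell by inequalities -/
theorem mem_cell_iff {d : ℕ} {s : Fin d → Fin 2} {k : ℤ} {m : Fin d → ℤ} {y : E d} :
    y ∈ cell s k m ↔ ∀ i, ((m i : ℝ) + ((s i : ℕ) : ℝ) / 2) * (3 : ℝ) ^ (-k) ≤ y i ∧
      y i < ((m i : ℝ) + 1 + ((s i : ℕ) : ℝ) / 2) * (3 : ℝ) ^ (-k) := by
  have hs := side_pos k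
  have hs1 := side_mul k
  have hk : (0 : ℝ) < (3 : ℝ) ^ k := by positivity
  unfold cell idx
  rw [Set.mem_ofPred_eq, funext_iff]
  refine forall_congr' fun i => ?_
  rw [Int.floor_eq_iff]
  have e : y i = (3 : ℝ) ^ k * y i * (3 : ℝ) ^ (-k) := by
    calc y i = y i * 1 := by ring
      _ = y i * ((3 : ℝ) ^ (-k) * (3 : ℝ) ^ k) := by rw [hs1]
      _ = _ := by ring
  constructor
  · rintro ⟨h1, h2⟩
    constructor
    · rw [e]
      exact mul_le_mul_of_nonneg_right (by linarith) hs.le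
    · rw [e]
      exact mul_lt_mul_of_pos_right (by linarith) hs
  · rintro ⟨h1, h2⟩
    rw [e] at h1 h2
    have h3 := le_of_mul_le_mul_right h1 hs
    have h4 := lt_of_mul_lt_mul_right h2 hs.le
    constructor <;> linarith

end Grid

open Grid

theorem cell_meas {d : ℕ} (s : Fin d → Fin 2) (k : ℤ) (m : Fin d → ℤ) :
    MeasurableSet (cell s k m) := by
  have : cell s k m = ⋂ i, ({y : E d | ((m i : ℝ) + ((s i : ℕ) : ℝ) / 2) * (3 : ℝ) ^ (-k) ≤ y i} ∩
      {y | y i < ((m i : ℝ) + 1 + ((s i : ℕ) : ℝ) / 2) * (3 : ℝ) ^ (-k)}) := by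
    ext x
    rw [mem_cell_iff]
    simp
  rw [this]
  refine MeasurableSet.iInter fun i => ?_
  have hm : Measurable fun x : E d => x i :=
    (continuous_apply i).comp (PiLp.continuous_ofLp 2 _) |>.measurable
  exact (measurableSet_le measurable_const hm).inter (measurableSet_lt hm measurable_const)

namespace Grid

theorem norm_le_sqrt_mul {d : ℕ} (v : E d) (t : ℝ) (ht : 0 ≤ t) (h : ∀ i, |v i| ≤ t) :
    ‖v‖ ≤ √d * t := by
  rw [EuclideanSpace.norm_eq]
  calc √(∑ i, ‖v i‖ ^ 2) ≤ √(∑ _i : Fin d, t ^ 2) := by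
        apply Real.sqrt_le_sqrt
        refine Finset.sum_le_sum fun i _ => ?_
        rw [Real.norm_eq_abs]
        exact pow_le_pow_left₀ (abs_nonneg _) (h i) 2
    _ = √d * t := by
        rw [Finset.sum_const, Finset.card_univ, Fintype.card_fin, nsmul_eq_mul,
          Real.sqrt_mul (by positivity), Real.sqrt_sq ht]

theorem ctr_apply {d : ℕ} (s : Fin d → Fin 2) (k : ℤ) (m : Fin d → ℤ) (i : Fin d) :
    ctr s k m i = (3 : ℝ) ^ (-k) * ((m i : ℝ) + ((s i : ℕ) : ℝ) / 2 + 1 / 2) := rfl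

end Grid

theorem cell_ctr {d : ℕ} (s : Fin d → Fin 2) (k : ℤ) (m : Fin d → ℤ) (y : E d)
    (hy : y ∈ cell s k m) : ‖y - ctr s k m‖ ≤ √d * (3 : ℝ) ^ (-k) := by
  have hs := side_pos k
  refine norm_le_sqrt_mul _ _ hs.le fun i => ?_
  obtain ⟨h1, h2⟩ := mem_cell_iff.1 hy i
  rw [PiLp.sub_apply, ctr_apply, abs_le]
  constructor <;> nlinarith

theorem ctr_ctr {d : ℕ} (s : Fin d → Fin 2) (k : ℤ) (m m' : Fin d → ℤ) (h : m' ∈ ch s m) :
    ‖ctr s (k + 1) m' - ctr s k m‖ ≤ √d * (3 : ℝ) ^ (-k) := by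
  have hs := side_pos (k + 1)
  have hk := side_succ k
  refine norm_le_sqrt_mul _ _ (side_pos k).le fun i => ?_
  unfold ch at h
  rw [Fintype.mem_piFinset] at h
  have hi := Finset.mem_Icc.1 (h i)
  have h1 : (3 * (m i : ℝ) + ((s i : ℕ) : ℝ)) ≤ (m' i : ℝ) := by exact_mod_cast hi.1
  have h2 : (m' i : ℝ) ≤ 3 * (m i : ℝ) + ((s i : ℕ) : ℝ) + 2 := by exact_mod_cast hi.2
  rw [PiLp.sub_apply, ctr_apply, ctr_apply, hk, abs_le]
  have h3 := mul_le_mul_of_nonneg_left h1 hs.le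
  have h4 := mul_le_mul_of_nonneg_left h2 hs.le
  constructor <;> nlinarith

namespace Grid

theorem volume_cell {d : ℕ} (s : Fin d → Fin 2) (k : ℤ) (m : Fin d → ℤ) :
    volume (cell s k m) = ENNReal.ofReal ((3 : ℝ) ^ (-k)) ^ d := by
  have h : cell s k m = (MeasurableEquiv.toLp 2 (Fin d → ℝ)).symm ⁻¹'
      (Set.pi univ fun i => Ico (((m i : ℝ) + ((s i : ℕ) : ℝ) / 2) * (3 : ℝ) ^ (-k))
        (((m i : ℝ) + 1 + ((s i : ℕ) : ℝ) / 2) * (3 : ℝ) ^ (-k))) := by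
    ext x
    rw [mem_cell_iff]
    simp [Set.mem_pi]
  rw [h]
  have hmp := (EuclideanSpace.volume_preserving_symm_measurableEquiv_toLp (Fin d))
  rw [hmp.measure_preimage]
  · rw [Real.volume_pi_Ico]
    rw [Finset.prod_congr rfl (g := fun _ => ENNReal.ofReal ((3 : ℝ) ^ (-k)))]
    · simp
    · intro i _
      congr 1
      ring
  · exact (MeasurableSet.univ_pi fun i => measurableSet_Ico).nullMeasurableSet

end Grid

theorem cell_vol {d : ℕ} (s : Fin d → Fin 2) (k : ℤ) (m : Fin d → ℤ) :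
    volume (cell s k m) ≤ ENNReal.ofReal (((3 : ℝ) ^ (-k)) ^ d) := by
  rw [volume_cell, ENNReal.ofReal_pow (side_pos k).le]

theorem cell_cover {d : ℕ} (k : ℤ) (x : E d) :
    ∃ (s : Fin d → Fin 2) (m : Fin d → ℤ), ball x (18 * rad k) ⊆ cell s k m := by
  classical
  have hs := side_pos k
  have hR : 18 * rad k ≤ (3 : ℝ) ^ (-k) * (1 / 4) := by
    unfold rad
    have h81 : (3 : ℝ) ^ (-4 : ℤ) = 1 / 81 := by norm_num
    rw [show -k - 4 = -k + -4 by ring, zpow_add₀ (by norm_num : (3 : ℝ) ≠ 0), h81]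
    linarith
  set R := 18 * rad k with hRdef
  -- one coordinate
  have key : ∀ i : Fin d, ∃ (b : Fin 2) (n : ℤ),
      ((n : ℝ) + ((b : ℕ) : ℝ) / 2) * (3 : ℝ) ^ (-k) ≤ x i - R ∧
        x i + R ≤ ((n : ℝ) + 1 + ((b : ℕ) : ℝ) / 2) * (3 : ℝ) ^ (-k) := by
    intro i
    set y : ℝ := x i / (3 : ℝ) ^ (-k) with hy
    have hxy : x i = y * (3 : ℝ) ^ (-k) := by rw [hy]; field_simp
    have hf1 := Int.floor_le y
    have hf2 := Int.lt_floor_add_one y
    by_cases h1 : y - ⌊y⌋ < 1 / 4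
    · refine ⟨1, ⌊y⌋ - 1, ?_, ?_⟩
      · push_cast
        rw [hxy]
        simp only [Fin.val_one, Nat.cast_one]
        nlinarith
      · push_cast
        rw [hxy]
        simp only [Fin.val_one, Nat.cast_one]
        nlinarith
    · by_cases h2 : y - ⌊y⌋ ≤ 3 / 4
      · refine ⟨0, ⌊y⌋, ?_, ?_⟩
        · rw [hxy]
          simp only [Fin.val_zero, Nat.cast_zero]
          push Not at h1
          nlinarith
        · rw [hxy]
          simp only [Fin.val_zero, Nat.cast_zero]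
          nlinarith
      · refine ⟨1, ⌊y⌋, ?_, ?_⟩
        · rw [hxy]
          simp only [Fin.val_one, Nat.cast_one]
          push Not at h2
          nlinarith
        · rw [hxy]
          simp only [Fin.val_one, Nat.cast_one]
          nlinarith
  choose b n h1 h2 using key
  refine ⟨b, n, fun z hz => mem_cell_iff.2 fun i => ?_⟩
  have hzi : |z i - x i| < R := by
    have h3 : ‖z - x‖ < R := by
      rw [← dist_eq_norm]
      exact hz
    have h4 : ‖(z - x) i‖ ≤ ‖z - x‖ := PiLp.norm_apply_le (z - x) i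
    calc |z i - x i| = ‖(z - x) i‖ := by simp [Real.norm_eq_abs]
      _ ≤ ‖z - x‖ := h4
      _ < R := h3
  rw [abs_lt] at hzi
  have a1 := h1 i
  have a2 := h2 i
  constructor <;> linarith [hzi.1, hzi.2]

namespace Grid

theorem mem_cell_idx {d : ℕ} {s : Fin d → Fin 2} {k : ℤ} {m : Fin d → ℤ} {y : E d} :
    y ∈ cell s k m ↔ idx s k y = m := Iff.rfl

theorem cell_disj {d : ℕ} (s : Fin d → Fin 2) (k : ℤ) {m m' : Fin d → ℤ} (h : m ≠ m') :
    Disjoint (cell s k m) (cell s k m') := by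
  rw [Set.disjoint_left]
  intro x hx hx'
  exact h (hx.symm.trans hx')

theorem iUnion_cell {d : ℕ} (s : Fin d → Fin 2) (k : ℤ) : ⋃ m, cell s k m = univ := by
  ext x
  simp only [mem_iUnion, mem_univ, iff_true]
  exact ⟨_, rfl⟩

theorem cell_eq {d : ℕ} (s : Fin d → Fin 2) (k : ℤ) (m : Fin d → ℤ) :
    cell s k m = ⋃ m' ∈ ch s m, cell s (k + 1) m' := by
  ext y
  simp only [mem_iUnion, exists_prop]
  constructor
  · intro hy
    refine ⟨idx s (k + 1) y, ?_, rfl⟩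
    rw [mem_ch, idx_par]
    exact hy
  · rintro ⟨m', h1, h2⟩
    rw [mem_ch] at h1
    rw [mem_cell_idx] at h2 ⊢
    rw [← idx_par, h2, h1]

theorem ch_disj {d : ℕ} (s : Fin d → Fin 2) (m m' : Fin d → ℤ) (h : m ≠ m') :
    Disjoint (ch s m) (ch s m') := by
  rw [Finset.disjoint_left]
  intro a ha ha'
  rw [mem_ch] at ha ha'
  exact h (ha.symm.trans ha')

end Grid

theorem aV_sum {d : ℕ} (G : E d → E d) (hG : Integrable G) (s : Fin d → Fin 2) (k : ℤ)
    (m : Fin d → ℤ) : aV G s k m = ∑ m' ∈ ch s m, aV G s (k + 1) m' := by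
  unfold aV
  rw [cell_eq, integral_biUnion_finset]
  · intro c _
    exact cell_meas _ _ _
  · intro c _ c' _ h
    exact cell_disj s (k + 1) h
  · intro c _
    exact hG.integrableOn

theorem D1_nonneg {d : ℕ} (G : E d → E d) (hG : Integrable G) (s : Fin d → Fin 2) (k : ℤ)
    (m : Fin d → ℤ) : 0 ≤ D1 G s k m := by
  unfold D1
  rw [sub_nonneg, aV_sum G hG s k m]
  exact norm_sum_le _ _

/-- the descendants of relative generation `n` of a cell partition it -/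
theorem cell_desc {d : ℕ} (s : Fin d → Fin 2) (k : ℤ) (m : Fin d → ℤ) (n : ℕ) (y : E d) :
    y ∈ cell s k m ↔ idx s (k + n) y ∈ desc (ch s) m n := by
  induction n with
  | zero =>
    simp only [Nat.cast_zero, add_zero, desc, Finset.mem_singleton]
    exact Iff.rfl
  | succ n ih =>
    rw [ih]
    simp only [desc, Finset.mem_biUnion]
    have e : k + ((n + 1 : ℕ) : ℤ) = k + n + 1 := by push_cast; ring
    rw [e]
    constructor
    · intro h
      exact ⟨_, h, (mem_ch _ _ _).2 (idx_par _ _ _)⟩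
    · rintro ⟨a, h1, h2⟩
      rw [mem_ch, idx_par] at h2
      rw [h2]
      exact h1

end P137
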