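import Vale.Agent.P137.Kernel

/-!
# P137: the competitor kernel, integrated facts
-/

open MeasureTheory Set Metric
open scoped RealInnerProductSpace

set_option linter.unusedSectionVars false

namespace P137

variable {E : Type*} [NormedAddCommGroup E] [InnerProductSpace ℝ E]
  [MeasurableSpace E] [BorelSpace E]

/-- volume of the ball of radius `r` -/
noncomputable def bv (μ : Measure E) (r : ℝ) : ℝ := μ.real (ball (0 : E) r)

/-- normalised indicator of the intermediate ball -/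
noncomputable def ph (μ : Measure E) (x c e : E) (ρ : ℝ) (y : E) (s : ℝ) : ℝ :=
  (ball (cs x c e ρ s) (rs ρ s)).indicator (fun _ => (bv μ (rs ρ s))⁻¹) y

/-- time spent in the intermediate balls -/
noncomputable def kap (μ : Measure E) (x c e : E) (ρ : ℝ) (y : E) : ℝ :=
  ∫ s in Ioc (0 : ℝ) 1, ph μ x c e ρ y s

/-- the kernel -/
noncomputable def Ker (μ : Measure E) (x c e : E) (ρ : ℝ) (y : E) : E :=
  ∫ s in Ioc (0 : ℝ) 1, ph μ x c e ρ y s • ws x c e ρ s y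

variable [FiniteDimensional ℝ E] {μ : Measure E} [μ.IsAddHaarMeasure]
variable {x c e y : E} {ρ s : ℝ}

lemma bv_pos {r : ℝ} (hr : 0 < r) : 0 < bv μ r :=
  ENNReal.toReal_pos (measure_ball_pos μ 0 hr).ne' measure_ball_lt_top.ne

lemma bv_mono {r r' : ℝ} (h : r ≤ r') : bv μ r ≤ bv μ r' :=
  measureReal_mono (ball_subset_ball h) measure_ball_lt_top.ne

lemma bv_mul {r : ℝ} (hr : 0 < r) : bv μ r = r ^ Module.finrank ℝ E * bv μ 1 := by
  unfold bv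
  have h := Measure.addHaar_ball_mul_of_pos μ (0 : E) hr 1
  rw [mul_one] at h
  unfold Measure.real
  rw [h, ENNReal.toReal_mul, ENNReal.toReal_ofReal (by positivity)]

lemma measurable_ph : Measurable fun p : E × ℝ => ph μ x c e ρ p.1 p.2 := by
  have h1 : MeasurableSet {p : E × ℝ | p.1 ∈ ball (cs x c e ρ p.2) (rs ρ p.2)} := by
    apply IsOpen.measurableSet
    simp only [mem_ball, cs, rs]
    exact isOpen_lt (by fun_prop) (by fun_prop)
  have h2 : Measurable fun p : E × ℝ => (bv μ (rs ρ p.2))⁻¹ := by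
    apply Measurable.inv
    apply Measurable.comp (g := bv μ) (f := fun p : E × ℝ => rs ρ p.2)
    · exact (show Monotone (bv μ) from fun a b h => bv_mono h).measurable
    · unfold rs; fun_prop
  have h3 : (fun p : E × ℝ => ph μ x c e ρ p.1 p.2) =
      {p : E × ℝ | p.1 ∈ ball (cs x c e ρ p.2) (rs ρ p.2)}.indicator
        (fun p => (bv μ (rs ρ p.2))⁻¹) := by
    funext p
    unfold ph
    by_cases hp : p.1 ∈ ball (cs x c e ρ p.2) (rs ρ p.2)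
    · rw [indicator_of_mem hp, indicator_of_mem (by exact hp)]
    · rw [indicator_of_notMem hp, indicator_of_notMem (by exact hp)]
  rw [h3]
  exact h2.indicator h1

lemma measurable_ws : Measurable fun p : E × ℝ => ws x c e ρ p.2 p.1 := by
  unfold ws cs rs
  fun_prop

lemma ph_nonneg (hρ : 0 < ρ) (hs : 0 ≤ s) : 0 ≤ ph μ x c e ρ y s := by
  unfold ph
  apply indicator_nonneg
  intro _ _
  exact inv_nonneg.2 (bv_pos (rs_pos hρ hs)).le

lemma ph_le (hρ : 0 < ρ) (hs : 0 ≤ s) : ph μ x c e ρ y s ≤ (bv μ ρ)⁻¹ := by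
  unfold ph
  by_cases hp : y ∈ ball (cs x c e ρ s) (rs ρ s)
  · rw [indicator_of_mem hp]
    exact inv_anti₀ (bv_pos hρ) (bv_mono (le_rs hρ hs))
  · rw [indicator_of_notMem hp]
    exact inv_nonneg.2 (bv_pos hρ).le

lemma ph_eq_zero (h : y ∉ ball (cs x c e ρ s) (rs ρ s)) : ph μ x c e ρ y s = 0 :=
  indicator_of_notMem h _

lemma measurable_ph_right (y : E) : Measurable fun s : ℝ => ph μ x c e ρ y s :=
  (measurable_ph (μ := μ) (x := x) (c := c) (e := e) (ρ := ρ)).comp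
    (measurable_const.prodMk measurable_id)

lemma measurable_ws_right (y : E) : Measurable fun s : ℝ => ws x c e ρ s y :=
  (measurable_ws (x := x) (c := c) (e := e) (ρ := ρ)).comp
    (measurable_const.prodMk measurable_id)

lemma integrable_ph (hρ : 0 < ρ) (y : E) : IntegrableOn (ph μ x c e ρ y) (Ioc 0 1) := by
  refine Integrable.mono' (g := fun _ => (bv μ ρ)⁻¹) (by simp) ?_ ?_
  · exact (measurable_ph_right y).aestronglyMeasurable
  · filter_upwards [ae_restrict_mem measurableSet_Ioc] with s hs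
    rw [Real.norm_of_nonneg (ph_nonneg hρ hs.1.le)]
    exact ph_le hρ hs.1.le

lemma norm_ph_smul_le (hρ : 0 < ρ) (hc : ‖c - x‖ ≤ ρ) (he : ‖e‖ = 1) (hs : 0 ≤ s) :
    ‖ph μ x c e ρ y s • ws x c e ρ s y‖ ≤ ph μ x c e ρ y s * (6 * ρ) := by
  rw [norm_smul, Real.norm_of_nonneg (ph_nonneg hρ hs)]
  by_cases hy : y ∈ ball (cs x c e ρ s) (rs ρ s)
  · exact mul_le_mul_of_nonneg_left (W3 hρ hc he hs hy) (ph_nonneg hρ hs)
  · rw [ph_eq_zero hy]; simp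

lemma integrable_ph_smul (hρ : 0 < ρ) (hc : ‖c - x‖ ≤ ρ) (he : ‖e‖ = 1) (y : E) :
    IntegrableOn (fun s => ph μ x c e ρ y s • ws x c e ρ s y) (Ioc 0 1) := by
  refine Integrable.mono' ((integrable_ph (μ := μ) (x := x) (c := c) (e := e) hρ y).mul_const
    (6 * ρ)) ?_ ?_
  · exact ((measurable_ph_right y).smul (measurable_ws_right y)).aestronglyMeasurable
  · filter_upwards [ae_restrict_mem measurableSet_Ioc] with s hs
    exact norm_ph_smul_le hρ hc he hs.1.le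

lemma kap_nonneg (hρ : 0 < ρ) : 0 ≤ kap μ x c e ρ y :=
  setIntegral_nonneg measurableSet_Ioc fun _ hs => ph_nonneg hρ hs.1.le

lemma kap_le (hρ : 0 < ρ) : kap μ x c e ρ y ≤ (bv μ ρ)⁻¹ := by
  unfold kap
  calc ∫ s in Ioc (0 : ℝ) 1, ph μ x c e ρ y s ≤ ∫ s in Ioc (0 : ℝ) 1, (bv μ ρ)⁻¹ := by
        apply setIntegral_mono_on (integrable_ph hρ y) (by simp) measurableSet_Ioc
        intro s hs
        exact ph_le hρ hs.1.le
    _ = (bv μ ρ)⁻¹ := by simp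

lemma ph_eq_zero_of_far (hρ : 0 < ρ) (hc : ‖c - x‖ ≤ ρ) (he : ‖e‖ = 1) (hs : s ∈ Ioc (0 : ℝ) 1)
    (hy : 6 * ρ ≤ ‖y - x‖) : ph μ x c e ρ y s = 0 := by
  apply ph_eq_zero
  intro h
  exact absurd (norm_sub_lt hρ hc he hs.1.le hs.2 h) (not_lt.2 hy)

lemma kap_eq_zero_of_far (hρ : 0 < ρ) (hc : ‖c - x‖ ≤ ρ) (he : ‖e‖ = 1)
    (hy : 6 * ρ ≤ ‖y - x‖) : kap μ x c e ρ y = 0 := by
  unfold kap
  rw [setIntegral_congr_fun (g := fun _ => (0 : ℝ)) measurableSet_Ioc]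
  · simp
  · intro s hs
    exact ph_eq_zero_of_far hρ hc he hs hy

lemma Ker_eq_zero_of_far (hρ : 0 < ρ) (hc : ‖c - x‖ ≤ ρ) (he : ‖e‖ = 1)
    (hy : 6 * ρ ≤ ‖y - x‖) : Ker μ x c e ρ y = 0 := by
  unfold Ker
  rw [setIntegral_congr_fun (g := fun _ => (0 : E)) measurableSet_Ioc]
  · simp
  · intro s hs
    simp only [ph_eq_zero_of_far hρ hc he hs hy, zero_smul]

lemma inner_Ker (hρ : 0 < ρ) (hc : ‖c - x‖ ≤ ρ) (he : ‖e‖ = 1) (a : E) :
    ⟪Ker μ x c e ρ y, a⟫ = ∫ s in Ioc (0 : ℝ) 1, ph μ x c e ρ y s * ⟪ws x c e ρ s y, a⟫ := by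
  unfold Ker
  rw [real_inner_comm, ← integral_inner (integrable_ph_smul hρ hc he y)]
  congr 1
  funext s
  rw [real_inner_smul_right, real_inner_comm]

lemma integrable_ph_inner (hρ : 0 < ρ) (hc : ‖c - x‖ ≤ ρ) (he : ‖e‖ = 1) (a : E) (y : E) :
    IntegrableOn (fun s => ph μ x c e ρ y s * ⟪ws x c e ρ s y, a⟫) (Ioc 0 1) := by
  have h := (integrable_ph_smul (μ := μ) hρ hc he y).inner_const (𝕜 := ℝ) a
  refine h.congr ?_
  filter_upwards with s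
  rw [real_inner_smul_left]

/-- If a pointwise inequality `u * 1 + ⟪w, a⟫ ≥ 0` holds on the balls, it holds integrated. -/
lemma Ker_ineq (hρ : 0 < ρ) (hc : ‖c - x‖ ≤ ρ) (he : ‖e‖ = 1) (u : ℝ) (a : E) (y : E)
    (h : ∀ s, 0 < s → s ≤ 1 → y ∈ ball (cs x c e ρ s) (rs ρ s) →
      0 ≤ u + ⟪ws x c e ρ s y, a⟫) :
    0 ≤ u * kap μ x c e ρ y + ⟪Ker μ x c e ρ y, a⟫ := by
  rw [inner_Ker hρ hc he, kap, ← integral_const_mul, ← integral_add]
  · apply setIntegral_nonneg measurableSet_Ioc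
    intro s hs
    by_cases hy : y ∈ ball (cs x c e ρ s) (rs ρ s)
    · have h1 := h s hs.1 hs.2 hy
      have h2 := ph_nonneg (μ := μ) (x := x) (c := c) (e := e) (y := y) hρ hs.1.le
      have : u * ph μ x c e ρ y s + ph μ x c e ρ y s * ⟪ws x c e ρ s y, a⟫ =
        ph μ x c e ρ y s * (u + ⟪ws x c e ρ s y, a⟫) := by ring
      rw [this]
      exact mul_nonneg h2 h1
    · rw [ph_eq_zero hy]; simp
  · exact (integrable_ph hρ y).const_mul u
  · exact integrable_ph_inner hρ hc he a y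

lemma Ker_inner_e_nonneg (hρ : 0 < ρ) (hc : ‖c - x‖ ≤ ρ) (he : ‖e‖ = 1) :
    0 ≤ ⟪Ker μ x c e ρ y, e⟫ := by
  have h := Ker_ineq (μ := μ) hρ hc he 0 e y (fun s h0 _ hy => by
    have := W2' hρ hc he h0.le hy
    linarith)
  linarith

lemma Ker_inner_e_le (hρ : 0 < ρ) (hc : ‖c - x‖ ≤ ρ) (he : ‖e‖ = 1) :
    ⟪Ker μ x c e ρ y, e⟫ ≤ 6 * ρ * kap μ x c e ρ y := by
  have h := Ker_ineq (μ := μ) hρ hc he (6 * ρ) (-e) y (fun s h0 _ hy => by
    have := W3' hρ hc he h0.le hy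
    rw [inner_neg_right]
    linarith)
  rw [inner_neg_right] at h
  linarith

/-- `K · a ≥ ½ (K · e) ‖a‖ - 12 ρ κ (‖a‖ - a · e)` for every vector `a`. -/
lemma Ker_coercive (hρ : 0 < ρ) (hc : ‖c - x‖ ≤ ρ) (he : ‖e‖ = 1) (a : E) :
    1 / 2 * ⟪Ker μ x c e ρ y, e⟫ * ‖a‖ - 12 * ρ * kap μ x c e ρ y * (‖a‖ - ⟪a, e⟫) ≤
      ⟪Ker μ x c e ρ y, a⟫ := by
  have h := Ker_ineq (μ := μ) hρ hc he (12 * ρ * (‖a‖ - ⟪a, e⟫)) (a - (1 / 2 * ‖a‖) • e) y
    (fun s h0 _ hy => by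
      have := W5 hρ hc he h0.le hy a
      rw [inner_sub_right, real_inner_smul_right]
      linarith)
  rw [inner_sub_right, real_inner_smul_right] at h
  linarith

/-- `κ |y - x|² ≤ 18 ρ K · e` -/
lemma kap_mul_sq_le (hρ : 0 < ρ) (hc : ‖c - x‖ ≤ ρ) (he : ‖e‖ = 1) :
    kap μ x c e ρ y * ‖y - x‖ ^ 2 ≤ 18 * ρ * ⟪Ker μ x c e ρ y, e⟫ := by
  have h := Ker_ineq (μ := μ) hρ hc he (-‖y - x‖ ^ 2) ((18 * ρ) • e) y
    (fun s h0 h1 hy => by
      have := W4 hρ hc he h0.le h1 hy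
      rw [real_inner_smul_right]
      linarith)
  rw [real_inner_smul_right] at h
  linarith

/-- `0 ≤ 6ρ K·e - 2 K·b + κ ‖b‖²` for all `b` -/
lemma Ker_quad (hρ : 0 < ρ) (hc : ‖c - x‖ ≤ ρ) (he : ‖e‖ = 1) (b : E) :
    0 ≤ 6 * ρ * ⟪Ker μ x c e ρ y, e⟫ - 2 * ⟪Ker μ x c e ρ y, b⟫ +
      kap μ x c e ρ y * ‖b‖ ^ 2 := by
  have h := Ker_ineq (μ := μ) hρ hc he (‖b‖ ^ 2) ((6 * ρ) • e - (2 : ℝ) • b) y
    (fun s h0 h1 hy => by
      have := W2 hρ hc he h0.le hy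
      rw [inner_sub_right, real_inner_smul_right, real_inner_smul_right]
      have h2 : 0 ≤ ‖ws x c e ρ s y - b‖ ^ 2 := sq_nonneg _
      rw [norm_sub_sq_real] at h2
      linarith)
  rw [inner_sub_right, real_inner_smul_right, real_inner_smul_right] at h
  linarith

/-- `‖K‖² ≤ 6 ρ κ K·e` -/
lemma Ker_norm_sq_le (hρ : 0 < ρ) (hc : ‖c - x‖ ≤ ρ) (he : ‖e‖ = 1) :
    ‖Ker μ x c e ρ y‖ ^ 2 ≤ 6 * ρ * kap μ x c e ρ y * ⟪Ker μ x c e ρ y, e⟫ := by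
  rcases (kap_nonneg (μ := μ) (x := x) (c := c) (e := e) (y := y) hρ).eq_or_lt with h0 | h0
  · have h1 := Ker_inner_e_nonneg (μ := μ) (y := y) hρ hc he
    have h2 := Ker_inner_e_le (μ := μ) (y := y) hρ hc he
    have h3 := Ker_quad (μ := μ) (y := y) hρ hc he (Ker μ x c e ρ y)
    rw [← h0] at h2 h3 ⊢
    rw [real_inner_self_eq_norm_sq] at h3
    have h4 : ⟪Ker μ x c e ρ y, e⟫ = 0 := le_antisymm (by linarith) h1
    rw [h4] at h3 ⊢
    linarith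
  · have h3 := Ker_quad (μ := μ) (y := y) hρ hc he ((kap μ x c e ρ y)⁻¹ • Ker μ x c e ρ y)
    rw [real_inner_smul_right, real_inner_self_eq_norm_sq, norm_smul,
      Real.norm_of_nonneg (by positivity), mul_pow] at h3
    set κ := kap μ x c e ρ y
    have h4 : κ * ((κ⁻¹) ^ 2 * ‖Ker μ x c e ρ y‖ ^ 2) = κ⁻¹ * ‖Ker μ x c e ρ y‖ ^ 2 := by
      field_simp
    rw [h4] at h3
    have h5 : κ⁻¹ * ‖Ker μ x c e ρ y‖ ^ 2 ≤ 6 * ρ * ⟪Ker μ x c e ρ y, e⟫ := by linarith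
    have h6 := mul_le_mul_of_nonneg_left h5 h0.le
    rw [← mul_assoc, mul_inv_cancel₀ h0.ne', one_mul] at h6
    linarith

lemma Ker_norm_le (hρ : 0 < ρ) (hc : ‖c - x‖ ≤ ρ) (he : ‖e‖ = 1) :
    ‖Ker μ x c e ρ y‖ ≤ 6 * ρ * (bv μ ρ)⁻¹ := by
  have h1 := Ker_norm_sq_le (μ := μ) (y := y) hρ hc he
  have h2 := Ker_inner_e_le (μ := μ) (y := y) hρ hc he
  have h3 := kap_le (μ := μ) (x := x) (c := c) (e := e) (y := y) hρ
  have h4 := kap_nonneg (μ := μ) (x := x) (c := c) (e := e) (y := y) hρ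
  have h5 : 0 < bv μ ρ := bv_pos hρ
  refine le_of_pow_le_pow_left₀ two_ne_zero (by positivity) ?_
  calc ‖Ker μ x c e ρ y‖ ^ 2 ≤ 6 * ρ * kap μ x c e ρ y * ⟪Ker μ x c e ρ y, e⟫ := h1
    _ ≤ 6 * ρ * kap μ x c e ρ y * (6 * ρ * kap μ x c e ρ y) := by gcongr
    _ ≤ 6 * ρ * (bv μ ρ)⁻¹ * (6 * ρ * (bv μ ρ)⁻¹) := by gcongr
    _ = (6 * ρ * (bv μ ρ)⁻¹) ^ 2 := by ring

end P137
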