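import Mathlib

/-!
# P137: the competitor kernel

Ball `ball c ρ` whose closure contains `x`, `‖e‖ = 1`, competitor ball `ball (x + 3ρe) (3ρ)`,
joined by the balls `ball (cs s) (rs s)`, `0 ≤ s ≤ 1`.
-/

open MeasureTheory Set Metric
open scoped RealInnerProductSpace

namespace P137

variable {E : Type*} [NormedAddCommGroup E] [InnerProductSpace ℝ E]

/-- centre of the intermediate ball -/
noncomputable def cs (x c e : E) (ρ s : ℝ) : E := (1 - s) • c + s • (x + (3 * ρ) • e)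

/-- radius of the intermediate ball -/
noncomputable def rs (ρ s : ℝ) : ℝ := (1 + 2 * s) * ρ

/-- velocity field of the intermediate balls -/
noncomputable def ws (x c e : E) (ρ s : ℝ) (y : E) : E :=
  (x + (3 * ρ) • e - c) + (2 * ρ / rs ρ s) • (y - cs x c e ρ s)

section pointwise

variable {x c e y : E} {ρ s : ℝ}

lemma rs_pos (hρ : 0 < ρ) (hs : 0 ≤ s) : 0 < rs ρ s := by
  unfold rs; positivity

lemma le_rs (hρ : 0 < ρ) (hs : 0 ≤ s) : ρ ≤ rs ρ s := by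
  unfold rs; nlinarith

lemma rs_le (hρ : 0 < ρ) (hs : s ≤ 1) : rs ρ s ≤ 3 * ρ := by
  unfold rs; nlinarith

lemma norm_cs_sub (hρ : 0 < ρ) (hc : ‖c - x‖ ≤ ρ) (he : ‖e‖ = 1) (h0 : 0 ≤ s) (h1 : s ≤ 1) :
    ‖cs x c e ρ s - x‖ ≤ rs ρ s := by
  have e1 : cs x c e ρ s - x = (1 - s) • (c - x) + (s * (3 * ρ)) • e := by
    unfold cs
    module
  rw [e1]
  calc ‖(1 - s) • (c - x) + (s * (3 * ρ)) • e‖
      ≤ ‖(1 - s) • (c - x)‖ + ‖(s * (3 * ρ)) • e‖ := norm_add_le _ _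
    _ = (1 - s) * ‖c - x‖ + s * (3 * ρ) := by
        rw [norm_smul, norm_smul, he, Real.norm_of_nonneg (by linarith),
          Real.norm_of_nonneg (by positivity)]
        ring
    _ ≤ (1 - s) * ρ + s * (3 * ρ) := by
        have : 0 ≤ 1 - s := by linarith
        gcongr
    _ = rs ρ s := by unfold rs; ring

lemma norm_sub_lt (hρ : 0 < ρ) (hc : ‖c - x‖ ≤ ρ) (he : ‖e‖ = 1) (h0 : 0 ≤ s) (h1 : s ≤ 1)
    (hy : y ∈ ball (cs x c e ρ s) (rs ρ s)) : ‖y - x‖ < 6 * ρ := by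
  rw [mem_ball, dist_eq_norm] at hy
  have h2 := norm_cs_sub hρ hc he h0 h1
  have h3 := rs_le hρ h1
  calc ‖y - x‖ = ‖(y - cs x c e ρ s) + (cs x c e ρ s - x)‖ := by congr 1; abel
    _ ≤ ‖y - cs x c e ρ s‖ + ‖cs x c e ρ s - x‖ := norm_add_le _ _
    _ < 6 * ρ := by linarith

lemma W1 (hρ : 0 < ρ) (hc : ‖c - x‖ ≤ ρ) (h0 : 0 ≤ s)
    (hy : y ∈ ball (cs x c e ρ s) (rs ρ s)) : ‖ws x c e ρ s y - (3 * ρ) • e‖ ≤ 3 * ρ := by
  rw [mem_ball, dist_eq_norm] at hy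
  have hr := rs_pos hρ h0
  have e1 : ws x c e ρ s y - (3 * ρ) • e = -(c - x) + (2 * ρ / rs ρ s) • (y - cs x c e ρ s) := by
    unfold ws
    module
  rw [e1]
  calc ‖-(c - x) + (2 * ρ / rs ρ s) • (y - cs x c e ρ s)‖
      ≤ ‖-(c - x)‖ + ‖(2 * ρ / rs ρ s) • (y - cs x c e ρ s)‖ := norm_add_le _ _
    _ = ‖c - x‖ + (2 * ρ / rs ρ s) * ‖y - cs x c e ρ s‖ := by
        rw [norm_neg, norm_smul, Real.norm_of_nonneg (by positivity)]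
    _ ≤ ρ + (2 * ρ / rs ρ s) * rs ρ s := by gcongr
    _ = 3 * ρ := by field_simp; ring

lemma W2 (hρ : 0 < ρ) (hc : ‖c - x‖ ≤ ρ) (he : ‖e‖ = 1) (h0 : 0 ≤ s)
    (hy : y ∈ ball (cs x c e ρ s) (rs ρ s)) :
    ‖ws x c e ρ s y‖ ^ 2 ≤ 6 * ρ * ⟪ws x c e ρ s y, e⟫ := by
  have h := W1 (e := e) hρ hc h0 hy
  have h1 : ‖ws x c e ρ s y - (3 * ρ) • e‖ ^ 2 ≤ (3 * ρ) ^ 2 := by gcongr
  rw [norm_sub_sq_real, norm_smul, he, inner_smul_right, Real.norm_of_nonneg (by positivity)] at h1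
  nlinarith

lemma W3 (hρ : 0 < ρ) (hc : ‖c - x‖ ≤ ρ) (he : ‖e‖ = 1) (h0 : 0 ≤ s)
    (hy : y ∈ ball (cs x c e ρ s) (rs ρ s)) : ‖ws x c e ρ s y‖ ≤ 6 * ρ := by
  have h := W1 (e := e) hρ hc h0 hy
  calc ‖ws x c e ρ s y‖ = ‖(ws x c e ρ s y - (3 * ρ) • e) + (3 * ρ) • e‖ := by
        congr 1; abel
    _ ≤ ‖ws x c e ρ s y - (3 * ρ) • e‖ + ‖(3 * ρ) • e‖ := norm_add_le _ _
    _ ≤ 3 * ρ + 3 * ρ := by
        gcongr
        rw [norm_smul, he, Real.norm_of_nonneg (by positivity), mul_one]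
    _ = 6 * ρ := by ring

lemma W3' (hρ : 0 < ρ) (hc : ‖c - x‖ ≤ ρ) (he : ‖e‖ = 1) (h0 : 0 ≤ s)
    (hy : y ∈ ball (cs x c e ρ s) (rs ρ s)) : ⟪ws x c e ρ s y, e⟫ ≤ 6 * ρ := by
  have h := real_inner_le_norm (ws x c e ρ s y) e
  rw [he, mul_one] at h
  exact h.trans (W3 hρ hc he h0 hy)

lemma W2' (hρ : 0 < ρ) (hc : ‖c - x‖ ≤ ρ) (he : ‖e‖ = 1) (h0 : 0 ≤ s)
    (hy : y ∈ ball (cs x c e ρ s) (rs ρ s)) : 0 ≤ ⟪ws x c e ρ s y, e⟫ := by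
  have h := W2 hρ hc he h0 hy
  have h2 : 0 ≤ ‖ws x c e ρ s y‖ ^ 2 := sq_nonneg _
  by_contra hcon
  push Not at hcon
  nlinarith

lemma W4 (hρ : 0 < ρ) (hc : ‖c - x‖ ≤ ρ) (he : ‖e‖ = 1) (h0 : 0 ≤ s) (h1 : s ≤ 1)
    (hy : y ∈ ball (cs x c e ρ s) (rs ρ s)) :
    ‖y - x‖ ^ 2 ≤ 18 * ρ * ⟪ws x c e ρ s y, e⟫ := by
  rw [mem_ball, dist_eq_norm] at hy
  have hr := rs_pos hρ h0
  set α : E := ρ⁻¹ • (c - x) with hα
  set ω : E := (rs ρ s)⁻¹ • (y - cs x c e ρ s) with hω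
  have hαn : ‖α‖ ≤ 1 := by
    rw [hα, norm_smul, Real.norm_of_nonneg (by positivity)]
    rw [inv_mul_le_iff₀ hρ]
    linarith
  have hωn : ‖ω‖ ≤ 1 := by
    rw [hω, norm_smul, Real.norm_of_nonneg (by positivity)]
    rw [inv_mul_le_iff₀ hr]
    linarith
  have e1 : y - x = ρ • ((1 - s) • (α - e) + (1 + 2 * s) • (ω + e)) := by
    have e2 : c - x = ρ • α := by
      rw [hα, smul_smul, mul_inv_cancel₀ hρ.ne', one_smul]
    have e3 : y - cs x c e ρ s = rs ρ s • ω := by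
      rw [hω, smul_smul, mul_inv_cancel₀ hr.ne', one_smul]
    have e4 : y - x = (y - cs x c e ρ s) + (cs x c e ρ s - x) := by abel
    have e5 : cs x c e ρ s - x = (1 - s) • (c - x) + (s * (3 * ρ)) • e := by
      unfold cs
      module
    rw [e4, e5, e2, e3]
    unfold rs
    module
  have e6 : ws x c e ρ s y = ρ • ((3 : ℝ) • e + (2 : ℝ) • ω - α) := by
    have e3 : (2 * ρ / rs ρ s) • (y - cs x c e ρ s) = (2 * ρ) • ω := by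
      rw [hω, smul_smul]
      rfl
    have e2 : c - x = ρ • α := by
      rw [hα, smul_smul, mul_inv_cancel₀ hρ.ne', one_smul]
    have e7 : x + (3 * ρ) • e - c = (3 * ρ) • e - ρ • α := by
      rw [← e2]; abel
    unfold ws
    rw [e3, e7]
    module
  have hA : ‖α - e‖ ^ 2 ≤ 2 * (1 - ⟪α, e⟫) := by
    rw [norm_sub_sq_real, he]
    nlinarith [norm_nonneg α]
  have hB : ‖ω + e‖ ^ 2 ≤ 2 * (1 + ⟪ω, e⟫) := by
    rw [norm_add_sq_real, he]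
    nlinarith [norm_nonneg ω]
  have hin : ⟪ws x c e ρ s y, e⟫ = ρ * ((1 - ⟪α, e⟫) + 2 * (1 + ⟪ω, e⟫)) := by
    rw [e6, real_inner_smul_left, inner_sub_left, inner_add_left, real_inner_smul_left,
      real_inner_smul_left, real_inner_self_eq_norm_sq, he]
    ring
  rw [hin, e1, norm_smul, Real.norm_of_nonneg hρ.le, mul_pow]
  have hC : ‖(1 - s) • (α - e) + (1 + 2 * s) • (ω + e)‖ ^ 2 ≤
      2 * ‖α - e‖ ^ 2 + 18 * ‖ω + e‖ ^ 2 := by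
    have h2 : ‖(1 - s) • (α - e) + (1 + 2 * s) • (ω + e)‖ ≤ ‖α - e‖ + 3 * ‖ω + e‖ := by
      calc _ ≤ ‖(1 - s) • (α - e)‖ + ‖(1 + 2 * s) • (ω + e)‖ := norm_add_le _ _
        _ = (1 - s) * ‖α - e‖ + (1 + 2 * s) * ‖ω + e‖ := by
            rw [norm_smul, norm_smul, Real.norm_of_nonneg (by linarith),
              Real.norm_of_nonneg (by positivity)]
        _ ≤ 1 * ‖α - e‖ + 3 * ‖ω + e‖ := by
            gcongr
            · linarith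
            · linarith
        _ = _ := by ring
    have h3 : 0 ≤ ‖(1 - s) • (α - e) + (1 + 2 * s) • (ω + e)‖ := norm_nonneg _
    have h4 : 0 ≤ ‖α - e‖ := norm_nonneg _
    have h5 : 0 ≤ ‖ω + e‖ := norm_nonneg _
    nlinarith [sq_nonneg (‖α - e‖ - 3 * ‖ω + e‖)]
  have hρ2 : 0 < ρ ^ 2 := by positivity
  calc ρ ^ 2 * ‖(1 - s) • (α - e) + (1 + 2 * s) • (ω + e)‖ ^ 2
      ≤ ρ ^ 2 * (2 * ‖α - e‖ ^ 2 + 18 * ‖ω + e‖ ^ 2) := by gcongr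
    _ ≤ ρ ^ 2 * (2 * (2 * (1 - ⟪α, e⟫)) + 18 * (2 * (1 + ⟪ω, e⟫))) := by gcongr
    _ ≤ 18 * ρ * (ρ * ((1 - ⟪α, e⟫) + 2 * (1 + ⟪ω, e⟫))) := by
        have h7 : 0 ≤ 1 - ⟪α, e⟫ := by
          have := real_inner_le_norm α e
          rw [he, mul_one] at this
          linarith
        nlinarith [mul_nonneg hρ2.le h7]

lemma W5 (hρ : 0 < ρ) (hc : ‖c - x‖ ≤ ρ) (he : ‖e‖ = 1) (h0 : 0 ≤ s)
    (hy : y ∈ ball (cs x c e ρ s) (rs ρ s)) (a : E) :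
    1 / 2 * ⟪ws x c e ρ s y, e⟫ * ‖a‖ - 12 * ρ * (‖a‖ - ⟪a, e⟫) ≤ ⟪ws x c e ρ s y, a⟫ := by
  set v := ws x c e ρ s y with hv
  have h2 := W2 hρ hc he h0 hy
  have h2' := W2' hρ hc he h0 hy
  have h3 := W3' hρ hc he h0 hy
  rw [← hv] at h2 h2' h3
  set ψ : ℝ := ‖a‖ - ⟪a, e⟫ with hψ
  have hψ0 : 0 ≤ ψ := by
    have := real_inner_le_norm a e
    rw [he, mul_one] at this
    linarith
  set b : E := a - ⟪a, e⟫ • e with hb
  have hb2 : ‖b‖ ^ 2 ≤ 2 * ‖a‖ * ψ := by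
    rw [hb, norm_sub_sq_real, norm_smul, he, inner_smul_right, mul_one, Real.norm_eq_abs, sq_abs]
    have : ⟪a, e⟫ = ‖a‖ - ψ := by rw [hψ]; ring
    rw [this]
    nlinarith
  have e1 : ⟪v, a⟫ = (‖a‖ - ψ) * ⟪v, e⟫ + ⟪v, b⟫ := by
    rw [hb, inner_sub_right, inner_smul_right, hψ]
    ring
  have h4 : -(‖v‖ * ‖b‖) ≤ ⟪v, b⟫ := by
    have := abs_real_inner_le_norm v b
    have := abs_le.1 this
    linarith [this.1]
  have h5 : ‖v‖ * ‖b‖ ≤ 1 / 2 * ⟪v, e⟫ * ‖a‖ + 6 * ρ * ψ := by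
    refine le_of_pow_le_pow_left₀ two_ne_zero (by positivity) ?_
    calc (‖v‖ * ‖b‖) ^ 2 = ‖v‖ ^ 2 * ‖b‖ ^ 2 := by ring
      _ ≤ (6 * ρ * ⟪v, e⟫) * (2 * ‖a‖ * ψ) := by
          apply mul_le_mul h2 hb2 (by positivity) (by positivity)
      _ ≤ (1 / 2 * ⟪v, e⟫ * ‖a‖ + 6 * ρ * ψ) ^ 2 := by
          nlinarith [sq_nonneg (1 / 2 * ⟪v, e⟫ * ‖a‖ - 6 * ρ * ψ)]
  rw [e1]
  nlinarith [mul_nonneg hψ0 (sub_nonneg.2 h3)]

end pointwise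

end P137
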