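import Vale.Agent.P137.Defs

/-!
# P137: elementary properties of the maximal functions
-/

open MeasureTheory Metric Set Filter Topology
open scoped ENNReal ContDiff NNReal

namespace P137

theorem avg_le {d : ℕ} (f : E d → ℝ) (c : E d) (r η : ℝ) (hη : 0 < η) (hr : η ≤ r) :
    avg f c r ≤ (∫⁻ y, ‖f y‖ₑ) / volume (ball (0 : E d) η) := by
  unfold avg
  refine ENNReal.div_le_div (setLIntegral_le_lintegral _ _) ?_
  rw [Measure.addHaar_ball_center volume c r]
  exact measure_mono (ball_subset_ball hr)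

theorem avg_le_V {d : ℕ} (f : E d → ℝ) (c x : E d) (r η : ℝ) (hr : η ≤ r) (hx : x ∈ ball c r) :
    avg f c r ≤ V η f x := by
  unfold V
  exact le_iSup_of_le c (le_iSup_of_le r (le_iSup_of_le hr (le_iSup_of_le hx le_rfl)))

theorem avg_le_Mt {d : ℕ} (f : E d → ℝ) (c x : E d) (r : ℝ) (hx : x ∈ ball c r) :
    avg f c r ≤ Mt f x := by
  unfold Mt
  exact le_iSup_of_le c (le_iSup_of_le r (le_iSup_of_le hx le_rfl))

theorem V_le_of {d : ℕ} {f : E d → ℝ} {η : ℝ} {x : E d} {a : ℝ≥0∞}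
    (h : ∀ (c : E d) (r : ℝ), η ≤ r → x ∈ ball c r → avg f c r ≤ a) : V η f x ≤ a := by
  unfold V
  exact iSup_le fun c => iSup_le fun r => iSup_le fun hr => iSup_le fun hx => h c r hr hx

theorem Mt_le_of {d : ℕ} {f : E d → ℝ} {x : E d} {a : ℝ≥0∞}
    (h : ∀ (c : E d) (r : ℝ), x ∈ ball c r → avg f c r ≤ a) : Mt f x ≤ a := by
  unfold Mt
  exact iSup_le fun c => iSup_le fun r => iSup_le fun hx => h c r hx

theorem V_le {d : ℕ} (f : E d → ℝ) (η : ℝ) (hη : 0 < η) (x : E d) :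
    V η f x ≤ (∫⁻ y, ‖f y‖ₑ) / volume (ball (0 : E d) η) :=
  V_le_of fun c r hr _ => avg_le f c r η hη hr

theorem V_lt_top {d : ℕ} (f : E d → ℝ) (hf : Integrable f) (η : ℝ) (hη : 0 < η) (x : E d) :
    V η f x < ⊤ := by
  refine lt_of_le_of_lt (V_le f η hη x) ?_
  exact ENNReal.div_lt_top hf.2.ne (measure_ball_pos volume _ hη).ne'

theorem V_anti {d : ℕ} (f : E d → ℝ) (x : E d) : Antitone fun η => V η f x := by
  intro η η' h
  exact V_le_of fun c r hr hx => avg_le_V f c x r η (h.trans hr) hx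

theorem V_le_Mt {d : ℕ} (f : E d → ℝ) (η : ℝ) (x : E d) : V η f x ≤ Mt f x :=
  V_le_of fun c r _ hx => avg_le_Mt f c x r hx

theorem rad_pos (k : ℤ) : 0 < rad k := by
  unfold rad; positivity

theorem exists_rad_le {r : ℝ} (hr : 0 < r) : ∃ n : ℕ, rad n ≤ r := by
  obtain ⟨n, hn⟩ := exists_pow_lt_of_lt_one hr (show (1 / 3 : ℝ) < 1 by norm_num)
  refine ⟨n, ?_⟩
  have h1 : rad n = (1 / 3 : ℝ) ^ n * (1 / 81) := by
    unfold rad
    rw [show (-(n : ℤ) - 4) = -((n + 4 : ℕ) : ℤ) by push_cast; ring, zpow_neg, zpow_natCast, pow_add,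
      mul_inv, one_div_pow, one_div]
    norm_num
  rw [h1]
  have h2 : (0 : ℝ) < (1 / 3) ^ n := by positivity
  nlinarith

theorem Mt_eq_iSup {d : ℕ} (f : E d → ℝ) (x : E d) : Mt f x = ⨆ n : ℕ, V (rad n) f x := by
  apply le_antisymm
  · refine Mt_le_of fun c r hx => ?_
    have hr : 0 < r := pos_of_mem_ball hx
    obtain ⟨n, hn⟩ := exists_rad_le hr
    exact (avg_le_V f c x r _ hn hx).trans (le_iSup (fun n : ℕ => V (rad n) f x) n)
  · exact iSup_le fun n => V_le_Mt f _ x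

theorem lsc_ball {d : ℕ} (c : E d) (r : ℝ) (a : ℝ≥0∞) :
    LowerSemicontinuous fun x : E d => ⨆ (_ : x ∈ ball c r), a := by
  have h : (fun x : E d => ⨆ (_ : x ∈ ball c r), a) = (ball c r).indicator fun _ => a := by
    funext x
    by_cases hx : x ∈ ball c r
    · simp [hx]
    · simp [hx]
  rw [h]
  exact isOpen_ball.lowerSemicontinuous_indicator zero_le

theorem V_lsc {d : ℕ} (f : E d → ℝ) (η : ℝ) : LowerSemicontinuous (V η f) := by
  unfold V
  exact lowerSemicontinuous_iSup fun c => lowerSemicontinuous_iSup fun r =>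
    lowerSemicontinuous_iSup fun _ => lsc_ball c r _

theorem Mt_lsc {d : ℕ} (f : E d → ℝ) : LowerSemicontinuous (Mt f) := by
  unfold Mt
  exact lowerSemicontinuous_iSup fun c => lowerSemicontinuous_iSup fun r => lsc_ball c r _

/-- the superlevel sets of `V η f` are countable unions of balls of radius `≥ η` -/
theorem V_level {d : ℕ} (f : E d → ℝ) (η : ℝ) (hη : 0 < η) (a : ℝ≥0∞) :
    ∃ S : Set (E d × ℝ), S.Countable ∧ (∀ p ∈ S, η ≤ p.2) ∧
      {x | a < V η f x} = ⋃ p ∈ S, ball p.1 p.2 := by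
  obtain ⟨T, hT, hTc, hTu⟩ := TopologicalSpace.isOpen_biUnion_countable
    {p : E d × ℝ | η ≤ p.2 ∧ a < avg f p.1 p.2} (fun p => ball p.1 p.2)
    (fun p _ => isOpen_ball)
  refine ⟨T, hTc, fun p hp => (hT hp).1, ?_⟩
  rw [hTu]
  ext x
  simp only [mem_ofPred_eq, mem_iUnion, exists_prop, Prod.exists, V, lt_iSup_iff]
  constructor
  · rintro ⟨c, r, hr, hx, h⟩
    exact ⟨c, r, ⟨hr, h⟩, hx⟩
  · rintro ⟨c, r, ⟨hr, h⟩, hx⟩
    exact ⟨c, r, hr, hx, h⟩

theorem avg_add {d : ℕ} (f g : E d → ℝ) (hf : Integrable f) (c : E d) (r : ℝ) :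
    avg (fun y => f y + g y) c r ≤ avg f c r + avg g c r := by
  unfold avg
  rw [← ENNReal.add_div]
  refine ENNReal.div_le_div_right ?_ _
  rw [← lintegral_add_left' hf.1.enorm.restrict]
  exact lintegral_mono fun y => enorm_add_le _ _

theorem V_add {d : ℕ} (f g : E d → ℝ) (hf : Integrable f) (hg : Integrable g) (η : ℝ) (x : E d) :
    V η (fun y => f y + g y) x ≤ V η f x + V η g x :=
  V_le_of fun c r hr hx => (avg_add f g hf c r).trans
    (add_le_add (avg_le_V f c x r η hr hx) (avg_le_V g c x r η hr hx))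

theorem Mt_add {d : ℕ} (f g : E d → ℝ) (hf : Integrable f) (hg : Integrable g) (x : E d) :
    Mt (fun y => f y + g y) x ≤ Mt f x + Mt g x :=
  Mt_le_of fun c r hx => (avg_add f g hf c r).trans
    (add_le_add (avg_le_Mt f c x r hx) (avg_le_Mt g c x r hx))

theorem le_Mt {d : ℕ} (f : E d → ℝ) (hf : Continuous f) (x : E d) : ‖f x‖ₑ ≤ Mt f x := by
  refine le_of_forall_lt_imp_le_of_dense fun a ha => ?_
  have h1 : ∀ᶠ y in 𝓝 x, a < ‖f y‖ₑ := (hf.enorm.tendsto x).eventually (lt_mem_nhds ha)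
  obtain ⟨r, hr, hb⟩ := Metric.eventually_nhds_iff_ball.1 h1
  refine le_trans ?_ (avg_le_Mt f x x r (mem_ball_self hr))
  unfold avg
  have hv0 : volume (ball x r) ≠ 0 := (measure_ball_pos volume _ hr).ne'
  have hvt : volume (ball x r) ≠ ⊤ := measure_ball_lt_top.ne
  rw [ENNReal.le_div_iff_mul_le (Or.inl hv0) (Or.inl hvt)]
  calc a * volume (ball x r) = ∫⁻ _ in ball x r, a := by rw [setLIntegral_const]
    _ ≤ _ := setLIntegral_mono' measurableSet_ball fun y hy => (hb y hy).le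

/-- a competitor ball whose closure contains `x` -/
theorem avg_le_V_of_closedBall {d : ℕ} (f : E d → ℝ) (hf : Integrable f) (c x : E d) (r η : ℝ)
    (hη : 0 < η) (hr : η ≤ r) (hx : x ∈ closedBall c r) : avg f c r ≤ V η f x := by
  have hr0 : 0 < r := hη.trans_le hr
  have hv : ∀ s : ℝ, 0 < s → volume (ball c s)
      = ENNReal.ofReal (s ^ d) * volume (ball (0 : E d) 1) := by
    intro s hs
    rw [Measure.addHaar_ball_of_pos volume c hs]
    simp
  have hVt := V_lt_top f hf η hη x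
  have h1 : ∀ δ : ℝ, 0 < δ → (∫⁻ y in ball c r, ‖f y‖ₑ) ≤
      V η f x * (ENNReal.ofReal ((r + δ) ^ d) * volume (ball (0 : E d) 1)) := by
    intro δ hδ
    have hx' : x ∈ ball c (r + δ) := by
      rw [mem_ball]
      rw [mem_closedBall] at hx
      linarith
    have h2 := avg_le_V f c x (r + δ) η (by linarith) hx'
    unfold avg at h2
    have hv0 : volume (ball c (r + δ)) ≠ 0 := (measure_ball_pos volume _ (by linarith)).ne'
    have hvt : volume (ball c (r + δ)) ≠ ⊤ := measure_ball_lt_top.ne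
    rw [ENNReal.div_le_iff hv0 hvt, hv _ (by linarith)] at h2
    exact (lintegral_mono_set (ball_subset_ball (by linarith))).trans h2
  have h3 : (∫⁻ y in ball c r, ‖f y‖ₑ) ≤
      V η f x * (ENNReal.ofReal (r ^ d) * volume (ball (0 : E d) 1)) := by
    have hlim : Tendsto (fun δ : ℝ => V η f x *
        (ENNReal.ofReal ((r + δ) ^ d) * volume (ball (0 : E d) 1))) (𝓝[>] 0)
        (𝓝 (V η f x * (ENNReal.ofReal ((r + 0) ^ d) * volume (ball (0 : E d) 1)))) := by
      refine ENNReal.Tendsto.const_mul ?_ (Or.inr hVt.ne)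
      refine ENNReal.Tendsto.mul_const ?_ (Or.inr measure_ball_lt_top.ne)
      refine ENNReal.tendsto_ofReal ?_
      have : Continuous fun δ : ℝ => (r + δ) ^ d := by fun_prop
      exact (this.tendsto 0).mono_left nhdsWithin_le_nhds
    rw [add_zero] at hlim
    exact ge_of_tendsto hlim (by filter_upwards [self_mem_nhdsWithin] with δ hδ using h1 δ hδ)
  unfold avg
  rw [ENNReal.div_le_iff (measure_ball_pos volume _ hr0).ne' measure_ball_lt_top.ne, hv r hr0]
  exact h3

end P137
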