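import Vale.Agent.P137.Defs
import Vale.Agent.P137.Dens

/-!
# P137 [MOLL], [WNICE]: mollification of `W^{1,1}` functions
-/

open MeasureTheory Metric Set Filter Topology
open scoped ENNReal ContDiff NNReal

namespace P137

namespace MollAux

variable {d : ℕ}

/-- The gradient of a function. -/
noncomputable def gr (g : E d → ℝ) (x : E d) : E d :=
  (InnerProductSpace.toDual ℝ (E d)).symm (fderiv ℝ g x)

theorem gr_inner (g : E d → ℝ) (x v : E d) : fderiv ℝ g x v = inner ℝ (gr g x) v := by
  unfold gr
  rw [InnerProductSpace.toDual_symm_apply]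

theorem gr_sub (g : E d → ℝ) (x w : E d) : ‖gr g x - w‖ = ‖fderiv ℝ g x - innerSL ℝ w‖ := by
  have h1 : fderiv ℝ g x - innerSL ℝ w =
      (InnerProductSpace.toDual ℝ (E d)) (gr g x - w) := by
    rw [map_sub]
    unfold gr
    rw [LinearIsometryEquiv.apply_symm_apply]
    rfl
  rw [h1, LinearIsometryEquiv.norm_map]

theorem gr_norm (g : E d → ℝ) (x : E d) : ‖gr g x‖ = ‖fderiv ℝ g x‖ := by
  unfold gr
  rw [LinearIsometryEquiv.norm_map]

theorem gr_cont {g : E d → ℝ} (hg : ContDiff ℝ 1 g) : Continuous (gr g) :=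
  (LinearIsometryEquiv.continuous _).comp (hg.continuous_fderiv one_ne_zero)

theorem nice_of_compact {g : E d → ℝ} (hg : ContDiff ℝ ∞ g) (hs : HasCompactSupport g) :
    Nice g (gr g) where
  smooth := hg.of_le (by exact_mod_cast le_top)
  grad := gr_inner g
  int := hg.continuous.integrable_of_hasCompactSupport hs
  intG := by
    refine (gr_cont (hg.of_le (by exact_mod_cast le_top))).integrable_of_hasCompactSupport ?_
    refine (hs.fderiv ℝ).comp_left (g := (InnerProductSpace.toDual ℝ (E d)).symm) ?_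
    exact map_zero _

end MollAux

/-- [MOLL] Mollify.lean -/
theorem mollify {d : ℕ} (f : E d → ℝ) (G : E d → E d) (h : W11 f G) :
    ∃ (fn : ℕ → E d → ℝ) (Gn : ℕ → E d → E d), (∀ n, ContDiff ℝ ∞ (fn n)) ∧
      (∀ n, Nice (fn n) (Gn n)) ∧
      Tendsto (fun n => ∫ x, ‖fn n x - f x‖) atTop (𝓝 0) ∧
      Tendsto (fun n => ∫ x, ‖Gn n x - G x‖) atTop (𝓝 0) := by
  have H : ∀ n : ℕ, ∃ g : E d → ℝ, ContDiff ℝ ∞ g ∧ HasCompactSupport g ∧
      ∫ x, |g x - f x| ≤ 1 / ((n : ℝ) + 1) ∧
      ∫ x, ‖fderiv ℝ g x - innerSL ℝ (G x)‖ ≤ 1 / ((n : ℝ) + 1) := fun n =>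
    Vale.Agent.P137.Dens.exists_testFunction h.int h.intG h.weak Nat.one_div_pos_of_nat
  choose fn h1 h2 h3 h4 using H
  refine ⟨fn, fun n => MollAux.gr (fn n), h1, fun n => MollAux.nice_of_compact (h1 n) (h2 n),
    ?_, ?_⟩
  · exact squeeze_zero (fun n => integral_nonneg fun x => norm_nonneg _) h3
      tendsto_one_div_add_atTop_nhds_zero_nat
  · refine squeeze_zero (fun n => integral_nonneg fun x => norm_nonneg _) (fun n => ?_)
      tendsto_one_div_add_atTop_nhds_zero_nat
    refine le_trans (le_of_eq ?_) (h4 n)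
    exact integral_congr_ae (Eventually.of_forall fun x => MollAux.gr_sub (fn n) x (G x))

/-- [WNICE] a nice function is in `W^{1,1}` -/
theorem Nice.w11 {d : ℕ} (f : E d → ℝ) (G : E d → E d) (h : Nice f G) : W11 f G where
  int := h.int
  intG := h.intG
  weak := by
    intro φ hφ hs v
    have hfd : Differentiable ℝ f := h.smooth.differentiable one_ne_zero
    have hφd : Differentiable ℝ φ := hφ.differentiable (by simp)
    have hGc : Continuous fun x => fderiv ℝ f x v :=
      (h.smooth.continuous_fderiv one_ne_zero).clm_apply continuous_const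
    have hφ'c : Continuous fun x => fderiv ℝ φ x v :=
      (hφ.continuous_fderiv (by simp)).clm_apply continuous_const
    have hs' : HasCompactSupport fun x => fderiv ℝ φ x v := hs.fderiv_apply ℝ v
    have i1 : Integrable (fun x => fderiv ℝ f x v * φ x) :=
      (hGc.mul hφ.continuous).integrable_of_hasCompactSupport hs.mul_left
    have i2 : Integrable (fun x => f x * fderiv ℝ φ x v) :=
      (h.smooth.continuous.mul hφ'c).integrable_of_hasCompactSupport hs'.mul_left
    have i3 : Integrable (fun x => f x * φ x) :=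
      (h.smooth.continuous.mul hφ.continuous).integrable_of_hasCompactSupport hs.mul_left
    rw [integral_mul_fderiv_eq_neg_fderiv_mul_of_integrable i1 i2 i3 (fun x _ => hfd x)
      (fun x _ => hφd x)]
    congr 1
    refine integral_congr_ae (Eventually.of_forall fun x => ?_)
    simp only [h.grad x v]

end P137
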