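import Vale.Agent.P137.PerimUnion
import Vale.Agent.P137.MaxLip

/-!
# P137: the variation of the truncated maximal function (layer cake)
-/

open MeasureTheory Metric Set Filter Topology
open scoped ENNReal ContDiff NNReal

namespace P137

namespace VarB

variable {d : ℕ}

/-- the superlevel sets -/
def lay (f : E d → ℝ) (k : ℤ) (a : ℝ≥0∞) : Set (E d) := {x | a < V (rad k) f x}

theorem rad_mono (k : ℤ) : rad k ≤ rad (k - 1) := by
  unfold rad
  refine zpow_le_zpow_right₀ (by norm_num) ?_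
  omega

theorem lay_sub (f : E d → ℝ) (k : ℤ) (a : ℝ≥0∞) : lay f (k - 1) a ⊆ lay f k a := fun x hx =>
  lt_of_lt_of_le hx (V_anti f x (rad_mono k))

theorem lay_meas (f : E d → ℝ) (k : ℤ) (a : ℝ≥0∞) : MeasurableSet (lay f k a) :=
  ((V_lsc f (rad k)).isOpen_preimage a).measurableSet

theorem rad_sub (N : ℤ) (n : ℕ) : rad (N - n) = 3 ^ n * rad N := by
  unfold rad
  have h3 : (3 : ℝ) ≠ 0 := by norm_num
  rw [← zpow_natCast, ← zpow_add₀ h3]
  congr 1
  ring

theorem exists_empty (hd : 0 < d) (f : E d → ℝ) (hf : Integrable f) (N : ℤ) {a : ℝ≥0∞}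
    (ha0 : a ≠ 0) (ha : a ≠ ⊤) : ∃ n : ℕ, lay f (N - n) a = ∅ := by
  set I : ℝ≥0∞ := ∫⁻ y, ‖f y‖ₑ with hI
  have hIt : I ≠ ⊤ := hf.2.ne
  set v : ℝ≥0∞ := volume (ball (0 : E d) 1) with hv
  have hv0 : v ≠ 0 := (measure_ball_pos volume _ one_pos).ne'
  have hvt : v ≠ ⊤ := measure_ball_lt_top.ne
  have hav : 0 < (a * v).toReal := ENNReal.toReal_pos (mul_ne_zero ha0 hv0) (ENNReal.mul_ne_top ha hvt)
  have hr := rad_pos N
  obtain ⟨n, hn⟩ := pow_unbounded_of_one_lt (I.toReal / ((a * v).toReal * rad N ^ d))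
    (show (1 : ℝ) < 3 ^ d from one_lt_pow₀ (by norm_num) hd.ne')
  refine ⟨n, ?_⟩
  rw [eq_empty_iff_forall_notMem]
  intro x hx
  have h1 : V (rad (N - n)) f x ≤ a := by
    refine (V_le f _ (rad_pos _) x).trans ?_
    rw [Lip.vol_ball _ (rad_pos _)]
    refine ENNReal.div_le_of_le_mul ?_
    rw [div_lt_iff₀ (by positivity)] at hn
    have h2 : I.toReal ≤ (a * v).toReal * rad (N - n) ^ d := by
      rw [rad_sub, mul_pow, ← pow_mul, mul_comm n d, pow_mul]
      linarith
    have h3 : I ≤ ENNReal.ofReal ((a * v).toReal * rad (N - n) ^ d) := by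
      rw [← ENNReal.ofReal_toReal hIt]
      exact ENNReal.ofReal_le_ofReal h2
    rw [ENNReal.ofReal_mul ENNReal.toReal_nonneg, ENNReal.ofReal_toReal (ENNReal.mul_ne_top ha hvt)]
      at h3
    rw [← hI, ← hv]
    calc I ≤ a * v * ENNReal.ofReal (rad (N - n) ^ d) := h3
      _ = a * (ENNReal.ofReal (rad (N - n) ^ d) * v) := by ring
  exact absurd hx (not_lt.2 h1)

/-- the contribution of one scale -/
noncomputable def term (f : E d → ℝ) (a : ℝ≥0∞) (k : ℤ) : ℝ≥0∞ :=
  ENNReal.ofReal (d / rad k) * volume (lay f k a \ lay f (k - 1) a)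

theorem per_empty : PerLe (∅ : Set (E d)) 0 := by
  intro φ _
  simp

theorem per_lay (hd : 0 < d) (f : E d → ℝ) (hf : Integrable f) (N : ℤ) {a : ℝ≥0∞}
    (ha0 : a ≠ 0) (ha : a ≠ ⊤) : PerLe (lay f N a) (∑' k : ℤ, term f a k) := by
  obtain ⟨n, hn⟩ := exists_empty hd f hf N ha0 ha
  have key : ∀ j : ℕ, PerLe (lay f (N - n + j) a)
      (∑ i ∈ Finset.range j, term f a (N - n + i + 1)) := by
    intro j
    induction j with
    | zero =>
      simp only [Nat.cast_zero, add_zero, Finset.range_zero, Finset.sum_empty]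
      rw [hn]
      exact per_empty
    | succ j ih =>
      obtain ⟨S, hS, hSr, hSU⟩ := V_level f (rad (N - n + j + 1)) (rad_pos _) a
      have h1 : lay f (N - n + j + 1) a = ⋃ p ∈ S, ball p.1 p.2 := hSU
      have e : N - n + j + 1 - 1 = N - n + (j : ℤ) := by ring
      have h2 := per_union (lay f (N - n + j) a) (lay f (N - n + j + 1) a) (lay_meas f _ a)
        (by have := lay_sub f (N - n + j + 1) a; rwa [e] at this) (rad (N - n + j + 1))
        (rad_pos _) S hS hSr h1 _ ih
      rw [Finset.sum_range_succ]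
      push_cast
      rw [← add_assoc]
      unfold term at h2 ⊢
      rw [e]
      exact h2
  have h3 := key n
  have e2 : N - n + (n : ℤ) = N := by ring
  rw [e2] at h3
  intro φ hφ
  refine (h3 φ hφ).trans ?_
  have hinj : Function.Injective fun i : ℕ => N - n + (i : ℤ) + 1 := by
    intro i j h
    simp only [add_left_inj, add_right_inj] at h
    exact_mod_cast h
  calc ∑ i ∈ Finset.range n, term f a (N - n + i + 1)
      ≤ ∑' i : ℕ, term f a (N - n + i + 1) := ENNReal.sum_le_tsum _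
    _ ≤ ∑' k : ℤ, term f a k := ENNReal.tsum_comp_le_tsum_of_injective hinj _

/-- the set in the product space -/
def pset (f : E d → ℝ) (k : ℤ) : Set (E d × ℝ) :=
  {z | V (rad (k - 1)) f z.1 ≤ ENNReal.ofReal z.2 ∧ ENNReal.ofReal z.2 < V (rad k) f z.1}

theorem pset_meas (f : E d → ℝ) (k : ℤ) : MeasurableSet (pset f k) := by
  have h1 : Measurable fun z : E d × ℝ => V (rad (k - 1)) f z.1 :=
    (V_lsc f _).measurable.comp measurable_fst
  have h2 : Measurable fun z : E d × ℝ => V (rad k) f z.1 :=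
    (V_lsc f _).measurable.comp measurable_fst
  have h3 : Measurable fun z : E d × ℝ => ENNReal.ofReal z.2 :=
    ENNReal.measurable_ofReal.comp measurable_snd
  exact (measurableSet_le h1 h3).inter (measurableSet_lt h3 h2)

theorem pset_slice (f : E d → ℝ) (k : ℤ) (t : ℝ) :
    (fun x => (x, t)) ⁻¹' pset f k = lay f k (ENNReal.ofReal t) \ lay f (k - 1) (ENNReal.ofReal t) := by
  ext x
  simp only [pset, lay, mem_preimage, Set.mem_ofPred_eq, Set.mem_sdiff, not_lt]
  tauto

theorem term_meas (f : E d → ℝ) (k : ℤ) :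
    Measurable fun t : ℝ => term f (ENNReal.ofReal t) k := by
  unfold term
  refine Measurable.const_mul ?_ _
  have h0 := measurable_measure_prodMk_right (μ := (volume : Measure (E d))) (pset_meas f k)
  have h : (fun t : ℝ => volume (lay f k (ENNReal.ofReal t) \ lay f (k - 1) (ENNReal.ofReal t))) =
      fun t : ℝ => volume ((fun x => (x, t)) ⁻¹' pset f k) := by
    funext t
    rw [pset_slice]
  rw [h]
  exact h0

theorem layer (f : E d → ℝ) (hf : Integrable f) (k : ℤ) :
    ∫⁻ t in Ioi (0 : ℝ), volume (lay f k (ENNReal.ofReal t) \ lay f (k - 1) (ENNReal.ofReal t)) ≤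
      ∫⁻ x, (V (rad k) f x - V (rad (k - 1)) f x) := by
  have h1 : ∫⁻ t in Ioi (0 : ℝ), volume (lay f k (ENNReal.ofReal t) \ lay f (k - 1) (ENNReal.ofReal t))
      = ((volume : Measure (E d)).prod ((volume : Measure ℝ).restrict (Ioi 0))) (pset f k) := by
    rw [Measure.prod_apply_symm (pset_meas f k)]
    refine lintegral_congr fun t => ?_
    rw [pset_slice]
  rw [h1, Measure.prod_apply (pset_meas f k)]
  refine lintegral_mono fun x => ?_
  have hp := V_lt_top f hf (rad (k - 1)) (rad_pos _) x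
  have hq := V_lt_top f hf (rad k) (rad_pos _) x
  have hpq : V (rad (k - 1)) f x ≤ V (rad k) f x := V_anti f x (rad_mono k)
  have h2 : (Prod.mk x ⁻¹' pset f k) ∩ Ioi 0 ⊆
      Ico (V (rad (k - 1)) f x).toReal (V (rad k) f x).toReal := by
    rintro t ⟨⟨h3, h4⟩, h5⟩
    have h5' : (0 : ℝ) < t := h5
    refine ⟨?_, ?_⟩
    · exact ENNReal.toReal_le_of_le_ofReal h5'.le h3
    · exact (ENNReal.ofReal_lt_iff_lt_toReal h5'.le hq.ne).1 h4
  calc ((volume : Measure ℝ).restrict (Ioi 0)) (Prod.mk x ⁻¹' pset f k)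
      = volume ((Prod.mk x ⁻¹' pset f k) ∩ Ioi 0) := by
        rw [Measure.restrict_apply (measurable_prodMk_left (pset_meas f k))]
    _ ≤ volume (Ico (V (rad (k - 1)) f x).toReal (V (rad k) f x).toReal) := measure_mono h2
    _ = ENNReal.ofReal ((V (rad k) f x).toReal - (V (rad (k - 1)) f x).toReal) := Real.volume_Ico
    _ = V (rad k) f x - V (rad (k - 1)) f x := by
        rw [ENNReal.ofReal_sub _ ENNReal.toReal_nonneg, ENNReal.ofReal_toReal hq.ne,
          ENNReal.ofReal_toReal hp.ne]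

theorem ofReal_integral_le {α : Type*} [MeasurableSpace α] {μ : Measure α} {g : α → ℝ}
    (hg : Integrable g μ) : ENNReal.ofReal (∫ x, g x ∂μ) ≤ ∫⁻ x, ENNReal.ofReal (g x) ∂μ := by
  rw [integral_eq_lintegral_pos_part_sub_lintegral_neg_part hg]
  have h1 : ∫⁻ x, ENNReal.ofReal (g x) ∂μ ≠ ⊤ := by
    refine ne_top_of_le_ne_top hg.2.ne (lintegral_mono fun x => ?_)
    rw [← ofReal_norm]
    exact ENNReal.ofReal_le_ofReal (le_abs_self _)
  have h0 : 0 ≤ (∫⁻ x, ENNReal.ofReal (-g x) ∂μ).toReal := ENNReal.toReal_nonneg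
  calc ENNReal.ofReal ((∫⁻ x, ENNReal.ofReal (g x) ∂μ).toReal -
        (∫⁻ x, ENNReal.ofReal (-g x) ∂μ).toReal)
      ≤ ENNReal.ofReal ((∫⁻ x, ENNReal.ofReal (g x) ∂μ).toReal) :=
        ENNReal.ofReal_le_ofReal (by linarith)
    _ = _ := ENNReal.ofReal_toReal h1

/-- layer cake for `∫ u h` -/
theorem cake {u h : E d → ℝ} (hu : Measurable u) (hu0 : ∀ x, 0 ≤ u x) {M : ℝ}
    (huM : ∀ x, u x ≤ M) (hh : Integrable h) :
    ENNReal.ofReal (∫ x, u x * h x) ≤
      ∫⁻ t in Ioc (0 : ℝ) M, ENNReal.ofReal (∫ x in {x | t < u x}, h x) := by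
  set F : E d × ℝ → ℝ := fun z => {z : E d × ℝ | z.2 < u z.1}.indicator (fun z => h z.1) z with hF
  have hms : MeasurableSet {z : E d × ℝ | z.2 < u z.1} :=
    measurableSet_lt measurable_snd (hu.comp measurable_fst)
  have hFi : Integrable F ((volume : Measure (E d)).prod ((volume : Measure ℝ).restrict (Ioc 0 M))) := by
    refine Integrable.indicator ?_ hms
    have : IsFiniteMeasure ((volume : Measure ℝ).restrict (Ioc 0 M)) :=
      ⟨by rw [Measure.restrict_apply_univ]; exact measure_Ioc_lt_top⟩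
    exact hh.comp_fst _
  have e1 : ∫ x, u x * h x = ∫ x, ∫ t in Ioc (0 : ℝ) M, F (x, t) := by
    refine integral_congr_ae (Eventually.of_forall fun x => ?_)
    have h1 : (fun t => F (x, t)) = (Iio (u x)).indicator fun _ => h x := by
      funext t
      simp only [hF, indicator, Set.mem_ofPred_eq, mem_Iio]
    simp only
    rw [h1, setIntegral_indicator measurableSet_Iio, setIntegral_const, smul_eq_mul]
    congr 1
    have h2 : volume (Ioc (0 : ℝ) M ∩ Iio (u x)) = ENNReal.ofReal (u x) := by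
      refine le_antisymm ?_ ?_
      · calc volume (Ioc (0 : ℝ) M ∩ Iio (u x)) ≤ volume (Ioo 0 (u x)) :=
              measure_mono fun t ht => ⟨ht.1.1, ht.2⟩
          _ = ENNReal.ofReal (u x) := by rw [Real.volume_Ioo, sub_zero]
      · calc ENNReal.ofReal (u x) = volume (Ioo 0 (u x)) := by rw [Real.volume_Ioo, sub_zero]
          _ ≤ volume (Ioc (0 : ℝ) M ∩ Iio (u x)) := by
            refine measure_mono fun t ht => ?_
            have ht' : (0 : ℝ) < t ∧ t < u x := ht
            exact ⟨⟨ht'.1, ht'.2.le.trans (huM x)⟩, ht'.2⟩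
    rw [Measure.real, h2, ENNReal.toReal_ofReal (hu0 x)]
  have e2 : ∫ x, ∫ t in Ioc (0 : ℝ) M, F (x, t) = ∫ t in Ioc (0 : ℝ) M, ∫ x, F (x, t) :=
    integral_integral_swap (f := fun x t => F (x, t)) hFi
  have e3 : ∀ t, ∫ x, F (x, t) = ∫ x in {x | t < u x}, h x := by
    intro t
    have h1 : (fun x => F (x, t)) = {x | t < u x}.indicator h := by
      funext x
      simp only [hF, indicator, Set.mem_ofPred_eq]
    rw [h1, integral_indicator (measurableSet_lt measurable_const hu)]
  rw [e1, e2]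
  refine (ofReal_integral_le hFi.integral_prod_right).trans ?_
  refine le_of_eq (lintegral_congr fun t => ?_)
  rw [e3]

end VarB

open VarB

/-- [VARB] the variation of the truncated maximal function -/
theorem var_bound {d : ℕ} (hd : 0 < d) (f : E d → ℝ) (hf : Integrable f) (N : ℤ) (φ : E d → E d)
    (hφ : Test φ) :
    ENNReal.ofReal (∫ x, (V (rad N) f x).toReal * dvg φ x) ≤
      d * ∑' k : ℤ, (ENNReal.ofReal (rad k))⁻¹ *
        ∫⁻ x, (V (rad k) f x - V (rad (k - 1)) f x) := by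
  have hle : (1 : WithTop ℕ∞) ≤ ((⊤ : ℕ∞) : WithTop ℕ∞) := by exact_mod_cast le_top
  have hint := Per.integrable_dvg (hφ.smooth.of_le hle) hφ.supp
  have hum : Measurable fun x => (V (rad N) f x).toReal := (V_lsc f _).measurable.ennreal_toReal
  have hMt : Lip.M f (rad N) < ⊤ := Lip.M_lt_top f hf (rad_pos N)
  have huM : ∀ x, (V (rad N) f x).toReal ≤ (Lip.M f (rad N)).toReal := fun x =>
    ENNReal.toReal_mono hMt.ne (V_le f _ (rad_pos _) x)
  refine (cake hum (fun x => ENNReal.toReal_nonneg) huM hint).trans ?_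
  calc ∫⁻ t in Ioc (0 : ℝ) (Lip.M f (rad N)).toReal,
        ENNReal.ofReal (∫ x in {x | t < (V (rad N) f x).toReal}, dvg φ x)
      ≤ ∫⁻ t in Ioc (0 : ℝ) (Lip.M f (rad N)).toReal, ∑' k : ℤ, term f (ENNReal.ofReal t) k := by
        refine setLIntegral_mono' measurableSet_Ioc fun t ht => ?_
        have e : {x | t < (V (rad N) f x).toReal} = lay f N (ENNReal.ofReal t) := by
          ext x
          simp only [lay, Set.mem_ofPred_eq]
          exact (ENNReal.ofReal_lt_iff_lt_toReal ht.1.le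
            (V_lt_top f hf _ (rad_pos _) x).ne).symm
        rw [e]
        exact per_lay hd f hf N (by simpa using ht.1) ENNReal.ofReal_ne_top φ hφ
    _ ≤ ∫⁻ t in Ioi (0 : ℝ), ∑' k : ℤ, term f (ENNReal.ofReal t) k :=
        lintegral_mono_set fun t ht => ht.1
    _ = ∑' k : ℤ, ∫⁻ t in Ioi (0 : ℝ), term f (ENNReal.ofReal t) k :=
        lintegral_tsum fun k => (term_meas f k).aemeasurable
    _ ≤ ∑' k : ℤ, d * ((ENNReal.ofReal (rad k))⁻¹ *
        ∫⁻ x, (V (rad k) f x - V (rad (k - 1)) f x)) := by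
        refine ENNReal.tsum_le_tsum fun k => ?_
        unfold term
        rw [lintegral_const_mul']
        · have h1 : ENNReal.ofReal (d / rad k) = d * (ENNReal.ofReal (rad k))⁻¹ := by
            rw [div_eq_mul_inv, ENNReal.ofReal_mul (Nat.cast_nonneg d), ENNReal.ofReal_natCast,
              ENNReal.ofReal_inv_of_pos (rad_pos k)]
          rw [h1, mul_assoc]
          gcongr
          exact layer f hf k
        · exact ENNReal.ofReal_ne_top
    _ = _ := ENNReal.tsum_mul_left

end P137
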