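import Vale.Agent.P137.SumJ
import Vale.Agent.P137.VarBound
import Vale.Agent.P137.MaxLip
import Vale.Agent.P137.Mollify
import Vale.Agent.P137.Regularize
import Vale.Agent.P137.Dual

/-!
# P137 [VW]: variation bound for truncated maximal functions of Sobolev functions.
-/

open MeasureTheory Metric Set Filter Topology
open scoped ENNReal ContDiff NNReal

namespace P137.VW

variable {d : ℕ}

theorem avg_le_of (f g h : E d → ℝ) (hf : AEStronglyMeasurable f) (ε : ℝ≥0∞)
    (hle : ∀ y, ‖g y‖ₑ ≤ ‖f y‖ₑ + ‖h y‖ₑ + ε) (c : E d) (r : ℝ) :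
    avg g c r ≤ avg f c r + avg h c r + ε := by
  unfold avg
  have h1 : ∫⁻ y in ball c r, ‖g y‖ₑ ≤
      (∫⁻ y in ball c r, ‖f y‖ₑ) + (∫⁻ y in ball c r, ‖h y‖ₑ) + ε * volume (ball c r) := by
    calc ∫⁻ y in ball c r, ‖g y‖ₑ ≤ ∫⁻ y in ball c r, (‖f y‖ₑ + ‖h y‖ₑ + ε) :=
          lintegral_mono fun y => hle y
      _ = (∫⁻ y in ball c r, ‖f y‖ₑ) + (∫⁻ y in ball c r, ‖h y‖ₑ) + ε * volume (ball c r) := by
          rw [lintegral_add_right _ measurable_const, lintegral_add_left' hf.enorm.restrict,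
            setLIntegral_const]
  calc (∫⁻ y in ball c r, ‖g y‖ₑ) / volume (ball c r)
      ≤ ((∫⁻ y in ball c r, ‖f y‖ₑ) + (∫⁻ y in ball c r, ‖h y‖ₑ) + ε * volume (ball c r)) /
          volume (ball c r) := by gcongr
    _ = (∫⁻ y in ball c r, ‖f y‖ₑ) / volume (ball c r) +
          (∫⁻ y in ball c r, ‖h y‖ₑ) / volume (ball c r) +
          ε * volume (ball c r) / volume (ball c r) := by
        rw [ENNReal.add_div, ENNReal.add_div]
    _ ≤ _ := by
        gcongr
        rw [mul_div_assoc]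
        exact mul_le_of_le_one_right (by positivity) ENNReal.div_self_le_one

theorem V_le_of (f g h : E d → ℝ) (hf : AEStronglyMeasurable f) (ε : ℝ≥0∞)
    (hle : ∀ y, ‖g y‖ₑ ≤ ‖f y‖ₑ + ‖h y‖ₑ + ε) (η : ℝ) (hη : 0 < η) (x : E d) :
    V η g x ≤ V η f x + ((∫⁻ y, ‖h y‖ₑ) / volume (ball (0 : E d) η) + ε) := by
  refine iSup_le fun c => iSup_le fun r => iSup_le fun hr => iSup_le fun hx => ?_
  calc avg g c r ≤ avg f c r + avg h c r + ε := avg_le_of f g h hf ε hle c r
    _ ≤ V η f x + (∫⁻ y, ‖h y‖ₑ) / volume (ball (0 : E d) η) + ε := by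
        gcongr
        · exact le_iSup_of_le c (le_iSup_of_le r (le_iSup_of_le hr (le_iSup_of_le hx le_rfl)))
        · exact avg_le h c r η hη hr
    _ = _ := by rw [add_assoc]

/-- closeness of truncated maximal functions -/
theorem V_close (f g h : E d → ℝ) (hf : Integrable f) (hg : Integrable g) (hh : Integrable h)
    (ε : ℝ) (hε : 0 ≤ ε) (h1 : ∀ y, ‖g y‖ₑ ≤ ‖f y‖ₑ + ‖h y‖ₑ + ENNReal.ofReal ε)
    (h2 : ∀ y, ‖f y‖ₑ ≤ ‖g y‖ₑ + ‖h y‖ₑ + ENNReal.ofReal ε) (η : ℝ) (hη : 0 < η) (x : E d) :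
    |(V η g x).toReal - (V η f x).toReal| ≤
      (∫ y, ‖h y‖) / volume.real (ball (0 : E d) η) + ε := by
  have hv : volume (ball (0 : E d) η) ≠ 0 := (measure_ball_pos volume 0 hη).ne'
  have hv' : volume (ball (0 : E d) η) ≠ ⊤ := measure_ball_lt_top.ne
  have hH : (∫⁻ y, ‖h y‖ₑ) ≠ ⊤ := hh.2.ne
  have e1 : ((∫⁻ y, ‖h y‖ₑ) / volume (ball (0 : E d) η) + ENNReal.ofReal ε).toReal =
      (∫ y, ‖h y‖) / volume.real (ball (0 : E d) η) + ε := by
    rw [ENNReal.toReal_add (ENNReal.div_lt_top hH hv).ne ENNReal.ofReal_ne_top,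
      ENNReal.toReal_div, ENNReal.toReal_ofReal hε, integral_norm_eq_lintegral_enorm hh.1]
    rfl
  have hD : (∫⁻ y, ‖h y‖ₑ) / volume (ball (0 : E d) η) + ENNReal.ofReal ε ≠ ⊤ :=
    ENNReal.add_ne_top.2 ⟨(ENNReal.div_lt_top hH hv).ne, ENNReal.ofReal_ne_top⟩
  have a1 := V_le_of f g h hf.1 _ h1 η hη x
  have a2 := V_le_of g f h hg.1 _ h2 η hη x
  have Vf := (V_lt_top f hf η hη x).ne
  have Vg := (V_lt_top g hg η hη x).ne
  have b1 := ENNReal.toReal_mono (ENNReal.add_ne_top.2 ⟨Vf, hD⟩) a1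
  have b2 := ENNReal.toReal_mono (ENNReal.add_ne_top.2 ⟨Vg, hD⟩) a2
  rw [ENNReal.toReal_add Vf hD, e1] at b1
  rw [ENNReal.toReal_add Vg hD, e1] at b2
  rw [abs_le]
  constructor <;> linarith

theorem dvg_continuous (φ : E d → E d) (hφ : Test φ) : Continuous (dvg φ) := by
  unfold dvg
  refine continuous_finsetSum _ fun i _ => ?_
  have h1 : Continuous (fderiv ℝ φ) := hφ.smooth.continuous_fderiv (by simp)
  have h2 : Continuous fun x => fderiv ℝ φ x (EuclideanSpace.single i 1) :=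
    h1.clm_apply continuous_const
  exact (EuclideanSpace.proj (𝕜 := ℝ) i).continuous.comp h2

theorem dvg_integrable (φ : E d → E d) (hφ : Test φ) : Integrable (dvg φ) := by
  refine (dvg_continuous φ hφ).integrable_of_hasCompactSupport ?_
  refine HasCompactSupport.intro (K := tsupport φ) hφ.supp fun x hx => ?_
  unfold dvg
  refine Finset.sum_eq_zero fun i _ => ?_
  have : fderiv ℝ φ x = 0 := by
    by_contra hne
    exact hx (support_fderiv_subset ℝ hne)
  rw [this]; rfl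

end P137.VW

namespace P137

theorem var_W11 (d : ℕ) (hd : 0 < d) :
    ∃ C : ℝ≥0, ∀ (f : E d → ℝ) (G : E d → E d), W11 f G → ∀ (N : ℤ) (i : Fin d),
      ∫⁻ x, ‖lineDeriv ℝ (fun x => (V (rad N) f x).toReal) x (EuclideanSpace.single i 1)‖ₑ ≤
        C * ∫⁻ x, ‖G x‖ₑ := by
  obtain ⟨C0, hC0⟩ := sum_J d hd
  refine ⟨(d : ℝ≥0) * C0, fun f G h N i => ?_⟩
  have hη : 0 < rad N := by unfold rad; positivity
  obtain ⟨L, hL⟩ := V_lip f h.int (rad N) hη
  refine dual_bound _ L hL _ (fun φ hφ => ?_) i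
  obtain ⟨fn, Gn, hsm, hnice, hlim, hlimG⟩ := mollify f G h
  have hεn : ∀ n : ℕ, (0 : ℝ) < 1 / ((n : ℝ) + 1) := fun n => by positivity
  choose g G' hg hg0 hgf hgle hGG using fun n => regularize (fn n) (Gn n) (hnice n) _ (hεn n)
  have hbound : ∀ n, ENNReal.ofReal (∫ x, (V (rad N) (g n) x).toReal * dvg φ x) ≤
      (((d : ℝ≥0) * C0 : ℝ≥0) : ℝ≥0∞) * ENNReal.ofReal (∫ x, ‖Gn n x‖) := by
    intro n
    refine (var_bound hd (g n) (hg n).int N φ hφ).trans ?_
    rw [ENNReal.coe_mul, mul_assoc]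
    have h1 := hC0 (g n) (G' n) (hg n) (hg0 n)
    have h2 : ∫⁻ x, ‖G' n x‖ₑ ≤ ENNReal.ofReal (∫ x, ‖Gn n x‖) := by
      rw [ofReal_integral_norm_eq_lintegral_enorm (hnice n).intG]
      refine lintegral_mono fun x => ?_
      rw [← ofReal_norm, ← ofReal_norm]
      exact ENNReal.ofReal_le_ofReal (hGG n x)
    have h3 : ((d : ℝ≥0) : ℝ≥0∞) = (d : ℝ≥0∞) := by simp
    rw [h3]
    gcongr
    exact h1.trans (by gcongr)
  have t1 : Tendsto (fun n => ∫ x, ‖Gn n x‖) atTop (𝓝 (∫ x, ‖G x‖)) := by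
    rw [tendsto_iff_norm_sub_tendsto_zero]
    refine squeeze_zero (fun n => norm_nonneg _) (fun n => ?_) hlimG
    rw [← integral_sub (hnice n).intG.norm h.intG.norm]
    refine (norm_integral_le_integral_norm _).trans ?_
    refine integral_mono ((hnice n).intG.norm.sub h.intG.norm).norm
      ((hnice n).intG.sub h.intG).norm fun x => ?_
    exact abs_norm_sub_norm_le _ _
  have t2 : Tendsto (fun n => (((d : ℝ≥0) * C0 : ℝ≥0) : ℝ≥0∞) * ENNReal.ofReal (∫ x, ‖Gn n x‖))
      atTop (𝓝 ((((d : ℝ≥0) * C0 : ℝ≥0) : ℝ≥0∞) * ∫⁻ x, ‖G x‖ₑ)) := by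
    rw [← ofReal_integral_norm_eq_lintegral_enorm h.intG]
    exact ENNReal.Tendsto.const_mul (ENNReal.tendsto_ofReal t1) (Or.inr ENNReal.coe_ne_top)
  have hi := VW.dvg_integrable φ hφ
  have hVb : ∀ (w : E d → ℝ), Integrable w → Integrable fun x => (V (rad N) w x).toReal * dvg φ x := by
    intro w hw
    obtain ⟨L', hL'⟩ := V_lip w hw (rad N) hη
    refine hi.bdd_mul (c := ((∫⁻ y, ‖w y‖ₑ) / volume (ball (0 : E d) (rad N))).toReal)
      hL'.continuous.aestronglyMeasurable (Eventually.of_forall fun x => ?_)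
    rw [Real.norm_eq_abs, abs_of_nonneg ENNReal.toReal_nonneg]
    refine ENNReal.toReal_mono ?_ (V_le w (rad N) hη x)
    exact (ENNReal.div_lt_top hw.2.ne (measure_ball_pos volume 0 hη).ne').ne
  have t3 : Tendsto (fun n => ∫ x, (V (rad N) (g n) x).toReal * dvg φ x) atTop
      (𝓝 (∫ x, (V (rad N) f x).toReal * dvg φ x)) := by
    rw [tendsto_iff_norm_sub_tendsto_zero]
    set vol := volume.real (ball (0 : E d) (rad N)) with hvol
    have key : ∀ n, ‖(∫ x, (V (rad N) (g n) x).toReal * dvg φ x) -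
        ∫ x, (V (rad N) f x).toReal * dvg φ x‖ ≤
        ((∫ x, ‖fn n x - f x‖) / vol + 1 / ((n : ℝ) + 1)) * ∫ x, ‖dvg φ x‖ := by
      intro n
      rw [← integral_sub (hVb _ (hg n).int) (hVb _ h.int)]
      rw [← integral_const_mul]
      refine (norm_integral_le_integral_norm _).trans ?_
      refine integral_mono ((hVb _ (hg n).int).sub (hVb _ h.int)).norm (hi.norm.const_mul _)
        fun x => ?_
      simp only
      rw [← sub_mul, norm_mul, Real.norm_eq_abs]
      gcongr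
      have hle1 : ∀ y, abs (g n y - abs (f y)) ≤ abs (fn n y - f y) + 1 / ((n : ℝ) + 1) := by
        intro y
        have := hgf n y
        have h2 : abs (abs (fn n y) - abs (f y)) ≤ abs (fn n y - f y) := abs_abs_sub_abs_le _ _
        calc abs (g n y - abs (f y)) = abs ((g n y - abs (fn n y)) + (abs (fn n y) - abs (f y))) := by
              ring_nf
          _ ≤ abs (g n y - abs (fn n y)) + abs (abs (fn n y) - abs (f y)) := abs_add_le _ _
          _ ≤ _ := by linarith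
      refine VW.V_close f (g n) (fun y => fn n y - f y) h.int (hg n).int
        ((hnice n).int.sub h.int) (1 / ((n : ℝ) + 1)) (hεn n).le (fun y => ?_) (fun y => ?_) _ hη x
      · rw [← ofReal_norm, ← ofReal_norm, ← ofReal_norm,
          ← ENNReal.ofReal_add (norm_nonneg _) (norm_nonneg _),
          ← ENNReal.ofReal_add (by positivity) (hεn n).le]
        refine ENNReal.ofReal_le_ofReal ?_
        simp only [Real.norm_eq_abs]
        rw [abs_of_nonneg (hg0 n y)]
        have := (abs_le.1 (hle1 y)).2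
        linarith
      · rw [← ofReal_norm, ← ofReal_norm, ← ofReal_norm,
          ← ENNReal.ofReal_add (norm_nonneg _) (norm_nonneg _),
          ← ENNReal.ofReal_add (by positivity) (hεn n).le]
        refine ENNReal.ofReal_le_ofReal ?_
        simp only [Real.norm_eq_abs]
        rw [abs_of_nonneg (hg0 n y)]
        have := (abs_le.1 (hle1 y)).1
        linarith
    refine squeeze_zero (fun n => norm_nonneg _) key ?_
    have : Tendsto (fun n : ℕ => ((∫ x, ‖fn n x - f x‖) / vol + 1 / ((n : ℝ) + 1)) *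
        ∫ x, ‖dvg φ x‖) atTop (𝓝 ((0 / vol + 0) * ∫ x, ‖dvg φ x‖)) :=
      ((hlim.div_const vol).add tendsto_one_div_add_atTop_nhds_zero_nat).mul_const _
    simpa using this
  exact le_of_tendsto_of_tendsto (ENNReal.tendsto_ofReal t3) t2 (Eventually.of_forall hbound)

end P137
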