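import Vale.Agent.P137.SupLineOf
import Vale.Agent.P137.VarW

/-!
# P137 [SUP]: the supremum of the maximal function along lines.
-/

open MeasureTheory Metric Set Filter Topology
open scoped ENNReal ContDiff NNReal

namespace P137

theorem sup_line (d : ℕ) (hd : 0 < d) :
    ∃ C : ℝ → ℝ≥0, ∀ (f : E d → ℝ) (G : E d → E d), W11 f G → ∀ (ρ : ℝ) (i : Fin d),
      ∫⁻ x in ball (0 : E d) ρ, ⨆ t : ℝ, Mt f (x + t • EuclideanSpace.single i 1) ≤
        C ρ * ∫⁻ x, ‖G x‖ₑ :=
  SupAux.sup_line_of d hd (var_W11 d hd)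

end P137
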