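import Vale.Agent.P137.Defs
import Vale.Agent.P137.MaxBasic
import Vale.Agent.P137.Mollify
import Vale.Agent.P137.Regularize
import Vale.Agent.P137.SupLine

/-!
# P137 [LA]: approximation on almost every line
-/

open MeasureTheory Metric Set Filter Topology
open scoped ENNReal ContDiff NNReal

namespace P137

namespace LA

variable {d : ℕ}

/-! ### Fubini along a direction -/

theorem qmp_ts (e : E d) : Measure.QuasiMeasurePreserving (fun p : ℝ × E d => p.2 + p.1 • e)
    (volume.prod volume) volume := by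
  have h1 : MeasurePreserving (fun p : ℝ × E d => (p.1, p.2 + p.1 • e))
      ((volume : Measure ℝ).prod volume) (volume.prod volume) := by
    refine (MeasurePreserving.id (volume : Measure ℝ)).skew_product
      (g := fun t x => x + t • e) (by fun_prop) ?_
    exact Eventually.of_forall fun t => (measurePreserving_add_right volume (t • e)).map_eq
  exact Measure.quasiMeasurePreserving_snd.comp h1.quasiMeasurePreserving

theorem qmp_st (e : E d) : Measure.QuasiMeasurePreserving (fun p : E d × ℝ => p.1 + p.2 • e)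
    (volume.prod volume) volume :=
  (qmp_ts e).comp Measure.measurePreserving_swap.quasiMeasurePreserving

theorem aem_st (e : E d) {g : E d → ℝ≥0∞} (hg : AEMeasurable g) :
    AEMeasurable (fun p : E d × ℝ => g (p.1 + p.2 • e)) (volume.prod volume) :=
  hg.comp_quasiMeasurePreserving (qmp_st e)

theorem line_lint (e : E d) (g : E d → ℝ≥0∞) (hg : AEMeasurable g) (ρ T : ℝ) :
    ∫⁻ x in ball (0 : E d) ρ, ∫⁻ t in Icc (-T) T, g (x + t • e) ≤
      volume (Icc (-T) T) * ∫⁻ x, g x := by
  have hm : AEMeasurable (Function.uncurry fun (x : E d) (t : ℝ) => g (x + t • e))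
      ((volume.restrict (ball (0 : E d) ρ)).prod (volume.restrict (Icc (-T) T))) := by
    rw [Measure.prod_restrict]
    exact (aem_st e hg).restrict
  rw [lintegral_lintegral_swap hm]
  calc ∫⁻ t in Icc (-T) T, ∫⁻ x in ball (0 : E d) ρ, g (x + t • e)
      ≤ ∫⁻ t in Icc (-T) T, ∫⁻ x, g x := by
        refine lintegral_mono fun t => ?_
        refine (setLIntegral_le_lintegral _ _).trans ?_
        rw [lintegral_add_right_eq_self]
    _ = volume (Icc (-T) T) * ∫⁻ x, g x := by
        rw [lintegral_const, Measure.restrict_apply_univ, mul_comm]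

theorem aem_line (e : E d) (g : E d → ℝ≥0∞) (hg : AEMeasurable g) (T : ℝ) :
    AEMeasurable (fun x : E d => ∫⁻ t in Icc (-T) T, g (x + t • e)) := by
  have : AEMeasurable (fun p : E d × ℝ => g (p.1 + p.2 • e))
      (volume.prod (volume.restrict (Icc (-T) T))) := by
    have h := (aem_st e hg).restrict (s := univ ×ˢ Icc (-T) T)
    rwa [← Measure.prod_restrict, Measure.restrict_univ] at h
  exact this.lintegral_prod_right'

/-- Borel-Cantelli type lemma -/
theorem tsum_ae (F : ℕ → E d → ℝ≥0∞) (hF : ∀ n, AEMeasurable (F n))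
    (h : ∀ ρ : ℕ, ∑' n, ∫⁻ x in ball (0 : E d) ρ, F n x ≠ ⊤) :
    ∀ᵐ x : E d, Tendsto (fun n => F n x) atTop (𝓝 0) := by
  have h1 : ∀ ρ : ℕ, ∀ᵐ x ∂(volume.restrict (ball (0 : E d) ρ)), ∑' n, F n x < ⊤ := by
    intro ρ
    refine ae_lt_top' ?_ ?_
    · exact AEMeasurable.ennreal_tsum fun n => (hF n).restrict
    · rw [lintegral_tsum fun n => (hF n).restrict]
      exact h ρ
  have h2 : ∀ᵐ x : E d, ∀ ρ : ℕ, x ∈ ball (0 : E d) ρ → ∑' n, F n x < ⊤ := by
    rw [ae_all_iff]
    intro ρ
    exact (ae_restrict_iff' measurableSet_ball).1 (h1 ρ)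
  filter_upwards [h2] with x hx
  obtain ⟨ρ, hρ⟩ := exists_nat_gt ‖x‖
  exact ENNReal.tendsto_atTop_zero_of_tsum_ne_top (hx ρ (by simpa using hρ)).ne

/-! ### Averages -/

theorem avg_le_of {f : E d → ℝ} {c : E d} {r : ℝ} (hr : 0 < r) {b : ℝ≥0∞}
    (h : ∀ z ∈ ball c r, ‖f z‖ₑ ≤ b) : avg f c r ≤ b := by
  unfold avg
  refine ENNReal.div_le_of_le_mul ?_
  calc ∫⁻ y in ball c r, ‖f y‖ₑ ≤ ∫⁻ y in ball c r, b :=
        setLIntegral_mono' measurableSet_ball h
    _ = b * volume (ball c r) := by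
        rw [lintegral_const, Measure.restrict_apply_univ]

theorem avg_add_le {f g : E d → ℝ} (hf : Integrable f) (c : E d) (r : ℝ) :
    avg (fun y => f y + g y) c r ≤ avg f c r + avg g c r := by
  unfold avg
  rw [← ENNReal.add_div]
  refine ENNReal.div_le_div_right ?_ _
  rw [← lintegral_add_left' hf.aestronglyMeasurable.enorm.restrict]
  exact lintegral_mono fun y => enorm_add_le _ _

theorem avg_le_Mt {f : E d → ℝ} {x c : E d} {r : ℝ} (h : x ∈ ball c r) : avg f c r ≤ Mt f x := by
  unfold Mt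
  exact le_iSup_of_le c (le_iSup_of_le r (le_iSup_of_le h le_rfl))

theorem Mt_neg (f : E d → ℝ) (x : E d) : Mt (fun y => -f y) x = Mt f x := by
  simp only [Mt, avg, enorm_neg]

theorem Mt_split {f : E d → ℝ} {y : E d} {η : ℝ} {b : ℝ≥0∞}
    (h : ∀ (c : E d) (r : ℝ), y ∈ ball c r → r < η → avg f c r ≤ b) :
    Mt f y ≤ max (V η f y) b := by
  unfold Mt
  refine iSup_le fun c => iSup_le fun r => iSup_le fun hy => ?_
  rcases lt_or_ge r η with hr | hr
  · exact (h c r hy hr).trans (le_max_right _ _)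
  · refine le_trans ?_ (le_max_left _ _)
    unfold V
    exact le_iSup_of_le c (le_iSup_of_le r (le_iSup_of_le hr (le_iSup_of_le hy le_rfl)))

theorem mem_near {c y z : E d} {r : ℝ} (hy : y ∈ ball c r) (hz : z ∈ ball c r) :
    dist z y < 2 * r := by
  have h1 := mem_ball.1 hy
  have h2 := mem_ball.1 hz
  have := dist_triangle z c y
  rw [dist_comm c y] at this
  linarith

theorem Mt_lt_top {g : E d → ℝ} (hg : Continuous g) (hi : Integrable g) (y : E d) :
    Mt g y < ⊤ := by
  obtain ⟨B, hB⟩ := (isCompact_closedBall y 1).exists_bound_of_continuousOn hg.continuousOn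
  have h := Mt_split (f := g) (y := y) (η := 1 / 2) (b := ENNReal.ofReal B) (by
    intro c r hy hr
    refine avg_le_of (pos_of_mem_ball hy) fun z hz => ?_
    rw [← ofReal_norm_eq_enorm]
    refine ENNReal.ofReal_le_ofReal (hB z ?_)
    rw [mem_closedBall]
    have := mem_near hy hz
    linarith)
  exact h.trans_lt (max_lt (V_lt_top g hi _ (by norm_num) y) ENNReal.ofReal_lt_top)

/-! ### One-dimensional facts -/

theorem ac_of_dist_le {F I : ℝ → ℝ} {a b : ℝ} (hI : AbsolutelyContinuousOnInterval I a b)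
    (h : ∀ s t, dist (F s) (F t) ≤ dist (I s) (I t)) : AbsolutelyContinuousOnInterval F a b := by
  rw [absolutelyContinuousOnInterval_iff] at hI ⊢
  intro ε hε
  obtain ⟨δ, hδ, h1⟩ := hI ε hε
  refine ⟨δ, hδ, fun P hP hd => ?_⟩
  exact (Finset.sum_le_sum fun i _ => h _ _).trans_lt (h1 P hP hd)

theorem deriv_le_of_dist_le {F I : ℝ → ℝ} {t c : ℝ} (hI : HasDerivAt I c t)
    (h : ∀ s t, dist (F s) (F t) ≤ dist (I s) (I t)) : |deriv F t| ≤ |c| := by
  by_cases hF : DifferentiableAt ℝ F t
  · have h1 := (hasDerivAt_iff_tendsto_slope.1 hF.hasDerivAt).abs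
    have h2 := (hasDerivAt_iff_tendsto_slope.1 hI).abs
    refine le_of_tendsto_of_tendsto' h1 h2 fun s => ?_
    simp only [slope_def_field, abs_div]
    have := h s t
    rw [Real.dist_eq, Real.dist_eq] at this
    gcongr
  · rw [deriv_zero_of_not_differentiableAt hF, abs_zero]
    exact abs_nonneg _

/-- the statement on a good line -/
theorem core (f : E d → ℝ) (hf : Integrable f) (e x : E d) (he : ‖e‖ = 1) (G : E d → E d)
    (fn : ℕ → E d → ℝ) (Gn : ℕ → E d → E d) (hN : ∀ n, Nice (fn n) (Gn n))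
    (hS : Tendsto (fun n => ⨆ t : ℝ, Mt (fun y => f y - fn n y) (x + t • e)) atTop (𝓝 0))
    (hG : LocallyIntegrable (fun t : ℝ => G (x + t • e)))
    (hL : ∀ T : ℕ, Tendsto (fun n => ∫⁻ t in Icc (-(T : ℝ)) T,
      ‖Gn n (x + t • e) - G (x + t • e)‖ₑ) atTop (𝓝 0)) :
    ∃ F : ℝ → ℝ, (∀ a b, AbsolutelyContinuousOnInterval F a b) ∧
      (∀ᵐ t : ℝ, ‖deriv F t‖ₑ ≤ ‖G (x + t • e)‖ₑ) ∧
      (∀ t, Mt f (x + t • e) < ⊤ ∧ F t ≤ (Mt f (x + t • e)).toReal) ∧
      ∀ T > 0, ∀ ε > 0, ∀ᶠ k : ℕ in atTop, ∀ t ∈ Icc (-T) T,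
        (Mt f (x + t • e)).toReal ≤ max (V (rad k) f (x + t • e)).toReal (F t + ε) := by
  set S : ℕ → ℝ≥0∞ := fun n => ⨆ t : ℝ, Mt (fun y => f y - fn n y) (x + t • e) with hSdef
  have hSt : ∀ n (t : ℝ), Mt (fun y => f y - fn n y) (x + t • e) ≤ S n := fun n t =>
    le_iSup (fun t : ℝ => Mt (fun y => f y - fn n y) (x + t • e)) t
  have hcont : ∀ n, Continuous (fn n) := fun n => (hN n).smooth.continuous
  have hi : ∀ n, Integrable (fun y => f y - fn n y) := fun n => hf.sub (hN n).int
  have hi' : ∀ n, Integrable (fun y => -(f y - fn n y)) := fun n => (hi n).neg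
  -- uniform Cauchy property
  have hC : ∀ n m (t : ℝ), ‖fn n (x + t • e) - fn m (x + t • e)‖ₑ ≤ S n + S m := by
    intro n m t
    have h1 := le_Mt (fun y => fn n y - fn m y) ((hcont n).sub (hcont m)) (x + t • e)
    have h2 : (fun y => fn n y - fn m y) = fun y => -(f y - fn n y) + (f y - fn m y) := by
      funext y; ring
    rw [h2] at h1
    have h3 := h1.trans (Mt_add _ _ (hi' n) (hi m) _)
    rw [Mt_neg] at h3
    exact h3.trans (add_le_add (hSt n t) (hSt m t))
  have hlim : ∀ t : ℝ, ∃ l : ℝ, Tendsto (fun n => fn n (x + t • e)) atTop (𝓝 l) := by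
    intro t
    refine cauchySeq_tendsto_of_complete ?_
    rw [EMetric.cauchySeq_iff]
    intro ε hε
    have h1 : ∀ᶠ n in atTop, S n < ε / 2 :=
      (tendsto_order.1 hS).2 _ (ENNReal.half_pos hε.ne')
    obtain ⟨N, hN1⟩ := eventually_atTop.1 h1
    refine ⟨N, fun m hm n hn => ?_⟩
    rw [edist_eq_enorm_sub]
    calc _ ≤ S m + S n := hC m n t
      _ < ε / 2 + ε / 2 := ENNReal.add_lt_add (hN1 m hm) (hN1 n hn)
      _ = ε := ENNReal.add_halves ε
  choose φ hφ using hlim
  have hφS : ∀ n t, ‖fn n (x + t • e) - φ t‖ₑ ≤ S n := by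
    intro n t
    have h1 : Tendsto (fun m => ‖fn n (x + t • e) - fn m (x + t • e)‖ₑ) atTop
        (𝓝 ‖fn n (x + t • e) - φ t‖ₑ) := (tendsto_const_nhds.sub (hφ t)).enorm
    have h2 : Tendsto (fun m => S n + S m) atTop (𝓝 (S n + 0)) := tendsto_const_nhds.add hS
    rw [add_zero] at h2
    exact le_of_tendsto_of_tendsto' h1 h2 fun m => hC n m t
  -- the limit is a primitive
  set g : ℝ → ℝ := fun t => inner ℝ (G (x + t • e)) e with hg
  have hgl : LocallyIntegrable g := by
    have : g = fun t => (innerSL ℝ e) (G (x + t • e)) := by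
      funext t
      rw [hg, innerSL_apply_apply, real_inner_comm]
    rw [this]
    intro t
    obtain ⟨s, hs, hsi⟩ := hG t
    exact ⟨s, hs, (innerSL ℝ e).integrable_comp hsi⟩
  have hprim : ∀ t, φ t - φ 0 = ∫ s in (0 : ℝ)..t, g s := by
    intro t
    have h1 : Tendsto (fun n => fn n (x + t • e) - fn n (x + (0 : ℝ) • e)) atTop
        (𝓝 (φ t - φ 0)) := (hφ t).sub (hφ 0)
    have hder : ∀ n (s : ℝ), HasDerivAt (fun s : ℝ => fn n (x + s • e))
        (inner ℝ (Gn n (x + s • e)) e) s := by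
      intro n s
      have h2 : HasDerivAt (fun s : ℝ => x + s • e) e s := by
        simpa using ((hasDerivAt_id s).smul_const e).const_add x
      have h3 := (((hN n).smooth.differentiable (by norm_num)) (x + s • e)).hasFDerivAt
      have h4 := h3.comp_hasDerivAt s h2
      rwa [(hN n).grad] at h4
    have hcd : ∀ n, Continuous fun s : ℝ => (inner ℝ (Gn n (x + s • e)) e : ℝ) := by
      intro n
      have h2 : (fun s : ℝ => (inner ℝ (Gn n (x + s • e)) e : ℝ)) =
          fun s : ℝ => fderiv ℝ (fn n) (x + s • e) e := by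
        funext s
        rw [(hN n).grad]
      rw [h2]
      have h3 : Continuous (fderiv ℝ (fn n)) := (hN n).smooth.continuous_fderiv (by norm_num)
      fun_prop
    have h2 : ∀ n, fn n (x + t • e) - fn n (x + (0 : ℝ) • e) =
        ∫ s in (0 : ℝ)..t, (inner ℝ (Gn n (x + s • e)) e : ℝ) := by
      intro n
      rw [intervalIntegral.integral_eq_sub_of_hasDerivAt (fun s _ => hder n s)
        ((hcd n).intervalIntegrable _ _)]
    obtain ⟨T, hT⟩ := exists_nat_gt |t|
    have hsub : uIoc 0 t ⊆ Icc (-(T : ℝ)) T := by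
      intro s hs
      have h3 := uIoc_subset_uIcc hs
      rw [mem_uIcc] at h3
      have h4 := abs_lt.1 hT
      rcases h3 with h3 | h3 <;> constructor <;> linarith [h3.1, h3.2]
    have h3 : Tendsto (fun n => ∫ s in uIoc 0 t, (inner ℝ (Gn n (x + s • e)) e : ℝ)) atTop
        (𝓝 (∫ s in uIoc 0 t, g s)) := by
      refine tendsto_integral_of_L1 _ ?_ ?_ ?_
      · exact (hgl.integrableOn_isCompact isCompact_uIcc).mono_set uIoc_subset_uIcc
          |>.aestronglyMeasurable
      · exact Eventually.of_forall fun n =>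
          ((hcd n).locallyIntegrable.integrableOn_isCompact isCompact_uIcc).mono_set
            uIoc_subset_uIcc
      · refine tendsto_of_tendsto_of_tendsto_of_le_of_le tendsto_const_nhds (hL T)
          (fun n => zero_le) (fun n => ?_)
        calc ∫⁻ s in uIoc 0 t, ‖(inner ℝ (Gn n (x + s • e)) e : ℝ) - g s‖ₑ
            ≤ ∫⁻ s in uIoc 0 t, ‖Gn n (x + s • e) - G (x + s • e)‖ₑ := by
              refine lintegral_mono fun s => ?_
              simp only [hg]
              rw [← inner_sub_left, ← ofReal_norm, ← ofReal_norm]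
              refine ENNReal.ofReal_le_ofReal ((norm_inner_le_norm _ _).trans ?_)
              rw [he, mul_one]
          _ ≤ _ := lintegral_mono_set hsub
    have h4 : Tendsto (fun n => ∫ s in (0 : ℝ)..t, (inner ℝ (Gn n (x + s • e)) e : ℝ)) atTop
        (𝓝 (∫ s in (0 : ℝ)..t, g s)) := by
      simp only [intervalIntegral.intervalIntegral_eq_integral_uIoc]
      exact h3.const_smul _
    exact tendsto_nhds_unique h1 (h4.congr fun n => (h2 n).symm)
  set I : ℝ → ℝ := fun t => ∫ s in (0 : ℝ)..t, g s with hI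
  have hd : ∀ s t, dist |φ s| |φ t| ≤ dist (I s) (I t) := by
    intro s t
    have h1 := hprim s
    have h2 := hprim t
    rw [Real.dist_eq, Real.dist_eq]
    have h3 : I s - I t = φ s - φ t := by
      simp only [hI]
      linarith
    rw [h3]
    exact abs_abs_sub_abs_le _ _
  have hgi : ∀ a b, IntervalIntegrable g volume a b := fun a b =>
    intervalIntegrable_iff.2 ((hgl.integrableOn_isCompact isCompact_uIcc).mono_set
      uIoc_subset_uIcc)
  refine ⟨fun t => |φ t|, fun a b => ?_, ?_, ?_, ?_⟩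
  · refine ac_of_dist_le (I := I) ?_ hd
    have h1 : AbsolutelyContinuousOnInterval I (-(|a| + |b|)) (|a| + |b|) := by
      refine (hgi _ _).absolutelyContinuousOnInterval_intervalIntegral ?_
      rw [mem_uIcc]
      left
      constructor <;> linarith [abs_nonneg a, abs_nonneg b]
    refine h1.mono ?_
    intro s hs
    rw [mem_uIcc] at hs ⊢
    left
    have := neg_abs_le a
    have := neg_abs_le b
    have := le_abs_self a
    have := le_abs_self b
    have := abs_nonneg a
    have := abs_nonneg b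
    rcases hs with hs | hs <;> constructor <;> linarith [hs.1, hs.2]
  · filter_upwards [_root_.LocallyIntegrable.ae_hasDerivAt_integral hgl] with t ht
    have h1 := deriv_le_of_dist_le (F := fun t => |φ t|) (ht 0) hd
    rw [← ofReal_norm, ← ofReal_norm]
    refine ENNReal.ofReal_le_ofReal ?_
    rw [Real.norm_eq_abs]
    refine h1.trans ?_
    rw [← Real.norm_eq_abs]
    refine (norm_inner_le_norm _ _).trans ?_
    rw [he, mul_one]
  · intro t
    have hfin : Mt f (x + t • e) < ⊤ := by
      have h1 : ∀ᶠ n in atTop, S n < ⊤ := (tendsto_order.1 hS).2 _ ENNReal.zero_lt_top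
      obtain ⟨n, hn⟩ := h1.exists
      have h2 := Mt_add (fun y => f y - fn n y) (fn n) (hi n) (hN n).int (x + t • e)
      have h3 : (fun y => (f y - fn n y) + fn n y) = f := by funext y; ring
      rw [h3] at h2
      exact h2.trans_lt (ENNReal.add_lt_top.2
        ⟨(hSt n t).trans_lt hn, Mt_lt_top (hcont n) (hN n).int _⟩)
    refine ⟨hfin, ?_⟩
    have h1 : ‖φ t‖ₑ ≤ Mt f (x + t • e) := by
      have h2 : Tendsto (fun n => Mt f (x + t • e) + (S n + S n)) atTop
          (𝓝 (Mt f (x + t • e) + (0 + 0))) := tendsto_const_nhds.add (hS.add hS)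
      rw [add_zero, add_zero] at h2
      refine ge_of_tendsto' h2 fun n => ?_
      have h3 := Mt_add f (fun y => -(f y - fn n y)) hf (hi' n) (x + t • e)
      have h4 : (fun y => f y + -(f y - fn n y)) = fn n := by funext y; ring
      rw [h4, Mt_neg] at h3
      have h5 : ‖φ t‖ₑ ≤ ‖fn n (x + t • e)‖ₑ + ‖fn n (x + t • e) - φ t‖ₑ := by
        have h6 := enorm_sub_le (a := fn n (x + t • e)) (b := fn n (x + t • e) - φ t)
        rwa [sub_sub_cancel] at h6
      calc ‖φ t‖ₑ ≤ ‖fn n (x + t • e)‖ₑ + ‖fn n (x + t • e) - φ t‖ₑ := h5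
        _ ≤ (Mt f (x + t • e) + S n) + S n :=
            add_le_add ((le_Mt _ (hcont n) _).trans (h3.trans (by gcongr; exact hSt n t)))
              (hφS n t)
        _ = _ := by rw [add_assoc]
    have h2 := ENNReal.toReal_mono hfin.ne h1
    rwa [toReal_enorm, Real.norm_eq_abs] at h2
  · intro T hT ε hε
    -- choose `n`
    have h1 : ∀ᶠ n in atTop, S n < ENNReal.ofReal (ε / 4) :=
      (tendsto_order.1 hS).2 _ (ENNReal.ofReal_pos.2 (by positivity))
    obtain ⟨n, hn⟩ := h1.exists
    -- uniform continuity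
    have huc := (isCompact_closedBall x (T + 1)).uniformContinuousOn_of_continuous
      (hcont n).continuousOn
    obtain ⟨δ, hδ, hδ1⟩ := Metric.uniformContinuousOn_iff.1 huc (ε / 4) (by positivity)
    have hrad : Tendsto (fun k : ℕ => rad k) atTop (𝓝 0) := by
      have e1 : (fun k : ℕ => rad k) = fun k : ℕ => ((3 : ℝ)⁻¹) ^ k * (3 : ℝ) ^ (-4 : ℤ) := by
        funext k
        unfold rad
        rw [sub_eq_add_neg, zpow_add₀ (by norm_num), zpow_neg, zpow_natCast, inv_pow]
      rw [e1]
      have e2 := (tendsto_pow_atTop_nhds_zero_of_lt_one (r := (3 : ℝ)⁻¹) (by norm_num)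
        (by norm_num)).mul_const ((3 : ℝ) ^ (-4 : ℤ))
      rwa [zero_mul] at e2
    have h2 : ∀ᶠ k : ℕ in atTop, rad k < min (δ / 2) (1 / 2) :=
      (tendsto_order.1 hrad).2 _ (by positivity)
    filter_upwards [h2] with k hk t ht
    have hk1 : 2 * rad k < δ := by have := hk.trans_le (min_le_left _ _); linarith
    have hk2 : 2 * rad k < 1 := by have := hk.trans_le (min_le_right _ _); linarith
    set y := x + t • e with hy
    have hyx : dist y x ≤ T := by
      rw [hy, dist_eq_norm, add_sub_cancel_left, norm_smul, he, mul_one, Real.norm_eq_abs]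
      exact abs_le.2 ht
    have h3 : Mt f y ≤ max (V (rad k) f y) (ENNReal.ofReal (|φ t| + ε)) := by
      refine Mt_split fun c r hyc hr => ?_
      have h4 := avg_add_le (f := fun y => f y - fn n y) (g := fn n) (hi n) c r
      have h5 : (fun y => (f y - fn n y) + fn n y) = f := by funext y; ring
      rw [h5] at h4
      have h6 : avg (fn n) c r ≤ ENNReal.ofReal (|φ t| + ε / 4 + ε / 4) := by
        refine avg_le_of (pos_of_mem_ball hyc) fun z hz => ?_
        have hzy := mem_near hyc hz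
        have hz1 : dist z y < δ := by linarith
        have hz2 : dist z x ≤ T + 1 := by
          have := dist_triangle z y x
          linarith
        have h7 := hδ1 z (mem_closedBall.2 hz2) y (mem_closedBall.2 (by linarith)) hz1
        have h8 : |fn n y - φ t| ≤ ε / 4 := by
          have h9 := (hφS n t).trans hn.le
          rw [← ofReal_norm, ENNReal.ofReal_le_ofReal_iff (by positivity)] at h9
          exact h9
        rw [← ofReal_norm]
        refine ENNReal.ofReal_le_ofReal ?_
        rw [Real.norm_eq_abs]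
        rw [Real.dist_eq] at h7
        have e1 := abs_sub_abs_le_abs_sub (fn n z) (fn n y)
        have e2 := abs_sub_abs_le_abs_sub (fn n y) (φ t)
        linarith
      calc avg f c r ≤ avg (fun y => f y - fn n y) c r + avg (fn n) c r := h4
        _ ≤ ENNReal.ofReal (ε / 4) + ENNReal.ofReal (|φ t| + ε / 4 + ε / 4) :=
            add_le_add (((avg_le_Mt hyc).trans (hSt n t)).trans hn.le) h6
        _ = ENNReal.ofReal (ε / 4 + (|φ t| + ε / 4 + ε / 4)) :=
            (ENNReal.ofReal_add (by positivity) (by positivity)).symm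
        _ ≤ _ := ENNReal.ofReal_le_ofReal (by linarith)
    have hpos : 0 ≤ |φ t| + ε := by positivity
    rcases le_total (V (rad k) f y) (ENNReal.ofReal (|φ t| + ε)) with h4 | h4
    · rw [max_eq_right h4] at h3
      have h5 := ENNReal.toReal_mono ENNReal.ofReal_ne_top h3
      rw [ENNReal.toReal_ofReal hpos] at h5
      exact h5.trans (le_max_right _ _)
    · rw [max_eq_left h4] at h3
      refine (ENNReal.toReal_mono ?_ h3).trans (le_max_left _ _)
      exact (V_lt_top f hf _ (by unfold rad; positivity) y).ne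

theorem W11.sub {f g : E d → ℝ} {F G : E d → E d} (hf : W11 f F) (hg : W11 g G) :
    W11 (fun x => f x - g x) (fun x => F x - G x) := by
  refine ⟨hf.int.sub hg.int, hf.intG.sub hg.intG, ?_⟩
  intro φ hφ hc v
  have h1 := hf.weak φ hφ hc v
  have h2 := hg.weak φ hφ hc v
  have hcφ : Continuous φ := hφ.continuous
  have hcd : Continuous fun x => fderiv ℝ φ x v :=
    (hφ.continuous_fderiv (by simp)).clm_apply continuous_const
  obtain ⟨C, hC⟩ := hc.exists_bound_of_continuous hcφ
  have hc' : HasCompactSupport fun x => fderiv ℝ φ x v := by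
    refine hc.mono' ?_
    intro x hx
    by_contra hcon
    apply hx
    have h3 : φ =ᶠ[𝓝 x] 0 := by
      have := notMem_tsupport_iff_eventuallyEq.1 hcon
      exact this
    have h4 := h3.fderiv_eq (𝕜 := ℝ)
    change fderiv ℝ φ x v = 0
    rw [h4]
    simp
  obtain ⟨C', hC'⟩ := hc'.exists_bound_of_continuous hcd
  have i1 : ∀ {u : E d → ℝ}, Integrable u → Integrable fun x => u x * fderiv ℝ φ x v :=
    fun hu => hu.mul_bdd (c := C') hcd.aestronglyMeasurable (Eventually.of_forall hC')
  have i2 : ∀ {u : E d → E d}, Integrable u → Integrable fun x => inner ℝ (u x) v * φ x := by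
    intro u hu
    have h3 : Integrable fun x => (inner ℝ (u x) v : ℝ) := hu.inner_const v
    exact h3.mul_bdd (c := C) hcφ.aestronglyMeasurable (Eventually.of_forall hC)
  simp only [sub_mul, inner_sub_left]
  rw [integral_sub (i1 hf.int) (i1 hg.int), integral_sub (i2 hf.intG) (i2 hg.intG), h1, h2]
  ring

end LA

open LA

theorem line_approx {d : ℕ} (hd : 0 < d) (f : E d → ℝ) (G : E d → E d) (h : W11 f G) (i : Fin d) :
    ∀ᵐ x : E d, ∃ F : ℝ → ℝ, (∀ a b, AbsolutelyContinuousOnInterval F a b) ∧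
      (∀ᵐ t : ℝ, ‖deriv F t‖ₑ ≤ ‖G (x + t • EuclideanSpace.single i 1)‖ₑ) ∧
      (∀ t, Mt f (x + t • EuclideanSpace.single i 1) < ⊤ ∧
        F t ≤ (Mt f (x + t • EuclideanSpace.single i 1)).toReal) ∧
      ∀ T > 0, ∀ ε > 0, ∀ᶠ k : ℕ in atTop, ∀ t ∈ Icc (-T) T,
        (Mt f (x + t • EuclideanSpace.single i 1)).toReal ≤
          max (V (rad k) f (x + t • EuclideanSpace.single i 1)).toReal (F t + ε) := by
  set e : E d := EuclideanSpace.single i 1 with he_def
  have he : ‖e‖ = 1 := by rw [he_def]; simp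
  obtain ⟨gn, Hn, -, hN, -, hHn⟩ := mollify f G h
  -- a fast subsequence
  have hev : ∀ n : ℕ, ∀ᶠ k in atTop, ∫ x, ‖Hn k x - G x‖ < (1 / 2 : ℝ) ^ n := fun n =>
    (tendsto_order.1 hHn).2 _ (by positivity)
  obtain ⟨σ, -, hσ⟩ := extraction_forall_of_eventually hev
  set fn : ℕ → E d → ℝ := fun n => gn (σ n) with hfn
  set Gn : ℕ → E d → E d := fun n => Hn (σ n) with hGn
  have hN' : ∀ n, Nice (fn n) (Gn n) := fun n => hN (σ n)
  have hW : ∀ n, W11 (fun x => f x - fn n x) (fun x => G x - Gn n x) := fun n =>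
    W11.sub h (Nice.w11 _ _ (hN' n))
  have hGi : ∀ n, Integrable (fun x => Gn n x - G x) := fun n => (hN' n).intG.sub h.intG
  have hl : ∀ n, ∫⁻ x, ‖Gn n x - G x‖ₑ ≤ ENNReal.ofReal ((1 / 2 : ℝ) ^ n) := by
    intro n
    have h1 := ofReal_integral_norm_eq_lintegral_enorm (hGi n)
    rw [← h1]
    exact ENNReal.ofReal_le_ofReal (hσ n).le
  have hsum : ∑' n : ℕ, ENNReal.ofReal ((1 / 2 : ℝ) ^ n) ≠ ⊤ := by
    rw [← ENNReal.ofReal_tsum_of_nonneg (fun n => by positivity)
      (summable_geometric_of_lt_one (by norm_num) (by norm_num))]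
    exact ENNReal.ofReal_ne_top
  have hsum' : ∑' n : ℕ, ∫⁻ x, ‖Gn n x - G x‖ₑ ≠ ⊤ :=
    ne_top_of_le_ne_top hsum (ENNReal.tsum_le_tsum hl)
  -- suprema on lines
  have hSae : ∀ᵐ x : E d, Tendsto (fun n => ⨆ t : ℝ, Mt (fun y => f y - fn n y) (x + t • e))
      atTop (𝓝 0) := by
    refine tsum_ae (fun n x => ⨆ t : ℝ, Mt (fun y => f y - fn n y) (x + t • e)) (fun n => ?_)
      fun ρ => ?_
    · refine (LowerSemicontinuous.measurable ?_).aemeasurable
      refine lowerSemicontinuous_iSup fun t => ?_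
      exact (Mt_lsc _).comp (by fun_prop : Continuous fun x : E d => x + t • e)
    · obtain ⟨C, hC⟩ := sup_line d hd
      have h2 : ∀ n, ∫⁻ x in ball (0 : E d) ρ, ⨆ t : ℝ, Mt (fun y => f y - fn n y) (x + t • e) ≤
          C ρ * ∫⁻ x, ‖Gn n x - G x‖ₑ := by
        intro n
        refine (hC _ _ (hW n) ρ i).trans (le_of_eq ?_)
        congr 1
        refine lintegral_congr fun x => ?_
        rw [← enorm_neg, neg_sub]
      refine ne_top_of_le_ne_top ?_ (ENNReal.tsum_le_tsum h2)
      rw [ENNReal.tsum_mul_left]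
      exact ENNReal.mul_ne_top ENNReal.coe_ne_top hsum'
  -- integrals on lines
  have hgm : ∀ n, AEMeasurable fun x => ‖Gn n x - G x‖ₑ := fun n =>
    (hGi n).aestronglyMeasurable.enorm
  have hLae : ∀ᵐ x : E d, ∀ T : ℕ, Tendsto (fun n => ∫⁻ t in Icc (-(T : ℝ)) T,
      ‖Gn n (x + t • e) - G (x + t • e)‖ₑ) atTop (𝓝 0) := by
    rw [ae_all_iff]
    intro T
    refine tsum_ae (fun n x => ∫⁻ t in Icc (-(T : ℝ)) T, ‖Gn n (x + t • e) - G (x + t • e)‖ₑ)
      (fun n => aem_line e _ (hgm n) T) fun ρ => ?_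
    refine ne_top_of_le_ne_top ?_
      (ENNReal.tsum_le_tsum fun n => line_lint e (fun x => ‖Gn n x - G x‖ₑ) (hgm n) ρ T)
    rw [ENNReal.tsum_mul_left]
    exact ENNReal.mul_ne_top (by rw [Real.volume_Icc]; exact ENNReal.ofReal_ne_top) hsum'
  -- local integrability of `G` on lines
  have hGm : AEMeasurable fun x => ‖G x‖ₑ := h.intG.aestronglyMeasurable.enorm
  have hGae : ∀ᵐ x : E d, LocallyIntegrable fun t : ℝ => G (x + t • e) := by
    have h1 : ∀ᵐ x : E d, AEStronglyMeasurable (fun t : ℝ => G (x + t • e)) volume := by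
      have h2 : AEStronglyMeasurable (fun p : E d × ℝ => G (p.1 + p.2 • e))
          (volume.prod volume) :=
        h.intG.aestronglyMeasurable.comp_quasiMeasurePreserving (qmp_st e)
      exact h2.prodMk_left
    have h3 : ∀ᵐ x : E d, ∀ T : ℕ, ∀ ρ : ℕ, x ∈ ball (0 : E d) ρ →
        ∫⁻ t in Icc (-(T : ℝ)) T, ‖G (x + t • e)‖ₑ < ⊤ := by
      rw [ae_all_iff]
      intro T
      rw [ae_all_iff]
      intro ρ
      refine (ae_restrict_iff' measurableSet_ball).1 ?_
      refine ae_lt_top' (aem_line e _ hGm T).restrict ?_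
      refine ne_top_of_le_ne_top ?_ (line_lint e (fun x => ‖G x‖ₑ) hGm ρ T)
      exact ENNReal.mul_ne_top (by rw [Real.volume_Icc]; exact ENNReal.ofReal_ne_top)
        h.intG.hasFiniteIntegral.ne
    filter_upwards [h1, h3] with x hx1 hx3
    obtain ⟨ρ, hρ⟩ := exists_nat_gt ‖x‖
    rw [locallyIntegrable_iff]
    intro K hK
    obtain ⟨r, hr⟩ := hK.isBounded.subset_closedBall (0 : ℝ)
    obtain ⟨T, hT⟩ := exists_nat_gt r
    have hsub : K ⊆ Icc (-(T : ℝ)) T := by
      intro t ht
      have := hr ht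
      rw [Real.closedBall_eq_Icc] at this
      constructor <;> linarith [this.1, this.2]
    refine IntegrableOn.mono_set ⟨hx1.restrict, ?_⟩ hsub
    exact hx3 T ρ (by simpa using hρ)
  filter_upwards [hSae, hLae, hGae] with x h1 h2 h3
  exact core f h.int e x he G fn Gn hN' h1 h3 h2

end P137
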