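import Vale.Agent.P137.LinesOf
import Vale.Agent.P137.VarW
import Vale.Agent.P137.LineApprox

/-!
# P137 [LINE]: absolute continuity of the maximal function on almost every line
-/

open MeasureTheory Metric Set Filter Topology
open scoped ENNReal ContDiff NNReal

namespace P137

/-- [LINE] -/
theorem line_ac (d : ℕ) (hd : 0 < d) :
    ∃ C : ℝ≥0, ∀ (f : E d → ℝ) (G : E d → E d), W11 f G → ∀ i : Fin d,
      ∃ D : E d → ℝ, Integrable D ∧ ∫⁻ x, ‖D x‖ₑ ≤ C * ∫⁻ x, ‖G x‖ₑ ∧
        ∀ᵐ x, ∀ t : ℝ, (Mt f (x + t • EuclideanSpace.single i 1)).toReal - (Mt f x).toReal =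
          ∫ s in (0 : ℝ)..t, D (x + s • EuclideanSpace.single i 1) :=
  line_ac_of d (var_W11 d hd) (line_approx hd)

end P137
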