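import Vale.Agent.P137.AC1
import Vale.Agent.P137.MaxBasic
import Vale.Agent.P137.MaxLip

/-!
# P137 [LINE]: absolute continuity of the maximal function on almost every line
-/

open MeasureTheory Metric Set Filter Topology
open scoped ENNReal ContDiff NNReal

namespace P137

namespace LineAux

variable {d : ℕ}

/-- Tonelli along the lines of direction `e`. -/
theorem lintegral_line (e : E d) {g : E d → ℝ≥0∞} (hg : Measurable g) (s : Set ℝ) :
    ∫⁻ x, ∫⁻ t in s, g (x + t • e) = volume s * ∫⁻ x, g x := by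
  rw [lintegral_lintegral_swap]
  · have h1 : ∀ t : ℝ, ∫⁻ x, g (x + t • e) = ∫⁻ x, g x := fun t =>
      lintegral_add_right_eq_self g (t • e)
    simp only [h1]
    rw [lintegral_const, mul_comm, Measure.restrict_apply_univ]
  · exact (hg.comp (by fun_prop)).aemeasurable

/-- almost every point of almost every line avoids a null set -/
theorem ae_line (e : E d) {p : E d → Prop} (h : ∀ᵐ x, p x) :
    ∀ᵐ x : E d, ∀ᵐ t : ℝ, p (x + t • e) := by
  obtain ⟨N, hpN, hNm, hN0⟩ := exists_measurable_superset_of_null (ae_iff.1 h)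
  have h1 := lintegral_line e (g := N.indicator 1) (measurable_one.indicator hNm) univ
  rw [lintegral_indicator_one hNm, hN0, mul_zero] at h1
  have hm : Measurable fun x : E d => ∫⁻ t in (univ : Set ℝ), N.indicator 1 (x + t • e) := by
    apply Measurable.lintegral_prod_right'
      (f := fun q : E d × ℝ => N.indicator (1 : E d → ℝ≥0∞) (q.1 + q.2 • e))
    exact (measurable_one.indicator hNm).comp (by fun_prop)
  rw [lintegral_eq_zero_iff hm] at h1
  filter_upwards [h1] with x hx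
  have hm2 : Measurable fun t : ℝ => N.indicator (1 : E d → ℝ≥0∞) (x + t • e) :=
    (measurable_one.indicator hNm).comp (by fun_prop)
  rw [Measure.restrict_univ, Pi.zero_apply, lintegral_eq_zero_iff hm2] at hx
  filter_upwards [hx] with t ht
  by_contra hp
  have : x + t • e ∈ N := hpN hp
  simp [this] at ht

/-- converse of `ae_line` for measurable sets -/
theorem null_of_line (e : E d) {N : Set (E d)} (hN : MeasurableSet N)
    (h : ∀ᵐ x : E d, ∀ᵐ t : ℝ, t ∈ Ioo (0 : ℝ) 1 → x + t • e ∉ N) : volume N = 0 := by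
  have h1 := lintegral_line e (g := N.indicator 1) (measurable_one.indicator hN) (Ioo 0 1)
  rw [lintegral_indicator_one hN] at h1
  simp only [Real.volume_Ioo, sub_zero, ENNReal.ofReal_one, one_mul] at h1
  rw [← h1]
  rw [lintegral_congr_ae (g := fun _ => 0), lintegral_zero]
  filter_upwards [h] with x hx
  rw [lintegral_congr_ae (g := fun _ => 0), lintegral_zero]
  rw [EventuallyEq, ae_restrict_iff' measurableSet_Ioo]
  filter_upwards [hx] with t ht htI
  simp [ht htI]

/-- line derivative along the line -/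
theorem deriv_line (w : E d → ℝ) (x e : E d) (t : ℝ) :
    deriv (fun s : ℝ => w (x + s • e)) t = lineDeriv ℝ w (x + t • e) e := by
  rw [lineDeriv]
  have h := deriv_comp_const_add (fun s : ℝ => w (x + s • e)) t 0
  rw [add_zero] at h
  rw [← h]
  congr 1
  ext s
  simp only [add_smul, add_assoc]

end LineAux

open LineAux

/-- [LINE] from the statements of `var_W11` and `line_approx` -/
theorem line_ac_of (d : ℕ)
    (hvar : ∃ C : ℝ≥0, ∀ (f : E d → ℝ) (G : E d → E d), W11 f G → ∀ (N : ℤ) (i : Fin d),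
      ∫⁻ x, ‖lineDeriv ℝ (fun x => (V (rad N) f x).toReal) x (EuclideanSpace.single i 1)‖ₑ ≤
        C * ∫⁻ x, ‖G x‖ₑ)
    (hla : ∀ (f : E d → ℝ) (G : E d → E d) (_ : W11 f G) (i : Fin d),
      ∀ᵐ x : E d, ∃ F : ℝ → ℝ, (∀ a b, AbsolutelyContinuousOnInterval F a b) ∧
        (∀ᵐ t : ℝ, ‖deriv F t‖ₑ ≤ ‖G (x + t • EuclideanSpace.single i 1)‖ₑ) ∧
        (∀ t, Mt f (x + t • EuclideanSpace.single i 1) < ⊤ ∧
          F t ≤ (Mt f (x + t • EuclideanSpace.single i 1)).toReal) ∧
        ∀ T > 0, ∀ ε > 0, ∀ᶠ k : ℕ in atTop, ∀ t ∈ Icc (-T) T,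
          (Mt f (x + t • EuclideanSpace.single i 1)).toReal ≤
            max (V (rad k) f (x + t • EuclideanSpace.single i 1)).toReal (F t + ε)) :
    ∃ C : ℝ≥0, ∀ (f : E d → ℝ) (G : E d → E d), W11 f G → ∀ i : Fin d,
      ∃ D : E d → ℝ, Integrable D ∧ ∫⁻ x, ‖D x‖ₑ ≤ C * ∫⁻ x, ‖G x‖ₑ ∧
        ∀ᵐ x, ∀ t : ℝ, (Mt f (x + t • EuclideanSpace.single i 1)).toReal - (Mt f x).toReal =
          ∫ s in (0 : ℝ)..t, D (x + s • EuclideanSpace.single i 1) := by
  obtain ⟨C, hC⟩ := hvar
  refine ⟨C + 2, fun f G h i => ?_⟩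
  set e : E d := EuclideanSpace.single i 1 with he
  set u : E d → ℝ := fun x => (Mt f x).toReal with hu
  set U : ℕ → E d → ℝ := fun k x => (V (rad k) f x).toReal with hU
  have hUlip : ∀ k, ∃ L : ℝ≥0, LipschitzWith L (U k) := fun k => V_lip f h.int (rad k) (rad_pos _)
  have hUc : ∀ k, Continuous (U k) := fun k => (hUlip k).choose_spec.continuous
  have hum : Measurable u := (Mt_lsc f).measurable.ennreal_toReal
  -- a measurable version of `G`
  have hGfin : ∫⁻ x, ‖G x‖ₑ < ⊤ := h.intG.hasFiniteIntegral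
  set G' : E d → E d := h.intG.aestronglyMeasurable.mk G with hG'
  have hG'm : Measurable G' := h.intG.aestronglyMeasurable.stronglyMeasurable_mk.measurable
  have hGG' : ∀ᵐ x, G x = G' x := h.intG.aestronglyMeasurable.ae_eq_mk
  -- the dominating function
  set l : ℕ → E d → ℝ≥0∞ := fun k x => ‖lineDeriv ℝ (U k) x e‖ₑ with hl
  have hlm : ∀ k, Measurable (l k) := fun k => (measurable_lineDeriv (hUc k)).enorm
  set Θ : E d → ℝ≥0∞ := fun x => liminf (fun k => l k x) atTop + 2 * ‖G' x‖ₑ with hΘ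
  have hΘm : Measurable Θ := (Measurable.liminf hlm).add (hG'm.enorm.const_mul _)
  have hlint : ∀ k, ∫⁻ x, l k x ≤ C * ∫⁻ x, ‖G x‖ₑ := fun k => hC f G h k i
  have hΘint : ∫⁻ x, Θ x ≤ (C + 2 : ℝ≥0) * ∫⁻ x, ‖G x‖ₑ := by
    have h1 : ∫⁻ x, liminf (fun k => l k x) atTop ≤ C * ∫⁻ x, ‖G x‖ₑ := by
      refine (lintegral_liminf_le hlm).trans ?_
      refine liminf_le_of_le (by isBoundedDefault) fun b hb => ?_
      obtain ⟨n, hn⟩ := hb.exists
      exact hn.trans (hlint n)
    have h2 : ∫⁻ x, 2 * ‖G' x‖ₑ = 2 * ∫⁻ x, ‖G x‖ₑ := by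
      rw [lintegral_const_mul _ hG'm.enorm]
      congr 1
      refine lintegral_congr_ae ?_
      filter_upwards [hGG'] with x hx
      rw [hx]
    rw [hΘ, lintegral_add_right _ (hG'm.enorm.const_mul _), h2]
    push_cast
    rw [add_mul]
    gcongr
  have hΘfin : ∫⁻ x, Θ x < ⊤ := hΘint.trans_lt (ENNReal.mul_lt_top ENNReal.coe_lt_top hGfin)
  -- Fatou on the lines
  have hfinT : ∀ T : ℕ, ∀ᵐ x : E d,
      liminf (fun k => ∫⁻ t in Icc (-(T : ℝ)) T, l k (x + t • e)) atTop < ⊤ := by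
    intro T
    have hm : ∀ k, Measurable fun x : E d => ∫⁻ t in Icc (-(T : ℝ)) T, l k (x + t • e) := by
      intro k
      apply Measurable.lintegral_prod_right' (f := fun q : E d × ℝ => l k (q.1 + q.2 • e))
      exact (hlm k).comp (by fun_prop)
    refine ae_lt_top (Measurable.liminf hm) (ne_of_lt ?_)
    refine (lintegral_liminf_le hm).trans_lt ?_
    have h3 : ∀ k, ∫⁻ x, ∫⁻ t in Icc (-(T : ℝ)) T, l k (x + t • e) ≤
        volume (Icc (-(T : ℝ)) T) * (C * ∫⁻ x, ‖G x‖ₑ) := fun k => by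
      rw [lintegral_line e (hlm k)]
      gcongr
      exact hlint k
    refine (liminf_le_of_le (by isBoundedDefault) fun b hb => ?_).trans_lt
      (ENNReal.mul_lt_top (b := C * ∫⁻ x, ‖G x‖ₑ) (a := volume (Icc (-(T : ℝ)) T))
        (by simp) (ENNReal.mul_lt_top ENNReal.coe_lt_top hGfin))
    obtain ⟨n, hn⟩ := hb.exists
    exact hn.trans (h3 n)
  -- the statement on almost every line
  have hline : ∀ᵐ x : E d, (∀ T : ℕ, AbsolutelyContinuousOnInterval
      (fun t : ℝ => u (x + t • e)) (-(T : ℝ)) T) ∧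
      ∀ᵐ t : ℝ, ‖deriv (fun s : ℝ => u (x + s • e)) t‖ₑ ≤ Θ (x + t • e) := by
    filter_upwards [hla f G h i, ae_all_iff.2 hfinT, ae_line e hGG'] with x hx hxT hxG
    obtain ⟨F, hFac, hFd, hFu, hFap⟩ := hx
    have key : ∀ T : ℕ, 0 < T → AbsolutelyContinuousOnInterval
        (fun t : ℝ => u (x + t • e)) (-(T : ℝ)) T ∧ ∀ᵐ t, t ∈ Ioo (-(T : ℝ)) T →
          ‖deriv (fun t : ℝ => u (x + t • e)) t‖ₑ ≤
            liminf (fun k => ‖deriv (fun t : ℝ => U k (x + t • e)) t‖ₑ) atTop
              + 2 * ‖deriv F t‖ₑ := by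
      intro T hT
      have hT' : (0 : ℝ) < T := by exact_mod_cast hT
      refine ac_lemma (-(T : ℝ)) T (by linarith) (fun t => u (x + t • e)) F
        (fun k t => U k (x + t • e)) (hFac _ _) ?_ (fun t _ => (hFu t).2) ?_ ?_ ?_
      · intro k
        obtain ⟨L, hL⟩ := hUlip k
        have : LipschitzWith (L * ‖e‖₊) (fun t : ℝ => U k (x + t • e)) := by
          refine hL.comp ?_
          refine LipschitzWith.of_dist_le_mul fun s t => ?_
          rw [dist_add_left, dist_eq_norm, ← sub_smul, norm_smul, mul_comm, dist_eq_norm]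
          rfl
        exact this.lipschitzOnWith.absolutelyContinuousOnInterval
      · intro k t _
        exact ENNReal.toReal_mono (hFu t).1.ne (V_le_Mt f _ _)
      · intro ε hε
        exact hFap T hT' ε hε
      · have := hxT T
        simpa only [hl, deriv_line] using this
    refine ⟨fun T => ?_, ?_⟩
    · rcases Nat.eq_zero_or_pos T with rfl | hT
      · have h1 := (key 1 one_pos).1
        refine h1.mono ?_
        simp
      · exact (key T hT).1
    · have h2 : ∀ᵐ t : ℝ, ∀ T : ℕ, t ∈ Ioo (-((T + 1 : ℕ) : ℝ)) ((T + 1 : ℕ) : ℝ) →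
          ‖deriv (fun t : ℝ => u (x + t • e)) t‖ₑ ≤
            liminf (fun k => ‖deriv (fun t : ℝ => U k (x + t • e)) t‖ₑ) atTop
              + 2 * ‖deriv F t‖ₑ :=
        ae_all_iff.2 fun T => (key (T + 1) (Nat.succ_pos _)).2
      filter_upwards [h2, hFd, hxG] with t ht hFt hGt
      obtain ⟨n, hn⟩ := exists_nat_gt |t|
      have hn' : |t| < ((n + 1 : ℕ) : ℝ) := by push_cast; linarith
      refine (ht n (abs_lt.1 hn')).trans ?_
      simp only [hΘ, hl, deriv_line]
      gcongr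
      rw [← hGt]
      exact hFt
  -- difference quotients and the derivative `D`
  set q : ℕ → E d → ℝ := fun n x => ((n : ℝ) + 1) * (u (x + (1 / ((n : ℝ) + 1)) • e) - u x) with hq
  have hqm : ∀ n, Measurable (q n) := fun n =>
    ((hum.comp (by fun_prop)).sub hum).const_mul _
  have hqlim : ∀ (x : E d) (t : ℝ), DifferentiableAt ℝ (fun s : ℝ => u (x + s • e)) t →
      Tendsto (fun n => q n (x + t • e)) atTop (𝓝 (deriv (fun s : ℝ => u (x + s • e)) t)) := by
    intro x t ht
    have h1 := ht.hasDerivAt.tendsto_slope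
    have h2 : Tendsto (fun n : ℕ => t + 1 / ((n : ℝ) + 1)) atTop (𝓝[≠] t) := by
      refine tendsto_nhdsWithin_iff.2 ⟨?_, Eventually.of_forall fun n => ?_⟩
      · simpa using (tendsto_const_nhds (x := t)).add
          (tendsto_one_div_add_atTop_nhds_zero_nat (𝕜 := ℝ))
      · have : (0 : ℝ) < 1 / ((n : ℝ) + 1) := by positivity
        simp only [mem_compl_iff, mem_singleton_iff]
        linarith
    refine (h1.comp h2).congr fun n => ?_
    simp only [hq, Function.comp, slope_def_field, add_sub_cancel_left, add_smul, add_assoc]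
    field_simp
  have hS : MeasurableSet {x : E d | ∃ c, Tendsto (q · x) atTop (𝓝 c)} :=
    measurableSet_exists_tendsto hqm
  have hdiff : ∀ᵐ x : E d, ∀ᵐ t : ℝ, DifferentiableAt ℝ (fun s : ℝ => u (x + s • e)) t := by
    filter_upwards [hline] with x hx
    have h2 : ∀ᵐ t : ℝ, ∀ T : ℕ, t ∈ uIcc (-(T : ℝ)) T →
        DifferentiableAt ℝ (fun s : ℝ => u (x + s • e)) t :=
      ae_all_iff.2 fun T => (hx.1 T).ae_differentiableAt
    filter_upwards [h2] with t ht
    obtain ⟨n, hn⟩ := exists_nat_gt |t|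
    refine ht n ?_
    rw [uIcc_of_le (by linarith [abs_nonneg t])]
    exact ⟨by linarith [neg_abs_le t], by linarith [le_abs_self t]⟩
  have hSnull : ∀ᵐ x : E d, ∃ c, Tendsto (q · x) atTop (𝓝 c) := by
    refine ae_iff.2 (null_of_line e hS.compl ?_)
    filter_upwards [hdiff] with x hx
    filter_upwards [hx] with t ht _
    exact fun hc => hc ⟨_, hqlim x t ht⟩
  obtain ⟨D, hDm, hD⟩ := measurable_limit_of_tendsto_metrizable_ae
    (fun n => (hqm n).aemeasurable) hSnull
  have hDline : ∀ᵐ x : E d, ∀ᵐ t : ℝ, D (x + t • e) = deriv (fun s : ℝ => u (x + s • e)) t := by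
    filter_upwards [hdiff, ae_line e hD] with x hx hDx
    filter_upwards [hx, hDx] with t ht hDt
    exact tendsto_nhds_unique hDt (hqlim x t ht)
  have hDΘ : ∀ᵐ x, ‖D x‖ₑ ≤ Θ x := by
    have hN : MeasurableSet {x : E d | ¬ ‖D x‖ₑ ≤ Θ x} :=
      (measurableSet_le hDm.enorm hΘm).compl
    refine ae_iff.2 (null_of_line e hN ?_)
    filter_upwards [hDline, hline] with x hx hx2
    filter_upwards [hx, hx2.2] with t ht ht2 _
    refine fun hc => hc ?_
    rw [ht]
    exact ht2
  have hDint : ∫⁻ x, ‖D x‖ₑ ≤ (C + 2 : ℝ≥0) * ∫⁻ x, ‖G x‖ₑ :=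
    (lintegral_mono_ae hDΘ).trans hΘint
  refine ⟨D, ⟨hDm.aestronglyMeasurable,
    hDint.trans_lt (ENNReal.mul_lt_top ENNReal.coe_lt_top hGfin)⟩, hDint, ?_⟩
  filter_upwards [hline, hDline] with x hx hDx t
  obtain ⟨n, hn⟩ := exists_nat_gt |t|
  have hac : AbsolutelyContinuousOnInterval (fun s : ℝ => u (x + s • e)) 0 t := by
    refine (hx.1 n).mono ?_
    have hn0 : (0 : ℝ) ≤ n := by positivity
    rw [uIcc_of_le (a := -(n : ℝ)) (by linarith)]
    refine uIcc_subset_Icc ⟨by linarith, hn0⟩ ?_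
    exact ⟨by linarith [neg_abs_le t], by linarith [le_abs_self t]⟩
  have h3 := hac.integral_deriv_eq_sub
  simp only [zero_smul, add_zero] at h3
  rw [← h3]
  refine intervalIntegral.integral_congr_ae ?_
  filter_upwards [hDx] with s hs _
  rw [hs]

end P137
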