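import Vale.Agent.P137.Defs

/-!
# P137 [WD]: weak derivative from the fundamental theorem on almost every line.
-/

open MeasureTheory Metric Set Filter Topology
open scoped ENNReal ContDiff NNReal

namespace P137.WDx

variable {d : ℕ}

theorem qmp (v : E d) : Measure.QuasiMeasurePreserving (fun p : ℝ × E d => p.2 + p.1 • v)
    (volume.prod volume) volume := by
  have h1 : MeasurePreserving (fun p : ℝ × E d => (p.1, p.2 + p.1 • v))
      (volume.prod volume) (volume.prod volume) := by
    refine MeasurePreserving.skew_product (g := fun (t : ℝ) (x : E d) => x + t • v)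
      (MeasurePreserving.id _) ?_ ?_
    · exact (measurable_snd.add (measurable_fst.smul_const v))
    · exact Eventually.of_forall fun t => map_add_right_eq_self _ _
  exact Measure.quasiMeasurePreserving_snd.comp h1.quasiMeasurePreserving

theorem int_smul (u : E d → ℝ) (hu : LocallyIntegrable u) (φ : E d → ℝ) (hφ : Continuous φ)
    (hs : HasCompactSupport φ) : Integrable fun x => u x * φ x := by
  have := hu.integrable_smul_left_of_hasCompactSupport hφ hs
  simpa [smul_eq_mul, mul_comm] using this

theorem integral_diff (u : E d → ℝ) (hu : LocallyIntegrable u) (φ : E d → ℝ) (hφ : Continuous φ)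
    (hs : HasCompactSupport φ) (w : E d) :
    ∫ x, (u (x + w) - u x) * φ x = ∫ x, u x * (φ (x - w) - φ x) := by
  have hφw : Continuous fun x => φ (x - w) := hφ.comp (continuous_id.sub continuous_const)
  have hsw : HasCompactSupport fun x => φ (x - w) := hs.comp_homeomorph (Homeomorph.subRight w)
  have i1 := int_smul u hu φ hφ hs
  have i2 := int_smul u hu _ hφw hsw
  have i3 : Integrable fun x => u (x + w) * φ x := by
    have := i2.comp_add_right w
    simpa using this
  have e : ∫ x, u (x + w) * φ x = ∫ x, u x * φ (x - w) := by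
    have := integral_add_right_eq_self (μ := volume) (fun x => u x * φ (x - w)) w
    simpa using this
  simp_rw [sub_mul, mul_sub]
  rw [integral_sub i3 i1, integral_sub i2 i1, e]

theorem shift_eq (D : E d → ℝ) (φ : E d → ℝ) (w : E d) :
    ∫ x, D (x + w) * φ x = ∫ x, D x * φ (x - w) := by
  have := integral_add_right_eq_self (μ := volume) (fun x => D x * φ (x - w)) w
  simpa using this

/-- a compact set that contains the supports of all translates `φ (· - s v)`, `|s| ≤ 1` -/
theorem exists_compact (φ : E d → ℝ) (hs : HasCompactSupport φ) (v : E d) :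
    ∃ R : ℝ, ∀ s : ℝ, |s| ≤ 1 → ∀ x, x ∉ closedBall (0 : E d) R → φ (x - s • v) = 0 := by
  obtain ⟨R, hR⟩ := hs.isCompact.isBounded.subset_closedBall (0 : E d)
  refine ⟨R + ‖v‖, fun s hs1 x hx => ?_⟩
  by_contra hne
  have h1 : x - s • v ∈ closedBall (0 : E d) R := hR (subset_tsupport _ hne)
  apply hx
  rw [mem_closedBall_zero_iff] at h1 ⊢
  calc ‖x‖ = ‖(x - s • v) + s • v‖ := by simp
    _ ≤ ‖x - s • v‖ + ‖s • v‖ := norm_add_le _ _
    _ ≤ R + ‖v‖ := by
        rw [norm_smul, Real.norm_eq_abs]
        nlinarith [norm_nonneg v]

theorem A_cont (D : E d → ℝ) (hD : LocallyIntegrable D) (φ : E d → ℝ) (hφ : Continuous φ)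
    (hs : HasCompactSupport φ) (v : E d) :
    ContinuousOn (fun s : ℝ => ∫ x, D x * φ (x - s • v)) (Icc (-1) 1) := by
  obtain ⟨R, hR⟩ := exists_compact φ hs v
  obtain ⟨B, hB⟩ := hs.exists_bound_of_continuous hφ
  have hDi : IntegrableOn D (closedBall (0 : E d) R) :=
    hD.integrableOn_isCompact (isCompact_closedBall _ _)
  refine continuousOn_of_dominated (bound := fun x => (closedBall (0 : E d) R).indicator
    (fun x => ‖D x‖ * B) x) ?_ ?_ ?_ ?_
  · intro s hs'
    exact hD.aestronglyMeasurable.mul
      (hφ.comp (continuous_id.sub continuous_const)).aestronglyMeasurable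
  · intro s hs'
    refine Eventually.of_forall fun x => ?_
    by_cases hx : x ∈ closedBall (0 : E d) R
    · rw [indicator_of_mem hx, norm_mul]
      gcongr
      exact hB _
    · rw [hR s (abs_le.2 hs') x hx]
      simp [hx]
  · exact (integrable_indicator_iff measurableSet_closedBall).2 (hDi.norm.mul_const B)
  · refine Eventually.of_forall fun x => Continuous.continuousOn ?_
    exact continuous_const.mul (hφ.comp (continuous_const.sub (continuous_id.smul continuous_const)))

end P137.WDx

namespace P137

open WDx

theorem weak_of_lines {d : ℕ} (u D : E d → ℝ) (v : E d) (hu : LocallyIntegrable u)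
    (hD : LocallyIntegrable D)
    (h : ∀ᵐ x, ∀ t : ℝ, u (x + t • v) - u x = ∫ s in (0 : ℝ)..t, D (x + s • v))
    (φ : E d → ℝ) (hφ : ContDiff ℝ ∞ φ) (hs : HasCompactSupport φ) :
    ∫ x, u x * fderiv ℝ φ x v = -∫ x, D x * φ x := by
  obtain ⟨R, hR⟩ := exists_compact φ hs v
  have hφc := hφ.continuous
  obtain ⟨L, hL⟩ := (hφ.of_le (by exact_mod_cast le_top) : ContDiff ℝ 1 φ).lipschitzWith_of_hasCompactSupport
    hs one_ne_zero
  set A : ℝ → ℝ := fun s => ∫ x, D x * φ (x - s • v) with hA
  -- the difference quotients of `u` against `φ`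
  have key : ∀ t : ℝ, 0 < t → t ≤ 1 →
      ∫ x, (u (x + t • v) - u x) * φ x = ∫ s in (0 : ℝ)..t, A s := by
    intro t ht ht1
    obtain ⟨B, hB⟩ := hs.exists_bound_of_continuous hφc
    have e1 : ∫ x, (u (x + t • v) - u x) * φ x =
        ∫ x, ∫ s in Ioc (0 : ℝ) t, D (x + s • v) * φ x := by
      refine integral_congr_ae ?_
      filter_upwards [h] with x hx
      rw [hx t, intervalIntegral.integral_of_le ht.le, ← integral_mul_const]
    have hm : AEStronglyMeasurable (fun p : ℝ × E d => D (p.2 + p.1 • v) * φ p.2)
        ((volume.restrict (Ioc (0 : ℝ) t)).prod volume) := by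
      refine AEStronglyMeasurable.mul ?_ (hφc.comp continuous_snd).aestronglyMeasurable
      have h1 : AEStronglyMeasurable (fun p : ℝ × E d => D (p.2 + p.1 • v))
          ((volume : Measure ℝ).prod (volume : Measure (E d))) :=
        hD.aestronglyMeasurable.comp_quasiMeasurePreserving (qmp v)
      refine h1.mono_measure ?_
      exact Measure.prod_mono Measure.restrict_le_self le_rfl
    have hint : Integrable (fun p : ℝ × E d => D (p.2 + p.1 • v) * φ p.2)
        ((volume.restrict (Ioc (0 : ℝ) t)).prod volume) := by
      rw [integrable_prod_iff hm]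
      have hDi : IntegrableOn D (closedBall (0 : E d) R) :=
        hD.integrableOn_isCompact (isCompact_closedBall _ _)
      have hb : ∀ s ∈ Ioc (0 : ℝ) t, ∫ x, ‖D (x + s • v) * φ x‖ ≤
          ∫ x in closedBall (0 : E d) R, ‖D x‖ * B := by
        intro s hs'
        have hs1 : |s| ≤ 1 := by rw [abs_of_pos hs'.1]; exact hs'.2.trans ht1
        have e : ∫ x, ‖D (x + s • v) * φ x‖ = ∫ x, ‖D x * φ (x - s • v)‖ := by
          have := integral_add_right_eq_self (μ := volume)
            (fun x => ‖D x * φ (x - s • v)‖) (s • v)
          simpa using this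
        rw [e, ← integral_indicator measurableSet_closedBall]
        refine integral_mono_of_nonneg (Eventually.of_forall fun x => norm_nonneg _)
          ((integrable_indicator_iff measurableSet_closedBall).2 (hDi.norm.mul_const B))
          (Eventually.of_forall fun x => ?_)
        simp only
        by_cases hx : x ∈ closedBall (0 : E d) R
        · rw [indicator_of_mem hx, norm_mul]
          gcongr
          exact hB _
        · rw [hR s hs1 x hx]
          simp [hx]
      refine ⟨?_, ?_⟩
      · refine Eventually.of_forall fun s => ?_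
        have i2 := int_smul D hD (fun x => φ (x - s • v))
          (hφc.comp (continuous_id.sub continuous_const))
          (hs.comp_homeomorph (Homeomorph.subRight (s • v)))
        have := i2.comp_add_right (s • v)
        simpa using this
      · refine Integrable.mono' (g := fun _ => ∫ x in closedBall (0 : E d) R, ‖D x‖ * B)
          (integrable_const _) hm.norm.integral_prod_right' ?_
        refine (ae_restrict_iff' measurableSet_Ioc).2 (Eventually.of_forall fun s hs' => ?_)
        rw [Real.norm_eq_abs, abs_of_nonneg (integral_nonneg fun x => norm_nonneg _)]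
        exact hb s hs'
    rw [e1, integral_integral_swap (f := fun (x : E d) (s : ℝ) => D (x + s • v) * φ x) hint.swap,
      intervalIntegral.integral_of_le ht.le]
    refine setIntegral_congr_fun measurableSet_Ioc fun s _ => ?_
    exact shift_eq D φ (s • v)
  -- limit of the right-hand side
  have hAc := A_cont D hD φ hφc hs v
  have lim1 : Tendsto (fun t : ℝ => t⁻¹ * ∫ s in (0 : ℝ)..t, A s) (𝓝[>] 0) (𝓝 (A 0)) := by
    have hAi : IntervalIntegrable A volume 0 1 :=
      (hAc.mono (by rw [uIcc_of_le zero_le_one]; exact Icc_subset_Icc (by norm_num) le_rfl)).intervalIntegrable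
    have hcont : ContinuousAt A 0 := hAc.continuousAt (Icc_mem_nhds (by norm_num) (by norm_num))
    have hsm : StronglyMeasurableAtFilter A (𝓝 (0 : ℝ)) volume := by
      refine ⟨Icc (-1) 1, Icc_mem_nhds (by norm_num) (by norm_num), ?_⟩
      exact hAc.aestronglyMeasurable measurableSet_Icc
    have hd := intervalIntegral.integral_hasDerivAt_right (a := (0 : ℝ)) (b := 0)
      (f := A) (by simp) hsm hcont
    have := hd.tendsto_slope_zero_right
    simpa using this
  -- limit of the left-hand side
  have hKi : Integrable ((closedBall (0 : E d) R).indicator u) :=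
    (integrable_indicator_iff measurableSet_closedBall).2
      (hu.integrableOn_isCompact (isCompact_closedBall _ _))
  have lim2 := LipschitzWith.integral_inv_smul_sub_mul_tendsto_integral_lineDeriv_mul
    (μ := (volume : Measure (E d))) hL hKi (-v)
  have e2 : ∀ t : ℝ, 0 < t → t ≤ 1 →
      ∫ x, (t⁻¹ • (φ (x + t • -v) - φ x)) * (closedBall (0 : E d) R).indicator u x =
        t⁻¹ * ∫ s in (0 : ℝ)..t, A s := by
    intro t ht ht1
    rw [← key t ht ht1, integral_diff u hu φ hφc hs, ← integral_const_mul]
    refine integral_congr_ae (Eventually.of_forall fun x => ?_)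
    simp only [smul_eq_mul]
    have e3 : x + t • -v = x - t • v := by rw [smul_neg, sub_eq_add_neg]
    rw [e3]
    by_cases hx : x ∈ closedBall (0 : E d) R
    · rw [indicator_of_mem hx]; ring
    · have h0 := hR 0 (by simp) x hx
      have h1 := hR t (by rw [abs_of_pos ht]; exact ht1) x hx
      simp only [zero_smul, sub_zero] at h0
      rw [h0, h1]; simp
  have lim3 : Tendsto (fun t : ℝ => t⁻¹ * ∫ s in (0 : ℝ)..t, A s) (𝓝[>] 0)
      (𝓝 (∫ x, lineDeriv ℝ φ x (-v) * (closedBall (0 : E d) R).indicator u x)) := by
    refine lim2.congr' ?_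
    filter_upwards [Ioc_mem_nhdsGT (zero_lt_one' ℝ)] with t ht
    exact e2 t ht.1 ht.2
  have hfin := tendsto_nhds_unique lim3 lim1
  have e4 : ∫ x, lineDeriv ℝ φ x (-v) * (closedBall (0 : E d) R).indicator u x =
      -∫ x, u x * fderiv ℝ φ x v := by
    rw [← integral_neg]
    refine integral_congr_ae (Eventually.of_forall fun x => ?_)
    simp only
    have hdiff : DifferentiableAt ℝ φ x := (hφ.differentiable (by simp)).differentiableAt
    rw [hdiff.lineDeriv_eq_fderiv, map_neg]
    by_cases hx : x ∈ closedBall (0 : E d) R
    · rw [indicator_of_mem hx]; ring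
    · have h0 : fderiv ℝ φ x v = 0 := by
        have : fderiv ℝ φ x = 0 := by
          by_contra hne
          have hxs : x ∈ tsupport φ := support_fderiv_subset ℝ hne
          have hclosed : tsupport φ ⊆ closedBall (0 : E d) R := by
            refine closure_minimal (fun y hy => ?_) isClosed_closedBall
            by_contra hy'
            have := hR 0 (by simp) y hy'
            simp only [zero_smul, sub_zero] at this
            exact hy this
          exact hx (hclosed hxs)
        rw [this]; rfl
      rw [h0]; simp [hx]
  have e5 : A 0 = ∫ x, D x * φ x := by simp [hA]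
  rw [e4, e5] at hfin
  linarith

end P137
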