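import Vale.Agent.P137.SupLine
import Vale.Agent.P137.Lines
import Vale.Agent.P137.WeakLines

/-!
# P137 [MAIN]: assembly of the endpoint Sobolev theorem for the uncentered maximal function.
-/

open MeasureTheory Metric Set Filter Topology
open scoped ENNReal ContDiff NNReal

namespace P137.MainAux

variable {d : ℕ}

theorem Mt_meas (f : E d → ℝ) : Measurable (Mt f) := (Mt_lsc f).measurable

theorem lintegral_ball (i : Fin d) (f : E d → ℝ) (ρ : ℝ) (B : ℝ≥0∞)
    (h : ∫⁻ x in ball (0 : E d) ρ, ⨆ t : ℝ, Mt f (x + t • EuclideanSpace.single i 1) ≤ B) :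
    ∫⁻ x in ball (0 : E d) ρ, Mt f x ≤ B := by
  refine le_trans (lintegral_mono fun x => ?_) h
  refine le_iSup_of_le 0 ?_
  simp

theorem ae_fin (f : E d → ℝ) (h : ∀ ρ : ℝ, ∫⁻ x in ball (0 : E d) ρ, Mt f x < ⊤) :
    ∀ᵐ x, Mt f x < ⊤ := by
  have h1 : ∀ n : ℕ, ∀ᵐ x, x ∈ ball (0 : E d) n → Mt f x < ⊤ := fun n => by
    rw [← ae_restrict_iff' measurableSet_ball]
    exact ae_lt_top (Mt_meas f) (h n).ne
  filter_upwards [ae_all_iff.2 h1] with x hx
  obtain ⟨n, hn⟩ := exists_nat_gt ‖x‖
  exact hx n (by simpa using hn)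

theorem loc_int (f : E d → ℝ) (h : ∀ ρ : ℝ, ∫⁻ x in ball (0 : E d) ρ, Mt f x < ⊤) :
    LocallyIntegrable (fun x => (Mt f x).toReal) := by
  rw [locallyIntegrable_iff]
  intro K hK
  obtain ⟨R, hR⟩ := hK.isBounded.subset_ball (0 : E d)
  refine IntegrableOn.mono_set ?_ hR
  exact integrable_toReal_of_lintegral_ne_top (Mt_meas f).aemeasurable (h R).ne

end P137.MainAux

namespace P137

theorem main (d : ℕ) (hd : 0 < d) :
    ∃ C : ℝ, ∀ (f : E d → ℝ) (G : E d → E d), Integrable f → Integrable G → IsWeakGrad f G →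
      (∀ᵐ x, Mt f x < ⊤) ∧ LocallyIntegrable (fun x => (Mt f x).toReal) ∧
      ∃ G' : E d → E d, Integrable G' ∧ IsWeakGrad (fun x => (Mt f x).toReal) G' ∧
        ∫ x, ‖G' x‖ ≤ C * ∫ x, ‖G x‖ := by
  obtain ⟨Cs, hs⟩ := sup_line d hd
  obtain ⟨Cl, hl⟩ := line_ac d hd
  refine ⟨d * Cl, fun f G hf hG hw => ?_⟩
  have h : W11 f G := ⟨hf, hG, hw⟩
  have hGfin : ∫⁻ x, ‖G x‖ₑ ≠ ⊤ := hG.2.ne
  have hball : ∀ ρ : ℝ, ∫⁻ x in ball (0 : E d) ρ, Mt f x < ⊤ := fun ρ =>
    (MainAux.lintegral_ball ⟨0, hd⟩ f ρ _ (hs f G h ρ ⟨0, hd⟩)).trans_lt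
      (ENNReal.mul_lt_top ENNReal.coe_lt_top hGfin.lt_top)
  have hloc := MainAux.loc_int f hball
  refine ⟨MainAux.ae_fin f hball, hloc, ?_⟩
  choose D hD hDb hDl using hl f G h
  have hint : ∀ i, Integrable fun x => D i x • (EuclideanSpace.single i (1 : ℝ) : E d) :=
    fun i => (hD i).smul_const _
  refine ⟨fun x => ∑ i, D i x • (EuclideanSpace.single i (1 : ℝ) : E d),
    integrable_finsetSum _ fun i _ => hint i, ?_, ?_⟩
  · intro φ hφ hφs v
    have hweak := fun i => weak_of_lines (fun x => (Mt f x).toReal) (D i)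
      (EuclideanSpace.single i 1) hloc (hD i).locallyIntegrable (hDl i) φ hφ hφs
    have hvs : v = ∑ i, v i • (EuclideanSpace.single i (1 : ℝ) : E d) := by
      ext j
      simp [Finset.sum_apply, Pi.single_apply]
    have e1 : ∀ x, (Mt f x).toReal * fderiv ℝ φ x v =
        ∑ i, v i * ((Mt f x).toReal * fderiv ℝ φ x (EuclideanSpace.single i 1)) := by
      intro x
      conv_lhs => rw [hvs]
      rw [map_sum, Finset.mul_sum]
      refine Finset.sum_congr rfl fun i _ => ?_
      rw [map_smul, smul_eq_mul]; ring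
    have e2 : ∀ x, inner ℝ (∑ i, D i x • (EuclideanSpace.single i (1 : ℝ) : E d)) v * φ x =
        ∑ i, v i * (D i x * φ x) := by
      intro x
      rw [sum_inner, Finset.sum_mul]
      refine Finset.sum_congr rfl fun i _ => ?_
      rw [real_inner_smul_left, EuclideanSpace.inner_single_left]
      simp; ring
    have i1 : ∀ i, Integrable fun x => v i *
        ((Mt f x).toReal * fderiv ℝ φ x (EuclideanSpace.single i 1)) := by
      intro i
      refine Integrable.const_mul ?_ _
      have hc : Continuous fun x => fderiv ℝ φ x (EuclideanSpace.single i (1 : ℝ)) :=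
        (hφ.continuous_fderiv (by simp)).clm_apply continuous_const
      have hcs : HasCompactSupport fun x => fderiv ℝ φ x (EuclideanSpace.single i (1 : ℝ)) := by
        refine HasCompactSupport.intro (K := tsupport φ) hφs fun x hx => ?_
        have : fderiv ℝ φ x = 0 := by
          by_contra hne
          exact hx (support_fderiv_subset ℝ hne)
        simp [this]
      have := hloc.integrable_smul_left_of_hasCompactSupport hc hcs
      simpa [smul_eq_mul, mul_comm] using this
    have i2 : ∀ i, Integrable fun x => v i * (D i x * φ x) := by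
      intro i
      refine Integrable.const_mul ?_ _
      have := (hD i).locallyIntegrable.integrable_smul_left_of_hasCompactSupport hφ.continuous hφs
      simpa [smul_eq_mul, mul_comm] using this
    simp only [e1, e2]
    rw [integral_finsetSum _ fun i _ => i1 i, integral_finsetSum _ fun i _ => i2 i,
      ← Finset.sum_neg_distrib]
    refine Finset.sum_congr rfl fun i _ => ?_
    rw [integral_const_mul, integral_const_mul, hweak i]
    ring
  · have b : ∀ i, ∫ x, ‖D i x‖ ≤ Cl * ∫ x, ‖G x‖ := by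
      intro i
      rw [integral_norm_eq_lintegral_enorm (hD i).1, integral_norm_eq_lintegral_enorm hG.1]
      have := ENNReal.toReal_mono (ENNReal.mul_ne_top ENNReal.coe_ne_top hGfin) (hDb i)
      rwa [ENNReal.toReal_mul, ENNReal.coe_toReal] at this
    calc ∫ x, ‖∑ i, D i x • (EuclideanSpace.single i (1 : ℝ) : E d)‖
        ≤ ∫ x, ∑ i, ‖D i x‖ := by
          refine integral_mono (integrable_finsetSum _ fun i _ => hint i).norm
            (integrable_finsetSum _ fun i _ => (hD i).norm) fun x => ?_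
          refine (norm_sum_le _ _).trans (Finset.sum_le_sum fun i _ => ?_)
          rw [norm_smul]; simp
      _ = ∑ i, ∫ x, ‖D i x‖ := integral_finsetSum _ fun i _ => (hD i).norm
      _ ≤ ∑ _i : Fin d, Cl * ∫ x, ‖G x‖ := Finset.sum_le_sum fun i _ => b i
      _ = d * Cl * ∫ x, ‖G x‖ := by simp [mul_assoc]

end P137
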