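import Vale.Agent.P137.Perim

/-!
# P137: the perimeter of a union of balls
-/

open MeasureTheory Metric Set Filter Topology
open scoped ENNReal ContDiff NNReal

namespace P137

namespace Per

variable {d : ℕ}

/-- the partial unions -/
def part (A : Set (E d)) (f : ℕ → E d × ℝ) : ℕ → Set (E d)
  | 0 => A
  | n + 1 => part A f n ∪ ball (f n).1 (f n).2

theorem part_meas {A : Set (E d)} (hA : MeasurableSet A) (f : ℕ → E d × ℝ) (n : ℕ) :
    MeasurableSet (part A f n) := by
  induction n with
  | zero => exact hA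
  | succ n ih => exact ih.union measurableSet_ball

theorem part_mono (A : Set (E d)) (f : ℕ → E d × ℝ) : Monotone (part A f) :=
  monotone_nat_of_le_succ fun _ => subset_union_left

theorem part_iUnion (A : Set (E d)) (f : ℕ → E d × ℝ) :
    ⋃ n, part A f n = A ∪ ⋃ n, ball (f n).1 (f n).2 := by
  ext x
  simp only [mem_iUnion, mem_union]
  constructor
  · rintro ⟨n, hn⟩
    induction n with
    | zero => exact Or.inl hn
    | succ n ih =>
      rcases hn with hn | hn
      · exact ih hn
      · exact Or.inr ⟨n, hn⟩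
  · rintro (h | ⟨n, hn⟩)
    · exact ⟨0, h⟩
    · exact ⟨n + 1, Or.inr hn⟩

theorem part_per {A : Set (E d)} (hA : MeasurableSet A) {r : ℝ} (hr : 0 < r)
    (f : ℕ → E d × ℝ) (hf : ∀ n, r ≤ (f n).2) {p : ℝ≥0∞} (h : PerLe A p) (n : ℕ) :
    PerLe (part A f n) (p + ENNReal.ofReal (d / r) * volume (part A f n \ A)) := by
  induction n with
  | zero =>
    intro φ hφ
    exact (h φ hφ).trans le_self_add
  | succ n ih =>
    have h1 := per_ball (part A f n) (part_meas hA f n) (f n).1 (f n).2
      (hr.trans_le (hf n)) _ ih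
    intro φ hφ
    refine (h1 φ hφ).trans ?_
    have h2 : ENNReal.ofReal (d / (f n).2) ≤ ENNReal.ofReal (d / r) := by
      refine ENNReal.ofReal_le_ofReal ?_
      exact div_le_div_of_nonneg_left (Nat.cast_nonneg d) hr (hf n)
    have h3 : volume (part A f n \ A) + volume (ball (f n).1 (f n).2 \ part A f n) =
        volume (part A f (n + 1) \ A) := by
      rw [← measure_union]
      · congr 1
        ext x
        have hsub : A ⊆ part A f n := part_mono A f (Nat.zero_le n)
        simp only [part, mem_union, Set.mem_sdiff]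
        constructor
        · rintro (⟨h1, h2⟩ | ⟨h1, h2⟩)
          · exact ⟨Or.inl h1, h2⟩
          · exact ⟨Or.inr h1, fun h => h2 (hsub h)⟩
        · rintro ⟨h1 | h1, h2⟩
          · exact Or.inl ⟨h1, h2⟩
          · by_cases h3 : x ∈ part A f n
            · exact Or.inl ⟨h3, h2⟩
            · exact Or.inr ⟨h1, h3⟩
      · rw [Set.disjoint_left]
        rintro x ⟨h1, _⟩ ⟨_, h2⟩
        exact h2 h1
      · exact measurableSet_ball.diff (part_meas hA f n)
    rw [← h3, mul_add, add_assoc]
    gcongr

end Per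

open Per

/-- [PERU] the perimeter of a union of balls -/
theorem per_union {d : ℕ} (A U : Set (E d)) (hA : MeasurableSet A) (hAU : A ⊆ U) (r : ℝ)
    (hr : 0 < r) (S : Set (E d × ℝ)) (hS : S.Countable) (hSr : ∀ p ∈ S, r ≤ p.2)
    (hU : U = ⋃ p ∈ S, ball p.1 p.2) (p : ℝ≥0∞) (h : PerLe A p) :
    PerLe U (p + ENNReal.ofReal (d / r) * volume (U \ A)) := by
  rcases S.eq_empty_or_nonempty with rfl | hne
  · have h1 : U = ∅ := by simpa using hU
    have h2 : A = U := by
      rw [h1] at hAU ⊢
      exact subset_empty_iff.1 hAU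
    intro φ hφ
    rw [← h2]
    exact (h φ hφ).trans le_self_add
  · obtain ⟨f, hf⟩ := hS.exists_eq_range hne
    have hfS : ∀ n, f n ∈ S := fun n => by rw [hf]; exact mem_range_self n
    have hU2 : ⋃ n, part A f n = U := by
      rw [part_iUnion]
      have h1 : ⋃ n, ball (f n).1 (f n).2 = U := by
        rw [hU, hf, biUnion_range]
      rw [h1]
      exact union_eq_right.2 hAU
    intro φ hφ
    have hle : (1 : WithTop ℕ∞) ≤ ((⊤ : ℕ∞) : WithTop ℕ∞) := by exact_mod_cast le_top
    have hint := integrable_dvg (hφ.smooth.of_le hle) hφ.supp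
    have hlim : Tendsto (fun n => ∫ x in part A f n, dvg φ x) atTop (𝓝 (∫ x in U, dvg φ x)) := by
      have := tendsto_setIntegral_of_monotone (μ := volume) (f := dvg φ)
        (part_meas hA f) (part_mono A f) hint.integrableOn
      rwa [hU2] at this
    refine le_of_tendsto' (ENNReal.tendsto_ofReal hlim) fun n => ?_
    refine (part_per hA hr f (fun n => hSr _ (hfS n)) h n φ hφ).trans ?_
    have hsub : part A f n ⊆ U := by
      rw [← hU2]
      exact subset_iUnion _ n
    gcongr

end P137
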