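import Vale.Agent.P137.Defs

/-!
# P137 blueprint (statements only; do not import). Prove each block verbatim in its own file
`Vale/Agent/P137/<File>.lean`, namespace `P137`, auxiliary lemmas in a sub-namespace.
-/

open MeasureTheory Metric Set Filter Topology
open scoped ENNReal ContDiff NNReal

namespace P137

/-! ## Part I: the kernel of a one-parameter family of balls -/

/-- [KERA] KernelA.lean : (K2), (K3), bounds, support (all pointwise in `s`, then integrate) -/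
theorem ker_supp {d : ℕ} (x c e : E d) (ρ : ℝ) (hρ : 0 < ρ) (hc : ‖c - x‖ ≤ ρ) (he : ‖e‖ = 1)
    (y : E d) (hy : 6 * ρ ≤ ‖y - x‖) : Ker.K x c e ρ y = 0 := by
  sorry

theorem kap_bound {d : ℕ} (hd : 0 < d) (x c e : E d) (ρ : ℝ) (hρ : 0 < ρ) (y : E d) :
    0 ≤ Ker.kap x c e ρ y ∧ Ker.kap x c e ρ y ≤ 1 / volume.real (ball (0 : E d) ρ) := by
  sorry

theorem ker_two {d : ℕ} (hd : 0 < d) (x c e : E d) (ρ : ℝ) (hρ : 0 < ρ) (hc : ‖c - x‖ ≤ ρ)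
    (he : ‖e‖ = 1) (y : E d) :
    ‖Ker.K x c e ρ y‖ ^ 2 ≤ 6 * ρ * Ker.kap x c e ρ y * inner ℝ (Ker.K x c e ρ y) e := by
  sorry

theorem ker_three {d : ℕ} (hd : 0 < d) (x c e : E d) (ρ : ℝ) (hρ : 0 < ρ) (hc : ‖c - x‖ ≤ ρ)
    (he : ‖e‖ = 1) (y : E d) :
    Ker.kap x c e ρ y * ‖y - x‖ ^ 2 ≤ 20 * ρ * inner ℝ (Ker.K x c e ρ y) e := by
  sorry

/-- [KERB] KernelB.lean : Hölder continuity of exponent 1/2 -/
theorem ker_holder {d : ℕ} (hd : 0 < d) (x c e : E d) (ρ : ℝ) (hρ : 0 < ρ) (hc : ‖c - x‖ ≤ ρ)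
    (he : ‖e‖ = 1) (y y' : E d) :
    ‖Ker.K x c e ρ y - Ker.K x c e ρ y'‖ ≤ (2 * ‖y - y'‖ + 12 * √(ρ * ‖y - y'‖)) /
      volume.real (ball (0 : E d) ρ) := by
  sorry

/-- [KERC] KernelC.lean : representation formula -/
theorem ker_repr {d : ℕ} (hd : 0 < d) (x c e : E d) (ρ : ℝ) (hρ : 0 < ρ)
    (g : E d → ℝ) (G : E d → E d) (hg : ContDiff ℝ 1 g)
    (hG : ∀ y v, fderiv ℝ g y v = inner ℝ (G y) v) :
    (⨍ y in ball (x + (3 * ρ) • e) (3 * ρ), g y) - (⨍ y in ball c ρ, g y) =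
      ∫ y, inner ℝ (Ker.K x c e ρ y) (G y) := by
  sorry

/-- [KER] Kernel.lean (assembly of the above) -/
theorem kernel {d : ℕ} (hd : 0 < d) (x c e : E d) (ρ : ℝ) (hρ : 0 < ρ) (hc : ‖c - x‖ ≤ ρ)
    (he : ‖e‖ = 1) :
    ∃ (K : E d → E d) (κ : E d → ℝ),
      Measurable K ∧ (∀ y, 6 * ρ ≤ ‖y - x‖ → K y = 0) ∧
      (∀ y, 0 ≤ κ y ∧ κ y ≤ 1 / volume.real (ball (0 : E d) ρ)) ∧
      (∀ y, ‖K y‖ ^ 2 ≤ 6 * ρ * κ y * inner ℝ (K y) e) ∧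
      (∀ y, κ y * ‖y - x‖ ^ 2 ≤ 20 * ρ * inner ℝ (K y) e) ∧
      (∀ y y', ‖K y - K y'‖ ≤ (2 * ‖y - y'‖ + 12 * √(ρ * ‖y - y'‖)) /
        volume.real (ball (0 : E d) ρ)) ∧
      (∀ (g : E d → ℝ) (G : E d → E d), ContDiff ℝ 1 g →
        (∀ y v, fderiv ℝ g y v = inner ℝ (G y) v) →
        (⨍ y in ball (x + (3 * ρ) • e) (3 * ρ), g y) - (⨍ y in ball c ρ, g y) =
          ∫ y, inner ℝ (K y) (G y)) := by
  sorry

/-! ## Part II: the tree lemma -/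

/-- [TREE] Tree.lean (`R = 6ρ`, `lam = 3^(-1/2)`, `θ (1 - lam) = H`) -/
theorem tree {W I : Type*} [NormedAddCommGroup W] [InnerProductSpace ℝ W] [DecidableEq I]
    (c : I → Finset I) (hc : ∀ m m', m ≠ m' → Disjoint (c m) (c m'))
    (a K : ℕ → I → W) (κ w : ℕ → I → ℝ) (e : W) (he : ‖e‖ = 1) (m0 : I)
    (R H lam θ κm : ℝ) (hR : 0 ≤ R) (hH : 0 ≤ H) (hl0 : 0 < lam) (hl1 : lam < 1)
    (hθ : θ * (1 - lam) = H)
    (ha : ∀ n, ∀ m ∈ desc c m0 n, a n m = ∑ m' ∈ c m, a (n + 1) m')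
    (hK : ∀ n, ∀ m ∈ desc c m0 n, ∀ m' ∈ c m, ‖K (n + 1) m' - K n m‖ ≤ H * lam ^ n)
    (hκ : ∀ n m, 0 ≤ κ n m ∧ κ n m ≤ κm)
    (hK2 : ∀ n m, ‖K n m‖ ^ 2 ≤ R * κ n m * inner ℝ (K n m) e)
    (hw0 : ∀ n m, 0 ≤ w n m)
    (hw : ∀ n, ∀ m ∈ desc c m0 (n + 1), inner ℝ (K (n + 1) m) e ≤ 3 * θ * lam ^ n →
      2 * R * κ (n + 1) m ≤ w (n + 1) m)
    (hroot : a 0 m0 = ‖a 0 m0‖ • e) (N : ℕ) :
    -(∑ n ∈ Finset.range N, θ * lam ^ n *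
        ∑ m ∈ desc c m0 n, (∑ m' ∈ c m, ‖a (n + 1) m'‖ - ‖a n m‖)) -
      (∑ n ∈ Finset.range N, ∑ m ∈ desc c m0 (n + 1),
        w (n + 1) m * (‖a (n + 1) m‖ - inner ℝ (a (n + 1) m) e)) -
      √(2 * R * κm * θ * lam ^ N) * ∑ m ∈ desc c m0 N, ‖a N m‖
    ≤ ∑ m ∈ desc c m0 N, inner ℝ (K N m) (a N m) := by
  sorry

/-! ## Part III: grids -/

/-- [GRID] Grid.lean -/
theorem mem_ch {d : ℕ} (s : Fin d → Fin 2) (m m' : Fin d → ℤ) : m' ∈ ch s m ↔ par s m' = m := by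
  sorry

theorem idx_par {d : ℕ} (s : Fin d → Fin 2) (k : ℤ) (y : E d) :
    par s (idx s (k + 1) y) = idx s k y := by
  sorry

theorem cell_meas {d : ℕ} (s : Fin d → Fin 2) (k : ℤ) (m : Fin d → ℤ) :
    MeasurableSet (cell s k m) := by
  sorry

theorem cell_ctr {d : ℕ} (s : Fin d → Fin 2) (k : ℤ) (m : Fin d → ℤ) (y : E d)
    (hy : y ∈ cell s k m) : ‖y - ctr s k m‖ ≤ √d * (3 : ℝ) ^ (-k) := by
  sorry

theorem ctr_ctr {d : ℕ} (s : Fin d → Fin 2) (k : ℤ) (m m' : Fin d → ℤ) (h : m' ∈ ch s m) :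
    ‖ctr s (k + 1) m' - ctr s k m‖ ≤ √d * (3 : ℝ) ^ (-k) := by
  sorry

theorem cell_vol {d : ℕ} (s : Fin d → Fin 2) (k : ℤ) (m : Fin d → ℤ) :
    volume (cell s k m) ≤ ENNReal.ofReal (((3 : ℝ) ^ (-k)) ^ d) := by
  sorry

theorem cell_cover {d : ℕ} (k : ℤ) (x : E d) :
    ∃ (s : Fin d → Fin 2) (m : Fin d → ℤ), ball x (18 * rad k) ⊆ cell s k m := by
  sorry

theorem aV_sum {d : ℕ} (G : E d → E d) (hG : Integrable G) (s : Fin d → Fin 2) (k : ℤ)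
    (m : Fin d → ℤ) : aV G s k m = ∑ m' ∈ ch s m, aV G s (k + 1) m' := by
  sorry

theorem D1_nonneg {d : ℕ} (G : E d → E d) (hG : Integrable G) (s : Fin d → Fin 2) (k : ℤ)
    (m : Fin d → ℤ) : 0 ≤ D1 G s k m := by
  sorry

/-- the descendants of relative generation `n` of a cell partition it -/
theorem cell_desc {d : ℕ} (s : Fin d → Fin 2) (k : ℤ) (m : Fin d → ℤ) (n : ℕ) (y : E d) :
    y ∈ cell s k m ↔ idx s (k + n) y ∈ desc (ch s) m n := by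
  sorry

/-- [TEL] Telescope.lean -/
theorem desc_sum {d : ℕ} (s : Fin d → Fin 2) (n : ℕ) (F : (Fin d → ℤ) → ℝ≥0∞) :
    ∑' m0 : Fin d → ℤ, ∑ m ∈ desc (ch s) m0 n, F m = ∑' m : Fin d → ℤ, F m := by
  sorry

theorem telescope {d : ℕ} (G : E d → E d) (hG : Integrable G) (s : Fin d → Fin 2) :
    ∑' k : ℤ, ∑' m : Fin d → ℤ, ENNReal.ofReal (D1 G s k m) ≤ ENNReal.ofReal (∫ y, ‖G y‖) := by
  sorry

/-! ## Part IV: the bound of the increments -/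

/-- [CELL] CellBound.lean -/
theorem cell_bound (d : ℕ) (hd : 0 < d) :
    ∃ C μ : ℝ≥0, μ < 1 ∧ ∀ (g : E d → ℝ) (G : E d → E d), Nice g G → (∀ y, 0 ≤ g y) →
      ∀ (s : Fin d → Fin 2) (k : ℤ) (m0 : Fin d → ℤ),
      ∃ Rf : E d → ℝ≥0∞, Measurable Rf ∧
        (∀ (x c : E d) (ρ : ℝ), ball x (18 * rad k) ⊆ cell s k m0 → x ∈ ball c ρ →
          rad k ≤ ρ → ρ ≤ 3 * rad k →
          ∃ e : E d, ‖e‖ = 1 ∧ avg g c ρ ≤ avg g (x + (3 * ρ) • e) (3 * ρ) + Rf x) ∧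
        ∫⁻ x, Rf x ≤ C * ENNReal.ofReal (rad k) *
          ∑' n : ℕ, (μ : ℝ≥0∞) ^ n * ∑ m ∈ desc (ch s) m0 n, ENNReal.ofReal (D1 G s (k + n) m) := by
  sorry

/-- [SUM] SumJ.lean -/
theorem sum_J (d : ℕ) (hd : 0 < d) :
    ∃ C : ℝ≥0, ∀ (g : E d → ℝ) (G : E d → E d), Nice g G → (∀ y, 0 ≤ g y) →
      ∑' k : ℤ, (ENNReal.ofReal (rad k))⁻¹ * ∫⁻ x, (V (rad k) g x - V (rad (k - 1)) g x) ≤
        C * ∫⁻ x, ‖G x‖ₑ := by
  sorry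

/-! ## Part V: elementary properties of the maximal functions -/

/-- [BAS] MaxBasic.lean -/
theorem avg_le {d : ℕ} (f : E d → ℝ) (c : E d) (r η : ℝ) (hη : 0 < η) (hr : η ≤ r) :
    avg f c r ≤ (∫⁻ y, ‖f y‖ₑ) / volume (ball (0 : E d) η) := by
  sorry

theorem V_le {d : ℕ} (f : E d → ℝ) (η : ℝ) (hη : 0 < η) (x : E d) :
    V η f x ≤ (∫⁻ y, ‖f y‖ₑ) / volume (ball (0 : E d) η) := by
  sorry

theorem V_lt_top {d : ℕ} (f : E d → ℝ) (hf : Integrable f) (η : ℝ) (hη : 0 < η) (x : E d) :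
    V η f x < ⊤ := by
  sorry

theorem V_anti {d : ℕ} (f : E d → ℝ) (x : E d) : Antitone fun η => V η f x := by
  sorry

theorem V_le_Mt {d : ℕ} (f : E d → ℝ) (η : ℝ) (x : E d) : V η f x ≤ Mt f x := by
  sorry

theorem Mt_eq_iSup {d : ℕ} (f : E d → ℝ) (x : E d) : Mt f x = ⨆ n : ℕ, V (rad n) f x := by
  sorry

theorem V_lsc {d : ℕ} (f : E d → ℝ) (η : ℝ) : LowerSemicontinuous (V η f) := by
  sorry

theorem Mt_lsc {d : ℕ} (f : E d → ℝ) : LowerSemicontinuous (Mt f) := by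
  sorry

/-- the superlevel sets of `V η f` are countable unions of balls of radius `≥ η` -/
theorem V_level {d : ℕ} (f : E d → ℝ) (η : ℝ) (hη : 0 < η) (a : ℝ≥0∞) :
    ∃ S : Set (E d × ℝ), S.Countable ∧ (∀ p ∈ S, η ≤ p.2) ∧
      {x | a < V η f x} = ⋃ p ∈ S, ball p.1 p.2 := by
  sorry

theorem V_add {d : ℕ} (f g : E d → ℝ) (hf : Integrable f) (hg : Integrable g) (η : ℝ) (x : E d) :
    V η (fun y => f y + g y) x ≤ V η f x + V η g x := by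
  sorry

theorem Mt_add {d : ℕ} (f g : E d → ℝ) (hf : Integrable f) (hg : Integrable g) (x : E d) :
    Mt (fun y => f y + g y) x ≤ Mt f x + Mt g x := by
  sorry

theorem le_Mt {d : ℕ} (f : E d → ℝ) (hf : Continuous f) (x : E d) : ‖f x‖ₑ ≤ Mt f x := by
  sorry

/-- a competitor ball whose closure contains `x` -/
theorem avg_le_V_of_closedBall {d : ℕ} (f : E d → ℝ) (hf : Integrable f) (c x : E d) (r η : ℝ)
    (hη : 0 < η) (hr : η ≤ r) (hx : x ∈ closedBall c r) : avg f c r ≤ V η f x := by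
  sorry

/-- [LIP] MaxLip.lean -/
theorem V_lip {d : ℕ} (f : E d → ℝ) (hf : Integrable f) (η : ℝ) (hη : 0 < η) :
    ∃ L : ℝ≥0, LipschitzWith L fun x => (V η f x).toReal := by
  sorry

theorem V_decay {d : ℕ} (hd : 0 < d) (f : E d → ℝ) (hf : Integrable f) (η : ℝ) (hη : 0 < η) :
    Tendsto (fun x => (V η f x).toReal) (cocompact (E d)) (𝓝 0) := by
  sorry

/-! ## Part VI: perimeters -/

/-- [PER] Perim.lean -/
theorem per_ball {d : ℕ} (A : Set (E d)) (hA : MeasurableSet A) (c : E d) (r : ℝ) (hr : 0 < r)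
    (p : ℝ≥0∞) (h : PerLe A p) :
    PerLe (A ∪ ball c r) (p + ENNReal.ofReal (d / r) * volume (ball c r \ A)) := by
  sorry

/-- [PERU] PerimUnion.lean -/
theorem per_union {d : ℕ} (A U : Set (E d)) (hA : MeasurableSet A) (hAU : A ⊆ U) (r : ℝ)
    (hr : 0 < r) (S : Set (E d × ℝ)) (hS : S.Countable) (hSr : ∀ p ∈ S, r ≤ p.2)
    (hU : U = ⋃ p ∈ S, ball p.1 p.2) (p : ℝ≥0∞) (h : PerLe A p) :
    PerLe U (p + ENNReal.ofReal (d / r) * volume (U \ A)) := by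
  sorry

/-- [VARB] VarBound.lean -/
theorem var_bound {d : ℕ} (hd : 0 < d) (f : E d → ℝ) (hf : Integrable f) (N : ℤ) (φ : E d → E d)
    (hφ : Test φ) :
    ENNReal.ofReal (∫ x, (V (rad N) f x).toReal * dvg φ x) ≤
      d * ∑' k : ℤ, (ENNReal.ofReal (rad k))⁻¹ *
        ∫⁻ x, (V (rad k) f x - V (rad (k - 1)) f x) := by
  sorry

/-! ## Part VII: Sobolev functions -/

/-- [MOLL] Mollify.lean -/
theorem mollify {d : ℕ} (f : E d → ℝ) (G : E d → E d) (h : W11 f G) :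
    ∃ (fn : ℕ → E d → ℝ) (Gn : ℕ → E d → E d), (∀ n, ContDiff ℝ ∞ (fn n)) ∧
      (∀ n, Nice (fn n) (Gn n)) ∧
      Tendsto (fun n => ∫ x, ‖fn n x - f x‖) atTop (𝓝 0) ∧
      Tendsto (fun n => ∫ x, ‖Gn n x - G x‖) atTop (𝓝 0) := by
  sorry

/-- [REG] Regularize.lean : `√(f^2+ε^2) - ε` -/
theorem regularize {d : ℕ} (f : E d → ℝ) (G : E d → E d) (h : Nice f G) (ε : ℝ) (hε : 0 < ε) :
    ∃ (g : E d → ℝ) (G' : E d → E d), Nice g G' ∧ (∀ y, 0 ≤ g y) ∧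
      (∀ y, |g y - abs (f y)| ≤ ε) ∧ (∀ y, g y ≤ |f y|) ∧ (∀ y, ‖G' y‖ ≤ ‖G y‖) := by
  sorry

/-- [WNICE] a nice function is in `W^{1,1}` -/
theorem Nice.w11 {d : ℕ} (f : E d → ℝ) (G : E d → E d) (h : Nice f G) : W11 f G := by
  sorry

/-- [DUAL] Dual.lean -/
theorem dual_bound {d : ℕ} (u : E d → ℝ) (L : ℝ≥0) (hu : LipschitzWith L u) (C : ℝ≥0∞)
    (h : ∀ φ : E d → E d, Test φ → ENNReal.ofReal (∫ x, u x * dvg φ x) ≤ C) (i : Fin d) :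
    ∫⁻ x, ‖lineDeriv ℝ u x (EuclideanSpace.single i 1)‖ₑ ≤ C := by
  sorry

/-- [VW] VarW.lean -/
theorem var_W11 (d : ℕ) (hd : 0 < d) :
    ∃ C : ℝ≥0, ∀ (f : E d → ℝ) (G : E d → E d), W11 f G → ∀ (N : ℤ) (i : Fin d),
      ∫⁻ x, ‖lineDeriv ℝ (fun x => (V (rad N) f x).toReal) x (EuclideanSpace.single i 1)‖ₑ ≤
        C * ∫⁻ x, ‖G x‖ₑ := by
  sorry

/-! ## Part VIII: lines -/

/-- [AC1] AC1.lean : one-dimensional lemma -/
theorem ac_lemma (a b : ℝ) (hab : a ≤ b) (u F : ℝ → ℝ) (U : ℕ → ℝ → ℝ)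
    (hF : AbsolutelyContinuousOnInterval F a b)
    (hU : ∀ k, AbsolutelyContinuousOnInterval (U k) a b)
    (hFu : ∀ t ∈ Icc a b, F t ≤ u t) (hUu : ∀ k, ∀ t ∈ Icc a b, U k t ≤ u t)
    (happ : ∀ ε > 0, ∀ᶠ k in atTop, ∀ t ∈ Icc a b, u t ≤ max (U k t) (F t + ε))
    (hfin : liminf (fun k => ∫⁻ t in Icc a b, ‖deriv (U k) t‖ₑ) atTop < ⊤) :
    AbsolutelyContinuousOnInterval u a b ∧
      ∀ᵐ t, t ∈ Ioo a b →
        ‖deriv u t‖ₑ ≤ liminf (fun k => ‖deriv (U k) t‖ₑ) atTop + 2 * ‖deriv F t‖ₑ := by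
  sorry

/-- [WD] WeakLines.lean : weak derivative from the fundamental theorem on almost every line -/
theorem weak_of_lines {d : ℕ} (u D : E d → ℝ) (v : E d) (hu : LocallyIntegrable u)
    (hD : LocallyIntegrable D)
    (h : ∀ᵐ x, ∀ t : ℝ, u (x + t • v) - u x = ∫ s in (0 : ℝ)..t, D (x + s • v))
    (φ : E d → ℝ) (hφ : ContDiff ℝ ∞ φ) (hs : HasCompactSupport φ) :
    ∫ x, u x * fderiv ℝ φ x v = -∫ x, D x * φ x := by
  sorry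

/-- [SUP] SupLine.lean -/
theorem sup_line (d : ℕ) (hd : 0 < d) :
    ∃ C : ℝ → ℝ≥0, ∀ (f : E d → ℝ) (G : E d → E d), W11 f G → ∀ (ρ : ℝ) (i : Fin d),
      ∫⁻ x in ball (0 : E d) ρ, ⨆ t : ℝ, Mt f (x + t • EuclideanSpace.single i 1) ≤
        C ρ * ∫⁻ x, ‖G x‖ₑ := by
  sorry

/-- [LA] LineApprox.lean : on almost every line `F = |f|` (good representative) is absolutely
continuous, `F ≤ Mt f`, and `Mt f = V (rad k) f` for large `k` where `Mt f > F + ε`. -/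
theorem line_approx {d : ℕ} (hd : 0 < d) (f : E d → ℝ) (G : E d → E d) (h : W11 f G) (i : Fin d) :
    ∀ᵐ x : E d, ∃ F : ℝ → ℝ, (∀ a b, AbsolutelyContinuousOnInterval F a b) ∧
      (∀ᵐ t : ℝ, ‖deriv F t‖ₑ ≤ ‖G (x + t • EuclideanSpace.single i 1)‖ₑ) ∧
      (∀ t, Mt f (x + t • EuclideanSpace.single i 1) < ⊤ ∧
        F t ≤ (Mt f (x + t • EuclideanSpace.single i 1)).toReal) ∧
      ∀ T > 0, ∀ ε > 0, ∀ᶠ k : ℕ in atTop, ∀ t ∈ Icc (-T) T,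
        (Mt f (x + t • EuclideanSpace.single i 1)).toReal ≤
          max (V (rad k) f (x + t • EuclideanSpace.single i 1)).toReal (F t + ε) := by
  sorry

/-- [LINE] Lines.lean -/
theorem line_ac (d : ℕ) (hd : 0 < d) :
    ∃ C : ℝ≥0, ∀ (f : E d → ℝ) (G : E d → E d), W11 f G → ∀ i : Fin d,
      ∃ D : E d → ℝ, Integrable D ∧ ∫⁻ x, ‖D x‖ₑ ≤ C * ∫⁻ x, ‖G x‖ₑ ∧
        ∀ᵐ x, ∀ t : ℝ, (Mt f (x + t • EuclideanSpace.single i 1)).toReal - (Mt f x).toReal =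
          ∫ s in (0 : ℝ)..t, D (x + s • EuclideanSpace.single i 1) := by
  sorry

/-- [MAIN] -/
theorem main (d : ℕ) (hd : 0 < d) :
    ∃ C : ℝ, ∀ (f : E d → ℝ) (G : E d → E d), Integrable f → Integrable G → IsWeakGrad f G →
      (∀ᵐ x, Mt f x < ⊤) ∧ LocallyIntegrable (fun x => (Mt f x).toReal) ∧
      ∃ G' : E d → E d, Integrable G' ∧ IsWeakGrad (fun x => (Mt f x).toReal) G' ∧
        ∫ x, ‖G' x‖ ≤ C * ∫ x, ‖G x‖ := by
  sorry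

end P137
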