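import Vale.Agent.P137.Defs

/-!
# P137 blueprint of the BV version (statements only; do not import). Prove each block verbatim in
its own file `Vale/Agent/P137/<File>.lean`.
`NiceH` lives in `Vale/Agent/P137/NiceH.lean` (import it).
-/

open MeasureTheory Metric Set Filter Topology
open scoped ENNReal ContDiff NNReal

namespace P137

/-- `g` is of class `C^1` with gradient `G`, the gradient is integrable (no integrability of `g`). -/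
structure NiceH {d : ℕ} (g : E d → ℝ) (G : E d → E d) : Prop where
  smooth : ContDiff ℝ 1 g
  grad : ∀ y v, fderiv ℝ g y v = inner ℝ (G y) v
  intG : Integrable G

/-- [SUMH] the sum bound without integrability of `g` (from CELL and SUM for `NiceH`) -/
theorem sum_JH (d : ℕ) (hd : 0 < d) :
    ∃ C : ℝ≥0, ∀ (g : E d → ℝ) (G : E d → E d), NiceH g G → (∀ y, 0 ≤ g y) →
      ∑' k : ℤ, (ENNReal.ofReal (rad k))⁻¹ * ∫⁻ x, (V (rad k) g x - V (rad (k - 1)) g x) ≤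
        C * ∫⁻ x, ‖G x‖ₑ := by
  sorry

/-- [BV1] BVInf.lean -/
theorem V_inf (d : ℕ) (hd : 2 ≤ d) :
    ∃ C : ℝ≥0, ∀ (g : E d → ℝ) (G : E d → E d), NiceH g G → (∀ y, 0 ≤ g y) →
      ∃ c : ℝ≥0∞, c < ⊤ ∧ ∀ (k : ℤ) (x : E d), c ≤ V (rad k) g x ∧
        V (rad k) g x ≤ c + C * ENNReal.ofReal (rad k ^ (1 - (d : ℤ))) * ∫⁻ y, ‖G y‖ₑ := by
  sorry

/-- [BV2] BVVar.lean : `var_bound` when `V (rad k) f` decreases uniformly to a constant `c`. -/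
theorem var_bound_c {d : ℕ} (hd : 0 < d) (f : E d → ℝ) (c : ℝ≥0∞) (hc : c < ⊤)
    (hVc : ∀ (k : ℤ) (x : E d), c ≤ V (rad k) f x)
    (hVlim : ∀ ε : ℝ≥0∞, 0 < ε → ∃ k : ℤ, ∀ x, V (rad k) f x ≤ c + ε)
    (hVtop : ∀ k : ℤ, ∃ M : ℝ≥0, ∀ x, V (rad k) f x ≤ M) (N : ℤ) (φ : E d → E d) (hφ : Test φ) :
    ENNReal.ofReal (∫ x, (V (rad N) f x).toReal * dvg φ x) ≤
      d * ∑' k : ℤ, (ENNReal.ofReal (rad k))⁻¹ *
        ∫⁻ x, (V (rad k) f x - V (rad (k - 1)) f x) := by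
  sorry

/-- [BV3] BVMoll.lean : mollification of a locally integrable function of finite variation -/
theorem mollify_bv {d : ℕ} (f : E d → ℝ) (hf : LocallyIntegrable f) (K : ℝ≥0)
    (hK : ∀ φ : E d → E d, Test φ → ENNReal.ofReal (∫ x, f x * dvg φ x) ≤ K) :
    ∃ (fn : ℕ → E d → ℝ) (Gn : ℕ → E d → E d), (∀ n, NiceH (fn n) (Gn n)) ∧
      (∀ n, ∫⁻ x, ‖Gn n x‖ₑ ≤ d * K) ∧ (∀ n, Integrable (fun x => fn n x - f x)) ∧
      Tendsto (fun n => ∫ x, ‖fn n x - f x‖) atTop (𝓝 0) := by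
  sorry

/-- [REGH] `√(f^2+ε^2) - ε` for `NiceH` -/
theorem regularizeH {d : ℕ} (f : E d → ℝ) (G : E d → E d) (h : NiceH f G) (ε : ℝ) (hε : 0 < ε) :
    ∃ (g : E d → ℝ) (G' : E d → E d), NiceH g G' ∧ (∀ y, 0 ≤ g y) ∧
      (∀ y, |g y - abs (f y)| ≤ ε) ∧ (∀ y, g y ≤ |f y|) ∧ (∀ y, ‖G' y‖ ≤ ‖G y‖) := by
  sorry

/-- [BV4] BVMain.lean -/
theorem main_bv (d : ℕ) (hd : 2 ≤ d) :
    ∃ C : ℝ≥0, ∀ (f : E d → ℝ) (K : ℝ≥0), LocallyIntegrable f →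
      (∀ φ : E d → E d, Test φ → ENNReal.ofReal (∫ x, f x * dvg φ x) ≤ K) →
      (∀ᵐ x, Mt f x < ⊤) ∧ LocallyIntegrable (fun x => (Mt f x).toReal) ∧
      ∀ φ : E d → E d, Test φ → ENNReal.ofReal (∫ x, (Mt f x).toReal * dvg φ x) ≤ C * K := by
  sorry

end P137
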