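import Vale.Agent.P137.Telescope
import Vale.Agent.P137.CellBound
import Vale.Agent.P137.MaxBasic

/-!
# P137 [SUM]: the weighted sum of the increments
-/

open MeasureTheory Metric Set Filter Topology
open scoped ENNReal ContDiff NNReal

namespace P137

namespace SumJ

theorem rad_pos (k : ℤ) : 0 < rad k := by unfold rad; positivity

theorem rad_pred (k : ℤ) : rad (k - 1) = 3 * rad k := by
  unfold rad
  rw [show -(k - 1) - 4 = 1 + (-k - 4) by ring, zpow_add₀ (by norm_num : (3 : ℝ) ≠ 0), zpow_one]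

/-- the sum over one grid -/
theorem one_grid {d : ℕ} (G : E d → E d) (hG : Integrable G) (s : Fin d → Fin 2) (C μ : ℝ≥0) :
    ∑' k : ℤ, ∑' m0 : Fin d → ℤ, (C * ∑' n : ℕ, (μ : ℝ≥0∞) ^ n *
      ∑ m ∈ desc (ch s) m0 n, ENNReal.ofReal (D1 G s (k + n) m)) ≤
      C * ((∑' n : ℕ, (μ : ℝ≥0∞) ^ n) * ∫⁻ y, ‖G y‖ₑ) := by
  have h1 : ∀ k : ℤ, ∑' m0 : Fin d → ℤ, (C * ∑' n : ℕ, (μ : ℝ≥0∞) ^ n *
      ∑ m ∈ desc (ch s) m0 n, ENNReal.ofReal (D1 G s (k + n) m)) =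
      C * ∑' n : ℕ, (μ : ℝ≥0∞) ^ n * ∑' m : Fin d → ℤ, ENNReal.ofReal (D1 G s (k + n) m) := by
    intro k
    rw [ENNReal.tsum_mul_left]
    congr 1
    rw [ENNReal.tsum_comm]
    refine tsum_congr fun n => ?_
    rw [ENNReal.tsum_mul_left, desc_sum s n fun m => ENNReal.ofReal (D1 G s (k + n) m)]
  rw [tsum_congr h1, ENNReal.tsum_mul_left]
  refine mul_le_mul_right ?_ _
  rw [ENNReal.tsum_comm, ← ENNReal.tsum_mul_right]
  refine ENNReal.tsum_le_tsum fun n => ?_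
  rw [ENNReal.tsum_mul_left]
  refine mul_le_mul_right ?_ _
  have h2 : ∑' k : ℤ, ∑' m : Fin d → ℤ, ENNReal.ofReal (D1 G s (k + n) m) =
      ∑' k : ℤ, ∑' m : Fin d → ℤ, ENNReal.ofReal (D1 G s k m) :=
    (Equiv.addRight (n : ℤ)).tsum_eq
      fun k => ∑' m : Fin d → ℤ, ENNReal.ofReal (D1 G s k m)
  rw [h2, ← ofReal_integral_norm_eq_lintegral_enorm hG]
  exact telescope G hG s

end SumJ

open SumJ

theorem sum_J (d : ℕ) (hd : 0 < d) :
    ∃ C : ℝ≥0, ∀ (g : E d → ℝ) (G : E d → E d), Nice g G → (∀ y, 0 ≤ g y) →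
      ∑' k : ℤ, (ENNReal.ofReal (rad k))⁻¹ * ∫⁻ x, (V (rad k) g x - V (rad (k - 1)) g x) ≤
        C * ∫⁻ x, ‖G x‖ₑ := by
  obtain ⟨C, μ, hμ, H⟩ := cell_bound d hd
  have hgeo : ∑' n : ℕ, (μ : ℝ≥0∞) ^ n ≠ ⊤ := by
    rw [ENNReal.tsum_geometric]
    refine ENNReal.inv_ne_top.2 ?_
    rw [← ENNReal.coe_one, ← ENNReal.coe_sub, ENNReal.coe_ne_zero]
    exact (tsub_pos_of_lt hμ).ne'
  refine ⟨(Fintype.card (Fin d → Fin 2) : ℝ≥0) * (C * (∑' n : ℕ, (μ : ℝ≥0∞) ^ n).toNNReal),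
    fun g G hgG hg0 => ?_⟩
  push_cast
  rw [ENNReal.coe_toNNReal hgeo]
  choose R hRm hR1 hR2 using fun (s : Fin d → Fin 2) (k : ℤ) (m0 : Fin d → ℤ) =>
    H g G hgG hg0 s k m0
  -- pointwise bound
  have hpt : ∀ (k : ℤ) (x : E d), V (rad k) g x - V (rad (k - 1)) g x ≤
      ∑ s : Fin d → Fin 2, ∑' m0 : Fin d → ℤ, R s k m0 x := by
    intro k x
    obtain ⟨s, m0, hs⟩ := cell_cover k x
    have h1 : R s k m0 x ≤ ∑ s : Fin d → Fin 2, ∑' m0 : Fin d → ℤ, R s k m0 x :=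
      (ENNReal.le_tsum m0).trans
        (Finset.single_le_sum (f := fun s => ∑' m0 : Fin d → ℤ, R s k m0 x)
          (fun _ _ => zero_le) (Finset.mem_univ s))
    refine le_trans ?_ h1
    rw [tsub_le_iff_left]
    unfold V
    refine iSup_le fun c => iSup_le fun ρ => iSup_le fun hρ => iSup_le fun hx => ?_
    have hrp := rad_pos k
    by_cases hbig : rad (k - 1) ≤ ρ
    · refine le_trans ?_ le_self_add
      exact le_iSup_of_le c (le_iSup_of_le ρ (le_iSup_of_le hbig (le_iSup_of_le hx le_rfl)))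
    · push Not at hbig
      rw [rad_pred] at hbig
      obtain ⟨e, he, hav⟩ := hR1 s k m0 x c ρ hs hx hρ hbig.le
      refine hav.trans ?_
      gcongr
      refine avg_le_V_of_closedBall g hgG.int _ x (3 * ρ) (rad (k - 1)) (rad_pos _) ?_ ?_
      · rw [rad_pred]
        linarith
      · rw [mem_closedBall, dist_eq_norm]
        have hρ0 : 0 < ρ := lt_of_lt_of_le hrp hρ
        have e1 : x - (x + (3 * ρ) • e) = -((3 * ρ) • e) := by abel
        rw [e1, norm_neg, norm_smul, he, Real.norm_of_nonneg (by positivity), mul_one]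
  -- integrate
  have hint : ∀ k : ℤ, (ENNReal.ofReal (rad k))⁻¹ *
      ∫⁻ x, (V (rad k) g x - V (rad (k - 1)) g x) ≤
      ∑ s : Fin d → Fin 2, ∑' m0 : Fin d → ℤ, (C * ∑' n : ℕ, (μ : ℝ≥0∞) ^ n *
        ∑ m ∈ desc (ch s) m0 n, ENNReal.ofReal (D1 G s (k + n) m)) := by
    intro k
    have hr0 : ENNReal.ofReal (rad k) ≠ 0 := by
      rw [Ne, ENNReal.ofReal_eq_zero, not_le]
      exact rad_pos k
    calc (ENNReal.ofReal (rad k))⁻¹ * ∫⁻ x, (V (rad k) g x - V (rad (k - 1)) g x)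
        ≤ (ENNReal.ofReal (rad k))⁻¹ *
          ∫⁻ x, ∑ s : Fin d → Fin 2, ∑' m0 : Fin d → ℤ, R s k m0 x := by
          gcongr with x
          exact hpt k x
      _ = ∑ s : Fin d → Fin 2, ∑' m0 : Fin d → ℤ,
          (ENNReal.ofReal (rad k))⁻¹ * ∫⁻ x, R s k m0 x := by
          rw [lintegral_finsetSum _ fun s _ => Measurable.ennreal_tsum fun m0 => hRm s k m0,
            Finset.mul_sum]
          refine Finset.sum_congr rfl fun s _ => ?_
          rw [lintegral_tsum fun m0 => (hRm s k m0).aemeasurable, ENNReal.tsum_mul_left]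
      _ ≤ _ := by
          refine Finset.sum_le_sum fun s _ => ENNReal.tsum_le_tsum fun m0 => ?_
          calc (ENNReal.ofReal (rad k))⁻¹ * ∫⁻ x, R s k m0 x
              ≤ (ENNReal.ofReal (rad k))⁻¹ * (C * ENNReal.ofReal (rad k) *
                ∑' n : ℕ, (μ : ℝ≥0∞) ^ n *
                  ∑ m ∈ desc (ch s) m0 n, ENNReal.ofReal (D1 G s (k + n) m)) := by
                gcongr
                exact hR2 s k m0
            _ = (ENNReal.ofReal (rad k))⁻¹ * ENNReal.ofReal (rad k) * (C *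
                ∑' n : ℕ, (μ : ℝ≥0∞) ^ n *
                  ∑ m ∈ desc (ch s) m0 n, ENNReal.ofReal (D1 G s (k + n) m)) := by ring
            _ = _ := by rw [ENNReal.inv_mul_cancel hr0 ENNReal.ofReal_ne_top, one_mul]
  calc ∑' k : ℤ, (ENNReal.ofReal (rad k))⁻¹ * ∫⁻ x, (V (rad k) g x - V (rad (k - 1)) g x)
      ≤ ∑' k : ℤ, ∑ s : Fin d → Fin 2, ∑' m0 : Fin d → ℤ, (C * ∑' n : ℕ, (μ : ℝ≥0∞) ^ n *
        ∑ m ∈ desc (ch s) m0 n, ENNReal.ofReal (D1 G s (k + n) m)) :=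
        ENNReal.tsum_le_tsum hint
    _ = ∑ s : Fin d → Fin 2, ∑' k : ℤ, ∑' m0 : Fin d → ℤ, (C * ∑' n : ℕ, (μ : ℝ≥0∞) ^ n *
        ∑ m ∈ desc (ch s) m0 n, ENNReal.ofReal (D1 G s (k + n) m)) :=
        Summable.tsum_finsetSum fun s _ => ENNReal.summable
    _ ≤ ∑ _s : Fin d → Fin 2, C * ((∑' n : ℕ, (μ : ℝ≥0∞) ^ n) * ∫⁻ y, ‖G y‖ₑ) :=
        Finset.sum_le_sum fun s _ => one_grid G hgG.intG s C μ
    _ = _ := by
        rw [Finset.sum_const, Finset.card_univ, nsmul_eq_mul]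
        simp only [Fintype.card_pi, Fintype.card_fin, Finset.prod_const, Finset.card_univ]
        push_cast
        ring

end P137
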