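import Vale.Agent.P137.Defs
import Vale.Agent.P137.MaxBasic
import Vale.Agent.P137.MaxLip
import Vale.Agent.P137.AC1

/-!
# P137 [SUP]: the supremum of the maximal function on lines
-/

open MeasureTheory Metric Set Filter Topology
open scoped ENNReal ContDiff NNReal

namespace P137

namespace SupAux

variable {d : ℕ}

theorem line_le {w : ℝ → ℝ} {L : ℝ≥0} (hw : LipschitzWith L w) (h0 : Tendsto w atBot (𝓝 0))
    (t : ℝ) : ‖w t‖ₑ ≤ ∫⁻ s, ‖deriv w s‖ₑ := by
  have h1 : ∀ a ≤ t, ‖w t - w a‖ₑ ≤ ∫⁻ s, ‖deriv w s‖ₑ := by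
    intro a ha
    have hac : AbsolutelyContinuousOnInterval w a t :=
      (hw.lipschitzOnWith).absolutelyContinuousOnInterval
    exact (AC1.enorm_sub_le ha hac ⟨le_rfl, ha⟩ ⟨ha, le_rfl⟩ ha).trans
      (setLIntegral_le_lintegral _ _)
  have h2 : Tendsto (fun a => ‖w t - w a‖ₑ) atBot (𝓝 ‖w t - 0‖ₑ) :=
    (continuous_enorm.tendsto _).comp (tendsto_const_nhds.sub h0)
  rw [sub_zero] at h2
  exact le_of_tendsto h2 ((eventually_le_atBot t).mono h1)

theorem deriv_line (u : E d → ℝ) (x v : E d) (s : ℝ) :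
    deriv (fun t => u (x + t • v)) s = lineDeriv ℝ u (x + s • v) v := by
  unfold lineDeriv
  have : (fun t : ℝ => u (x + s • v + t • v)) =
      fun t => (fun t => u (x + t • v)) (s + t) := by
    ext t
    simp [add_smul, add_assoc]
  rw [this]
  have h := deriv_comp_const_add (fun t => u (x + t • v)) s (0 : ℝ)
  rw [add_zero] at h
  exact h.symm

theorem tendsto_line (x : E d) (i : Fin d) :
    Tendsto (fun t : ℝ => x + t • EuclideanSpace.single i (1 : ℝ)) atBot (cocompact (E d)) := by
  rw [← cobounded_eq_cocompact, ← tendsto_norm_atTop_iff_cobounded]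
  have h1 : Tendsto (fun t : ℝ => |t| - ‖x‖) atBot atTop :=
    tendsto_atTop_add_const_right _ _ tendsto_abs_atBot_atTop
  refine tendsto_atTop_mono (fun t => ?_) h1
  have h2 : ‖t • EuclideanSpace.single i (1 : ℝ)‖ = |t| := by
    rw [norm_smul]; simp
  rw [← h2]
  calc ‖t • EuclideanSpace.single i (1 : ℝ)‖ - ‖x‖
      = ‖(x + t • EuclideanSpace.single i (1 : ℝ)) - x‖ - ‖x‖ := by rw [add_sub_cancel_left]
    _ ≤ _ := by
      have := norm_sub_le (x + t • EuclideanSpace.single i (1 : ℝ)) x
      linarith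

theorem fub {F : E d → ℝ≥0∞} (hF : Measurable F) (i : Fin d) (ρ : ℝ) :
    ∫⁻ x in ball (0 : E d) ρ, ∫⁻ s : ℝ, F (x + s • EuclideanSpace.single i (1 : ℝ)) ≤
      ENNReal.ofReal (2 * ρ) * ∫⁻ x, F x := by
  set v : E d := EuclideanSpace.single i (1 : ℝ) with hv
  set B : E d → ℝ≥0∞ := (ball (0 : E d) ρ).indicator 1 with hB
  have hBm : Measurable B := measurable_one.indicator measurableSet_ball
  have m1 : Measurable (Function.uncurry fun (x : E d) (s : ℝ) => B x * F (x + s • v)) := by
    have : Measurable fun p : E d × ℝ => p.1 + p.2 • v := by fun_prop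
    exact (hBm.comp measurable_fst).mul (hF.comp this)
  have m2 : Measurable (Function.uncurry fun (s : ℝ) (y : E d) => B (y - s • v) * F y) := by
    have : Measurable fun p : ℝ × E d => p.2 - p.1 • v := by fun_prop
    exact (hBm.comp this).mul (hF.comp measurable_snd)
  calc ∫⁻ x in ball (0 : E d) ρ, ∫⁻ s : ℝ, F (x + s • v)
      = ∫⁻ x, ∫⁻ s : ℝ, B x * F (x + s • v) := by
        rw [← lintegral_indicator measurableSet_ball]
        refine lintegral_congr fun x => ?_
        by_cases hx : x ∈ ball (0 : E d) ρ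
        · rw [indicator_of_mem hx]
          refine lintegral_congr fun s => ?_
          rw [hB, indicator_of_mem hx, Pi.one_apply, one_mul]
        · rw [indicator_of_notMem hx]
          have : ∀ s : ℝ, B x * F (x + s • v) = 0 := fun s => by
            rw [hB, indicator_of_notMem hx, zero_mul]
          simp [this]
    _ = ∫⁻ s : ℝ, ∫⁻ x, B x * F (x + s • v) := lintegral_lintegral_swap m1.aemeasurable
    _ = ∫⁻ s : ℝ, ∫⁻ y, B (y - s • v) * F y := by
        refine lintegral_congr fun s => ?_
        rw [← lintegral_add_right_eq_self (fun y => B (y - s • v) * F y) (s • v)]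
        refine lintegral_congr fun x => ?_
        rw [add_sub_cancel_right]
    _ = ∫⁻ y, ∫⁻ s : ℝ, B (y - s • v) * F y := lintegral_lintegral_swap m2.aemeasurable
    _ ≤ ∫⁻ y, ENNReal.ofReal (2 * ρ) * F y := by
        refine lintegral_mono fun y => ?_
        have m3 : Measurable fun s : ℝ => B (y - s • v) := by
          have : Measurable fun s : ℝ => y - s • v := by fun_prop
          exact hBm.comp this
        rw [lintegral_mul_const _ m3]
        refine mul_le_mul_left ?_ _
        calc ∫⁻ s : ℝ, B (y - s • v)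
            ≤ ∫⁻ s : ℝ, (Ioo (y i - ρ) (y i + ρ)).indicator 1 s := by
              refine lintegral_mono fun s => ?_
              by_cases hs : y - s • v ∈ ball (0 : E d) ρ
              · have h1 : |y i - s| < ρ := by
                  have h2 := PiLp.norm_apply_le (y - s • v) i
                  rw [mem_ball, dist_zero_right] at hs
                  have h3 : (y - s • v) i = y i - s := by simp [hv]
                  rw [h3, Real.norm_eq_abs] at h2
                  exact lt_of_le_of_lt h2 hs
                rw [abs_lt] at h1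
                have h4 : s ∈ Ioo (y i - ρ) (y i + ρ) := ⟨by linarith, by linarith⟩
                simp only [hB]
                rw [indicator_of_mem hs, indicator_of_mem h4]
                simp
              · simp only [hB]
                rw [indicator_of_notMem hs]
                exact zero_le
          _ = ENNReal.ofReal (2 * ρ) := by
              rw [lintegral_indicator_one measurableSet_Ioo, Real.volume_Ioo]
              congr 1
              ring
    _ = ENNReal.ofReal (2 * ρ) * ∫⁻ x, F x := by rw [lintegral_const_mul _ hF]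

/-- the statement of `var_W11` -/
def VarW (d : ℕ) : Prop :=
  ∃ C : ℝ≥0, ∀ (f : E d → ℝ) (G : E d → E d), W11 f G → ∀ (N : ℤ) (i : Fin d),
      ∫⁻ x, ‖lineDeriv ℝ (fun x => (V (rad N) f x).toReal) x (EuclideanSpace.single i 1)‖ₑ ≤
        C * ∫⁻ x, ‖G x‖ₑ

theorem sup_line_of (d : ℕ) (hd : 0 < d) (H : VarW d) :
    ∃ C : ℝ → ℝ≥0, ∀ (f : E d → ℝ) (G : E d → E d), W11 f G → ∀ (ρ : ℝ) (i : Fin d),
      ∫⁻ x in ball (0 : E d) ρ, ⨆ t : ℝ, Mt f (x + t • EuclideanSpace.single i 1) ≤
        C ρ * ∫⁻ x, ‖G x‖ₑ := by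
  obtain ⟨C, hC⟩ := H
  refine ⟨fun ρ => (2 * ρ).toNNReal * C, fun f G h ρ i => ?_⟩
  set v : E d := EuclideanSpace.single i (1 : ℝ) with hv
  have e : ∀ x, (⨆ t : ℝ, Mt f (x + t • v)) = ⨆ n : ℕ, ⨆ t : ℝ, V (rad n) f (x + t • v) := by
    intro x
    rw [iSup_comm]
    simp_rw [Mt_eq_iSup]
  simp_rw [e]
  have hmeas : ∀ n : ℕ, Measurable fun x => ⨆ t : ℝ, V (rad n) f (x + t • v) := by
    intro n
    have h1 : ∀ t : ℝ, LowerSemicontinuous fun x => V (rad n) f (x + t • v) := by
      intro t
      have hc : Continuous fun x : E d => x + t • v := by fun_prop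
      have h2 := LowerSemicontinuous.comp (V_lsc f (rad n)) hc
      exact h2
    exact (lowerSemicontinuous_iSup h1).measurable
  have hmono : Monotone fun (n : ℕ) (x : E d) => ⨆ t : ℝ, V (rad n) f (x + t • v) := by
    intro m n hmn x
    refine iSup_mono fun t => V_anti f _ ?_
    unfold rad
    exact zpow_le_zpow_right₀ (by norm_num) (by
      have : (m : ℤ) ≤ n := by exact_mod_cast hmn
      linarith)
  rw [lintegral_iSup hmeas hmono]
  refine iSup_le fun n => ?_
  obtain ⟨L, hL⟩ := V_lip f h.int (rad n) (rad_pos n)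
  set u : E d → ℝ := fun x => (V (rad n) f x).toReal with hu
  have hdec : Tendsto u (cocompact (E d)) (𝓝 0) := V_decay hd f h.int (rad n) (rad_pos n)
  have hDm : Measurable fun x => ‖lineDeriv ℝ u x v‖ₑ :=
    (measurable_lineDeriv hL.continuous).enorm
  calc ∫⁻ x in ball (0 : E d) ρ, ⨆ t : ℝ, V (rad n) f (x + t • v)
      ≤ ∫⁻ x in ball (0 : E d) ρ, ∫⁻ s : ℝ, ‖lineDeriv ℝ u (x + s • v) v‖ₑ := by
        refine lintegral_mono fun x => iSup_le fun t => ?_
        have hlv : LipschitzWith 1 fun t : ℝ => x + t • v := by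
          refine LipschitzWith.of_dist_le_mul fun a b => ?_
          rw [dist_eq_norm, add_sub_add_left_eq_sub, ← sub_smul, norm_smul, hv, dist_eq_norm]
          simp
        have hw : LipschitzWith (L * 1) fun t : ℝ => u (x + t • v) := hL.comp hlv
        have h0 : Tendsto (fun t : ℝ => u (x + t • v)) atBot (𝓝 0) :=
          hdec.comp (tendsto_line x i)
        have h1 := line_le hw h0 t
        simp_rw [deriv_line] at h1
        refine le_trans (le_of_eq ?_) h1
        have h2 : V (rad n) f (x + t • v) ≠ ⊤ := (V_lt_top f h.int _ (rad_pos n) _).ne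
        simp only [hu]
        rw [Real.enorm_eq_ofReal ENNReal.toReal_nonneg, ENNReal.ofReal_toReal h2]
    _ ≤ ENNReal.ofReal (2 * ρ) * ∫⁻ x, ‖lineDeriv ℝ u x v‖ₑ := fub hDm i ρ
    _ ≤ ENNReal.ofReal (2 * ρ) * (C * ∫⁻ x, ‖G x‖ₑ) := mul_le_mul_right (hC f G h n i) _
    _ = _ := by
        rw [ENNReal.coe_mul, mul_assoc]
        rfl

end SupAux

end P137
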