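import Vale.Agent.P137.Grid

/-!
# P137 [TEL]: telescoping of the defects
-/

open MeasureTheory Metric Set Filter Topology
open scoped ENNReal ContDiff NNReal

namespace P137

namespace Tel

theorem mem_desc {d : ℕ} (s : Fin d → Fin 2) (n : ℕ) (m0 m : Fin d → ℤ) :
    m ∈ desc (ch s) m0 n ↔ (par s)^[n] m = m0 := by
  induction n generalizing m with
  | zero => simp [desc]
  | succ n ih =>
    simp only [desc, Finset.mem_biUnion]
    rw [Function.iterate_succ_apply]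
    constructor
    · rintro ⟨a, h1, h2⟩
      rw [mem_ch] at h2
      rw [h2]
      exact (ih a).1 h1
    · intro h
      exact ⟨par s m, (ih _).2 h, (mem_ch _ _ _).2 rfl⟩

end Tel

open Tel

theorem desc_sum {d : ℕ} (s : Fin d → Fin 2) (n : ℕ) (F : (Fin d → ℤ) → ℝ≥0∞) :
    ∑' m0 : Fin d → ℤ, ∑ m ∈ desc (ch s) m0 n, F m = ∑' m : Fin d → ℤ, F m := by
  classical
  have h1 : ∀ m0 : Fin d → ℤ, ∑ m ∈ desc (ch s) m0 n, F m =
      ∑' m : Fin d → ℤ, if (par s)^[n] m = m0 then F m else 0 := by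
    intro m0
    rw [tsum_eq_sum (s := desc (ch s) m0 n)]
    · refine Finset.sum_congr rfl fun m hm => ?_
      rw [if_pos ((mem_desc s n m0 m).1 hm)]
    · intro m hm
      rw [if_neg fun h => hm ((mem_desc s n m0 m).2 h)]
  rw [tsum_congr h1, ENNReal.tsum_comm]
  refine tsum_congr fun m => ?_
  rw [tsum_eq_single ((par s)^[n] m)]
  · rw [if_pos rfl]
  · intro b hb
    rw [if_neg fun h => hb h.symm]

namespace Tel

/-- the total mass of generation `k` -/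
noncomputable def A {d : ℕ} (G : E d → E d) (s : Fin d → Fin 2) (k : ℤ) : ℝ≥0∞ :=
  ∑' m : Fin d → ℤ, ‖aV G s k m‖ₑ

/-- the total defect of generation `k` -/
noncomputable def S {d : ℕ} (G : E d → E d) (s : Fin d → Fin 2) (k : ℤ) : ℝ≥0∞ :=
  ∑' m : Fin d → ℤ, ENNReal.ofReal (D1 G s k m)

theorem S_add_A {d : ℕ} (G : E d → E d) (hG : Integrable G) (s : Fin d → Fin 2) (k : ℤ) :
    S G s k + A G s k = A G s (k + 1) := by
  unfold S A
  rw [← ENNReal.tsum_add]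
  rw [← desc_sum s 1 fun m => ‖aV G s (k + 1) m‖ₑ]
  refine tsum_congr fun m => ?_
  have e : desc (ch s) m 1 = ch s m := by simp [desc]
  rw [e, ← ofReal_norm, ← ENNReal.ofReal_add (D1_nonneg G hG s k m) (norm_nonneg _)]
  unfold D1
  rw [sub_add_cancel, ENNReal.ofReal_sum_of_nonneg fun i _ => norm_nonneg _]
  exact Finset.sum_congr rfl fun i _ => ofReal_norm _

theorem A_le {d : ℕ} (G : E d → E d) (s : Fin d → Fin 2) (k : ℤ) :
    A G s k ≤ ∫⁻ y, ‖G y‖ₑ := by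
  unfold A
  calc ∑' m : Fin d → ℤ, ‖aV G s k m‖ₑ ≤ ∑' m : Fin d → ℤ, ∫⁻ y in cell s k m, ‖G y‖ₑ :=
        ENNReal.tsum_le_tsum fun m => enorm_integral_le_lintegral_enorm _
    _ = ∫⁻ y in ⋃ m, cell s k m, ‖G y‖ₑ :=
        (lintegral_iUnion (fun m => cell_meas s k m)
          (fun m m' h => Grid.cell_disj s k h) _).symm
    _ = ∫⁻ y, ‖G y‖ₑ := by rw [Grid.iUnion_cell, setLIntegral_univ]

theorem sum_Ico {d : ℕ} (G : E d → E d) (hG : Integrable G) (s : Fin d → Fin 2) (a : ℤ) (n : ℕ) :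
    ∑ k ∈ Finset.Ico a (a + n), S G s k + A G s a = A G s (a + n) := by
  induction n with
  | zero => simp
  | succ n ih =>
    have e : Finset.Ico a (a + ((n + 1 : ℕ) : ℤ)) = insert (a + n) (Finset.Ico a (a + n)) := by
      ext j
      simp only [Finset.mem_insert, Finset.mem_Ico]
      push_cast
      omega
    rw [e, Finset.sum_insert (by simp), add_assoc, ih, S_add_A G hG]
    congr 1
    push_cast
    ring

end Tel

theorem telescope {d : ℕ} (G : E d → E d) (hG : Integrable G) (s : Fin d → Fin 2) :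
    ∑' k : ℤ, ∑' m : Fin d → ℤ, ENNReal.ofReal (D1 G s k m) ≤ ENNReal.ofReal (∫ y, ‖G y‖) := by
  rw [ofReal_integral_norm_eq_lintegral_enorm hG]
  change ∑' k : ℤ, S G s k ≤ _
  rw [ENNReal.tsum_eq_iSup_sum]
  refine iSup_le fun T => ?_
  obtain ⟨N, hN⟩ : ∃ N : ℕ, ∀ k ∈ T, -(N : ℤ) ≤ k ∧ k < N := by
    refine ⟨(∑ k ∈ T, k.natAbs) + 1, fun k hk => ?_⟩
    have h : k.natAbs ≤ ∑ k ∈ T, k.natAbs :=
      Finset.single_le_sum (f := fun k : ℤ => k.natAbs) (fun _ _ => Nat.zero_le _) hk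
    omega
  have hsub : T ⊆ Finset.Ico (-(N : ℤ)) (-(N : ℤ) + ((2 * N : ℕ) : ℤ)) := by
    intro k hk
    have := hN k hk
    rw [Finset.mem_Ico]
    push_cast
    omega
  calc ∑ k ∈ T, S G s k ≤ ∑ k ∈ Finset.Ico (-(N : ℤ)) (-(N : ℤ) + ((2 * N : ℕ) : ℤ)), S G s k :=
        Finset.sum_le_sum_of_subset hsub
    _ ≤ ∑ k ∈ Finset.Ico (-(N : ℤ)) (-(N : ℤ) + ((2 * N : ℕ) : ℤ)), S G s k +
        A G s (-(N : ℤ)) := le_self_add
    _ = A G s (-(N : ℤ) + ((2 * N : ℕ) : ℤ)) := sum_Ico G hG s _ _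
    _ ≤ _ := A_le G s _

end P137
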