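import Mathlib

/-! P137, lemma M21: weak limits along an ultrafilter of uniformly integrable sequences -/

open MeasureTheory Filter Topology Set

set_option linter.unusedSectionVars false
set_option linter.unusedVariables false

namespace P137

namespace Ultra

/-- bounded sequences in a Hilbert space converge weakly along every ultrafilter -/
theorem weak_limit {H : Type*} [NormedAddCommGroup H] [InnerProductSpace ℝ H] [CompleteSpace H]
    (U : Ultrafilter ℕ) (v : ℕ → H) (r : ℝ) (hv : ∀ n, ‖v n‖ ≤ r) :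
    ∃ G : H, ∀ y : H, Tendsto (fun n => inner ℝ (v n) y) U (𝓝 (inner ℝ G y)) := by
  let d : ℕ → WeakDual ℝ H := fun n =>
    StrongDual.toWeakDual (InnerProductSpace.toDual ℝ H (v n))
  have hK := WeakDual.isCompact_closedBall (𝕜 := ℝ) (E := H) 0 r
  have hle : ((U.map d : Ultrafilter (WeakDual ℝ H)) : Filter (WeakDual ℝ H)) ≤
      𝓟 (WeakDual.toStrongDual ⁻¹' Metric.closedBall (0 : StrongDual ℝ H) r) := by
    rw [le_principal_iff, Ultrafilter.coe_map]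
    refine Filter.mem_map.2 (Filter.univ_mem' (fun n => ?_))
    simp only [Set.mem_preimage, Metric.mem_closedBall, dist_zero_right]
    show ‖InnerProductSpace.toDual ℝ H (v n)‖ ≤ r
    rw [LinearIsometryEquiv.norm_map]
    exact hv n
  obtain ⟨φ, _, hφ⟩ := hK.ultrafilter_le_nhds (U.map d) hle
  refine ⟨(InnerProductSpace.toDual ℝ H).symm (WeakDual.toStrongDual φ), fun y => ?_⟩
  have h1 : Tendsto d U (𝓝 φ) := hφ
  have h2 : Tendsto (fun n => (d n) y) U (𝓝 (φ y)) :=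
    ((WeakDual.eval_continuous y).tendsto φ).comp h1
  have h3 : inner ℝ ((InnerProductSpace.toDual ℝ H).symm (WeakDual.toStrongDual φ)) y = φ y := by
    rw [InnerProductSpace.toDual_symm_apply]
    rfl
  rw [h3]
  exact h2

variable {α : Type*} [MeasurableSpace α] {μ : Measure α}
  {F : Type*} [NormedAddCommGroup F] [InnerProductSpace ℝ F] [CompleteSpace F]

/-- truncation -/
noncomputable def trunc (f : α → F) (k : ℝ) : α → F := {x | ‖f x‖ ≤ k}.indicator f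

theorem norm_trunc_le (f : α → F) {k : ℝ} (x : α) : ‖trunc f k x‖ ≤ ‖f x‖ := by
  unfold trunc
  exact norm_indicator_le_norm_self _ _

theorem norm_trunc_le' (f : α → F) {k : ℝ} (hk : 0 ≤ k) (x : α) : ‖trunc f k x‖ ≤ k := by
  unfold trunc
  by_cases hx : ‖f x‖ ≤ k
  · rw [Set.indicator_of_mem (show x ∈ {x | ‖f x‖ ≤ k} from hx)]
    exact hx
  · rw [Set.indicator_of_notMem (show x ∉ {x | ‖f x‖ ≤ k} from hx)]
    simpa using hk

theorem sm_trunc {f : α → F} (hf : StronglyMeasurable f) (k : ℝ) :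
    StronglyMeasurable (trunc f k) :=
  hf.indicator (hf.norm.measurable measurableSet_Iic)

theorem memLp_trunc {f : α → F} (hf : StronglyMeasurable f) (hi : Integrable f μ) {k : ℝ}
    (hk : 0 ≤ k) : MemLp (trunc f k) 2 μ := by
  rw [memLp_two_iff_integrable_sq_norm (sm_trunc hf k).aestronglyMeasurable]
  refine Integrable.mono' (hi.norm.const_mul k)
    ((sm_trunc hf k).norm.pow 2).aestronglyMeasurable (Filter.Eventually.of_forall fun x => ?_)
  rw [Real.norm_of_nonneg (sq_nonneg _), sq]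
  exact mul_le_mul (norm_trunc_le' f hk x) (norm_trunc_le f x) (norm_nonneg _) hk

theorem integral_sq_trunc_le {f : α → F} (hf : StronglyMeasurable f) (hi : Integrable f μ) {k : ℝ}
    (hk : 0 ≤ k) : ∫ x, ‖trunc f k x‖ ^ 2 ∂μ ≤ k * ∫ x, ‖f x‖ ∂μ := by
  rw [← integral_const_mul]
  refine integral_mono_of_nonneg (Filter.Eventually.of_forall fun x => sq_nonneg _)
    (hi.norm.const_mul k) (Filter.Eventually.of_forall fun x => ?_)
  show ‖trunc f k x‖ ^ 2 ≤ k * ‖f x‖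
  rw [sq]
  exact mul_le_mul (norm_trunc_le' f hk x) (norm_trunc_le f x) (norm_nonneg _) hk

theorem norm_sub_trunc (f : α → F) (k : ℝ) (x : α) :
    ‖f x - trunc f k x‖ = {x | k < ‖f x‖}.indicator (fun x => ‖f x‖) x := by
  unfold trunc
  by_cases hx : ‖f x‖ ≤ k
  · rw [Set.indicator_of_mem (show x ∈ {x | ‖f x‖ ≤ k} from hx),
      Set.indicator_of_notMem (by simpa using hx)]
    simp
  · rw [Set.indicator_of_notMem (show x ∉ {x | ‖f x‖ ≤ k} from hx),
      Set.indicator_of_mem (by simpa using hx)]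
    simp

theorem integrable_inner_bdd {f Ψ : α → F} (hi : Integrable f μ) (hΨ : AEStronglyMeasurable Ψ μ)
    {C : ℝ} (hC : ∀ᵐ x ∂μ, ‖Ψ x‖ ≤ C) : Integrable (fun x => inner ℝ (f x) (Ψ x)) μ := by
  refine Integrable.mono' (hi.norm.mul_const C) (hi.1.inner hΨ) ?_
  filter_upwards [hC] with x hx
  exact (norm_inner_le_norm _ _).trans (mul_le_mul_of_nonneg_left hx (norm_nonneg _))

theorem abs_integral_inner_le {f Ψ : α → F} (hi : Integrable f μ)
    (hΨ : AEStronglyMeasurable Ψ μ) {C : ℝ} (hC : ∀ᵐ x ∂μ, ‖Ψ x‖ ≤ C) :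
    |∫ x, inner ℝ (f x) (Ψ x) ∂μ| ≤ C * ∫ x, ‖f x‖ ∂μ := by
  rw [← Real.norm_eq_abs, ← integral_const_mul]
  refine norm_integral_le_of_norm_le (hi.norm.const_mul C) ?_
  filter_upwards [hC] with x hx
  refine (norm_inner_le_norm _ _).trans ?_
  rw [mul_comm]
  exact mul_le_mul_of_nonneg_right hx (norm_nonneg _)

/-- duality: an `L²` function tested against bounded functions -/
theorem lintegral_le_of_dual [SigmaFinite μ] (D : Lp F 2 μ) (a : ℝ)
    (h : ∀ Ψ : Lp F 2 μ, (∀ᵐ x ∂μ, ‖Ψ x‖ ≤ 1) → |inner ℝ D Ψ| ≤ a) :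
    ∫⁻ x, ‖D x‖ₑ ∂μ ≤ ENNReal.ofReal a := by
  refine lintegral_le_of_forall_fin_meas_le _ (fun s hs hμs => ?_)
  have hDm : StronglyMeasurable (D : α → F) := Lp.stronglyMeasurable D
  let ψ : α → F := s.indicator (fun x => (‖D x‖)⁻¹ • D x)
  have hψm : StronglyMeasurable ψ := by
    refine StronglyMeasurable.indicator ?_ hs
    exact (hDm.norm.measurable.inv.stronglyMeasurable).smul hDm
  have hψ1 : ∀ x, ‖ψ x‖ ≤ 1 := by
    intro x
    by_cases hx : x ∈ s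
    · simp only [ψ, Set.indicator_of_mem hx, norm_smul, norm_inv, norm_norm]
      by_cases h0 : ‖D x‖ = 0
      · simp [h0]
      · rw [inv_mul_cancel₀ h0]
    · simp [ψ, Set.indicator_of_notMem hx]
  have hψL : MemLp ψ 2 μ := by
    have : MemLp (s.indicator (fun _ => (1 : ℝ))) 2 μ := memLp_indicator_const 2 hs 1 (Or.inr hμs)
    refine this.mono hψm.aestronglyMeasurable (Filter.Eventually.of_forall fun x => ?_)
    by_cases hx : x ∈ s
    · simpa [Set.indicator_of_mem hx] using hψ1 x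
    · simp [ψ, Set.indicator_of_notMem hx]
  have hcoe := hψL.coeFn_toLp
  have h1 := h (hψL.toLp ψ) (by filter_upwards [hcoe] with x hx; rw [hx]; exact hψ1 x)
  have h2 : inner ℝ D (hψL.toLp ψ) = ∫ x in s, ‖D x‖ ∂μ := by
    rw [L2.inner_def, ← integral_indicator hs]
    refine integral_congr_ae ?_
    filter_upwards [hcoe] with x hx
    rw [hx]
    by_cases hxs : x ∈ s
    · simp only [ψ, Set.indicator_of_mem hxs, inner_smul_right, real_inner_self_eq_norm_sq]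
      by_cases h0 : ‖D x‖ = 0
      · simp [h0]
      · field_simp
    · simp [ψ, Set.indicator_of_notMem hxs]
  have hint : IntegrableOn (fun x => ‖D x‖) s μ := by
    have hm2 : MemLp (D : α → F) 2 (μ.restrict s) := (Lp.memLp D).restrict s
    have : IsFiniteMeasure (μ.restrict s) := ⟨by simpa using hμs.lt_top⟩
    exact (hm2.integrable (by norm_num)).norm
  have h3 : ∫⁻ x in s, ‖D x‖ₑ ∂μ = ENNReal.ofReal (∫ x in s, ‖D x‖ ∂μ) := by
    rw [ofReal_integral_eq_lintegral_ofReal hint (Filter.Eventually.of_forall fun x => norm_nonneg _)]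
    refine lintegral_congr (fun x => ?_)
    rw [ofReal_norm]
  rw [h3]
  refine ENNReal.ofReal_le_ofReal ?_
  rw [← h2]
  exact (le_abs_self _).trans h1

/-- uniform smallness of the tails -/
theorem tails (h : ℕ → α → F) (hint : ∀ n, Integrable (h n) μ) (M : ℝ)
    (hM : ∀ n, ∫ x, ‖h n x‖ ∂μ ≤ M)
    (hsm : ∀ n, StronglyMeasurable (h n))
    (hUI : ∀ ε > 0, ∃ δ > 0, ∀ n, ∀ s, MeasurableSet s → μ s ≤ ENNReal.ofReal δ →
      ∫ x in s, ‖h n x‖ ∂μ ≤ ε) (ε : ℝ) (hε : 0 < ε) :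
    ∃ K : ℕ, ∀ k : ℕ, K ≤ k → ∀ n, ∫ x, ‖h n x - trunc (h n) k x‖ ∂μ ≤ ε := by
  obtain ⟨δ, hδ, hs⟩ := hUI ε hε
  obtain ⟨K, hK⟩ := exists_nat_ge (M / δ)
  refine ⟨max K 1, fun k hk n => ?_⟩
  have hk1 : (1 : ℝ) ≤ k := by exact_mod_cast (le_max_right K 1).trans hk
  have hkK : (K : ℝ) ≤ k := by exact_mod_cast (le_max_left K 1).trans hk
  have hmeas : MeasurableSet {x | (k : ℝ) < ‖h n x‖} := (hsm n).norm.measurable measurableSet_Ioi
  have h1 : ∫ x, ‖h n x - trunc (h n) k x‖ ∂μ = ∫ x in {x | (k : ℝ) < ‖h n x‖}, ‖h n x‖ ∂μ := by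
    rw [← integral_indicator hmeas]
    exact integral_congr_ae (Filter.Eventually.of_forall fun x => norm_sub_trunc (h n) k x)
  rw [h1]
  refine hs n _ hmeas ?_
  have h2 : ∫⁻ x, ‖h n x‖ₑ ∂μ ≤ ENNReal.ofReal M := by
    have : ∫⁻ x, ‖h n x‖ₑ ∂μ = ENNReal.ofReal (∫ x, ‖h n x‖ ∂μ) := by
      rw [ofReal_integral_eq_lintegral_ofReal (hint n).norm
        (Filter.Eventually.of_forall fun x => norm_nonneg _)]
      refine lintegral_congr (fun x => ?_)
      rw [ofReal_norm]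
    rw [this]
    exact ENNReal.ofReal_le_ofReal (hM n)
  have hkpos : (0 : ℝ) < k := by linarith
  have h3 : μ {x | (k : ℝ) < ‖h n x‖} ≤ (∫⁻ x, ‖h n x‖ₑ ∂μ) / ENNReal.ofReal k := by
    refine (measure_mono ?_).trans (meas_ge_le_lintegral_div (hint n).1.enorm
      (ENNReal.ofReal_pos.2 hkpos).ne' ENNReal.ofReal_ne_top)
    intro x hx
    show ENNReal.ofReal k ≤ ‖h n x‖ₑ
    rw [← ofReal_norm]
    exact ENNReal.ofReal_le_ofReal (le_of_lt hx)
  refine h3.trans ((ENNReal.div_le_div_right h2 _).trans ?_)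
  rw [← ENNReal.ofReal_div_of_pos hkpos]
  refine ENNReal.ofReal_le_ofReal ?_
  rw [div_le_iff₀ hkpos]
  have := (div_le_iff₀ hδ).1 (hK.trans hkK)
  linarith

theorem ultra_limit_sm [SigmaFinite μ] (h : ℕ → α → F) (hint : ∀ n, Integrable (h n) μ) (M : ℝ)
    (hM : ∀ n, ∫ x, ‖h n x‖ ∂μ ≤ M) (hsm : ∀ n, StronglyMeasurable (h n))
    (hUI : ∀ ε > 0, ∃ δ > 0, ∀ n, ∀ s, MeasurableSet s → μ s ≤ ENNReal.ofReal δ →
      ∫ x in s, ‖h n x‖ ∂μ ≤ ε) (U : Ultrafilter ℕ) :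
    ∃ G : α → F, Integrable G μ ∧ ∫ x, ‖G x‖ ∂μ ≤ M ∧
      ∀ Ψ : α → F, MemLp Ψ 2 μ → ∀ C : ℝ, (∀ᵐ x ∂μ, ‖Ψ x‖ ≤ C) →
        Tendsto (fun n => ∫ x, inner ℝ (h n x) (Ψ x) ∂μ) U
          (𝓝 (∫ x, inner ℝ (G x) (Ψ x) ∂μ)) := by
  have hM0 : 0 ≤ M := (integral_nonneg fun x => norm_nonneg _).trans (hM 0)
  have hmem : ∀ (k n : ℕ), MemLp (trunc (h n) k) 2 μ :=
    fun k n => memLp_trunc (hsm n) (hint n) (Nat.cast_nonneg k)
  let v : ℕ → ℕ → Lp F 2 μ := fun k n => (hmem k n).toLp _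
  -- norm bound
  have hv : ∀ k n, ‖v k n‖ ≤ Real.sqrt (k * M) := by
    intro k n
    refine Real.le_sqrt_of_sq_le ?_
    rw [← real_inner_self_eq_norm_sq, L2.inner_def]
    have h1 : ∫ x, inner ℝ (v k n x) (v k n x) ∂μ = ∫ x, ‖trunc (h n) k x‖ ^ 2 ∂μ := by
      refine integral_congr_ae ?_
      filter_upwards [(hmem k n).coeFn_toLp] with x hx
      rw [real_inner_self_eq_norm_sq]
      show ‖((hmem k n).toLp _ : α → F) x‖ ^ 2 = _
      rw [hx]
    rw [h1]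
    exact (integral_sq_trunc_le (hsm n) (hint n) (Nat.cast_nonneg k)).trans
      (mul_le_mul_of_nonneg_left (hM n) (Nat.cast_nonneg k))
  choose G hG using fun k => weak_limit U (v k) _ (hv k)
  -- integrability of truncations
  have htint : ∀ k n, Integrable (trunc (h n) (k : ℕ)) μ := fun k n =>
    Integrable.mono (hint n) (sm_trunc (hsm n) _).aestronglyMeasurable
      (Filter.Eventually.of_forall fun x => norm_trunc_le (h n) x)
  have hinner : ∀ k n (Ψ : Lp F 2 μ),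
      inner ℝ (v k n) Ψ = ∫ x, inner ℝ (trunc (h n) k x) (Ψ x) ∂μ := by
    intro k n Ψ
    rw [L2.inner_def]
    refine integral_congr_ae ?_
    filter_upwards [(hmem k n).coeFn_toLp] with x hx
    show inner ℝ (((hmem k n).toLp _ : α → F) x) (Ψ x) = _
    rw [hx]
  have htrM : ∀ k n, ∫ x, ‖trunc (h n) (k : ℕ) x‖ ∂μ ≤ M := fun k n =>
    (integral_mono (htint k n).norm (hint n).norm (fun x => norm_trunc_le (h n) x)).trans (hM n)
  -- bounds for the limits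
  have hB : ∀ k (Ψ : Lp F 2 μ), (∀ᵐ x ∂μ, ‖Ψ x‖ ≤ 1) → |inner ℝ (G k) Ψ| ≤ M := by
    intro k Ψ hΨ
    refine le_of_tendsto (hG k Ψ).abs (Filter.Eventually.of_forall fun n => ?_)
    rw [hinner]
    have := abs_integral_inner_le (htint k n) (Lp.aestronglyMeasurable Ψ) hΨ
    rw [one_mul] at this
    exact this.trans (htrM k n)
  have hA : ∀ ε > 0, ∃ K : ℕ, ∀ k, K ≤ k → ∀ l, K ≤ l → ∀ (Ψ : Lp F 2 μ),
      (∀ᵐ x ∂μ, ‖Ψ x‖ ≤ 1) → |inner ℝ (G k - G l) Ψ| ≤ 2 * ε := by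
    intro ε hε
    obtain ⟨K, hK⟩ := tails h hint M hM hsm hUI ε hε
    refine ⟨K, fun k hk l hl Ψ hΨ => ?_⟩
    have ht : Tendsto (fun n => inner ℝ (v k n) Ψ - inner ℝ (v l n) Ψ) U
        (𝓝 (inner ℝ (G k) Ψ - inner ℝ (G l) Ψ)) := (hG k Ψ).sub (hG l Ψ)
    rw [inner_sub_left]
    refine le_of_tendsto ht.abs (Filter.Eventually.of_forall fun n => ?_)
    rw [hinner, hinner, ← integral_sub
      (integrable_inner_bdd (htint k n) (Lp.aestronglyMeasurable Ψ) hΨ)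
      (integrable_inner_bdd (htint l n) (Lp.aestronglyMeasurable Ψ) hΨ)]
    have e1 : ∀ x, inner ℝ (trunc (h n) (k : ℝ) x) (Ψ x) - inner ℝ (trunc (h n) (l : ℝ) x) (Ψ x) =
        inner ℝ (trunc (h n) (k : ℝ) x - trunc (h n) (l : ℝ) x) (Ψ x) := fun x => by
      rw [inner_sub_left]
    simp_rw [e1]
    have h1 := abs_integral_inner_le ((htint k n).sub (htint l n))
      (Lp.aestronglyMeasurable Ψ) hΨ
    rw [one_mul] at h1
    refine h1.trans ?_
    have h2 : ∫ x, ‖(trunc (h n) (k : ℝ) - trunc (h n) (l : ℝ)) x‖ ∂μ ≤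
        ∫ x, (‖h n x - trunc (h n) (k : ℝ) x‖ + ‖h n x - trunc (h n) (l : ℝ) x‖) ∂μ := by
      refine integral_mono ((htint k n).sub (htint l n)).norm
        ((((hint n).sub (htint k n)).norm).add (((hint n).sub (htint l n)).norm)) (fun x => ?_)
      show ‖trunc (h n) (k : ℝ) x - trunc (h n) (l : ℝ) x‖ ≤
        ‖h n x - trunc (h n) (k : ℝ) x‖ + ‖h n x - trunc (h n) (l : ℝ) x‖
      have : trunc (h n) (k : ℝ) x - trunc (h n) (l : ℝ) x =
          (h n x - trunc (h n) (l : ℝ) x) - (h n x - trunc (h n) (k : ℝ) x) := by abel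
      rw [this, add_comm]
      exact norm_sub_le _ _
    have h3 : ∫ x, (‖h n x - trunc (h n) (k : ℝ) x‖ + ‖h n x - trunc (h n) (l : ℝ) x‖) ∂μ =
        (∫ x, ‖h n x - trunc (h n) (k : ℝ) x‖ ∂μ) + ∫ x, ‖h n x - trunc (h n) (l : ℝ) x‖ ∂μ :=
      integral_add (((hint n).sub (htint k n)).norm) (((hint n).sub (htint l n)).norm)
    rw [h3] at h2
    linarith [hK k hk n, hK l hl n]
  -- the limits are in L¹
  have hGl : ∀ k, ∫⁻ x, ‖(G k) x‖ₑ ∂μ ≤ ENNReal.ofReal M := fun k =>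
    lintegral_le_of_dual (G k) M (hB k)
  have hG1 : ∀ k, MemLp (G k : α → F) 1 μ := fun k =>
    ⟨Lp.aestronglyMeasurable _, by
      rw [eLpNorm_one_eq_lintegral_enorm]
      exact (hGl k).trans_lt ENNReal.ofReal_lt_top⟩
  let g : ℕ → Lp F 1 μ := fun k => (hG1 k).toLp _
  have hgd : ∀ ε > 0, ∃ K : ℕ, ∀ k, K ≤ k → ∀ l, K ≤ l → ‖g k - g l‖ ≤ 2 * ε := by
    intro ε hε
    obtain ⟨K, hK⟩ := hA ε hε
    refine ⟨K, fun k hk l hl => ?_⟩
    have h1 := lintegral_le_of_dual (G k - G l) (2 * ε) (hK k hk l hl)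
    have e0 : g k - g l = ((hG1 k).sub (hG1 l)).toLp _ := rfl
    rw [e0, Lp.norm_toLp, eLpNorm_one_eq_lintegral_enorm]
    refine ENNReal.toReal_le_of_le_ofReal (by linarith) ?_
    refine le_trans (le_of_eq ?_) h1
    refine lintegral_congr_ae ?_
    filter_upwards [Lp.coeFn_sub (G k) (G l)] with x hx
    rw [hx]
  have hcau : CauchySeq g := by
    rw [Metric.cauchySeq_iff']
    intro ε hε
    obtain ⟨K, hK⟩ := hgd (ε / 4) (by linarith)
    refine ⟨K, fun k hk => ?_⟩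
    rw [dist_eq_norm]
    have := hK k hk K le_rfl
    linarith
  obtain ⟨g₀, hg₀⟩ := cauchySeq_tendsto_of_complete hcau
  have hgM : ∀ k, ‖g k‖ ≤ M := by
    intro k
    show ‖(hG1 k).toLp _‖ ≤ M
    rw [Lp.norm_toLp, eLpNorm_one_eq_lintegral_enorm]
    exact ENNReal.toReal_le_of_le_ofReal hM0 (hGl k)
  have hg₀M : ‖g₀‖ ≤ M := le_of_tendsto hg₀.norm (Filter.Eventually.of_forall hgM)
  have hg₀i : Integrable (g₀ : α → F) μ := memLp_one_iff_integrable.1 (Lp.memLp g₀)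
  refine ⟨g₀, hg₀i, ?_, ?_⟩
  · rw [← L1.norm_eq_integral_norm]
    exact hg₀M
  · intro Ψ hΨ2 C hC
    have hC0 : 0 ≤ |C| := abs_nonneg C
    have hC' : ∀ᵐ x ∂μ, ‖Ψ x‖ ≤ |C| := by
      filter_upwards [hC] with x hx
      exact hx.trans (le_abs_self C)
    rw [Metric.tendsto_nhds]
    intro η hη
    set ε : ℝ := η / (4 * (|C| + 1)) with hεdef
    have hε : 0 < ε := by positivity
    obtain ⟨K₁, hK₁⟩ := tails h hint M hM hsm hUI ε hε
    obtain ⟨K₂, hK₂⟩ := (Metric.tendsto_atTop.1 hg₀) ε hε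
    let k := max K₁ K₂
    have hk1 := hK₁ k (le_max_left _ _)
    have hk2 := hK₂ k (le_max_right _ _)
    rw [dist_eq_norm] at hk2
    have hlim := hG k (hΨ2.toLp Ψ)
    rw [Metric.tendsto_nhds] at hlim
    filter_upwards [hlim (η / 4) (by linarith)] with n hn
    rw [Real.dist_eq] at hn ⊢
    -- three differences
    have hcoe := hΨ2.coeFn_toLp
    have d1 : |∫ x, inner ℝ (h n x) (Ψ x) ∂μ - inner ℝ (v k n) (hΨ2.toLp Ψ)| ≤ |C| * ε := by
      have e1 : inner ℝ (v k n) (hΨ2.toLp Ψ) = ∫ x, inner ℝ (trunc (h n) (k : ℝ) x) (Ψ x) ∂μ := by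
        rw [hinner]
        refine integral_congr_ae ?_
        filter_upwards [hcoe] with x hx
        rw [hx]
      rw [e1, ← integral_sub (integrable_inner_bdd (hint n) hΨ2.1 hC')
        (integrable_inner_bdd (htint k n) hΨ2.1 hC')]
      have e2 : ∀ x, inner ℝ (h n x) (Ψ x) - inner ℝ (trunc (h n) (k : ℝ) x) (Ψ x) =
          inner ℝ (h n x - trunc (h n) (k : ℝ) x) (Ψ x) := fun x => by rw [inner_sub_left]
      simp_rw [e2]
      have := abs_integral_inner_le ((hint n).sub (htint k n)) hΨ2.1 hC'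
      exact this.trans (mul_le_mul_of_nonneg_left (hk1 n) hC0)
    have d3 : |inner ℝ (G k) (hΨ2.toLp Ψ) - ∫ x, inner ℝ (g₀ x) (Ψ x) ∂μ| ≤ |C| * ε := by
      have hGi : Integrable (G k : α → F) μ := memLp_one_iff_integrable.1 (hG1 k)
      have e1 : inner ℝ (G k) (hΨ2.toLp Ψ) = ∫ x, inner ℝ ((G k) x) (Ψ x) ∂μ := by
        rw [L2.inner_def]
        refine integral_congr_ae ?_
        filter_upwards [hcoe] with x hx
        rw [hx]
      rw [e1, ← integral_sub (integrable_inner_bdd hGi hΨ2.1 hC')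
        (integrable_inner_bdd hg₀i hΨ2.1 hC')]
      have e2 : ∀ x, inner ℝ ((G k) x) (Ψ x) - inner ℝ (g₀ x) (Ψ x) =
          inner ℝ ((G k) x - g₀ x) (Ψ x) := fun x => by rw [inner_sub_left]
      simp_rw [e2]
      have h4 := abs_integral_inner_le (hGi.sub hg₀i) hΨ2.1 hC'
      refine h4.trans (mul_le_mul_of_nonneg_left ?_ hC0)
      have e3 : ∫ x, ‖((G k : α → F) - g₀) x‖ ∂μ = ‖g k - g₀‖ := by
        rw [L1.norm_eq_integral_norm]
        refine integral_congr_ae ?_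
        filter_upwards [Lp.coeFn_sub (g k) g₀, (hG1 k).coeFn_toLp] with x hx hx2
        rw [hx]
        show ‖(G k) x - g₀ x‖ = ‖((hG1 k).toLp _ : α → F) x - g₀ x‖
        rw [hx2]
      rw [e3]
      exact hk2.le
    have hsmall : |C| * ε ≤ η / 4 := by
      rw [hεdef]
      rw [mul_div_assoc', div_le_div_iff₀ (by positivity) (by norm_num)]
      nlinarith
    calc |∫ x, inner ℝ (h n x) (Ψ x) ∂μ - ∫ x, inner ℝ (g₀ x) (Ψ x) ∂μ|
        = |(∫ x, inner ℝ (h n x) (Ψ x) ∂μ - inner ℝ (v k n) (hΨ2.toLp Ψ)) +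
          (inner ℝ (v k n) (hΨ2.toLp Ψ) - inner ℝ (G k) (hΨ2.toLp Ψ)) +
          (inner ℝ (G k) (hΨ2.toLp Ψ) - ∫ x, inner ℝ (g₀ x) (Ψ x) ∂μ)| := by
            congr 1; ring
      _ ≤ |∫ x, inner ℝ (h n x) (Ψ x) ∂μ - inner ℝ (v k n) (hΨ2.toLp Ψ)| +
          |inner ℝ (v k n) (hΨ2.toLp Ψ) - inner ℝ (G k) (hΨ2.toLp Ψ)| +
          |inner ℝ (G k) (hΨ2.toLp Ψ) - ∫ x, inner ℝ (g₀ x) (Ψ x) ∂μ| := abs_add_three _ _ _
      _ < η := by linarith

end Ultra

/-- M21: weak limits along an ultrafilter of uniformly integrable sequences -/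
theorem ultra_limit {α : Type*} [MeasurableSpace α] {μ : Measure α} [SigmaFinite μ]
    {F : Type*} [NormedAddCommGroup F] [InnerProductSpace ℝ F] [CompleteSpace F]
    (h : ℕ → α → F) (hint : ∀ n, Integrable (h n) μ) (M : ℝ)
    (hM : ∀ n, ∫ x, ‖h n x‖ ∂μ ≤ M)
    (hUI : ∀ ε > 0, ∃ δ > 0, ∀ n, ∀ s, MeasurableSet s → μ s ≤ ENNReal.ofReal δ →
      ∫ x in s, ‖h n x‖ ∂μ ≤ ε) :
    ∃ (G : α → F) (U : Ultrafilter ℕ), Integrable G μ ∧ ∫ x, ‖G x‖ ∂μ ≤ M ∧
      (U : Filter ℕ) ≤ atTop ∧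
      ∀ Ψ : α → F, MemLp Ψ 2 μ → ∀ C : ℝ, (∀ᵐ x ∂μ, ‖Ψ x‖ ≤ C) →
        Tendsto (fun n => ∫ x, inner ℝ (h n x) (Ψ x) ∂μ) U
          (𝓝 (∫ x, inner ℝ (G x) (Ψ x) ∂μ)) := by
  let h' : ℕ → α → F := fun n => (hint n).1.mk (h n)
  have hae : ∀ n, h n =ᵐ[μ] h' n := fun n => (hint n).1.ae_eq_mk
  have hn : ∀ n, ∫ x, ‖h' n x‖ ∂μ = ∫ x, ‖h n x‖ ∂μ := fun n =>
    integral_congr_ae ((hae n).symm.fun_comp norm)
  obtain ⟨G, hG1, hG2, hG3⟩ := Ultra.ultra_limit_sm h' (fun n => (hint n).congr (hae n)) M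
    (fun n => (hn n).trans_le (hM n)) (fun n => (hint n).1.stronglyMeasurable_mk)
    (by
      intro ε hε
      obtain ⟨δ, hδ, hs⟩ := hUI ε hε
      refine ⟨δ, hδ, fun n s hsm hsμ => ?_⟩
      refine le_trans (le_of_eq ?_) (hs n s hsm hsμ)
      exact integral_congr_ae (ae_restrict_of_ae ((hae n).symm.fun_comp norm)))
    (Filter.hyperfilter ℕ)
  refine ⟨G, Filter.hyperfilter ℕ, hG1, hG2, Nat.hyperfilter_le_atTop, fun Ψ hΨ C hC => ?_⟩
  refine (hG3 Ψ hΨ C hC).congr (fun n => ?_)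
  refine integral_congr_ae ?_
  filter_upwards [hae n] with x hx
  rw [hx]

end P137
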